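import Vale.Agent.P025.H641.ZRing

/-! # Class maps over `p`-adic fields come from places -/

namespace P025H641

universe u v w

variable {p : ℕ} [Fact p.Prime] {k : Type u} [Field k] [Algebra ℚ_[p] k]
  [FiniteDimensional ℚ_[p] k]

/-- **Class maps come from places.** -/
theorem place_of_chi {ζ : k} (hζ : IsPrimitiveRoot ζ p) {E : Type v} [Field E] [Algebra k E]
    (χ : E → Cl p k) (hmul : ∀ f g, f ≠ 0 → g ≠ 0 → χ (f * g) = χ f + χ g)
    (hconst : ∀ c : k, c ≠ 0 → χ (algebraMap k E c) = clsm p c)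
    (hpat : ∀ f, f ∉ Set.range (algebraMap k E) → ∀ A₀ : Finset k, ∃ z, ∀ a ∈ A₀, z ≠ a ∧
      χ (f - algebraMap k E a) = clsm p (z - a)) :
    ∃ V : ValuationSubring E, (∀ c : k, algebraMap k E c ∈ V) ∧
      (∀ f ∈ V, ∃ z : k, V.valuation (f - algebraMap k E z) < 1) ∧
      ∀ (f : E) (z : k), V.valuation (f - algebraMap k E z) < 1 ↔
        ∀ a : k, a ≠ z → χ (f - algebraMap k E a) = clsm p (z - a) := by
  have hpp : p.Prime := Fact.out
  let inst1 : NontriviallyNormedField k := spectralNorm.nontriviallyNormedField ℚ_[p] k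
  have hu : IsUltrametricDist k :=
    IsUltrametricDist.isUltrametricDist_of_isNonarchimedean_norm isNonarchimedean_spectralNorm
  have hn : ∀ x : ℚ_[p], ‖algebraMap ℚ_[p] k x‖ = ‖x‖ := fun x => spectralNorm_extends x
  have hproper : ProperSpace k := by
    let _ : NormedAlgebra ℚ_[p] k := spectralNorm.normedAlgebra ℚ_[p] k
    exact FiniteDimensional.proper ℚ_[p] k
  have hpR : (1 : ℝ) < p := by exact_mod_cast hpp.one_lt
  have hpR0 : (0 : ℝ) < p := by linarith
  have hpk := norm_natCast_p (k := k) hn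
  have hpk1 : ‖(p : k)‖ < 1 := by
    rw [hpk]
    exact inv_lt_one_of_one_lt₀ hpR
  have hpk0 : (p : k) ≠ 0 := by
    rw [← norm_pos_iff, hpk, inv_pos]
    exact hpR0
  have : CharZero k := charZero_of_injective_algebraMap (algebraMap ℚ_[p] k).injective
  obtain ⟨R⟩ := exists_ram hpk1 hpk0 hζ
  obtain ⟨H, hH, h0, hnorm⟩ := R.exists_H hζ
  let D : ChiData p k E :=
    { ε := ((p : ℝ) ^ 3)⁻¹
      ε_pos := inv_pos.2 (pow_pos hpR0 3)
      ε_lt := inv_lt_one_of_one_lt₀ (one_lt_pow₀ hpR (by norm_num))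
      near := fun x δ hx hδ => R.clsm_near hn x δ hx hδ
      H := H
      H_ne := ⟨_, _, h0⟩
      H_st := fun x hx0 hx1 => hnorm x (1 - x) (1 - Polynomial.X) hx0 (sub_ne_zero.2 hx1.symm)
        (nrm_one_sub hζ x).symm
      χ := χ
      mul := hmul
      const := hconst
      pat := hpat }
  refine ⟨D.vring, fun c => ⟨c, D.at_const c⟩, ?_, fun f z => (D.at_iff f z).symm⟩
  rintro f ⟨z, hz⟩
  exact ⟨z, D.val_lt_of_at hz⟩

/-- fine sets exist -/
theorem exists_fine (A₀ : Finset k) :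
    ∃ (r : ℕ) (A : Finset k), IsFine p r A₀ A := by
  classical
  have hpp : p.Prime := Fact.out
  let inst1 : NontriviallyNormedField k := spectralNorm.nontriviallyNormedField ℚ_[p] k
  have hu : IsUltrametricDist k :=
    IsUltrametricDist.isUltrametricDist_of_isNonarchimedean_norm isNonarchimedean_spectralNorm
  have hn : ∀ x : ℚ_[p], ‖algebraMap ℚ_[p] k x‖ = ‖x‖ := fun x => spectralNorm_extends x
  have hproper : ProperSpace k := by
    let _ : NormedAlgebra ℚ_[p] k := spectralNorm.normedAlgebra ℚ_[p] k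
    exact FiniteDimensional.proper ℚ_[p] k
  have hpR : (1 : ℝ) < p := by exact_mod_cast hpp.one_lt
  have hpR0 : (0 : ℝ) < p := by linarith
  have hbig : ∀ x : ℝ, ∃ r : ℕ, x ≤ (p : ℝ) ^ r := fun x => by
    obtain ⟨r, hr⟩ := pow_unbounded_of_one_lt x hpR
    exact ⟨r, hr.le⟩
  choose g hg using hbig
  have hg' : ∀ (x : ℝ) (r : ℕ), g x ≤ r → x ≤ (p : ℝ) ^ r := fun x r h =>
    (hg x).trans (pow_le_pow_right₀ hpR.le h)
  set r := A₀.sup (fun a => g ‖a‖) ⊔ (A₀ ×ˢ A₀).sup (fun q => g (‖q.1 - q.2‖⁻¹)) with hr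
  obtain ⟨T, hT1, hT2⟩ := (isCompact_closedBall (0 : k) ((p : ℝ) ^ (r + 2))).elim_nhds_subcover
    (fun x => Metric.closedBall x (((p : ℝ) ^ precision (Module.finrank ℚ_[p] k) r)⁻¹))
    (fun x _ => Metric.closedBall_mem_nhds x (inv_pos.2 (pow_pos hpR0 _)))
  refine ⟨r, A₀ ∪ T, Finset.subset_union_left, ?_, ?_, ?_⟩
  · intro a ha
    show ‖a‖ ≤ _
    exact hg' _ _ ((Finset.le_sup (f := fun a : k => g ‖a‖) ha).trans le_sup_left)
  · intro a ha b hb hab
    show _ ≤ ‖a - b‖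
    have h1 : ‖a - b‖⁻¹ ≤ (p : ℝ) ^ r := hg' _ _ ((Finset.le_sup
      (f := fun q : k × k => g (‖q.1 - q.2‖⁻¹)) (b := (a, b))
      (Finset.mem_product.2 ⟨ha, hb⟩)).trans le_sup_right)
    exact inv_le_of_inv_le₀ (norm_pos_iff.2 (sub_ne_zero.2 hab)) h1
  · intro x hx
    have h1 := hT2 (show x ∈ Metric.closedBall (0 : k) ((p : ℝ) ^ (r + 2)) by
      rw [mem_closedBall_zero_iff]; exact hx)
    simp only [Set.mem_iUnion] at h1
    obtain ⟨t, ht, h2⟩ := h1
    rw [Metric.mem_closedBall, dist_eq_norm] at h2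
    exact ⟨t, Finset.mem_union_right _ ht, h2⟩

/-- there are finitely many classes -/
theorem finite_Cl {ζ : k} (hζ : IsPrimitiveRoot ζ p) : Finite (Cl p k) := by
  have hpp : p.Prime := Fact.out
  let inst1 : NontriviallyNormedField k := spectralNorm.nontriviallyNormedField ℚ_[p] k
  have hu : IsUltrametricDist k :=
    IsUltrametricDist.isUltrametricDist_of_isNonarchimedean_norm isNonarchimedean_spectralNorm
  have hn : ∀ x : ℚ_[p], ‖algebraMap ℚ_[p] k x‖ = ‖x‖ := fun x => spectralNorm_extends x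
  have hproper : ProperSpace k := by
    let _ : NormedAlgebra ℚ_[p] k := spectralNorm.normedAlgebra ℚ_[p] k
    exact FiniteDimensional.proper ℚ_[p] k
  have hpR : (1 : ℝ) < p := by exact_mod_cast hpp.one_lt
  have hpR0 : (0 : ℝ) < p := by linarith
  have hpk := norm_natCast_p (k := k) hn
  have hpk1 : ‖(p : k)‖ < 1 := by
    rw [hpk]
    exact inv_lt_one_of_one_lt₀ hpR
  have hpk0 : (p : k) ≠ 0 := by
    rw [← norm_pos_iff, hpk, inv_pos]
    exact hpR0
  have : CharZero k := charZero_of_injective_algebraMap (algebraMap ℚ_[p] k).injective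
  obtain ⟨R⟩ := exists_ram hpk1 hpk0 hζ
  exact R.finite_Cl

end P025H641
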