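import Vale.Agent.P025.H641.OOrb

/-! # The maximal extension with ramification indices dividing `p` -/

open IntermediateField Polynomial

namespace P025H641

universe u v w

/-- The compositum of all finite extensions of `E` with ramification indices dividing `p`,
unramified over the places in `T`. -/
noncomputable def maxOrb (p : ℕ) (k : Type u) {E : Type v} [Field k] [Field E] [Algebra k E]
    (T : Set (ValuationSubring E)) : IntermediateField E (AlgebraicClosure E) :=
  sSup {F : IntermediateField E (AlgebraicClosure E) | FiniteDimensional E F ∧ IsOrbi p k T F}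

/-- finite subextensions with ramification indices dividing `p` -/
def IsFinOrbi (p : ℕ) (k : Type u) {E : Type v} [Field k] [Field E] [Algebra k E]
    (T : Set (ValuationSubring E)) (F : IntermediateField E (AlgebraicClosure E)) : Prop :=
  FiniteDimensional E F ∧ IsOrbi p k T F

variable {p : ℕ} {k : Type u} {E : Type v} [Field k] [Field E] [Algebra k E]
  {T : Set (ValuationSubring E)}

lemma IsFinOrbi.le_maxOrb {F : IntermediateField E (AlgebraicClosure E)}
    (hF : IsFinOrbi p k T F) : F ≤ maxOrb p k T := le_sSup hF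

/-- unramified extensions -/
lemma IsFinUnr.isFinOrbi {F : IntermediateField E (AlgebraicClosure E)} (hF : IsFinUnr k F) :
    IsFinOrbi p k T F := by
  refine ⟨hF.1, ?_, ?_⟩
  · intro V hV x
    obtain ⟨y, hy⟩ := hF.2 V hV x
    exact ⟨y ^ p, by rw [map_pow, map_pow, hy]⟩
  · intro V hV _ x
    exact hF.2 V hV x

lemma maxUnr_le_maxOrb : maxUnr k E ≤ maxOrb p k T :=
  sSup_le (fun _ hF => (IsFinUnr.isFinOrbi hF).le_maxOrb)

variable [CharZero k]

lemma IsFinOrbi.sup (hp : p.Prime) {A B : IntermediateField E (AlgebraicClosure E)}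
    (hA : IsFinOrbi p k T A) (hB : IsFinOrbi p k T B) : IsFinOrbi p k T (A ⊔ B) := by
  obtain ⟨hA1, hA2⟩ := hA
  obtain ⟨hB1, hB2⟩ := hB
  have hfin : FiniteDimensional E (A ⊔ B : IntermediateField E (AlgebraicClosure E)) :=
    finiteDimensional_sup _ _
  refine ⟨hfin, ?_⟩
  rw [isOrbi_iff] at hA2 hB2 ⊢
  intro W hW
  exact ⟨PVal.sup hp hW A B (hA2 W hW).1 (hB2 W hW).1,
    fun hT => SameVal.sup hW A B ((hA2 W hW).2 hT) ((hB2 W hW).2 hT)⟩

lemma IsFinOrbi.of_le {A B : IntermediateField E (AlgebraicClosure E)} (h : A ≤ B)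
    (hB : IsFinOrbi p k T B) : IsFinOrbi p k T A := by
  obtain ⟨hB1, hB2⟩ := hB
  have hA1 : FiniteDimensional E A := by
    have h1 : Function.Injective (IntermediateField.inclusion h).toLinearMap :=
      IntermediateField.inclusion_injective h
    exact FiniteDimensional.of_injective _ h1
  refine ⟨hA1, ?_⟩
  rw [isOrbi_iff] at hB2 ⊢
  intro W hW
  exact ⟨(hB2 W hW).1.mono h, fun hT => ((hB2 W hW).2 hT).mono h⟩

omit [CharZero k] in
lemma isFinOrbi_bot : IsFinOrbi p k T (⊥ : IntermediateField E (AlgebraicClosure E)) :=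
  IsFinUnr.isFinOrbi isFinUnr_bot

/-- every element of `maxOrb` lies in a finite extension with ramification dividing `p` -/
lemma exists_finOrbi_mem (hp : p.Prime) {x : AlgebraicClosure E} (hx : x ∈ maxOrb p k T) :
    ∃ F : IntermediateField E (AlgebraicClosure E), IsFinOrbi p k T F ∧ x ∈ F := by
  rw [maxOrb, sSup_eq_iSup', ← SetLike.mem_coe] at hx
  have hne : Nonempty {F : IntermediateField E (AlgebraicClosure E) |
    FiniteDimensional E F ∧ IsOrbi p k T F} := ⟨⟨⊥, isFinOrbi_bot⟩⟩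
  rw [coe_iSup_of_directed, Set.mem_iUnion] at hx
  · obtain ⟨⟨F, hF⟩, hxF⟩ := hx
    exact ⟨F, hF, hxF⟩
  · rintro ⟨F₁, h₁⟩ ⟨F₂, h₂⟩
    exact ⟨⟨F₁ ⊔ F₂, IsFinOrbi.sup hp h₁ h₂⟩, le_sup_left, le_sup_right⟩

/-- finitely many elements of `maxOrb` -/
lemma exists_finOrbi_subset (hp : p.Prime) (S : Finset (AlgebraicClosure E))
    (hS : ∀ x ∈ S, x ∈ maxOrb p k T) :
    ∃ F : IntermediateField E (AlgebraicClosure E), IsFinOrbi p k T F ∧ ∀ x ∈ S, x ∈ F := by
  classical
  induction S using Finset.induction_on with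
  | empty => exact ⟨⊥, isFinOrbi_bot, by simp⟩
  | insert a S _ ih =>
    obtain ⟨F₁, h₁, hm₁⟩ := ih (fun x hx => hS x (Finset.mem_insert_of_mem hx))
    obtain ⟨F₂, h₂, hm₂⟩ := exists_finOrbi_mem hp (hS a (Finset.mem_insert_self _ _))
    refine ⟨F₁ ⊔ F₂, h₁.sup hp h₂, fun x hx => ?_⟩
    rcases Finset.mem_insert.1 hx with rfl | hx
    · exact (le_sup_right : F₂ ≤ F₁ ⊔ F₂) hm₂
    · exact (le_sup_left : F₁ ≤ F₁ ⊔ F₂) (hm₁ x hx)

/-- finite subextensions of `maxOrb` -/
lemma isFinOrbi_of_le_maxOrb (hp : p.Prime) {A : IntermediateField E (AlgebraicClosure E)}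
    [hfin : FiniteDimensional E A] (h : A ≤ maxOrb p k T) : IsFinOrbi p k T A := by
  classical
  obtain ⟨S, hS⟩ := IntermediateField.fg_of_fg_toSubalgebra A
    (Subalgebra.fg_of_fg_toSubmodule (Module.Finite.iff_fg.1 (inferInstance : Module.Finite E A)))
  obtain ⟨F, hF, hm⟩ := exists_finOrbi_subset (k := k) (T := T) hp S (by
    intro x hx
    apply h
    rw [← hS]
    exact IntermediateField.subset_adjoin E _ hx)
  refine hF.of_le ?_
  rw [← hS, IntermediateField.adjoin_le_iff]
  exact hm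

/-- roots -/
lemma isFinOrbi_root (hp : p.Prime) (f : E) (w : AlgebraicClosure E)
    (hw : w ^ p = algebraMap E (AlgebraicClosure E) f)
    (hT : ∀ V ∈ T, IsPlace k E V → ∃ y : E, V.valuation f = V.valuation y ^ p) :
    IsFinOrbi p k T E⟮w⟯ := by
  have hintE : IsIntegral E w := isIntegral_of_pow' hp.pos (by rw [hw]; exact isIntegral_algebraMap)
  have hfin : FiniteDimensional E E⟮w⟯ := IntermediateField.adjoin.finiteDimensional hintE
  refine ⟨hfin, ?_⟩
  rw [isOrbi_iff]
  intro W hW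
  refine ⟨pVal_root hp hW f w hw, fun hWT => ?_⟩
  have h1 : SameVal W (⊥ ⊔ E⟮w⟯) ⊥ := by
    refine sameVal_root hW ⊥ hp.ne_zero w _ (IntermediateField.mem_bot.2 ⟨f, rfl⟩) hw ?_
    obtain ⟨y, hy⟩ := hT _ hWT hW
    refine ⟨_, IntermediateField.mem_bot.2 ⟨y, rfl⟩, ?_⟩
    rw [← map_pow, comap_val_eq_iff, map_pow, map_pow] at hy
    exact hy
  rwa [bot_sup_eq] at h1

/-- conjugates -/
lemma IsFinOrbi.map {A : IntermediateField E (AlgebraicClosure E)} (hA : IsFinOrbi p k T A)
    (σ : AlgebraicClosure E →ₐ[E] AlgebraicClosure E) : IsFinOrbi p k T (A.map σ) := by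
  obtain ⟨hA1, hA2⟩ := hA
  have hfin : FiniteDimensional E (A.map σ) :=
    LinearEquiv.finiteDimensional (IntermediateField.equivMap A σ).toLinearEquiv
  refine ⟨hfin, ?_⟩
  rw [isOrbi_iff] at hA2 ⊢
  intro W hW
  set W' := W.comap (σ : AlgebraicClosure E →+* AlgebraicClosure E) with hW'
  have hval : ∀ x y, W.valuation (σ x) = W.valuation (σ y) ↔ W'.valuation x = W'.valuation y := by
    intro x y
    let _ : Algebra (AlgebraicClosure E) (AlgebraicClosure E) :=
      (σ : AlgebraicClosure E →+* AlgebraicClosure E).toAlgebra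
    exact (comap_val_eq_iff (F := AlgebraicClosure E) W x y).symm
  have hc : W'.comap (algebraMap E (AlgebraicClosure E)) =
      W.comap (algebraMap E (AlgebraicClosure E)) := by
    ext x
    rw [hW', ValuationSubring.mem_comap, ValuationSubring.mem_comap, ValuationSubring.mem_comap]
    show σ (algebraMap E (AlgebraicClosure E) x) ∈ W ↔ _
    rw [AlgHom.commutes]
  obtain ⟨h1, h2⟩ := hA2 W' (by rw [hc]; exact hW)
  refine ⟨?_, ?_⟩
  · rintro _ ⟨x, hx, rfl⟩
    obtain ⟨y, hy⟩ := h1 x hx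
    refine ⟨y, ?_⟩
    rw [← map_pow, ← hval, map_pow, map_pow, AlgHom.commutes] at hy
    exact hy
  · intro hT
    have h3 := SameVal.bot_iff.1 (h2 (by rw [hc]; exact hT))
    rw [SameVal.bot_iff]
    rintro _ ⟨x, hx, rfl⟩
    obtain ⟨y, hy⟩ := h3 x hx
    refine ⟨y, ?_⟩
    rw [← hval, AlgHom.commutes] at hy
    exact hy

instance normal_maxOrb : Normal E (maxOrb p k T : IntermediateField E (AlgebraicClosure E)) := by
  rw [IntermediateField.normal_iff_forall_map_le]
  intro σ
  rw [IntermediateField.map_le_iff_le_comap, maxOrb, sSup_le_iff]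
  intro F hF
  rw [← IntermediateField.map_le_iff_le_comap]
  exact (IsFinOrbi.map hF σ).le_maxOrb

end P025H641
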