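import Vale.Agent.P025.H641.OMax

/-! # Elements of a function field are units at almost all places -/

open IntermediateField IsDedekindDomain IsDedekindDomain.HeightOneSpectrum
open scoped algebraAdjoinAdjoin

namespace P025H641

universe u v w

variable {k : Type u} {E : Type v} [Field k] [CharZero k] [Field E] [Algebra k E]

theorem finite_support_aux (t : E) [FiniteDimensional k⟮t⟯ E] (g : E) (hg : g ≠ 0) :
    {V : ValuationSubring E | (∀ c : k, algebraMap k E c ∈ V) ∧ t ∈ V ∧ V ≠ ⊤ ∧
      V.valuation g ≠ 1}.Finite := by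
  classical
  set A := Algebra.adjoin k {t} with hA
  -- `A` is a principal ideal domain
  have hpir : IsPrincipalIdealRing A := by
    have hr : (Polynomial.aeval (R := k) t).range = A := by
      rw [hA, Algebra.adjoin_singleton_eq_range_aeval]
    let f : Polynomial k →ₐ[k] A :=
      (Subalgebra.inclusion hr.le).comp (Polynomial.aeval (R := k) t).rangeRestrict
    have hf : Function.Surjective f := by
      rintro ⟨x, hx⟩
      rw [← hr] at hx
      obtain ⟨q, rfl⟩ := hx
      exact ⟨q, rfl⟩
    exact IsPrincipalIdealRing.of_surjective f.toRingHom hf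
  have hded : IsDedekindDomain A := inferInstance
  have hsep : Algebra.IsSeparable k⟮t⟯ E := inferInstance
  have hB : IsDedekindDomain (integralClosure A E) :=
    integralClosure.isDedekindDomain A k⟮t⟯ E
  have hfrac : IsFractionRing (integralClosure A E) E :=
    integralClosure.isFractionRing_of_finite_extension k⟮t⟯ E
  have hfin := (Support.finite (integralClosure A E) (K := E) g).union
    (Support.finite (integralClosure A E) (K := E) g⁻¹)
  refine (hfin.image (fun v => valuationSubringAtPrime E v)).subset ?_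
  rintro V ⟨hk, ht, hV, hVg⟩
  have hAV : ∀ a : A, (a : E) ∈ V := by
    rintro ⟨a, ha⟩
    exact Algebra.adjoin_induction (p := fun x _ => x ∈ V) (fun x hx => by
      rw [Set.mem_singleton_iff.1 hx]; exact ht) (fun c => hk c)
      (fun x y _ _ hx hy => add_mem hx hy) (fun x y _ _ hx hy => mul_mem hx hy) ha
  -- the integral closure lies in `V`
  let ι : A →+* V := (algebraMap A E).codRestrict V.toSubring hAV
  have hBV : ∀ b : integralClosure A E, (b : E) ∈ V := by
    rintro ⟨b, f, hf, hfb⟩
    have h1 : IsIntegral V b := by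
      refine ⟨f.map ι, hf.map ι, ?_⟩
      rw [Polynomial.eval₂_map]
      exact hfb
    obtain ⟨y, hy⟩ := IsIntegrallyClosed.isIntegral_iff.1 h1
    have h2 : b ∈ V := hy ▸ y.2
    exact h2
  let ιB : integralClosure A E →+* V := (algebraMap (integralClosure A E) E).codRestrict
    V.toSubring hBV
  let P : Ideal (integralClosure A E) := (IsLocalRing.maximalIdeal V).comap ιB
  have hPmem : ∀ b, b ∈ P ↔ ιB b ∈ IsLocalRing.maximalIdeal V := fun b => Iff.rfl
  have hPinv : ∀ b, b ∉ P → ((b : E))⁻¹ ∈ V := by
    intro b hb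
    rw [hPmem, IsLocalRing.mem_maximalIdeal, mem_nonunits_iff, not_not] at hb
    obtain ⟨c, hc⟩ := isUnit_iff_exists_inv.1 hb
    have h1 : (b : E) * (c : E) = 1 := by
      have := congrArg (fun x : V => (x : E)) hc
      exact this
    rw [inv_eq_of_mul_eq_one_right h1]
    exact c.2
  have hP0 : P ≠ ⊥ := by
    intro h0
    apply hV
    rw [eq_top_iff]
    intro x _
    obtain ⟨a, b, hb, rfl⟩ := IsFractionRing.div_surjective (A := integralClosure A E) x
    have hb0 : b ∉ P := by
      rw [h0, Ideal.mem_bot]
      exact nonZeroDivisors.ne_zero hb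
    rw [div_eq_mul_inv]
    exact mul_mem (hBV a) (hPinv b hb0)
  let v : HeightOneSpectrum (integralClosure A E) := ⟨P, inferInstance, hP0⟩
  have hle : valuationSubringAtPrime E v ≤ V := by
    rintro x ⟨a, s, hs, rfl⟩
    exact mul_mem (hBV a) (hPinv s hs)
  have heq : valuationSubringAtPrime E v = V := ValuationSubring.eq_of_le_of_ne_top _ hle hV
  refine ⟨v, ?_, heq⟩
  have hnot : g ∉ V ∨ g⁻¹ ∉ V := by
    by_contra hcon
    push Not at hcon
    obtain ⟨h1, h2⟩ := hcon
    apply hVg
    apply le_antisymm ((V.valuation_le_one_iff _).2 h1)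
    have h3 := (V.valuation_le_one_iff _).2 h2
    rw [map_inv₀] at h3
    exact (inv_le_one₀ (zero_lt_iff.2 ((_root_.map_ne_zero _).2 hg))).1 h3
  have hmem : ∀ x : E, x ∉ V → v ∈ Support (integralClosure A E) (K := E) x := by
    intro x hx
    rw [← heq, valuationSubringAtPrime_eq_valuationSubring, Valuation.mem_valuationSubring_iff,
      not_le] at hx
    exact hx
  rcases hnot with h | h
  · exact Or.inl (hmem _ h)
  · exact Or.inr (hmem _ h)

theorem finite_support (hE : IsFunctionField k E) (g : E) (hg : g ≠ 0) :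
    {V : ValuationSubring E | IsPlace k E V ∧ V.valuation g ≠ 1}.Finite := by
  obtain ⟨t, ht, hfin⟩ := hE
  have hfin2 : FiniteDimensional k⟮t⁻¹⟯ E := by rw [P025H16.adjoin_inv]; exact hfin
  refine ((finite_support_aux (k := k) t g hg).union (finite_support_aux (k := k) t⁻¹ g hg)).subset ?_
  rintro V ⟨hV, hVg⟩
  rcases V.mem_or_inv_mem t with h | h
  · exact Or.inl ⟨hV.const_mem, h, hV.ne_top, hVg⟩
  · exact Or.inr ⟨hV.const_mem, h, hV.ne_top, hVg⟩

end P025H641
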