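import Vale.Agent.P025.H641.SecRel

/-! # The Steinberg relation for sections -/

open IntermediateField

namespace P025H641

universe u v w

open Polynomial

/-- `1 - w` is divisible by `p` when `w ^ p = g` is divisible by `p ^ 2` and `1 - g` by `p`. -/
lemma isDivisible_one_sub_root {k : Type u} [Field k] {E : Type w} [Field E] [Algebra k E] {p : ℕ}
    (hp : 0 < p) {ζ : E} (hζ : IsPrimitiveRoot ζ p) (w g : E) (hw : w ^ p = g)
    (h1 : IsDivisible (p ^ 2) k g) (h2 : IsDivisible p k (1 - g)) :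
    IsDivisible p k (1 - w) := by
  intro V hV
  rcases le_or_gt (V.valuation w) 1 with hfin | hpole
  · rcases hV.factor hp hζ 1 w isIntegral_one one_ne_zero hfin with h | h
    · refine ⟨1, ?_⟩
      rw [map_one, one_pow, ← h, ← Valuation.map_neg, neg_sub]
    · obtain ⟨z, hz⟩ := h2 V hV
      refine ⟨z, ?_⟩
      rw [← hz, ← hw, ← Valuation.map_neg, neg_sub, h, one_pow, ← Valuation.map_neg, neg_sub]
  · obtain ⟨z, hz⟩ := h1 V hV
    refine ⟨z, ?_⟩
    have h3 : V.valuation (1 - w) = V.valuation w := by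
      rw [Valuation.map_sub_eq_of_lt_right]
      rw [map_one]; exact hpole
    rw [h3]
    have h4 : V.valuation w ^ p = (V.valuation z ^ p) ^ p := by
      rw [← map_pow, hw, hz, ← pow_mul, sq]
    exact (pow_left_inj₀ zero_le zero_le hp.ne').1 h4

variable {k : Type u} {K : Type v} [Field k] [Field K] [Algebra k K] [CharZero k]
  {s : Gal(constClosure k K/k) →* Gal(maxUnr k K/K)} {G : Subgroup Gal(constClosure k K/k)}
  {k' : Type w} [Field k'] [Algebra k' (maxUnr k K)] {p : ℕ} [Fact p.Prime]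

omit [CharZero k] in
/-- an element of `G` which moves the Kummer generator `θ` in the standard way -/
lemma exists_tau (B : Base s G k') {ζ : k'} (hζ : IsPrimitiveRoot ζ p) {x : k'} (hx0 : x ≠ 0)
    (θ : maxUnr k K) (hθp : θ ^ p = algebraMap k' (maxUnr k K) x)
    (hfix : ¬ ∀ σ ∈ G, s σ θ = θ) :
    ∃ τ ∈ G, s τ θ = algebraMap k' (maxUnr k K) ζ * θ := by
  have hpp : p.Prime := Fact.out
  set Z := algebraMap k' (maxUnr k K) ζ with hZ
  have hZp : IsPrimitiveRoot Z p := hζ.map_of_injective (algebraMap k' (maxUnr k K)).injective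
  have hZG : ∀ σ ∈ G, s σ Z = Z := B.fix ζ
  have hθ0 : θ ≠ 0 := by
    rintro rfl
    rw [zero_pow hpp.ne_zero] at hθp
    exact hx0 ((map_eq_zero _).1 hθp.symm)
  have hθG : ∀ σ ∈ G, s σ (θ ^ p) = θ ^ p := by
    intro σ hσ
    rw [hθp, B.fix _ σ hσ]
  push Not at hfix
  obtain ⟨τ', hτ'G, hτ'⟩ := hfix
  have h1 : (s τ' θ / θ) ^ p = 1 := by
    rw [div_pow, ← map_pow, hθG τ' hτ'G, div_self (pow_ne_zero p hθ0)]
  obtain ⟨j, hj, h2⟩ := hZp.eq_pow_of_pow_eq_one h1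
  have h3 : s τ' θ = Z ^ j * θ := by rw [h2, div_mul_cancel₀ _ hθ0]
  have hj0 : j ≠ 0 := by
    rintro rfl
    rw [pow_zero, one_mul] at h3
    exact hτ' h3
  obtain ⟨m, -, hm⟩ := Nat.exists_mul_mod_eq_one_of_coprime
    ((Nat.coprime_of_lt_prime hj0 hj hpp).symm) hpp.one_lt
  refine ⟨τ' ^ m, G.pow_mem hτ'G m, ?_⟩
  have h4 : ∀ i : ℕ, s (τ' ^ i) θ = Z ^ (j * i) * θ := by
    intro i
    induction i with
    | zero => rw [pow_zero, mul_zero, pow_zero, one_mul, map_one]; rfl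
    | succ i ih =>
      rw [pow_succ', map_mul, AlgEquiv.mul_apply, ih, map_mul, map_pow, hZG τ' hτ'G, h3, mul_add,
        mul_one, pow_add]
      ring
  rw [h4]
  congr 1
  rw [← pow_mod_orderOf Z (j * m), ← hZp.eq_orderOf, hm, pow_one]

/-- **Norms of divisible elements over a Kummer extension of constants.** -/
lemma norm_core (hs : IsSection k K s) (B : Base s G k') {ζ : k'} (hζ : IsPrimitiveRoot ζ p)
    {x : k'} (hx0 : x ≠ 0) (θ : maxUnr k K) (hθp : θ ^ p = algebraMap k' (maxUnr k K) x)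
    {τ : Gal(constClosure k K/k)} (hτ : τ ∈ G) (hτθ : s τ θ = algebraMap k' (maxUnr k K) ζ * θ)
    (g γ : maxUnr k K) (hg0 : g ≠ 0) (hgH : ∀ σ ∈ G ⊓ stabS s θ, s σ g = g) (hγ : γ ^ p = g) :
    ∃ (f : k'[X]) (P : maxUnr k K), P ≠ 0 ∧ (∀ σ ∈ G, s σ P = P) ∧
      ∏ i ∈ Finset.range p, s (τ ^ i) g =
        algebraMap k' (maxUnr k K) (nrm p ζ f x) * P ^ p := by
  classical
  have hpp : p.Prime := Fact.out
  set Z := algebraMap k' (maxUnr k K) ζ with hZ
  have hZp : IsPrimitiveRoot Z p := hζ.map_of_injective (algebraMap k' (maxUnr k K)).injective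
  have hZG : ∀ σ ∈ G, s σ Z = Z := B.fix ζ
  have hθ0 : θ ≠ 0 := by
    rintro rfl
    rw [zero_pow hpp.ne_zero] at hθp
    exact hx0 ((map_eq_zero _).1 hθp.symm)
  have hθint : IsIntegral k θ := by
    apply isIntegral_of_pow' hpp.pos
    rw [hθp]
    exact B.alg _
  have hθG : ∀ σ ∈ G, s σ (θ ^ p) = θ ^ p := by
    intro σ hσ
    rw [hθp, B.fix _ σ hσ]
  set H := G ⊓ stabS s θ with hH
  have hHcl : IsClosed (H : Set Gal(constClosure k K/k)) := by
    rw [hH, Subgroup.coe_inf]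
    exact B.closed.inter (isClosed_stabS hs θ)
  have hγ0 : γ ≠ 0 := by
    rintro rfl
    rw [zero_pow hpp.ne_zero] at hγ
    exact hg0 hγ.symm
  obtain ⟨l, hl0, hlint, hlH⟩ := exists_const_class hs H hHcl Z hZp
    (fun σ hσ => hZG σ (Subgroup.mem_inf.1 hσ).1) γ hγ0 (fun σ hσ => by rw [hγ, hgH σ hσ])
  set r := γ / l with hr
  have hr0 : r ≠ 0 := div_ne_zero hγ0 hl0
  have hlp : l ^ p = g / r ^ p := by
    rw [hr, div_pow, hγ]
    field_simp
  have hlpH : ∀ σ ∈ H, s σ (l ^ p) = l ^ p := by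
    intro σ hσ
    rw [hlp, map_div₀, map_pow, hgH σ hσ, hlH σ hσ]
  obtain ⟨f, hf⟩ := fixed_poly B hζ hθ0 hθint hθG hτ hτθ (l ^ p) (hlint.pow p) hlpH
  have hact : ∀ (i : ℕ) (q : k'[X]), s (τ ^ i) (aeval θ q) = aeval (Z ^ i * θ) q := by
    intro i q
    have h1 : ∀ d : k', s (τ ^ i) (algebraMap k' (maxUnr k K) d) =
        algebraMap k' (maxUnr k K) d := fun d => B.fix d _ (G.pow_mem hτ i)
    rw [aeval_eq_sum_range, aeval_eq_sum_range, map_sum]
    refine Finset.sum_congr rfl (fun j _ => ?_)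
    rw [Algebra.smul_def, Algebra.smul_def, map_mul, h1, map_pow, tau_pow hZG hτ hτθ]
  refine ⟨f, ∏ i ∈ Finset.range p, s (τ ^ i) r, ?_, ?_, ?_⟩
  · exact Finset.prod_ne_zero_iff.2 (fun i _ => by
      rw [Ne, EmbeddingLike.map_eq_zero_iff]; exact hr0)
  · exact norm_fixed hZp hZG hθ0 hθG hτ hτθ r hlH
  · rw [nrm_spec hpp.pos hζ f _ θ hθp, ← Finset.prod_pow, ← Finset.prod_mul_distrib]
    refine Finset.prod_congr rfl (fun i _ => ?_)
    have h3 : g = aeval θ f * r ^ p := by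
      rw [← hf, hlp, div_mul_cancel₀ _ (pow_ne_zero p hr0)]
    calc s (τ ^ i) g = s (τ ^ i) (aeval θ f * r ^ p) := by rw [← h3]
      _ = s (τ ^ i) (aeval θ f) * s (τ ^ i) r ^ p := by
        rw [map_mul (s (τ ^ i)), map_pow (s (τ ^ i))]
      _ = _ := by rw [hact, hZ, ← map_pow (algebraMap k' (maxUnr k K))]

/-- **The Steinberg relation for sections.** -/
theorem stein_rel (hs : IsSection k K s) (B : Base s G k') {ζ : k'} (hζ : IsPrimitiveRoot ζ p)
    {F : IntermediateField K (AlgebraicClosure K)} (hF : IsFinUnr k F)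
    (hkF : ∀ c : k', ((algebraMap k' (maxUnr k K) c : maxUnr k K) : AlgebraicClosure K) ∈ F)
    (g : maxUnr k K) (hgF : (g : AlgebraicClosure K) ∈ F)
    (h1 : IsDivisible (p ^ 2) k (⟨g, hgF⟩ : F)) (h2 : IsDivisible p k (1 - (⟨g, hgF⟩ : F)))
    (hg1 : g ≠ 1) (x x' : k') (y y' : maxUnr k K) (hx0 : x ≠ 0) (hx'0 : x' ≠ 0)
    (hyG : ∀ σ ∈ G, s σ y = y) (hy'G : ∀ σ ∈ G, s σ y' = y')
    (hg : g = algebraMap k' (maxUnr k K) x * y ^ p)
    (hg' : 1 - g = algebraMap k' (maxUnr k K) x' * y' ^ p) :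
    (∃ θ0 : k', x = θ0 ^ p) ∨ ∃ f : k'[X], x' = nrm p ζ f x := by
  classical
  have hpp : p.Prime := Fact.out
  have hpk : (p : k) ≠ 0 := by exact_mod_cast hpp.ne_zero
  -- the constant `θ`
  obtain ⟨θ', hθ'⟩ := IsAlgClosed.exists_pow_nat_eq
    ((algebraMap k' (maxUnr k K) x : maxUnr k K) : AlgebraicClosure K) hpp.pos
  have hθint' : IsIntegral k θ' := by
    apply isIntegral_of_pow' hpp.pos
    rw [hθ']
    exact isIntegral_coe.2 (B.alg _)
  set θ : maxUnr k K := ⟨θ', mem_maxUnr_of_const _ hθint'⟩ with hθ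
  have hθp : θ ^ p = algebraMap k' (maxUnr k K) x := Subtype.ext hθ'
  have hθint : IsIntegral k θ := by
    apply isIntegral_of_pow' hpp.pos
    rw [hθp]
    exact B.alg _
  by_cases hfix : ∀ σ ∈ G, s σ θ = θ
  · left
    obtain ⟨θ0, hθ0'⟩ := B.ex θ hθint hfix
    refine ⟨θ0, ?_⟩
    apply (algebraMap k' (maxUnr k K)).injective
    rw [← hθp, map_pow, hθ0']
  right
  obtain ⟨τ, hτ, hτθ⟩ := exists_tau B hζ hx0 θ hθp hfix
  set Z := algebraMap k' (maxUnr k K) ζ with hZ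
  have hZp : IsPrimitiveRoot Z p := hζ.map_of_injective (algebraMap k' (maxUnr k K)).injective
  have hZG : ∀ σ ∈ G, s σ Z = Z := B.fix ζ
  -- the root `ω` of `g`
  set ω := θ * y with hω
  have hωp : ω ^ p = g := by rw [hω, mul_pow, hθp, hg]
  -- the field containing it
  obtain ⟨F1, hF1, hFF1, hωF1⟩ := hF.exists_root hpk (ω : AlgebraicClosure K) ⟨g, hgF⟩
    (congrArg (fun z : maxUnr k K => (z : AlgebraicClosure K)) hωp) (by
      intro V hV
      obtain ⟨z, hz⟩ := h1 V hV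
      exact ⟨z ^ p, by rw [hz, map_pow, ← pow_mul, sq]⟩)
  have hζF : IsPrimitiveRoot (⟨_, hFF1 (hkF ζ)⟩ : F1) p := by
    have h1 : IsPrimitiveRoot ((algebraMap k' (maxUnr k K) ζ : maxUnr k K) :
        AlgebraicClosure K) p :=
      (hζ.map_of_injective (algebraMap k' (maxUnr k K)).injective).map_of_injective
        (f := (maxUnr k K).val) Subtype.val_injective
    exact IsPrimitiveRoot.of_map_of_injective (f := F1.val) h1 Subtype.val_injective
  have hdiv := isDivisible_one_sub_root (k := k) hpp.pos hζF (⟨ω, hωF1⟩ : F1) ⟨g, hFF1 hgF⟩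
    (Subtype.ext (congrArg (fun z : maxUnr k K => (z : AlgebraicClosure K)) hωp))
    (h1.of_le hFF1) (h2.of_le hFF1)
  obtain ⟨γ', hγ'⟩ := IsAlgClosed.exists_pow_nat_eq
    (((1 - ⟨ω, hωF1⟩ : F1)) : AlgebraicClosure K) hpp.pos
  obtain ⟨F2, hF2, -, hγF2⟩ := hF1.exists_root hpk γ' _ hγ' hdiv
  set γ : maxUnr k K := ⟨γ', hF2.le_maxUnr hγF2⟩ with hγ
  have hγp : γ ^ p = 1 - ω := Subtype.ext hγ'
  have hω1 : 1 - ω ≠ 0 := by
    intro h0
    apply hg1
    rw [← hωp, ← sub_eq_zero.1 h0, one_pow]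
  obtain ⟨f, P, hP0, hPG, hP⟩ := norm_core hs B hζ hx0 θ hθp hτ hτθ (1 - ω) γ hω1 (by
    intro σ hσ
    obtain ⟨h3, h4⟩ := Subgroup.mem_inf.1 hσ
    rw [mem_stabS] at h4
    rw [map_sub, map_one, hω, map_mul, h4, hyG σ h3]) hγp
  -- the product
  have h3 : ∏ i ∈ Finset.range p, s (τ ^ i) (1 - ω) = 1 - g := by
    have h4 : ∀ i ∈ Finset.range p, s (τ ^ i) (1 - ω) = 1 - Z ^ i * ω := by
      intro i _
      rw [map_sub, map_one, hω, map_mul, tau_pow hZG hτ hτθ, hyG _ (G.pow_mem hτ i)]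
      ring
    rw [Finset.prod_congr rfl h4]
    have h5 := X_pow_sub_C_eq_prod hZp hpp.pos (rfl : ω ^ p = ω ^ p)
    have h6 := congrArg (Polynomial.eval 1) h5
    rw [Polynomial.eval_prod] at h6
    simp only [Polynomial.eval_sub, Polynomial.eval_pow, Polynomial.eval_X,
      Polynomial.eval_C, one_pow] at h6
    rw [← h6, hωp]
  rw [h3, hg'] at hP
  have hy'0 : y' ≠ 0 := by
    rintro rfl
    rw [zero_pow hpp.ne_zero, mul_zero] at hg'
    exact hg1 (sub_eq_zero.1 hg').symm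
  set nf := nrm p ζ f x with hnf
  have hnf0 : nf ≠ 0 := by
    intro h0
    rw [h0, map_zero, zero_mul] at hP
    exact (mul_ne_zero ((_root_.map_ne_zero _).2 hx'0) (pow_ne_zero p hy'0)) hP
  have hnfM : algebraMap k' (maxUnr k K) nf ≠ 0 := (_root_.map_ne_zero _).2 hnf0
  set ρ := P / y' with hρ
  have hρp : ρ ^ p = algebraMap k' (maxUnr k K) (x' / nf) := by
    rw [hρ, div_pow, map_div₀, div_eq_div_iff (pow_ne_zero p hy'0) hnfM, hP]
    ring
  obtain ⟨ρ0, hρ0⟩ := B.ex ρ (isIntegral_of_pow' hpp.pos (by rw [hρp]; exact B.alg _)) (by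
    intro σ hσ
    rw [hρ, map_div₀, hPG σ hσ, hy'G σ hσ])
  refine ⟨C ρ0 * f, ?_⟩
  apply (algebraMap k' (maxUnr k K)).injective
  rw [nrm_spec hpp.pos hζ (C ρ0 * f) _ θ hθp]
  simp only [map_mul, aeval_C]
  rw [Finset.prod_mul_distrib, Finset.prod_const, Finset.card_range, hρ0, hρp]
  have h7 := nrm_spec hpp.pos hζ f x θ hθp
  rw [← hnf] at h7
  rw [← h7, ← map_mul, div_mul_cancel₀ _ hnf0]

end P025H641
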