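import Vale.Agent.P025.H641.OSupp

/-! # Sections for general extensions, transport to finite subextensions -/

open IntermediateField Polynomial

namespace P025H641

universe u v w

section homOf

variable {K : Type u} {Ω : Type v} [Field K] [Field Ω] [Algebra K Ω] (L : IntermediateField K Ω)
  [Normal K L]

/-- embeddings of normal extensions are automorphisms -/
noncomputable def equivOf (ρ : L →ₐ[K] Ω) : L ≃ₐ[K] L :=
  AlgEquiv.ofBijective (ρ.codRestrict L.toSubalgebra (fun x => by
      have h : ρ x ∈ ρ.fieldRange := ⟨x, rfl⟩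
      rw [AlgHom.fieldRange_of_normal] at h
      exact h)) (by
    constructor
    · intro x y hxy
      exact ρ.injective (congrArg Subtype.val hxy)
    · intro y
      have h : (y : Ω) ∈ ρ.fieldRange := by
        rw [AlgHom.fieldRange_of_normal]
        exact y.2
      obtain ⟨x, hx⟩ := h
      exact ⟨x, Subtype.ext hx⟩)

lemma equivOf_coe (ρ : L →ₐ[K] Ω) (x : L) : ((equivOf L ρ x : L) : Ω) = ρ x := rfl

variable {G : Type w} [Group G]

/-- actions by embeddings -/
noncomputable def homOf (ρ : G → L →ₐ[K] Ω)
    (hmul : ∀ g h x, ρ (g * h) x = ρ g (equivOf L (ρ h) x)) : G →* (L ≃ₐ[K] L) where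
  toFun g := equivOf L (ρ g)
  map_one' := by
    refine AlgEquiv.ext (fun x => ?_)
    apply (equivOf L (ρ 1)).injective
    apply Subtype.ext
    have h := hmul 1 1 x
    rw [mul_one] at h
    rw [equivOf_coe, equivOf_coe, AlgEquiv.one_apply]
    exact h.symm
  map_mul' g h := by
    ext x
    rw [equivOf_coe, hmul]
    rfl

lemma homOf_coe (ρ : G → L →ₐ[K] Ω)
    (hmul : ∀ g h x, ρ (g * h) x = ρ g (equivOf L (ρ h) x)) (g : G) (x : L) :
    ((homOf L ρ hmul g x : L) : Ω) = ρ g x := rfl

end homOf

section topo

open scoped Topology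

/-- continuity of homomorphisms to Galois groups -/
lemma continuous_of_stab {G : Type*} [Group G] [TopologicalSpace G] [IsTopologicalGroup G]
    {K L : Type*} [Field K] [Field L] [Algebra K L] (f : G →* Gal(L/K))
    (h : ∀ x : L, {g | f g x = x} ∈ 𝓝 (1 : G)) : Continuous f := by
  apply continuous_of_continuousAt_one
  rw [ContinuousAt, map_one, Filter.tendsto_def]
  intro U hU
  rw [krullTopology_mem_nhds_one_iff] at hU
  obtain ⟨A, hA, hAU⟩ := hU
  have hfg : A.FG := IntermediateField.fg_of_fg_toSubalgebra A
    (Subalgebra.fg_of_fg_toSubmodule (Module.Finite.iff_fg.1 (inferInstance : Module.Finite K A)))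
  obtain ⟨S, hS⟩ := hfg
  have h1 : ⋂ x ∈ S, {g | f g x = x} ∈ 𝓝 (1 : G) := by
    rw [Filter.biInter_finset_mem]
    exact fun x _ => h x
  refine Filter.mem_of_superset h1 ?_
  intro g hg
  apply hAU
  simp only [Set.mem_iInter, Set.mem_ofPred_eq] at hg
  show f g ∈ A.fixingSubgroup
  have h2 : A ≤ IntermediateField.fixedField (Subgroup.zpowers (f g)) := by
    rw [← hS, IntermediateField.adjoin_le_iff]
    intro x hx
    rw [SetLike.mem_coe, IntermediateField.mem_fixedField_iff]
    intro τ hτ
    have h3 : Subgroup.zpowers (f g) ≤ MulAction.stabilizer Gal(L/K) x := by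
      rw [Subgroup.zpowers_le]
      exact hg x hx
    exact h3 hτ
  rw [IntermediateField.mem_fixingSubgroup_iff]
  intro x hx
  have h3 := h2 hx
  rw [IntermediateField.mem_fixedField_iff] at h3
  exact h3 _ (Subgroup.mem_zpowers _)

/-- stabilizers are neighbourhoods of one -/
lemma stab_mem_nhds {K L : Type*} [Field K] [Field L] [Algebra K L] (x : L)
    (hx : IsIntegral K x) : {g : Gal(L/K) | g x = x} ∈ 𝓝 (1 : Gal(L/K)) := by
  rw [krullTopology_mem_nhds_one_iff]
  refine ⟨K⟮x⟯, IntermediateField.adjoin.finiteDimensional hx, ?_⟩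
  intro g hg
  exact (IntermediateField.mem_fixingSubgroup_iff _ _).1 hg x
    (IntermediateField.mem_adjoin_simple_self K x)

lemma stab_preimage {G : Type*} [Group G] [TopologicalSpace G] {K L : Type*} [Field K] [Field L]
    [Algebra K L] (f : G →* Gal(L/K)) (hf : Continuous f) (x : L) (hx : IsIntegral K x) :
    {g | f g x = x} ∈ 𝓝 (1 : G) := by
  have h1 := hf.continuousAt (x := 1)
  rw [ContinuousAt, map_one] at h1
  exact h1 (stab_mem_nhds x hx)

end topo

section secOf

/-- `s` is a section of `Gal(M / E) → Gal(constClosure k E / k)` -/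
structure IsSecOf (k : Type u) {E : Type v} [Field k] [Field E] [Algebra k E]
    (M : IntermediateField E (AlgebraicClosure E))
    (s : Gal(constClosure k E/k) →* Gal(M/E)) : Prop where
  continuous : Continuous s
  lifts : ∀ (σ : Gal(constClosure k E/k)) (x : constClosure k E) (y : M),
    (x : AlgebraicClosure E) = (y : AlgebraicClosure E) →
      ((σ x : constClosure k E) : AlgebraicClosure E) = ((s σ y : M) : AlgebraicClosure E)

/-- A section of `Gal(M / E) → Gal(constClosure k E / k)`: a continuous homomorphism such that
the image of `σ` acts on constants as `σ`. -/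
structure SecOf (k : Type u) {E : Type v} [Field k] [Field E] [Algebra k E]
    (M : IntermediateField E (AlgebraicClosure E)) where
  hom : GalOf (constClosure k E) →* GalOf M
  cont : Continuous hom
  lifts : ∀ (σ : GalOf (constClosure k E)) (x y : AlgebraicClosure E),
    σ.Maps x y → x ∈ M → (hom σ).Maps x y

variable {k : Type u} {E : Type v} [Field k] [Field E] [Algebra k E]
    {M : IntermediateField E (AlgebraicClosure E)}

/-- the homomorphism underlying a section -/
noncomputable def SecOf.toHom (s : SecOf k M) : Gal(constClosure k E/k) →* Gal(M/E) := s.hom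

lemma SecOf.isSecOf (s : SecOf k M) : IsSecOf k M s.toHom where
  continuous := s.cont
  lifts := by
    intro σ x y hxy
    obtain ⟨y', hy', h⟩ := s.lifts σ (x : AlgebraicClosure E) (σ x : constClosure k E)
      ⟨x, rfl, rfl⟩ (by rw [hxy]; exact y.2)
    have : y' = y := Subtype.ext (hy'.trans hxy)
    rw [this] at h
    exact h.symm

end secOf

section transport

variable {k : Type u} {E : Type v} [Field k] [CharZero k] [Field E] [Algebra k E]
    {M : IntermediateField E (AlgebraicClosure E)}

/-- isomorphism of the constants -/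
noncomputable def constEquiv (k : Type u) {E : Type v} [Field k] [Field E] [Algebra k E]
    (K : IntermediateField E (AlgebraicClosure E)) (ψ : AlgebraicClosure K ≃ₐ[K] AlgebraicClosure E) :
    constClosure k K ≃ₐ[k] constClosure k E :=
  have ht : IsScalarTower k K (AlgebraicClosure E) := IsScalarTower.of_algebraMap_eq (fun _ => rfl)
  let ψk : AlgebraicClosure K ≃ₐ[k] AlgebraicClosure E := ψ.restrictScalars k
  AlgEquiv.ofAlgHom
    ((ψk.toAlgHom.comp (constClosure k K).val).codRestrict (constClosure k E).toSubalgebra
      (fun x => by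
        have h1 : IsAlgebraic k (x : AlgebraicClosure K) := mem_algebraicClosure_iff.1 x.2
        exact mem_algebraicClosure_iff.2 (h1.algHom ψk.toAlgHom)))
    ((ψk.symm.toAlgHom.comp (constClosure k E).val).codRestrict (constClosure k K).toSubalgebra
      (fun x => by
        have h1 : IsAlgebraic k (x : AlgebraicClosure E) := mem_algebraicClosure_iff.1 x.2
        exact mem_algebraicClosure_iff.2 (h1.algHom ψk.symm.toAlgHom)))
    (by
      refine AlgHom.ext (fun x => Subtype.ext ?_)
      exact ψk.apply_symm_apply _)
    (by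
      refine AlgHom.ext (fun x => Subtype.ext ?_)
      exact ψk.symm_apply_apply _)

lemma constEquiv_coe (K : IntermediateField E (AlgebraicClosure E))
    (ψ : AlgebraicClosure K ≃ₐ[K] AlgebraicClosure E) (x : constClosure k K) :
    ((constEquiv k K ψ x : constClosure k E) : AlgebraicClosure E) = ψ x := rfl

end transport

end P025H641
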