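import Vale.Agent.P025.H641.Plc

/-! # Rational places of Kummer type function fields from rational points -/

open IntermediateField

namespace P025H641

universe u v w

section lift

variable {k : Type u} {K : Type v} {M : Type w} [Field k] [Field K] [Field M] [IsAlgClosed M]
  [Algebra k K] [Algebra k M]

lemma exists_lift (t : K) (τ : M) (ht : Transcendental k t) (hτ : Transcendental k τ)
    {n : ℕ} (hn : 0 < n) (S : Set K)
    (hw : ∀ x ∈ S, ∃ P Q : Polynomial k, Polynomial.aeval t Q ≠ 0 ∧
      Polynomial.aeval t Q * x ^ n = Polynomial.aeval t P)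
    (hgen : IntermediateField.adjoin k ({t} ∪ S) = ⊤) :
    ∃ φ : K →ₐ[k] M, φ t = τ := by
  let algK : Algebra (Polynomial k) K := (Polynomial.aeval t).toRingHom.toAlgebra
  let algM : Algebra (Polynomial k) M := (Polynomial.aeval τ).toRingHom.toAlgebra
  have hK : Function.Injective (algebraMap (Polynomial k) K) :=
    transcendental_iff_injective.1 ht
  have hM : Function.Injective (algebraMap (Polynomial k) M) :=
    transcendental_iff_injective.1 hτ
  have : FaithfulSMul (Polynomial k) K := (faithfulSMul_iff_algebraMap_injective _ _).2 hK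
  have : FaithfulSMul (Polynomial k) M := (faithfulSMul_iff_algebraMap_injective _ _).2 hM
  have : Module.IsTorsionFree (Polynomial k) K := inferInstance
  have : Module.IsTorsionFree (Polynomial k) M := inferInstance
  have hpoly : ∀ f : Polynomial k, IsAlgebraic (Polynomial k) (Polynomial.aeval t f) := fun f =>
    isAlgebraic_algebraMap (R := Polynomial k) (A := K) f
  have halg : ∀ x : K, IsAlgebraic (Polynomial k) x := by
    intro x
    have hx : x ∈ IntermediateField.adjoin k ({t} ∪ S) := by rw [hgen]; trivial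
    induction hx using IntermediateField.adjoin_induction with
    | mem x hx =>
      rcases hx with hx | hx
      · rw [Set.mem_singleton_iff] at hx
        rw [hx]
        have := hpoly Polynomial.X
        rwa [Polynomial.aeval_X] at this
      · obtain ⟨P, Q, hQ, h⟩ := hw x hx
        apply IsAlgebraic.of_pow hn
        have h1 : x ^ n = Polynomial.aeval t P * (Polynomial.aeval t Q)⁻¹ := by
          rw [← h]; field_simp
        rw [h1]
        exact (hpoly P).mul (hpoly Q).inv
    | algebraMap c =>
      have := hpoly (Polynomial.C c)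
      rwa [Polynomial.aeval_C] at this
    | add x y _ _ hx hy => exact hx.add hy
    | inv x _ hx => exact hx.inv
    | mul x y _ _ hx hy => exact hx.mul hy
  have : Algebra.IsAlgebraic (Polynomial k) K := ⟨halg⟩
  let ψ : K →ₐ[Polynomial k] M := IsAlgClosed.lift
  have hψ : ∀ f : Polynomial k, ψ (Polynomial.aeval t f) = Polynomial.aeval τ f := fun f =>
    ψ.commutes f
  refine ⟨{ ψ.toRingHom with commutes' := ?_ }, ?_⟩
  · intro c
    have := hψ (Polynomial.C c)
    rw [Polynomial.aeval_C, Polynomial.aeval_C] at this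
    exact this
  · have := hψ Polynomial.X
    rw [Polynomial.aeval_X, Polynomial.aeval_X] at this
    exact this

end lift

section series

variable {k : Type u} [Field k] [CharZero k]

open PowerSeries in
lemma exists_root_one_add {p : ℕ} (hp : 0 < p) (b : k) :
    ∃ Q : k⟦X⟧, Q ^ p = 1 + PowerSeries.C b * PowerSeries.X := by
  set B : k⟦X⟧ := binomialSeries k (1 / p : ℚ) with hB
  have hBn : ∀ n : ℕ, B ^ n = binomialSeries k (n * (1 / p) : ℚ) := by
    intro n
    induction n with
    | zero =>
      rw [pow_zero, Nat.cast_zero, zero_mul]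
      have := binomialSeries_nat (R := ℚ) (A := k) 0
      rw [pow_zero, Nat.cast_zero] at this
      exact this.symm
    | succ n ih =>
      rw [pow_succ, ih, hB, ← binomialSeries_add]
      congr 1
      push_cast
      ring
  have hBp : B ^ p = 1 + PowerSeries.X := by
    rw [hBn]
    have hp0 : (p : ℚ) ≠ 0 := by exact_mod_cast hp.ne'
    have h1 : ((p : ℚ) * (1 / p) : ℚ) = ((1 : ℕ) : ℚ) := by
      field_simp
      simp
    rw [h1, binomialSeries_nat, pow_one]
  refine ⟨rescale b B, ?_⟩
  rw [← map_pow, hBp, map_add, map_one, rescale_X]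

/-- the element `z + X` of the Laurent series field -/
noncomputable def shiftX (z : k) : LaurentSeries k :=
  ((PowerSeries.C z + PowerSeries.X : PowerSeries k) : LaurentSeries k)

omit [CharZero k] in
lemma algebraMap_laurent (a : k) :
    algebraMap k (LaurentSeries k) a = ((PowerSeries.C a : PowerSeries k) : LaurentSeries k) := by
  rw [HahnSeries.ofPowerSeries_C]
  exact LaurentSeries.algebraMap_apply k a

omit [CharZero k] in
lemma aeval_shiftX (z : k) (p : Polynomial k) :
    Polynomial.aeval (shiftX z) p =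
      (((Polynomial.taylor z p : Polynomial k) : PowerSeries k) : LaurentSeries k) := by
  have h : (Polynomial.aeval (shiftX z) : Polynomial k →ₐ[k] LaurentSeries k).toRingHom =
      (HahnSeries.ofPowerSeries ℤ k).comp
        ((Polynomial.coeToPowerSeries.ringHom).comp (Polynomial.taylorAlgHom z).toRingHom) := by
    apply Polynomial.ringHom_ext
    · intro a
      simp [algebraMap_laurent]
    · simp [shiftX, add_comm]
  exact congrArg (fun f : Polynomial k →+* LaurentSeries k => f p) h

omit [CharZero k] in
lemma transcendental_shiftX (z : k) : Transcendental k (shiftX z) := by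
  rw [transcendental_iff_injective]
  intro p q hpq
  rw [aeval_shiftX, aeval_shiftX] at hpq
  have h1 := HahnSeries.ofPowerSeries_injective hpq
  have h2 := Polynomial.coe_injective k h1
  exact Polynomial.taylor_injective z h2

/-- `p`-th roots of shifted linear factors in the Laurent series field -/
lemma exists_root_linear {p : ℕ} (hp : 0 < p) (z a : k) (hza : z ≠ a) :
    ∃ q : LaurentSeries k, shiftX z - algebraMap k (LaurentSeries k) a =
      algebraMap k (LaurentSeries k) (z - a) * q ^ p := by
  obtain ⟨B, hB⟩ := exists_root_one_add hp (z - a)⁻¹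
  have hza' : z - a ≠ 0 := sub_ne_zero.2 hza
  have h1 : (PowerSeries.C z + PowerSeries.X - PowerSeries.C a : PowerSeries k) =
      PowerSeries.C (z - a) * B ^ p := by
    rw [hB, mul_add, mul_one, ← mul_assoc, ← map_mul, mul_inv_cancel₀ hza', map_one, one_mul,
      map_sub]
    ring
  refine ⟨(B : LaurentSeries k), ?_⟩
  have h2 := congrArg (HahnSeries.ofPowerSeries ℤ k) h1
  rw [map_sub, map_mul, map_pow] at h2
  rw [algebraMap_laurent, algebraMap_laurent]
  exact h2

end series

section dvr

/-- a criterion for a valuation subring to be discrete -/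
lemma dvr_of_val {F : Type v} [Field F] (W : ValuationSubring F) (τ : F) (hτ0 : τ ≠ 0)
    (hτ1 : W.valuation τ < 1)
    (hval : ∀ x : F, x ≠ 0 → W.valuation x ≤ 1 → ∃ n : ℕ, W.valuation x = W.valuation τ ^ n) :
    IsDiscreteValuationRing W := by
  have hpos : 0 < W.valuation τ := zero_lt_iff.2 ((map_ne_zero _).2 hτ0)
  have hτW : τ ∈ W := (W.valuation_le_one_iff _).1 hτ1.le
  apply IsDiscreteValuationRing.ofHasUnitMulPowIrreducibleFactorization
  refine ⟨⟨τ, hτW⟩, ⟨?_, ?_⟩, ?_⟩
  · rw [W.valuation_eq_one_iff]
    exact hτ1.ne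
  · intro a b hab
    by_contra hcon
    push Not at hcon
    rw [W.valuation_eq_one_iff, W.valuation_eq_one_iff] at hcon
    have h3 : τ = (a : F) * b := congrArg Subtype.val hab
    have ha0 : (a : F) ≠ 0 := by intro h0; rw [h0, zero_mul] at h3; exact hτ0 h3
    have hb0 : (b : F) ≠ 0 := by intro h0; rw [h0, mul_zero] at h3; exact hτ0 h3
    obtain ⟨m, hm⟩ := hval a ha0 (W.valuation_le_one a)
    obtain ⟨n, hn⟩ := hval b hb0 (W.valuation_le_one b)
    have hm0 : m ≠ 0 := by
      rintro rfl
      rw [pow_zero] at hm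
      exact hcon.1 hm
    have hn0 : n ≠ 0 := by
      rintro rfl
      rw [pow_zero] at hn
      exact hcon.2 hn
    have h4 := congrArg W.valuation h3
    rw [map_mul, hm, hn, ← pow_add] at h4
    have h5 : W.valuation τ ^ (m + n) < W.valuation τ := by
      calc W.valuation τ ^ (m + n) ≤ W.valuation τ ^ 2 :=
            pow_le_pow_of_le_one zero_le hτ1.le (by omega)
        _ = W.valuation τ * W.valuation τ := sq _
        _ < W.valuation τ * 1 := by gcongr
        _ = W.valuation τ := mul_one _
    exact h5.ne h4.symm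
  · intro x hx
    have hx0 : (x : F) ≠ 0 := fun h => hx (Subtype.ext h)
    obtain ⟨n, hn⟩ := hval x hx0 (W.valuation_le_one x)
    have hτn : τ ^ n ≠ 0 := pow_ne_zero n hτ0
    have hq1 : W.valuation ((x : F) / τ ^ n) = 1 := by
      rw [map_div₀, hn, map_pow]
      exact div_self (pow_ne_zero n hpos.ne')
    have hqW : (x : F) / τ ^ n ∈ W := (W.valuation_le_one_iff _).1 hq1.le
    obtain ⟨u, hu⟩ := (W.valuation_eq_one_iff ⟨(x : F) / τ ^ n, hqW⟩).2 hq1
    refine ⟨n, u, ?_⟩
    apply Subtype.ext
    have h5 : ((u : W) : F) = (x : F) / τ ^ n := by rw [hu]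
    show (((⟨τ, hτW⟩ : W) ^ n * (u : W) : W) : F) = x
    rw [MulMemClass.coe_mul, SubmonoidClass.coe_pow, h5]
    field_simp

end dvr

section main

variable {k : Type u} [Field k] [CharZero k] {K : Type v} [Field K] [Algebra k K]

omit [CharZero k] in
/-- a discrete rational place from an embedding in the Laurent series field -/
lemma ratPlace_of_embedding (Ψ : K →+* LaurentSeries k)
    (hΨc : ∀ a : k, Ψ (algebraMap k K a) = algebraMap k (LaurentSeries k) a) (τ : K)
    (hτ : Ψ τ = ((PowerSeries.X : PowerSeries k) : LaurentSeries k)) :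
    ∃ V : ValuationSubring K, IsRatPlace k K V := by
  obtain ⟨v, hv⟩ : ∃ v : Valuation K (WithZero (Multiplicative ℤ)),
    v = (Valued.v : Valuation (LaurentSeries k) _).comap Ψ := ⟨_, rfl⟩
  have hvx : ∀ x, v x = (Valued.v : Valuation (LaurentSeries k) _) (Ψ x) := fun x => by
    rw [hv, Valuation.comap_apply]
  have hequiv : v.valuationSubring.valuation.IsEquiv v :=
    (Valuation.isEquiv_valuation_valuationSubring v).symm
  have hX : v τ = WithZero.exp (-1 : ℤ) := by
    have := LaurentSeries.valuation_X_pow (K := k) 1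
    rw [pow_one] at this
    rw [hvx, hτ, this]
    norm_num
  have hX1 : v τ < 1 := by
    rw [hX, ← WithZero.exp_zero, WithZero.exp_lt_exp]
    norm_num
  have hτ0 : τ ≠ 0 := by
    rintro rfl
    rw [map_zero] at hX
    exact WithZero.exp_ne_zero hX.symm
  have hXn : ∀ n : ℕ, v (τ ^ n) = WithZero.exp (-(n : ℤ)) := by
    intro n
    rw [map_pow, hX, ← WithZero.exp_nsmul]
    congr 1
    simp
  -- values are powers of the value of `τ`
  have hval : ∀ x : K, x ≠ 0 → v x ≤ 1 → ∃ n : ℕ, v x = v (τ ^ n) := by
    intro x hx h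
    have hx0 : v x ≠ 0 := (Valuation.ne_zero_iff v).2 hx
    have h1 : v x = WithZero.exp (WithZero.log (v x)) := (WithZero.exp_log hx0).symm
    obtain ⟨m, hm⟩ : ∃ m, m = WithZero.log (v x) := ⟨_, rfl⟩
    rw [← hm] at h1
    have hm0 : m ≤ 0 := by
      rw [h1, ← WithZero.exp_zero, WithZero.exp_le_exp] at h
      exact h
    refine ⟨(-m).toNat, ?_⟩
    rw [hXn, h1, Int.toNat_of_nonneg (by omega), neg_neg]
  refine ⟨v.valuationSubring, ⟨⟨?_, ?_⟩, ?_⟩⟩
  · intro a
    rw [Valuation.mem_valuationSubring_iff, hvx, hΨc, algebraMap_laurent]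
    exact (LaurentSeries.val_le_one_iff_eq_coe k _).2 ⟨_, rfl⟩
  · refine dvr_of_val _ τ hτ0 (hequiv.lt_one_iff_lt_one.2 hX1) ?_
    intro x hx h
    obtain ⟨n, hn⟩ := hval x hx (hequiv.le_one_iff_le_one.1 h)
    refine ⟨n, ?_⟩
    rw [← map_pow]
    exact hequiv.eq_iff.2 hn
  · intro x hx
    rw [Valuation.mem_valuationSubring_iff, hvx, LaurentSeries.val_le_one_iff_eq_coe] at hx
    obtain ⟨F, hF⟩ := hx
    refine ⟨PowerSeries.constantCoeff F, ?_⟩
    rw [hequiv.lt_one_iff_lt_one, hvx, map_sub, hΨc, ← hF, algebraMap_laurent, ← map_sub]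
    have h1 : PowerSeries.X ∣ (F - PowerSeries.C (PowerSeries.constantCoeff F)) := by
      rw [PowerSeries.X_dvd_iff]
      simp
    obtain ⟨G, hG⟩ := h1
    rw [hG, map_mul, map_mul]
    have hG1 : (Valued.v : Valuation (LaurentSeries k) _) (G : LaurentSeries k) ≤ 1 :=
      (LaurentSeries.val_le_one_iff_eq_coe k _).2 ⟨G, rfl⟩
    rw [← hτ, ← hvx]
    exact mul_lt_one_of_lt_of_le hX1 hG1

/-- Rational places on fields generated by `t` and `p`-th roots of rational functions in `t`
which are `p`-th powers in the Laurent series field at `z`. -/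
theorem exists_ratPlace {p : ℕ} (hp : 0 < p) {ζ : k} (hζ : IsPrimitiveRoot ζ p) (t : K)
    (ht : Transcendental k t) (S : Set K) (z : k)
    (hS : ∀ x ∈ S, ∃ P Q : Polynomial k, Q ≠ 0 ∧
      Polynomial.aeval t Q * x ^ p = Polynomial.aeval t P ∧
      ∃ q : LaurentSeries k, Polynomial.aeval (shiftX z) P =
        Polynomial.aeval (shiftX z) Q * q ^ p)
    (hgen : IntermediateField.adjoin k ({t} ∪ S) = ⊤) :
    ∃ V : ValuationSubring K, IsRatPlace k K V := by
  set L := LaurentSeries k with hL
  set M := AlgebraicClosure L with hM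
  have htrans : Transcendental k (algebraMap L M (shiftX z)) := by
    have h := transcendental_shiftX z
    exact (transcendental_algebraMap_iff (algebraMap L M).injective).2 h
  have hQt : ∀ Q : Polynomial k, Q ≠ 0 → Polynomial.aeval t Q ≠ 0 := by
    intro Q hQ h
    exact hQ (transcendental_iff.1 ht Q h)
  have hQz : ∀ Q : Polynomial k, Q ≠ 0 → Polynomial.aeval (shiftX z) Q ≠ 0 := by
    intro Q hQ h
    exact hQ (transcendental_iff.1 (transcendental_shiftX z) Q h)
  obtain ⟨φ, hφ⟩ := exists_lift (M := M) t (algebraMap L M (shiftX z)) ht htrans hp S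
    (by
      intro x hx
      obtain ⟨P, Q, hQ, h, -⟩ := hS x hx
      exact ⟨P, Q, hQt Q hQ, h⟩) hgen
  have hφP : ∀ P : Polynomial k, φ (Polynomial.aeval t P) =
      algebraMap L M (Polynomial.aeval (shiftX z) P) := by
    intro P
    rw [← Polynomial.aeval_algHom_apply, hφ, Polynomial.aeval_algebraMap_apply]
  -- the image lies in the Laurent series
  have hrange : ∀ x : K, ∃ l : L, algebraMap L M l = φ x := by
    set T : IntermediateField k K :=
      ((IsScalarTower.toAlgHom k L M).fieldRange).comap φ with hT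
    have hle : (⊤ : IntermediateField k K) ≤ T := by
      rw [← hgen, IntermediateField.adjoin_le_iff]
      rintro x (hx | hx)
      · rw [Set.mem_singleton_iff] at hx
        rw [hx]
        exact ⟨shiftX z, hφ.symm⟩
      · obtain ⟨P, Q, hQ, h, q, hq⟩ := hS x hx
        have h1 := congrArg φ h
        rw [map_mul, map_pow, hφP, hφP, hq, map_mul, map_pow] at h1
        have h2 : algebraMap L M (Polynomial.aeval (shiftX z) Q) ≠ 0 :=
          (map_ne_zero _).2 (hQz Q hQ)
        have h3 : (φ x) ^ p = (algebraMap L M q) ^ p := mul_left_cancel₀ h2 h1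
        by_cases hq0 : q = 0
        · refine ⟨0, ?_⟩
          show algebraMap L M 0 = φ x
          rw [hq0, map_zero, zero_pow hp.ne'] at h3
          rw [map_zero, (pow_eq_zero_iff hp.ne').1 h3]
        · have hqM : algebraMap L M q ≠ 0 := (map_ne_zero _).2 hq0
          have h4 : (φ x / algebraMap L M q) ^ p = 1 := by
            rw [div_pow, h3, div_self (pow_ne_zero p hqM)]
          have hζM : IsPrimitiveRoot (algebraMap k M ζ) p :=
            hζ.map_of_injective (algebraMap k M).injective
          have : NeZero p := ⟨hp.ne'⟩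
          obtain ⟨j, -, h5⟩ := hζM.eq_pow_of_pow_eq_one h4
          refine ⟨algebraMap k L ζ ^ j * q, ?_⟩
          show algebraMap L M (algebraMap k L ζ ^ j * q) = φ x
          rw [map_mul, map_pow, ← IsScalarTower.algebraMap_apply, h5, div_mul_cancel₀ _ hqM]
    intro x
    exact hle (IntermediateField.mem_top (x := x))
  choose ψ hψ using hrange
  have hinj := (algebraMap L M).injective
  let Ψ : K →+* L :=
    { toFun := ψ
      map_one' := hinj (by rw [hψ, map_one, map_one])
      map_mul' := fun x y => hinj (by rw [map_mul, hψ, hψ, hψ, map_mul])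
      map_zero' := hinj (by rw [hψ, map_zero, map_zero])
      map_add' := fun x y => hinj (by rw [map_add, hψ, hψ, hψ, map_add]) }
  have hΨc : ∀ a : k, Ψ (algebraMap k K a) = algebraMap k L a := by
    intro a
    apply hinj
    show algebraMap L M (ψ (algebraMap k K a)) = _
    rw [hψ, AlgHom.commutes, ← IsScalarTower.algebraMap_apply]
  have hΨt : Ψ t = shiftX z := by
    apply hinj
    show algebraMap L M (ψ t) = _
    rw [hψ, hφ]
  refine ratPlace_of_embedding Ψ hΨc (t - algebraMap k K z) ?_
  rw [map_sub, hΨt, hΨc, algebraMap_laurent, shiftX, map_add, add_sub_cancel_left]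

/-- the product of shifted linear factors -/
lemma exists_root_prod {p : ℕ} (hp : 0 < p) (z c η : k) (T : Finset k) (m : k → ℕ)
    (hc : c ≠ 0) (hz : ∀ a ∈ T, z ≠ a) (hη : c * η ^ p = ∏ a ∈ T, (z - a) ^ m a) :
    ∃ q : LaurentSeries k, Polynomial.aeval (shiftX z)
      (∏ a ∈ T, (Polynomial.X - Polynomial.C a) ^ m a) =
        Polynomial.aeval (shiftX z) (Polynomial.C c) * q ^ p := by
  classical
  have h1 : ∀ a ∈ T, ∃ q : LaurentSeries k, shiftX z - algebraMap k (LaurentSeries k) a =
      algebraMap k (LaurentSeries k) (z - a) * q ^ p := fun a ha =>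
    exists_root_linear hp z a (hz a ha)
  choose! q hq using h1
  refine ⟨algebraMap k (LaurentSeries k) η * ∏ a ∈ T, q a ^ m a, ?_⟩
  rw [map_prod, Polynomial.aeval_C, mul_pow, ← mul_assoc, ← map_pow, ← map_mul, hη, map_prod,
    ← Finset.prod_pow, ← Finset.prod_mul_distrib]
  refine Finset.prod_congr rfl (fun a ha => ?_)
  rw [map_pow, map_sub, Polynomial.aeval_X, Polynomial.aeval_C, hq a ha, mul_pow, map_pow,
    ← pow_mul, ← pow_mul, mul_comm p]

lemma exists_root_quotient {p : ℕ} (hp : 0 < p) (z b b' g : k) (hb : z ≠ b) (hb' : z ≠ b')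
    (hg : g ^ p * (z - b') = z - b) :
    ∃ q : LaurentSeries k, Polynomial.aeval (shiftX z) (Polynomial.X - Polynomial.C b) =
      Polynomial.aeval (shiftX z) (Polynomial.X - Polynomial.C b') * q ^ p := by
  obtain ⟨q1, h1⟩ := exists_root_linear hp z b hb
  obtain ⟨q2, h2⟩ := exists_root_linear hp z b' hb'
  have hq2 : q2 ≠ 0 := by
    rintro rfl
    rw [zero_pow hp.ne', mul_zero, sub_eq_zero] at h2
    have := transcendental_shiftX z
    rw [h2] at this
    exact this (isAlgebraic_algebraMap _)
  refine ⟨algebraMap k (LaurentSeries k) g * q1 / q2, ?_⟩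
  rw [map_sub, map_sub, Polynomial.aeval_X, Polynomial.aeval_C, Polynomial.aeval_C, h1, h2,
    div_pow, mul_pow, ← map_pow, ← hg, map_mul]
  field_simp

end main

end P025H641
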