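import Vale.Agent.P025.H641.NormRel

/-! # The pattern of a section and its relations -/

open IntermediateField

namespace P025H641

universe u v w

open Polynomial

variable {k : Type u} {K : Type v} [Field k] [Field K] [Algebra k K] [CharZero k]
  {s : Gal(constClosure k K/k) →* Gal(maxUnr k K/K)} {G : Subgroup Gal(constClosure k K/k)}
  {k' : Type w} [Field k'] [Algebra k' (maxUnr k K)] {p : ℕ} [Fact p.Prime]

/-- **The pattern of a section.** -/
theorem section_rel (hs : IsSection k K s) (B : Base s G k') {ζ : k'} (hζ : IsPrimitiveRoot ζ p)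
    {F : IntermediateField K (AlgebraicClosure K)} (hF : IsFinUnr k F)
    (hkF : ∀ c : k', ((algebraMap k' (maxUnr k K) c : maxUnr k K) : AlgebraicClosure K) ∈ F)
    (t : maxUnr k K) (htF : (t : AlgebraicClosure K) ∈ F) (htG : ∀ σ ∈ G, s σ t = t)
    (ht : ∀ c : k', t ≠ algebraMap k' (maxUnr k K) c) (A : Set k')
    (hdiv : ∀ a ∈ A, IsDivisible p k ((⟨t, htF⟩ : F) - ⟨_, hkF a⟩)) :
    ∃ (x : k' → k') (y : k' → maxUnr k K),
      (∀ a ∈ A, x a ≠ 0 ∧ y a ≠ 0 ∧ (∀ σ ∈ G, s σ (y a) = y a) ∧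
        t - algebraMap k' (maxUnr k K) a = algebraMap k' (maxUnr k K) (x a) * y a ^ p) ∧
      ∀ a ∈ A, ∀ b ∈ A, ∀ c ∈ A, b - a ≠ 0 → c - a ≠ 0 → (∃ e, x a / (b - a) = e ^ p) →
        (∃ θ0 : k', (c - a) / (b - a) = θ0 ^ p) ∨
          ∃ f : k'[X], x c / (b - a) = nrm p ζ f ((c - a) / (b - a)) := by
  classical
  have hpp : p.Prime := Fact.out
  have hpk : (p : k) ≠ 0 := by exact_mod_cast hpp.ne_zero
  have h1 : ∀ a ∈ A, ∃ (x : k') (y : maxUnr k K), x ≠ 0 ∧ y ≠ 0 ∧ (∀ σ ∈ G, s σ y = y) ∧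
      t - algebraMap k' (maxUnr k K) a = algebraMap k' (maxUnr k K) x * y ^ p := by
    intro a ha
    have hta : t - algebraMap k' (maxUnr k K) a ≠ 0 := sub_ne_zero.2 (ht a)
    obtain ⟨w, hw⟩ := IsAlgClosed.exists_pow_nat_eq
      (((⟨t, htF⟩ : F) - ⟨_, hkF a⟩ : F) : AlgebraicClosure K) hpp.pos
    obtain ⟨F', hF', -, hwF'⟩ := hF.exists_root hpk w _ hw (hdiv a ha)
    obtain ⟨x, y, hx0, hyG, hxy⟩ := exists_class hs B hζ (t - algebraMap k' (maxUnr k K) a)
      ⟨w, hF'.le_maxUnr hwF'⟩ hta (Subtype.ext hw) (fun σ hσ => by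
        rw [map_sub, htG σ hσ, B.fix a σ hσ])
    refine ⟨x, y, hx0, ?_, hyG, hxy⟩
    rintro rfl
    rw [zero_pow hpp.ne_zero, mul_zero] at hxy
    exact hta hxy
  choose! x y hx0 hy0 hyG hxy using h1
  refine ⟨x, y, fun a ha => ⟨hx0 a ha, hy0 a ha, hyG a ha, hxy a ha⟩, ?_⟩
  rintro a ha b hb c hc hab hca ⟨e, he⟩
  -- the function `y`
  have hxe : x a = (b - a) * e ^ p := by rw [← he, mul_div_cancel₀ _ hab]
  set y1 := algebraMap k' (maxUnr k K) e * y a with hy1
  have hy1G : ∀ σ ∈ G, s σ y1 = y1 := by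
    intro σ hσ
    rw [hy1, map_mul, B.fix e σ hσ, hyG a ha σ hσ]
  have hy1p : t - algebraMap k' (maxUnr k K) a =
      algebraMap k' (maxUnr k K) (b - a) * y1 ^ p := by
    rw [hxy a ha, hxe, hy1, map_mul, map_pow, mul_pow]
    ring
  have hab' : algebraMap k' (maxUnr k K) (b - a) ≠ 0 := (_root_.map_ne_zero _).2 hab
  have hca' : algebraMap k' (maxUnr k K) (c - a) ≠ 0 := (_root_.map_ne_zero _).2 hca
  have hy11 : y1 - 1 ≠ 0 := by
    intro h0
    apply ht b
    have h1 : y1 = 1 := sub_eq_zero.1 h0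
    rw [h1, one_pow, mul_one, map_sub] at hy1p
    exact sub_left_injective hy1p
  -- the constant `θ`
  obtain ⟨θ', hθ'⟩ := IsAlgClosed.exists_pow_nat_eq
    ((algebraMap k' (maxUnr k K) ((c - a) / (b - a)) : maxUnr k K) : AlgebraicClosure K) hpp.pos
  have hθint : IsIntegral k θ' := by
    apply isIntegral_of_pow' hpp.pos
    rw [hθ']
    exact isIntegral_coe.2 (B.alg _)
  set θ : maxUnr k K := ⟨θ', mem_maxUnr_of_const _ hθint⟩ with hθ
  have hθp : algebraMap k' (maxUnr k K) (c - a) =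
      algebraMap k' (maxUnr k K) (b - a) * θ ^ p := by
    have h1 : θ ^ p = algebraMap k' (maxUnr k K) ((c - a) / (b - a)) := Subtype.ext hθ'
    rw [h1, ← map_mul, mul_div_cancel₀ _ hab]
  have hyθ : y1 - θ ≠ 0 := by
    intro h0
    apply ht c
    have h1 : y1 = θ := sub_eq_zero.1 h0
    rw [h1, ← hθp, map_sub] at hy1p
    exact sub_left_injective hy1p
  -- the elements of `F`
  have hintF : ∀ d : k', IsIntegral k (⟨_, hkF d⟩ : F) := fun d =>
    (isIntegral_algHom_iff ((F.val).restrictScalars k) (Subtype.val_injective)).1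
      (isIntegral_coe.2 (B.alg d))
  have hζF : IsPrimitiveRoot (⟨_, hkF ζ⟩ : F) p := by
    have h1 : IsPrimitiveRoot ((algebraMap k' (maxUnr k K) ζ : maxUnr k K) :
        AlgebraicClosure K) p :=
      (hζ.map_of_injective (algebraMap k' (maxUnr k K)).injective).map_of_injective
        (f := (maxUnr k K).val) Subtype.val_injective
    exact IsPrimitiveRoot.of_map_of_injective (f := F.val) h1 Subtype.val_injective
  have hsub : ∀ d d' : k', ((⟨_, hkF d⟩ : F) - ⟨_, hkF d'⟩ : F) =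
      (⟨_, hkF (d - d')⟩ : F) := by
    intro d d'
    apply Subtype.ext
    have h1 := map_sub (algebraMap k' (maxUnr k K)) d d'
    exact (congrArg (fun z : maxUnr k K => (z : AlgebraicClosure K)) h1).symm
  obtain ⟨γ, hγM, hγ⟩ := exists_root_quot hpp.pos hF ⟨t, htF⟩ ⟨_, hkF a⟩ ⟨_, hkF b⟩ ⟨_, hkF c⟩
    ⟨_, hkF ζ⟩ hζF (hintF a) (hintF b) (hintF c)
    (by
      rw [hsub]
      intro h0
      apply hab'
      apply Subtype.ext
      exact congrArg (fun z : F => (z : AlgebraicClosure K)) h0)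
    (by
      rw [hsub]
      intro h0
      apply hca'
      apply Subtype.ext
      exact congrArg (fun z : F => (z : AlgebraicClosure K)) h0)
    (hdiv a ha) (hdiv b hb) (hdiv c hc) (y1 : AlgebraicClosure K) θ'
    (by
      rw [hsub]
      exact congrArg (fun z : maxUnr k K => (z : AlgebraicClosure K)) hy1p)
    (by
      rw [hsub, hsub]
      exact congrArg (fun z : maxUnr k K => (z : AlgebraicClosure K)) hθp)
  exact norm_relation hs B hζ a b c (x c) hab hca t y1 (y c) hy1G (hyG c hc) (hy0 c hc) hy11 hy1p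
    (hxy c hc) θ hθp hyθ ⟨γ, hγM⟩ (Subtype.ext hγ)

end P025H641
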