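import Vale.Agent.P025.H641.Good
import Vale.Agent.P025.H641.SecRel
import Vale.Agent.P025.H641.RatPlace

/-! # Sections look like points -/

open IntermediateField

namespace P025H641

universe u v w

section divisible

variable {k : Type u} {K : Type v} [Field k] [Field K] [Algebra k K]

/-- divisibility from a power relation -/
lemma exists_pow_val {p : ℕ} (hp : p.Prime) (V : ValuationSubring K) (f w : K) (hf : f ≠ 0)
    (m : ℕ) (hm : ¬ p ∣ m) (h : V.valuation w ^ p = V.valuation f ^ m) :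
    ∃ y : K, V.valuation f = V.valuation y ^ p := by
  have hcop : IsCoprime (m : ℤ) (p : ℤ) := by
    rw [Nat.isCoprime_iff_coprime]
    exact ((Nat.Prime.coprime_iff_not_dvd hp).2 hm).symm
  obtain ⟨α, β, hαβ⟩ := hcop
  have hfv : V.valuation f ≠ 0 := (map_ne_zero _).2 hf
  have hwv : V.valuation w ≠ 0 := by
    intro h0
    rw [h0, zero_pow hp.ne_zero] at h
    exact pow_ne_zero m hfv h.symm
  refine ⟨w ^ α * f ^ β, ?_⟩
  rw [map_mul, map_zpow₀, map_zpow₀, mul_pow, ← zpow_natCast, ← zpow_natCast, ← zpow_mul,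
    ← zpow_mul]
  have h1 : V.valuation w ^ (α * (p : ℤ)) = V.valuation f ^ (α * (m : ℤ)) := by
    rw [mul_comm α, mul_comm α, zpow_mul, zpow_mul, zpow_natCast, zpow_natCast, h]
  rw [h1, ← zpow_add₀ hfv, hαβ, zpow_one]

lemma isDivisible_of_curve {p : ℕ} [Fact p.Prime] [Algebra ℚ_[p] k] {r : ℕ} {A₀ A : Finset k}
    {t : K} {J : Type w} {m : J → k → ℕ} {c : J → k} {wf : J → K} {b' : k → k} {uf : k → K}
    (hcurve : OnCurve p A₀ m c t wf) (hcover : OnCover p r A₀ A b' t uf)
    (hbranch : IsBranch p A₀ m) (a : k) (ha : a ∈ A) :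
    IsDivisible p k (t - algebraMap k K a) := by
  classical
  have hpp : p.Prime := Fact.out
  intro V hV
  by_cases hta : t - algebraMap k K a = 0
  · exact ⟨0, by rw [hta, map_zero, zero_pow hpp.ne_zero]⟩
  have hprod : ∀ j, V.valuation (wf j) ^ p =
      ∏ a' ∈ A₀, V.valuation (t - algebraMap k K a') ^ m j a' := by
    intro j
    have h1 := congrArg V.valuation (hcurve j).2
    rw [map_mul, hV.val_const (hcurve j).1, one_mul, map_pow, map_prod] at h1
    rw [h1]
    exact Finset.prod_congr rfl (fun a' _ => map_pow _ _ _)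
  rcases le_or_gt (V.valuation t) 1 with hfin | hpole
  · have hle : V.valuation (t - algebraMap k K a) ≤ 1 :=
      (V.valuation.map_sub _ _).trans (max_le hfin (hV.val_const_le _))
    by_cases h1 : V.valuation (t - algebraMap k K a) = 1
    · exact ⟨1, by rw [h1, map_one, one_pow]⟩
    have hlt : V.valuation (t - algebraMap k K a) < 1 := lt_of_le_of_ne hle h1
    have hother : ∀ a' : k, a' ≠ a → V.valuation (t - algebraMap k K a') = 1 := by
      intro a' hne
      have hne' : a - a' ≠ 0 := sub_ne_zero.2 hne.symm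
      have h2 : t - algebraMap k K a' =
          (t - algebraMap k K a) + algebraMap k K (a - a') := by rw [map_sub]; ring
      rw [h2, Valuation.map_add_eq_of_lt_right, hV.val_const hne']
      rw [hV.val_const hne']; exact hlt
    by_cases ha0 : a ∈ A₀
    · obtain ⟨j, hj⟩ := hbranch.1 a ha0
      refine exists_pow_val hpp V _ (wf j) hta (m j a) hj ?_
      rw [hprod j, ← Finset.mul_prod_erase _ _ ha0, Finset.prod_eq_one, mul_one]
      intro a' ha'
      rw [hother a' (Finset.ne_of_mem_erase ha'), one_pow]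
    · obtain ⟨h2, -, h3⟩ := hcover a ha ha0
      refine ⟨uf a, ?_⟩
      rw [← h3, map_mul, hother _ h2, mul_one, map_pow]
  · have hval : ∀ a' : k, V.valuation (t - algebraMap k K a') = V.valuation t := by
      intro a'
      rw [Valuation.map_sub_eq_of_lt_left]
      exact lt_of_le_of_lt (hV.val_const_le _) hpole
    obtain ⟨j, hj⟩ := hbranch.2
    have ht0 : t ≠ 0 := by
      rintro rfl
      rw [map_zero] at hpole
      exact absurd hpole (not_lt.2 zero_le)
    rw [hval]
    refine exists_pow_val hpp V _ (wf j) ht0 _ hj ?_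
    rw [hprod j, Finset.prod_congr rfl (fun a' _ => by rw [hval a']), Finset.prod_pow_eq_pow_sum]

end divisible

section

variable {p : ℕ} [Fact p.Prime] {k : Type u} [Field k] [Algebra ℚ_[p] k]
  [FiniteDimensional ℚ_[p] k] {K : Type v} [Field K] [Algebra k K]

/-- the pattern of a section is the pattern of a point -/
theorem pattern {ζ : k} (hζ : IsPrimitiveRoot ζ p) (s : Section k K) {r : ℕ} {A₀ A : Finset k}
    (hA : IsFine p r A₀ A) (t : K) (ht : NonConst k t)
    (hdiv : ∀ a ∈ A, IsDivisible p k (t - algebraMap k K a)) :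
    ∃ (x : k → k) (y : k → maxUnr k K) (z : k),
      (∀ a ∈ A₀, x a ≠ 0 ∧ y a ≠ 0 ∧ (∀ σ, s.toHom σ (y a) = y a) ∧
        algebraMap K (maxUnr k K) (t - algebraMap k K a) =
          algebraMap k (maxUnr k K) (x a) * y a ^ p) ∧
      ∀ a ∈ A₀, z ≠ a ∧ clsm p (x a) = clsm p (z - a) := by
  classical
  have hpp : p.Prime := Fact.out
  have : CharZero k := charZero_of_injective_algebraMap (algebraMap ℚ_[p] k).injective
  have hs := s.isSection
  have B := base_top hs
  -- the trivial field extension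
  set F : IntermediateField K (AlgebraicClosure K) := ⊥ with hF
  have hkF : ∀ c : k, ((algebraMap k (maxUnr k K) c : maxUnr k K) : AlgebraicClosure K) ∈ F := by
    intro c
    exact IntermediateField.mem_bot.2 ⟨algebraMap k K c, rfl⟩
  have htF : ((algebraMap K (maxUnr k K) t : maxUnr k K) : AlgebraicClosure K) ∈ F :=
    IntermediateField.mem_bot.2 ⟨t, rfl⟩
  have hdiv' : ∀ a ∈ (A : Set k), IsDivisible p k
      ((⟨(algebraMap K (maxUnr k K) t : maxUnr k K), htF⟩ : F) - ⟨_, hkF a⟩) := by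
    intro a ha
    have h1 := (hdiv a ha).map_algebraMap (E := F)
    have h2 : algebraMap K F (t - algebraMap k K a) =
        ((⟨(algebraMap K (maxUnr k K) t : maxUnr k K), htF⟩ : F) - ⟨_, hkF a⟩) := by
      rw [map_sub]
      rfl
    rwa [h2] at h1
  obtain ⟨x, y, hxy, hrel⟩ := section_rel hs B hζ isFinUnr_bot hkF (algebraMap K (maxUnr k K) t)
    htF (fun σ _ => AlgEquiv.commutes _ _)
    (by
      intro c h
      apply ht c
      apply (algebraMap K (maxUnr k K)).injective
      rw [h, ← IsScalarTower.algebraMap_apply]) (A : Set k) hdiv'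
  obtain ⟨H, hH, hrig⟩ := rigid_padic hζ
  obtain ⟨z, hz⟩ := hrig r A₀ (A : Set k) (fun a ha => hA.subset ha) hA.bound hA.sep hA.dense
    (fun a => clsm p (x a)) (by
      intro a ha b hb c hc hba hca hcls
      have hxa := (hxy a ha).1
      have hxc := (hxy c hc).1
      have hba' : b - a ≠ 0 := sub_ne_zero.2 hba
      have hca' : c - a ≠ 0 := sub_ne_zero.2 hca
      have h1 : ∃ e, x a / (b - a) = e ^ p := by
        have h2 : clsm p (x a / (b - a)) = 0 := by
          have h3 := clsm_mul (p := p) (x a / (b - a)) (b - a) (div_ne_zero hxa hba') hba'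
          rw [div_mul_cancel₀ _ hba', hcls] at h3
          exact right_eq_add.1 h3
        exact (clsm_eq_zero hpp.ne_zero _ (div_ne_zero hxa hba')).1 h2
      have hdivcls : ∀ u v : k, u ≠ 0 → v ≠ 0 → clsm p (u / v) = clsm p u - clsm p v := by
        intro u v hu hv
        have h3 := clsm_mul (p := p) (u / v) v (div_ne_zero hu hv) hv
        rw [div_mul_cancel₀ _ hv] at h3
        rw [h3, add_sub_cancel_right]
      have h4 : clsm p (x a) - clsm p (c - a) = - clsm p ((c - a) / (b - a)) := by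
        rw [hdivcls _ _ hca' hba', hcls]
        abel
      have h5 : clsm p (x c) - clsm p (x a) = clsm p (x c / (b - a)) := by
        rw [hdivcls _ _ hxc hba', hcls]
      rw [h4, h5, map_neg, LinearMap.neg_apply, neg_eq_zero]
      rcases hrel a ha b hb c hc hba' hca' h1 with ⟨θ0, hθ0⟩ | ⟨f, hf⟩
      · have h6 : clsm p ((c - a) / (b - a)) = 0 :=
          (clsm_eq_zero hpp.ne_zero _ (div_ne_zero hca' hba')).2 ⟨θ0, hθ0⟩
        rw [h6, map_zero]
        rfl
      · exact hH _ _ f (div_ne_zero hca' hba') (div_ne_zero hxc hba') hf)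
  refine ⟨x, y, z, fun a ha => ?_, hz⟩
  obtain ⟨h1, h2, h3, h4⟩ := hxy a (hA.subset ha)
  refine ⟨h1, h2, fun σ => h3 σ trivial, ?_⟩
  rw [map_sub, ← IsScalarTower.algebraMap_apply, h4]

omit [FiniteDimensional ℚ_[p] k] in
/-- constants in relations -/
lemma exists_eta (s : Section k K) (A₀ : Finset k) (m : k → ℕ) (c : k)
    (hc : c ≠ 0) (w : K) (g : k → K) (x : k → k) (y : k → maxUnr k K)
    (hfix : ∀ a ∈ A₀, ∀ σ, s.toHom σ (y a) = y a)
    (hg : ∀ a ∈ A₀, algebraMap K (maxUnr k K) (g a) =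
      algebraMap k (maxUnr k K) (x a) * y a ^ p)
    (hy0 : ∀ a ∈ A₀, y a ≠ 0) (hw : algebraMap k K c * w ^ p = ∏ a ∈ A₀, g a ^ m a) :
    ∃ h : k, algebraMap K (maxUnr k K) w =
      algebraMap k (maxUnr k K) h * ∏ a ∈ A₀, y a ^ m a ∧ c * h ^ p = ∏ a ∈ A₀, x a ^ m a := by
  have hpp : p.Prime := Fact.out
  have : CharZero k := charZero_of_injective_algebraMap (algebraMap ℚ_[p] k).injective
  have B := base_top s.isSection
  set P : maxUnr k K := ∏ a ∈ A₀, y a ^ m a with hP
  have hP0 : P ≠ 0 := Finset.prod_ne_zero_iff.2 (fun a ha => pow_ne_zero _ (hy0 a ha))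
  have hcT : algebraMap k (maxUnr k K) c ≠ 0 := (map_ne_zero _).2 hc
  have h1 : algebraMap k (maxUnr k K) c * (algebraMap K (maxUnr k K) w) ^ p =
      algebraMap k (maxUnr k K) (∏ a ∈ A₀, x a ^ m a) * P ^ p := by
    have h2 := congrArg (algebraMap K (maxUnr k K)) hw
    rw [map_mul, map_pow, map_prod, ← IsScalarTower.algebraMap_apply] at h2
    rw [h2, hP, map_prod, ← Finset.prod_pow, ← Finset.prod_mul_distrib]
    refine Finset.prod_congr rfl (fun a ha => ?_)
    rw [map_pow, hg a ha, mul_pow, map_pow, ← pow_mul, ← pow_mul, mul_comm p]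
  set ρ : maxUnr k K := algebraMap K (maxUnr k K) w / P with hρ
  have hρ2 : ρ ^ p = algebraMap k (maxUnr k K) ((∏ a ∈ A₀, x a ^ m a) / c) := by
    rw [hρ, div_pow, map_div₀, div_eq_div_iff (pow_ne_zero p hP0) hcT]
    linear_combination h1
  obtain ⟨h, hh⟩ := B.ex ρ
    (isIntegral_of_pow' hpp.pos (by rw [hρ2]; exact isIntegral_algebraMap)) (by
      intro σ _
      rw [hρ, map_div₀, AlgEquiv.commutes, hP, map_prod]
      congr 1
      exact Finset.prod_congr rfl (fun a ha => by rw [map_pow, hfix a ha σ]))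
  refine ⟨h, ?_, ?_⟩
  · rw [hh, hρ, div_mul_cancel₀ _ hP0]
  · rw [← hh, ← map_pow] at hρ2
    have h3 := (algebraMap k (maxUnr k K)).injective hρ2
    rw [h3, mul_div_cancel₀ _ hc]

/-- a point with the pattern of the section -/
theorem looks_like (s : Section k K) {A₀ : Finset k} (t : K)
    (x : k → k) (y : k → maxUnr k K) (z : k)
    (hxy : ∀ a ∈ A₀, x a ≠ 0 ∧ y a ≠ 0 ∧ (∀ σ, s.toHom σ (y a) = y a) ∧
        algebraMap K (maxUnr k K) (t - algebraMap k K a) =
          algebraMap k (maxUnr k K) (x a) * y a ^ p)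
    (hz : ∀ a ∈ A₀, z ≠ a ∧ clsm p (x a) = clsm p (z - a))
    {J : Type w} (m : J → k → ℕ) (c : J → k) (wf : J → K) (hcurve : OnCurve p A₀ m c t wf) :
    ∃ (h : J → k) (y' : k → maxUnr k K),
      (∀ a ∈ A₀, (∀ σ, s.toHom σ (y' a) = y' a) ∧
        algebraMap K (maxUnr k K) (t - algebraMap k K a) =
          algebraMap k (maxUnr k K) (z - a) * y' a ^ p) ∧
      OnCurve p A₀ m c z h ∧
      ∀ j, algebraMap K (maxUnr k K) (wf j) =
        algebraMap k (maxUnr k K) (h j) * ∏ a ∈ A₀, y' a ^ m j a := by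
  classical
  have hpp : p.Prime := Fact.out
  have : CharZero k := charZero_of_injective_algebraMap (algebraMap ℚ_[p] k).injective
  have B := base_top s.isSection
  have h1 : ∀ a ∈ A₀, ∃ e : k, e ≠ 0 ∧ x a = (z - a) * e ^ p := by
    intro a ha
    obtain ⟨h2, h3⟩ := hz a ha
    have hza : z - a ≠ 0 := sub_ne_zero.2 h2
    have hxa := (hxy a ha).1
    have h4 : clsm p (x a / (z - a)) = 0 := by
      have h5 := clsm_mul (p := p) (x a / (z - a)) (z - a) (div_ne_zero hxa hza) hza
      rw [div_mul_cancel₀ _ hza, h3] at h5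
      exact right_eq_add.1 h5
    obtain ⟨e, he⟩ := (clsm_eq_zero hpp.ne_zero _ (div_ne_zero hxa hza)).1 h4
    refine ⟨e, ?_, ?_⟩
    · rintro rfl
      rw [zero_pow hpp.ne_zero] at he
      exact div_ne_zero hxa hza he
    · rw [← he, mul_div_cancel₀ _ hza]
  choose! e he0 he using h1
  have h2 : ∀ a ∈ A₀, algebraMap K (maxUnr k K) (t - algebraMap k K a) =
      algebraMap k (maxUnr k K) (z - a) * (algebraMap k (maxUnr k K) (e a) * y a) ^ p := by
    intro a ha
    rw [(hxy a ha).2.2.2]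
    conv_lhs => rw [he a ha]
    rw [map_mul, map_pow, mul_pow]
    ring
  have hfix : ∀ a ∈ A₀, ∀ σ, s.toHom σ (algebraMap k (maxUnr k K) (e a) * y a) =
      algebraMap k (maxUnr k K) (e a) * y a := by
    intro a ha σ
    rw [map_mul, B.fix _ σ trivial, (hxy a ha).2.2.1 σ]
  have h3 : ∀ j, ∃ h : k, algebraMap K (maxUnr k K) (wf j) =
      algebraMap k (maxUnr k K) h *
        ∏ a ∈ A₀, (algebraMap k (maxUnr k K) (e a) * y a) ^ m j a ∧
        c j * h ^ p = ∏ a ∈ A₀, (z - a) ^ m j a := by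
    intro j
    exact exists_eta s A₀ (m j) (c j) (hcurve j).1 (wf j) (fun a => t - algebraMap k K a)
      (fun a => z - a) (fun a => algebraMap k (maxUnr k K) (e a) * y a) hfix h2
      (fun a ha => mul_ne_zero ((map_ne_zero _).2 (he0 a ha)) (hxy a ha).2.1) (hcurve j).2
  choose h hh1 hh2 using h3
  exact ⟨h, fun a => algebraMap k (maxUnr k K) (e a) * y a, fun a ha => ⟨hfix a ha, h2 a ha⟩,
    fun j => ⟨(hcurve j).1, hh2 j⟩, hh1⟩

lemma emb_eq (f : K) (c : k) (y : maxUnr k K)
    (h : algebraMap K (maxUnr k K) f = algebraMap k (maxUnr k K) c * y) :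
    emb f = emb (algebraMap k K c) * (y : AlgebraicClosure K) :=
  congrArg (fun z : maxUnr k K => (z : AlgebraicClosure K)) h

theorem look_final {ζ : k} (hζ : IsPrimitiveRoot ζ p) :
    SectionsLookLikePoints.{u, v, w} p k K := by
  intro r A₀ A s t J m c wf hA ht hcurve hdiv
  have hdiv' : ∀ a ∈ A, IsDivisible p k (t - algebraMap k K a) := by
    rcases hdiv with h | ⟨hbranch, b', uf, hcover⟩
    · exact h
    · exact fun a ha => isDivisible_of_curve hcurve hcover hbranch a ha
  obtain ⟨x, y, z, hxy, hz⟩ := pattern hζ s hA t ht hdiv'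
  obtain ⟨h, y', hy', hh, hw⟩ := looks_like s t x y z hxy hz m c wf hcurve
  refine ⟨z, h, fun a => (y' a : AlgebraicClosure K), fun a ha =>
    ⟨(hz a ha).1, s.fixes_of _ (hy' a ha).1, ?_⟩, hh, fun j => ?_⟩
  · have := emb_eq _ _ _ (hy' a ha).2
    rw [this]; rfl
  · have := emb_eq _ _ _ (hw j)
    rw [this]
    congr 1
    exact map_prod (maxUnr k K).val (fun a => y' a ^ m j a) A₀

theorem place_final {ζ : k} (hζ : IsPrimitiveRoot ζ p) :
    SectionGivesPlace.{u, v, w} p k K := by
  classical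
  rintro r A₀ A t J m c wf b' uf hA ht hcurve hcover hbranch ⟨s⟩
  have hpp : p.Prime := Fact.out
  have : CharZero k := charZero_of_injective_algebraMap (algebraMap ℚ_[p] k).injective
  have ht' : NonConst k t := by
    intro z h
    apply ht
    rw [h]
    exact isAlgebraic_algebraMap z
  obtain ⟨x, y, z0, hxy, hz0⟩ := pattern hζ s hA t ht'
    (fun a ha => isDivisible_of_curve hcurve hcover hbranch a ha)
  obtain ⟨z, hz1, hz2⟩ := good_padic hζ r A₀ A hA.sep z0 (fun a ha => (hz0 a ha).1)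
  obtain ⟨h, y', -, hh, -⟩ := looks_like s t x y z hxy
    (fun a ha => ⟨(hz1 a ha).1, by rw [(hz0 a ha).2, (hz1 a ha).2]⟩) m c wf hcurve
  set E := IntermediateField.adjoin k
    ({t} ∪ (Set.range wf ∪ uf '' {b | b ∈ A ∧ b ∉ A₀}) : Set K) with hE
  have htE : t ∈ E := IntermediateField.subset_adjoin k _ (Or.inl rfl)
  have hwE : ∀ j, wf j ∈ E := fun j =>
    IntermediateField.subset_adjoin k _ (Or.inr (Or.inl ⟨j, rfl⟩))
  have huE : ∀ b, b ∈ A → b ∉ A₀ → uf b ∈ E := fun b hb hb0 =>
    IntermediateField.subset_adjoin k _ (Or.inr (Or.inr ⟨b, ⟨hb, hb0⟩, rfl⟩))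
  have htE' : Transcendental k (⟨t, htE⟩ : E) := by
    intro halg
    apply ht
    exact halg.algHom E.val
  refine exists_ratPlace hpp.pos hζ (⟨t, htE⟩ : E) htE'
    {e : E | (∃ j, (e : K) = wf j) ∨ ∃ b, b ∈ A ∧ b ∉ A₀ ∧ (e : K) = uf b} z ?_ ?_
  · rintro e (⟨j, hj⟩ | ⟨b, hb, hb0, hub⟩)
    · refine ⟨∏ a ∈ A₀, (Polynomial.X - Polynomial.C a) ^ m j a, Polynomial.C (c j),
        Polynomial.C_ne_zero.2 (hcurve j).1, ?_, ?_⟩
      · apply Subtype.ext
        have h1 : ∀ P : Polynomial k, ((Polynomial.aeval (⟨t, htE⟩ : E) P : E) : K) =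
            Polynomial.aeval t P := fun P =>
          (Polynomial.aeval_algHom_apply E.val (⟨t, htE⟩ : E) P).symm
        show ((Polynomial.aeval (⟨t, htE⟩ : E) (Polynomial.C (c j)) : E) : K) * (e : K) ^ p = _
        rw [h1, h1, hj, Polynomial.aeval_C, (hcurve j).2, map_prod]
        refine Finset.prod_congr rfl (fun a _ => ?_)
        rw [map_pow, map_sub, Polynomial.aeval_X, Polynomial.aeval_C]
      · exact exists_root_prod hpp.pos z (c j) (h j) A₀ (m j) (hcurve j).1
          (fun a ha => (hz1 a ha).1) (by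
            have := (hh j).2
            simpa using this)
    · obtain ⟨hbb, hbn, hbu⟩ := hcover b hb hb0
      obtain ⟨hzb, hzb2⟩ := hz2 b hb
      obtain ⟨hzb', g, -, hg⟩ := hzb2 (b' b) hbn
      refine ⟨Polynomial.X - Polynomial.C b, Polynomial.X - Polynomial.C (b' b),
        Polynomial.X_sub_C_ne_zero _, ?_, exists_root_quotient hpp.pos z b (b' b) g hzb hzb' hg⟩
      apply Subtype.ext
      have h1 : ∀ P : Polynomial k, ((Polynomial.aeval (⟨t, htE⟩ : E) P : E) : K) =
          Polynomial.aeval t P := fun P =>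
        (Polynomial.aeval_algHom_apply E.val (⟨t, htE⟩ : E) P).symm
      show ((Polynomial.aeval (⟨t, htE⟩ : E) (Polynomial.X - Polynomial.C (b' b)) : E) : K) *
        (e : K) ^ p = _
      rw [h1, h1, hub, map_sub, map_sub, Polynomial.aeval_X, Polynomial.aeval_C,
        Polynomial.aeval_C, ← hbu]
      ring
  · rw [eq_top_iff]
    rintro ⟨x, hx⟩ -
    have h1 : x ∈ (IntermediateField.adjoin k ({(⟨t, htE⟩ : E)} ∪
        {e : E | (∃ j, (e : K) = wf j) ∨ ∃ b, b ∈ A ∧ b ∉ A₀ ∧ (e : K) = uf b})).map E.val := by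
      have h2 : E ≤ (IntermediateField.adjoin k ({(⟨t, htE⟩ : E)} ∪
          {e : E | (∃ j, (e : K) = wf j) ∨ ∃ b, b ∈ A ∧ b ∉ A₀ ∧ (e : K) = uf b})).map E.val := by
        refine IntermediateField.adjoin_le_iff.2 ?_
        rintro x (hx | ⟨j, rfl⟩ | ⟨b, ⟨hb, hb0⟩, rfl⟩)
        · rw [Set.mem_singleton_iff] at hx
          rw [hx]
          exact ⟨⟨t, htE⟩, IntermediateField.subset_adjoin k _ (Or.inl rfl), rfl⟩
        · exact ⟨⟨wf j, hwE j⟩, IntermediateField.subset_adjoin k _ (Or.inr (Or.inl ⟨j, rfl⟩)),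
            rfl⟩
        · exact ⟨⟨uf b, huE b hb hb0⟩,
            IntermediateField.subset_adjoin k _ (Or.inr (Or.inr ⟨b, hb, hb0, rfl⟩)), rfl⟩
      exact h2 hx
    obtain ⟨e, he, hex⟩ := h1
    have h2 : e = ⟨x, hx⟩ := Subtype.ext hex
    rw [← h2]
    exact he

end

end P025H641
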