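import Mathlib

/-! # Limits of maps to a finite set -/

namespace P025H641

universe u v

open Filter

/-- limits along an ultrafilter on the finite subsets -/
lemma exists_limit {α : Type u} {C : Type v} [Finite C] (Q : Finset α → (α → C) → Prop)
    (h : ∀ S, ∃ χ, Q S χ) :
    ∃ χ : α → C, ∀ T S : Finset α, ∃ (S' : Finset α) (χ' : α → C), S ⊆ S' ∧ Q S' χ' ∧
      ∀ f ∈ T, χ' f = χ f := by
  classical
  choose χ hχ using h
  set U : Ultrafilter (Finset α) := Ultrafilter.of Filter.atTop with hU
  have hUle : (U : Filter (Finset α)) ≤ Filter.atTop := Ultrafilter.of_le _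
  have hlim : ∀ f : α, ∃ c : C, ∀ᶠ S in (U : Filter (Finset α)), χ S f = c := by
    intro f
    have h1 := Ultrafilter.eq_pure_of_finite (U.map (fun S => χ S f))
    obtain ⟨c, hc⟩ := h1
    refine ⟨c, ?_⟩
    have h2 : {c} ∈ U.map (fun S => χ S f) := by
      rw [hc]
      exact Set.mem_singleton c
    exact h2
  choose l hl using hlim
  refine ⟨l, fun T S => ?_⟩
  have h1 : ∀ᶠ S' in (U : Filter (Finset α)), ∀ f ∈ T, χ S' f = l f := by
    rw [Filter.eventually_all_finset]
    exact fun f _ => hl f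
  have h2 : ∀ᶠ S' in (U : Filter (Finset α)), S ⊆ S' :=
    (Filter.eventually_ge_atTop S).filter_mono hUle
  obtain ⟨S', h3, h4⟩ := (h1.and h2).exists
  exact ⟨S', χ S', h4, hχ S', h3⟩

end P025H641
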