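import Vale.Agent.P025.H641.Attach
import Vale.Agent.P025.H16.Dvr
import Vale.Agent.P025.H641.Limit
import Vale.Agent.P025.H641.Final

/-! # Sections over sufficiently ramified covers of an arbitrary curve -/

open IntermediateField

namespace P025H641

universe u v w

/-- `E` is a function field of one variable over `k` -/
def IsFunctionField (k : Type u) (E : Type v) [Field k] [Field E] [Algebra k E] : Prop :=
  ∃ t : E, Transcendental k t ∧ FiniteDimensional k⟮t⟯ E

theorem IsFunctionField.dvr {k : Type u} {E : Type v} [Field k] [CharZero k] [Field E]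
    [Algebra k E] (hE : IsFunctionField k E) (V : ValuationSubring E)
    (hk : ∀ c, algebraMap k E c ∈ V) (hV : V ≠ ⊤) : IsDiscreteValuationRing V := by
  obtain ⟨t, -, hfin⟩ := hE
  exact P025H16.dvr_of_funField t V hk hV

/-- The section `s` of `K / k` looks like the place `V` of the subfield `E` on the elements
of `S`: every `f` in `S` which takes a value `c ≠ 0` at `V` is `c y ^ p` with `y` fixed by `s`. -/
def LooksLikePlace (p : ℕ) {k : Type u} {K : Type w} [Field k] [Field K] [Algebra k K]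
    (s : Section k K) {E : Type v} [Field E] [Algebra k E] [Algebra E K] (S : Finset E)
    (V : ValuationSubring E) : Prop :=
  ∀ f ∈ S, ∀ c : k, c ≠ 0 → V.valuation (f - algebraMap k E c) < 1 →
    ∃ y, s.Fixes y ∧ emb (algebraMap E K f) = emb (algebraMap k K c) * y ^ p

section

variable {p : ℕ} [Fact p.Prime] {k : Type u} [Field k] [Algebra ℚ_[p] k]
  [FiniteDimensional ℚ_[p] k]

theorem every_curve {ζ : k} (hζ : IsPrimitiveRoot ζ p) {E : Type v} [Field E] [Algebra k E]
    (hE : IsFunctionField k E) (S₀ : Finset E) :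
    ∃ S : Finset E, ∀ (K : Type w) [Field K] [Algebra k K] [Algebra E K] [IsScalarTower k E K]
      (s : Section k K), (∀ f ∈ S, IsDivisible p k (algebraMap E K f)) →
      ∃ V : ValuationSubring E, IsRatPlace k E V ∧ LooksLikePlace p s S₀ V := by
  classical
  have hpp : p.Prime := Fact.out
  have : CharZero k := charZero_of_injective_algebraMap (algebraMap ℚ_[p] k).injective
  have hfinC := finite_Cl hζ
  by_contra hcon
  push Not at hcon
  -- the finite level class maps
  obtain ⟨χ, hχ⟩ := exists_limit (α := E) (C := Cl p k)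
    (fun S χ => (∀ f ∈ S, ∀ g ∈ S, f ≠ 0 → g ≠ 0 → χ (f * g) = χ f + χ g) ∧
      (∀ c : k, c ≠ 0 → χ (algebraMap k E c) = clsm p c) ∧
      (∀ f, f ∉ Set.range (algebraMap k E) → ∀ (r : ℕ) (A₀ A : Finset k), IsFine p r A₀ A →
        (∀ a ∈ A, f - algebraMap k E a ∈ S) →
          ∃ z, ∀ a ∈ A₀, z ≠ a ∧ χ (f - algebraMap k E a) = clsm p (z - a)) ∧
      ∀ V : ValuationSubring E, IsRatPlace k E V → ∃ f ∈ S₀, ∃ c : k, c ≠ 0 ∧
        V.valuation (f - algebraMap k E c) < 1 ∧ (f ∈ S → χ f ≠ clsm p c)) (by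
    intro S
    obtain ⟨K, _, _, _, _, s, hdiv, hbad⟩ := hcon S
    have hs := s.isSection
    have B := base_top hs
    set ι : E → maxUnr k K := fun f => algebraMap K (maxUnr k K) (algebraMap E K f) with hι
    have hιc : ∀ c : k, ι (algebraMap k E c) = algebraMap k (maxUnr k K) c := by
      intro c
      rw [hι]
      simp only
      rw [← IsScalarTower.algebraMap_apply k E K, ← IsScalarTower.algebraMap_apply]
    have hιinj : ∀ f g, ι f = ι g → f = g := fun f g h =>
      (algebraMap E K).injective ((algebraMap K (maxUnr k K)).injective h)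
    have hι0 : ∀ f, f ≠ 0 → ι f ≠ 0 := fun f hf =>
      (_root_.map_ne_zero _).2 ((_root_.map_ne_zero _).2 hf)
    have hιmul : ∀ f g, ι (f * g) = ι f * ι g := fun f g => by
      rw [hι]; simp only [map_mul]
    have hιsub : ∀ f g, ι (f - g) = ι f - ι g := fun f g => by
      rw [hι]; simp only [map_sub]
    have hιF : ∀ f, (ι f : AlgebraicClosure K) ∈ (⊥ : IntermediateField K (AlgebraicClosure K)) :=
      fun f => IntermediateField.mem_bot.2 ⟨algebraMap E K f, rfl⟩
    have hιG : ∀ f, ∀ σ ∈ (⊤ : Subgroup Gal(constClosure k K/k)), s.toHom σ (ι f) = ι f :=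
      fun f σ _ => AlgEquiv.commutes _ _
    have hιdiv : ∀ f, IsDivisible p k (algebraMap E K f) →
        IsDivisible p k (⟨ι f, hιF f⟩ : (⊥ : IntermediateField K (AlgebraicClosure K))) := by
      intro f hf
      exact hf.map_algebraMap (E := (⊥ : IntermediateField K (AlgebraicClosure K)))
    have hhas : ∀ f, f ≠ 0 → IsDivisible p k (algebraMap E K f) →
        ∃ x : k, Has s.toHom ⊤ p (ι f) x := fun f hf0 hf =>
      exists_has hs B hζ isFinUnr_bot (ι f) (hιF f) (hι0 f hf0) (hιG f) (hιdiv f hf)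
    refine ⟨fun f => chiS s.toHom ⊤ p k (ι f), ?_, ?_, ?_, ?_⟩
    · intro f hf g hg hf0 hg0
      obtain ⟨x, hx⟩ := hhas f hf0 (hdiv f hf)
      obtain ⟨x', hx'⟩ := hhas g hg0 (hdiv g hg)
      beta_reduce
      rw [chiS_eq B hpp.pos hx, chiS_eq B hpp.pos hx', hιmul, chiS_eq B hpp.pos (hx.mul hx'),
        clsm_mul _ _ hx.1 hx'.1]
    · intro c hc
      beta_reduce
      rw [hιc]
      exact chiS_eq B hpp.pos (has_const c hc)
    · intro f hf r A₀ A hA hfS
      have hιf : ∀ c : k, ι f ≠ algebraMap k (maxUnr k K) c := by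
        intro c h
        rw [← hιc] at h
        exact hf ⟨c, (hιinj _ _ h).symm⟩
      have hkF : ∀ c : k, ((algebraMap k (maxUnr k K) c : maxUnr k K) : AlgebraicClosure K) ∈
          (⊥ : IntermediateField K (AlgebraicClosure K)) := by
        intro c
        rw [← hιc]
        exact hιF _
      obtain ⟨z, hz⟩ := pattern_gen hs B hζ isFinUnr_bot hkF (ι f) (hιF f) (hιG f) hιf hA (by
        intro a ha
        have h1 := hιdiv _ (hdiv _ (hfS a ha))
        have h2 : (⟨ι (f - algebraMap k E a), hιF _⟩ :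
            (⊥ : IntermediateField K (AlgebraicClosure K))) =
            ⟨ι f, hιF f⟩ - ⟨_, hkF a⟩ := by
          apply Subtype.ext
          have h3 := congrArg (fun z : maxUnr k K => (z : AlgebraicClosure K))
            ((hιsub f (algebraMap k E a)).trans (by rw [hιc]))
          exact h3
        rwa [h2] at h1)
      refine ⟨z, fun a ha => ⟨(hz a ha).1, ?_⟩⟩
      obtain ⟨x, hx, hxc⟩ := (hz a ha).2
      beta_reduce
      rw [← hxc, hιsub, hιc]
      exact chiS_eq B hpp.pos hx
    · intro V hV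
      have h1 := hbad V hV
      unfold LooksLikePlace at h1
      push Not at h1
      obtain ⟨f, hf, c, hc, hlt, hno⟩ := h1
      refine ⟨f, hf, c, hc, hlt, fun hfS hcls => ?_⟩
      have hf0 : f ≠ 0 := by
        rintro rfl
        rw [zero_sub, Valuation.map_neg, hV.toIsPlace.val_const hc] at hlt
        exact lt_irrefl _ hlt
      obtain ⟨x, hx⟩ := hhas f hf0 (hdiv f hfS)
      obtain ⟨-, y, -, hyG, hy⟩ := has_of_chiS B hpp.pos hx hc hcls
      refine hno (y : AlgebraicClosure K) (s.fixes_of _ (fun σ => hyG σ trivial)) ?_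
      exact congrArg (fun z : maxUnr k K => (z : AlgebraicClosure K)) hy)
  -- the limit
  have hmul : ∀ f g, f ≠ 0 → g ≠ 0 → χ (f * g) = χ f + χ g := by
    intro f g hf hg
    obtain ⟨S', χ', hS, ⟨h1, -, -, -⟩, hagree⟩ := hχ {f, g, f * g} {f, g}
    rw [← hagree f (by simp), ← hagree g (by simp), ← hagree (f * g) (by simp)]
    exact h1 f (hS (by simp)) g (hS (by simp)) hf hg
  have hconst : ∀ c : k, c ≠ 0 → χ (algebraMap k E c) = clsm p c := by
    intro c hc
    obtain ⟨S', χ', hS, ⟨-, h1, -, -⟩, hagree⟩ := hχ {algebraMap k E c} ∅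
    rw [← hagree _ (by simp)]
    exact h1 c hc
  have hpat : ∀ f, f ∉ Set.range (algebraMap k E) → ∀ A₀ : Finset k, ∃ z, ∀ a ∈ A₀, z ≠ a ∧
      χ (f - algebraMap k E a) = clsm p (z - a) := by
    intro f hf A₀
    obtain ⟨r, A, hA⟩ := exists_fine (p := p) A₀
    obtain ⟨S', χ', hS, ⟨-, -, h1, -⟩, hagree⟩ :=
      hχ (A₀.image (fun a => f - algebraMap k E a)) (A.image (fun a => f - algebraMap k E a))
    obtain ⟨z, hz⟩ := h1 f hf r A₀ A hA (fun a ha => hS (Finset.mem_image_of_mem _ ha))
    refine ⟨z, fun a ha => ⟨(hz a ha).1, ?_⟩⟩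
    rw [← hagree _ (Finset.mem_image_of_mem _ ha)]
    exact (hz a ha).2
  obtain ⟨V, hVk, hVres, hVχ⟩ := place_of_chi hζ χ hmul hconst hpat
  have hVtop : V ≠ ⊤ := by
    rintro rfl
    obtain ⟨t, ht, -⟩ := hE
    obtain ⟨z, hz⟩ := hVres t (ValuationSubring.mem_top _)
    have h0 : t - algebraMap k E z ≠ 0 := by
      intro h0
      rw [sub_eq_zero.1 h0] at ht
      exact ht (isAlgebraic_algebraMap z)
    have h1 : (⊤ : ValuationSubring E).valuation (t - algebraMap k E z)⁻¹ ≤ 1 :=
      ((⊤ : ValuationSubring E).valuation_le_one_iff _).2 (ValuationSubring.mem_top _)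
    have h2 : (⊤ : ValuationSubring E).valuation (t - algebraMap k E z) *
        (⊤ : ValuationSubring E).valuation (t - algebraMap k E z)⁻¹ = 1 := by
      rw [← map_mul, mul_inv_cancel₀ h0, map_one]
    exact absurd h2 (mul_lt_one_of_lt_of_le hz h1).ne
  have hV : IsRatPlace k E V := ⟨⟨hVk, hE.dvr V hVk hVtop⟩, hVres⟩
  obtain ⟨S', χ', hS, ⟨-, -, -, h1⟩, hagree⟩ := hχ S₀ S₀
  obtain ⟨f, hf, c, hc, hlt, hne⟩ := h1 V hV
  apply hne (hS hf)
  rw [hagree f hf]
  have h2 := (hVχ f c).1 hlt 0 hc.symm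
  rwa [map_zero, sub_zero, sub_zero] at h2

end

end P025H641
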