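import Vale.Agent.P025.H641.Pow

/-! # The residue field and the top level -/

namespace P025H641

universe u

variable {k : Type u} [NontriviallyNormedField k] [IsUltrametricDist k]

/-- the residue field -/
abbrev kap (k : Type u) [NontriviallyNormedField k] [IsUltrametricDist k] : Type u :=
  IsLocalRing.ResidueField (vring k)

open Classical in
/-- the residue map -/
noncomputable def rs (a : k) : kap k :=
  if h : a ∈ vring k then IsLocalRing.residue (vring k) ⟨a, h⟩ else 0

lemma rs_eq (a : k) (h : ‖a‖ ≤ 1) :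
    rs a = IsLocalRing.residue (vring k) ⟨a, (mem_vring a).2 h⟩ := by
  rw [rs, dif_pos]

lemma rs_add (a b : k) (ha : ‖a‖ ≤ 1) (hb : ‖b‖ ≤ 1) : rs (a + b) = rs a + rs b := by
  rw [rs_eq a ha, rs_eq b hb, rs_eq (a + b) ((norm_add_le_max' a b).trans (max_le ha hb)),
    ← map_add]
  rfl

lemma rs_mul (a b : k) (ha : ‖a‖ ≤ 1) (hb : ‖b‖ ≤ 1) : rs (a * b) = rs a * rs b := by
  have hab : ‖a * b‖ ≤ 1 := by rw [norm_mul]; exact mul_le_one₀ ha (norm_nonneg _) hb
  rw [rs_eq a ha, rs_eq b hb, rs_eq (a * b) hab, ← map_mul]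
  rfl

lemma rs_pow (a : k) (ha : ‖a‖ ≤ 1) (n : ℕ) : rs (a ^ n) = rs a ^ n := by
  have hab : ‖a ^ n‖ ≤ 1 := by rw [norm_pow]; exact pow_le_one₀ (norm_nonneg _) ha
  rw [rs_eq a ha, rs_eq (a ^ n) hab, ← map_pow]
  rfl

lemma rs_one : rs (1 : k) = 1 := by
  rw [rs_eq 1 (by simp), ← map_one (IsLocalRing.residue (vring k))]
  rfl

lemma isUnit_vring (a : k) (ha : ‖a‖ ≤ 1) :
    IsUnit (⟨a, (mem_vring a).2 ha⟩ : vring k) ↔ ‖a‖ = 1 := by
  constructor
  · rintro ⟨u, hu⟩
    have h1 : (u : vring k) * (u⁻¹ : (vring k)ˣ) = 1 := Units.mul_inv u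
    have h2 := congrArg (fun x : vring k => ‖(x : k)‖) h1
    simp only [MulMemClass.coe_mul, OneMemClass.coe_one, norm_one, norm_mul] at h2
    have h3 : ‖((u : vring k) : k)‖ = ‖a‖ := by rw [hu]
    rw [h3] at h2
    have h4 : ‖(((u⁻¹ : (vring k)ˣ) : vring k) : k)‖ ≤ 1 := (mem_vring _).1 (SetLike.coe_mem _)
    apply le_antisymm ha
    by_contra h5
    push Not at h5
    have : ‖a‖ * ‖(((u⁻¹ : (vring k)ˣ) : vring k) : k)‖ < 1 :=
      mul_lt_one_of_nonneg_of_lt_one_left (norm_nonneg _) h5 h4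
    exact this.ne h2
  · intro h
    have ha0 : a ≠ 0 := by rintro rfl; rw [norm_zero] at h; exact zero_ne_one h
    have h1 : ‖a⁻¹‖ ≤ 1 := by rw [norm_inv, h, inv_one]
    refine ⟨⟨⟨a, (mem_vring a).2 ha⟩, ⟨a⁻¹, (mem_vring _).2 h1⟩, ?_, ?_⟩, rfl⟩
    · apply Subtype.ext; exact mul_inv_cancel₀ ha0
    · apply Subtype.ext; exact inv_mul_cancel₀ ha0

lemma rs_eq_zero_iff (a : k) (ha : ‖a‖ ≤ 1) : rs a = 0 ↔ ‖a‖ < 1 := by
  rw [rs_eq a ha, IsLocalRing.residue_eq_zero_iff, IsLocalRing.mem_maximalIdeal, mem_nonunits_iff,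
    isUnit_vring a ha]
  exact ⟨fun h => lt_of_le_of_ne ha h, fun h => h.ne⟩

lemma rs_surj (v : kap k) : ∃ a : k, ‖a‖ ≤ 1 ∧ rs a = v := by
  obtain ⟨a, rfl⟩ := IsLocalRing.residue_surjective v
  exact ⟨a, (mem_vring _).1 a.2, by rw [rs_eq _ ((mem_vring _).1 a.2)]⟩

variable [ProperSpace k]

instance : Finite (kap k) := by
  classical
  obtain ⟨T, hT⟩ := finite_residues (k := k) 1
  have h : Function.Surjective (fun t : T => rs (t : k)) := by
    intro v
    obtain ⟨a, ha, rfl⟩ := rs_surj v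
    obtain ⟨t, ht, ht1, c, hc, h1⟩ := hT a ha
    refine ⟨⟨t, ht⟩, ?_⟩
    have h2 : ‖unif k ^ 1 * c‖ < 1 := unif_mul_norm 1 one_pos c hc
    simp only
    rw [h1, rs_add _ _ ht1 h2.le, (rs_eq_zero_iff _ h2.le).2 h2, add_zero]
  exact Finite.of_surjective _ h

/-- surjectivity of an additive functional with prescribed kernel -/
lemma exists_functional {F M : Type*} [Field F] [AddCommGroup M] [Module F M]
    [FiniteDimensional F M] (f : M →ₗ[F] M) (h0 : ∃ x, x ≠ 0 ∧ f x = 0)
    (h1 : Module.finrank F (LinearMap.ker f) ≤ 1) :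
    ∃ τ : M →ₗ[F] F, (∃ a, τ a = 1) ∧ (∀ x, τ x = 0 → ∃ y, x = f y) ∧ ∀ y, τ (f y) = 0 := by
  have h2 := LinearMap.finrank_range_add_finrank_ker f
  have hker : LinearMap.ker f ≠ ⊥ := by
    obtain ⟨x, hx, hfx⟩ := h0
    intro h
    apply hx
    have : x ∈ LinearMap.ker f := hfx
    rwa [h, Submodule.mem_bot] at this
  have hpos : 0 < Module.finrank F (LinearMap.ker f) := by
    rw [Nat.pos_iff_ne_zero, Ne, Submodule.finrank_eq_zero]
    exact hker
  have hrange : LinearMap.range f < ⊤ := by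
    apply lt_top_iff_ne_top.2
    intro h
    rw [h, finrank_top] at h2
    omega
  obtain ⟨τ, hτ0, hτ⟩ := Submodule.exists_le_ker_of_lt_top _ hrange
  have hsurj : LinearMap.range τ = ⊤ := LinearMap.range_eq_top.2 (LinearMap.surjective hτ0)
  have h3 := LinearMap.finrank_range_add_finrank_ker τ
  rw [hsurj, finrank_top, Module.finrank_self] at h3
  have h4 : LinearMap.range f = LinearMap.ker τ :=
    Submodule.eq_of_le_of_finrank_le hτ (by omega)
  refine ⟨τ, LinearMap.surjective hτ0 1, fun x hx => ?_, fun y => hτ ⟨y, rfl⟩⟩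
  have : x ∈ LinearMap.range f := by rw [h4]; exact hx
  obtain ⟨y, hy⟩ := this
  exact ⟨y, hy.symm⟩

namespace Ram

variable {p : ℕ} [Fact p.Prime] (R : Ram k p)

include R

lemma charP_kap : CharP (kap k) p := by
  have h1 := R.norm_p
  have h2 : ((p : ℕ) : kap k) = 0 := by
    have h3 : rs (p : k) = ((p : ℕ) : kap k) := by
      rw [rs_eq _ h1.le, ← map_natCast (IsLocalRing.residue (vring k)) p]
      rfl
    rw [← h3, rs_eq_zero_iff _ h1.le]
    exact h1
  exact (CharP.charP_iff_prime_eq_zero (Fact.out : p.Prime)).2 h2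

/-- a nonzero root of `y ^ p + ε y` -/
lemma rs_y : rs R.y ≠ 0 ∧ rs R.y ^ p + rs R.ε * rs R.y = 0 := by
  have hεn := R.norm_ε
  obtain ⟨r, hr, h1⟩ := R.as_level R.y R.norm_y.le
  rw [R.pow_eq] at h1
  have hπ : (unif k) ^ (p * R.e) ≠ 0 := pow_ne_zero _ unif_ne
  have h2 : R.y ^ p + R.ε * R.y + unif k ^ R.e * r = 0 := by
    have h3 : unif k ^ (p * R.e) * (R.y ^ p + R.ε * R.y + unif k ^ R.e * r) = 0 := by
      linear_combination -h1
    exact (mul_eq_zero.1 h3).resolve_left hπ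
  refine ⟨?_, ?_⟩
  · intro h
    rw [rs_eq_zero_iff _ R.norm_y.le, R.norm_y] at h
    exact lt_irrefl _ h
  · rw [← rs_pow _ R.norm_y.le, ← rs_mul _ _ hεn.le R.norm_y.le,
      ← rs_add _ _ (norm_pow_le_one R.norm_y.le p) (norm_mul_le_one hεn.le R.norm_y.le)]
    have h3 : R.y ^ p + R.ε * R.y = -(unif k ^ R.e * r) := by linear_combination h2
    have h4 : ‖-(unif k ^ R.e * r)‖ < 1 := by
      rw [norm_neg]; exact unif_mul_norm _ R.pos r hr
    rw [h3]
    exact (rs_eq_zero_iff _ h4.le).2 h4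

/-- A functional on the residue field whose kernel is the image of `y ^ p + ε y`. -/
lemma exists_τ : ∃ τ : kap k → ZMod p, (∀ a b, τ (a + b) = τ a + τ b) ∧ (∃ a, τ a = 1) ∧
    (∀ x, τ x = 0 → ∃ y, x = y ^ p + rs R.ε * y) ∧ ∀ y, τ (y ^ p + rs R.ε * y) = 0 := by
  have := R.charP_kap
  let _ : Algebra (ZMod p) (kap k) := ZMod.algebra (kap k) p
  have hpp : p.Prime := Fact.out
  let f : kap k →+ kap k :=
    { toFun := fun y => y ^ p + rs R.ε * y
      map_zero' := by rw [zero_pow hpp.ne_zero]; ring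
      map_add' := by
        intro a b
        rw [add_pow_char]; ring }
  let F : kap k →ₗ[ZMod p] kap k := f.toZModLinearMap p
  have hF : ∀ y, F y = y ^ p + rs R.ε * y := fun y => rfl
  obtain ⟨hy0, hFy'⟩ := R.rs_y
  have hFy : F (rs R.y) = 0 := hFy'
  -- the kernel has at most `p` elements
  have hcard : Module.finrank (ZMod p) (LinearMap.ker F) ≤ 1 := by
    classical
    let _ : Fintype (kap k) := Fintype.ofFinite _
    have h3 : Nat.card (LinearMap.ker F) ≤ p := by
      set P : Polynomial (kap k) := Polynomial.X ^ p + Polynomial.C (rs R.ε) * Polynomial.X with hP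
      have hPdeg : P.natDegree = p := by
        rw [hP]
        have h1p : ¬ (p = 1) := hpp.one_lt.ne'
        have h1p' : 1 ≤ p := hpp.one_lt.le
        compute_degree!
        all_goals first
          | exact h1p'
          | simp [h1p]
      have hP0 : P ≠ 0 := by
        intro h
        rw [h, Polynomial.natDegree_zero] at hPdeg
        exact hpp.ne_zero hPdeg.symm
      have h4 : ∀ x : LinearMap.ker F, (x : kap k) ∈ P.roots.toFinset := by
        intro x
        rw [Multiset.mem_toFinset, Polynomial.mem_roots hP0, Polynomial.IsRoot, hP]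
        have h5 : F x = 0 := x.2
        rw [hF] at h5
        simpa using h5
      have h5 : Nat.card (LinearMap.ker F) ≤ Nat.card P.roots.toFinset :=
        Nat.card_le_card_of_injective (fun x : LinearMap.ker F => (⟨x, h4 x⟩ : P.roots.toFinset))
          (fun a b h => Subtype.ext (by simpa using h))
      refine h5.trans ?_
      rw [Nat.card_eq_fintype_card, Fintype.card_coe, ← hPdeg]
      exact (Multiset.toFinset_card_le _).trans (Polynomial.card_roots' P)
    have h6 : Nat.card (LinearMap.ker F) = p ^ Module.finrank (ZMod p) (LinearMap.ker F) := by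
      rw [Module.natCard_eq_pow_finrank (K := ZMod p), Nat.card_zmod]
    rw [h6] at h3
    by_contra h7
    push Not at h7
    have h8 : p ^ 2 ≤ p ^ Module.finrank (ZMod p) (LinearMap.ker F) :=
      Nat.pow_le_pow_right hpp.pos h7
    have h9 := hpp.two_le
    have h10 : p ^ 2 = p * p := sq p
    have : p * 2 ≤ p * p := Nat.mul_le_mul_left p h9
    omega
  obtain ⟨τ, h3, h4, h5⟩ := exists_functional F ⟨rs R.y, hy0, hFy⟩ hcard
  exact ⟨τ, fun a b => map_add τ a b, h3, fun x hx => h4 x hx, h5⟩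

end Ram

end P025H641
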