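import Mathlib

/-! # Irreducibility of Artin-Schreier polynomials -/

namespace P025H641

universe u

open Polynomial

lemma as_irreducible {κ : Type u} [Field κ] (p : ℕ) [Fact p.Prime] [CharP κ p] (ε y1 a : κ)
    (hy1 : y1 ≠ 0) (h1 : y1 ^ p + ε * y1 = 0) (ha : ∀ y : κ, y ^ p + ε * y ≠ a) :
    Irreducible (X ^ p + C ε * X - C a : κ[X]) := by
  classical
  have hpp : p.Prime := Fact.out
  set g : κ[X] := X ^ p + C ε * X - C a with hg
  have hdeg : g.natDegree = p := by
    rw [hg]
    have h1p : ¬ (p = 1) := hpp.one_lt.ne'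
    have h1p' : 1 ≤ p := hpp.one_lt.le
    have h0p : ¬ (p = 0) := hpp.ne_zero
    compute_degree!
    all_goals first
      | exact h1p'
      | simp [h1p, h0p]
  have hg0 : g ≠ 0 := by
    intro h; rw [h, natDegree_zero] at hdeg; exact hpp.ne_zero hdeg.symm
  have hgu : ¬ IsUnit g := by
    intro h
    have h3 := natDegree_eq_zero_of_isUnit h
    rw [hdeg] at h3
    exact hpp.ne_zero h3
  obtain ⟨h, hirr, hdvd⟩ := WfDvdMonoid.exists_irreducible_factor hgu hg0
  obtain ⟨q, hq⟩ := hdvd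
  have hh0 : h ≠ 0 := hirr.ne_zero
  have hq0 : q ≠ 0 := by rintro rfl; rw [mul_zero] at hq; exact hg0 hq
  have hdeg2 : h.natDegree + q.natDegree = p := by
    rw [← natDegree_mul hh0 hq0, ← hq, hdeg]
  -- it suffices that `h` has degree `p`
  suffices hhp : h.natDegree = p by
    have hq1 : q.natDegree = 0 := by omega
    rw [natDegree_eq_zero] at hq1
    obtain ⟨c, rfl⟩ := hq1
    have hc : c ≠ 0 := by rintro rfl; rw [C_0] at hq0; exact hq0 rfl
    rw [hq]
    exact (irreducible_mul_isUnit (isUnit_C.2 (isUnit_iff_ne_zero.2 hc))).2 hirr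
  by_contra hne
  have hlt : h.natDegree < p := by omega
  have hpos : 0 < h.natDegree := hirr.natDegree_pos
  -- roots
  let Ω := AlgebraicClosure κ
  have hcharΩ : CharP Ω p := charP_of_injective_algebraMap (algebraMap κ Ω).injective p
  have hroots : ∀ ρ : Ω, aeval ρ h = 0 → ρ ^ p + algebraMap κ Ω ε * ρ = algebraMap κ Ω a := by
    intro ρ hρ
    have h2 : aeval ρ g = 0 := by rw [hq, map_mul, hρ, zero_mul]
    rw [hg] at h2
    simp only [map_sub, map_add, map_pow, map_mul, aeval_X, aeval_C] at h2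
    linear_combination h2
  obtain ⟨z, hz⟩ := IsAlgClosed.exists_aeval_eq_zero Ω h (by
    rw [Ne, degree_eq_natDegree hh0]
    exact_mod_cast hpos.ne')
  have hz' := hroots z hz
  -- differences of roots are constants
  have hdiff : ∀ ρ : Ω, aeval ρ h = 0 → ∃ c : κ, ρ = z + algebraMap κ Ω c := by
    intro ρ hρ
    have hρ' := hroots ρ hρ
    have hy1Ω : algebraMap κ Ω y1 ≠ 0 := (_root_.map_ne_zero _).2 hy1
    have h3 : (ρ - z) ^ p + algebraMap κ Ω ε * (ρ - z) = 0 := by
      rw [sub_pow_char]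
      linear_combination hρ' - hz'
    have h4 : (algebraMap κ Ω y1) ^ p + algebraMap κ Ω ε * algebraMap κ Ω y1 = 0 := by
      rw [← map_pow, ← map_mul, ← map_add, h1, map_zero]
    have h5 : ((ρ - z) / algebraMap κ Ω y1) ^ p = (ρ - z) / algebraMap κ Ω y1 := by
      rw [div_pow, div_eq_div_iff (pow_ne_zero p hy1Ω) hy1Ω]
      linear_combination algebraMap κ Ω y1 * h3 - (ρ - z) * h4
    have h6 := (Subfield.mem_bot_iff_pow_eq_self (F := Ω) (p := p)).2 h5
    have h7 : (ρ - z) / algebraMap κ Ω y1 ∈ (algebraMap κ Ω).fieldRange :=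
      (bot_le : (⊥ : Subfield Ω) ≤ (algebraMap κ Ω).fieldRange) h6
    obtain ⟨c, hc⟩ := h7
    refine ⟨c * y1, ?_⟩
    rw [map_mul, hc, div_mul_cancel₀ _ hy1Ω]
    ring
  -- the sum of the roots
  have hsplit : (h.map (algebraMap κ Ω)).Splits := IsAlgClosed.splits _
  have hsum : ∀ s : Multiset Ω, (∀ ρ ∈ s, aeval ρ h = 0) →
      ∃ c : κ, s.sum = (Multiset.card s : Ω) * z + algebraMap κ Ω c := by
    intro s
    induction s using Multiset.induction_on with
    | empty => intro _; exact ⟨0, by simp⟩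
    | cons ρ s ih =>
      intro hs
      obtain ⟨c, hc⟩ := ih (fun r hr => hs r (Multiset.mem_cons_of_mem hr))
      obtain ⟨d, hd⟩ := hdiff ρ (hs ρ (Multiset.mem_cons_self ρ s))
      refine ⟨d + c, ?_⟩
      rw [Multiset.sum_cons, hc, hd, Multiset.card_cons, map_add]
      push_cast
      ring
  have hmap0 : h.map (algebraMap κ Ω) ≠ 0 := (Polynomial.map_ne_zero_iff
    (algebraMap κ Ω).injective).2 hh0
  obtain ⟨c, hc⟩ := hsum (h.map (algebraMap κ Ω)).roots (by
    intro ρ hρ
    rw [mem_roots hmap0, IsRoot, eval_map_algebraMap] at hρ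
    exact hρ)
  have hcard : Multiset.card (h.map (algebraMap κ Ω)).roots = h.natDegree := by
    rw [← hsplit.natDegree_eq_card_roots, natDegree_map]
  rw [hcard] at hc
  have hnc := hsplit.nextCoeff_eq_neg_sum_roots_mul_leadingCoeff
  rw [nextCoeff_map (algebraMap κ Ω).injective, leadingCoeff_map] at hnc
  have hlc : algebraMap κ Ω h.leadingCoeff ≠ 0 :=
    (_root_.map_ne_zero _).2 (leadingCoeff_ne_zero.2 hh0)
  have hd0 : (h.natDegree : Ω) ≠ 0 := by
    intro h3
    rw [CharP.cast_eq_zero_iff Ω p] at h3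
    exact absurd (Nat.le_of_dvd hpos h3) (not_le.2 hlt)
  have hd0' : (h.natDegree : κ) ≠ 0 := by
    intro h3
    rw [CharP.cast_eq_zero_iff κ p] at h3
    exact absurd (Nat.le_of_dvd hpos h3) (not_le.2 hlt)
  have hz0 : z = algebraMap κ Ω ((-(h.nextCoeff / h.leadingCoeff) - c) / h.natDegree) := by
    rw [map_div₀, map_sub, map_neg, map_div₀, map_natCast, eq_div_iff hd0]
    have h3 : (h.map (algebraMap κ Ω)).roots.sum =
        -(algebraMap κ Ω h.nextCoeff / algebraMap κ Ω h.leadingCoeff) := by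
      rw [hnc, neg_mul, neg_div, neg_neg, mul_div_cancel_left₀ _ hlc]
    rw [← h3, hc]
    ring
  apply ha ((-(h.nextCoeff / h.leadingCoeff) - c) / h.natDegree)
  apply (algebraMap κ Ω).injective
  rw [map_add, map_mul, map_pow, ← hz0]
  exact hz'

end P025H641
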