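import Vale.Agent.P025.H641.Inst

/-! # Counting residues and classes -/

namespace P025H641

universe u

section

variable {p : ℕ} [Fact p.Prime] {k : Type u} [NontriviallyNormedField k] [IsUltrametricDist k]
  [ProperSpace k] [Algebra ℚ_[p] k] [FiniteDimensional ℚ_[p] k]

/-- the cardinality of the residue ring modulo `p` -/
lemma card_quot_le (hn : ∀ x : ℚ_[p], ‖algebraMap ℚ_[p] k x‖ = ‖x‖) {Q : Type u} [CommRing Q]
    [Finite Q] [Module (ZMod p) Q] (mk : vring k →+* Q) (hsurj : Function.Surjective mk)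
    (hmk : ∀ x : vring k, mk x = 0 ↔ ∃ c : k, ‖c‖ ≤ 1 ∧ (x : k) = p * c) :
    Nat.card Q ≤ p ^ Module.finrank ℚ_[p] k := by
  classical
  have hpp : p.Prime := Fact.out
  let b := Module.finBasis (ZMod p) Q
  set d := Module.finrank (ZMod p) Q with hd
  choose β hβ using fun i : Fin d => hsurj (b i)
  -- independence
  have hli : LinearIndependent ℚ_[p] (fun i : Fin d => ((β i : vring k) : k)) := by
    rw [Fintype.linearIndependent_iff]
    intro g hg i0
    by_contra hi0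
    obtain ⟨j, -, hmax⟩ := Finset.exists_max_image Finset.univ (fun i => ‖g i‖)
      ⟨i0, Finset.mem_univ i0⟩
    have hgj : g j ≠ 0 := by
      intro h0
      have h1 := hmax i0 (Finset.mem_univ i0)
      simp only [h0, norm_zero] at h1
      exact hi0 (norm_le_zero_iff.1 h1)
    have hg1 : ∀ i, ‖g i / g j‖ ≤ 1 := by
      intro i
      rw [norm_div]
      exact (div_le_one (norm_pos_iff.2 hgj)).2 (hmax i (Finset.mem_univ i))
    have hrep : ∀ i, ∃ (m : ℕ) (c : ℚ_[p]), ‖c‖ ≤ 1 ∧ g i / g j = m + p * c := by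
      intro i
      obtain ⟨G, hG⟩ : ∃ G : ℤ_[p], (G : ℚ_[p]) = g i / g j := ⟨⟨g i / g j, hg1 i⟩, rfl⟩
      obtain ⟨m, -, hm⟩ := PadicInt.exists_mem_range (p := p) G
      rw [PadicInt.maximalIdeal_eq_span_p, Ideal.mem_span_singleton] at hm
      obtain ⟨c, hc⟩ := hm
      refine ⟨m, c, c.2, ?_⟩
      have h0 : G = (m : ℤ_[p]) + (p : ℤ_[p]) * c := by
        linear_combination hc
      have h1 := congrArg (fun z : ℤ_[p] => (z : ℚ_[p])) h0
      simp only [hG] at h1
      simpa using h1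
    choose m c hc hmc using hrep
    have hsum : ∑ i, (g i / g j) • ((β i : vring k) : k) = 0 := by
      have h1 : ∑ i, (g i / g j) • ((β i : vring k) : k) =
          (g j)⁻¹ • ∑ i, g i • ((β i : vring k) : k) := by
        rw [Finset.smul_sum]
        refine Finset.sum_congr rfl (fun i _ => ?_)
        rw [smul_smul, div_eq_mul_inv, mul_comm]
      rw [h1, hg, smul_zero]
    have hQ : ∑ i, ((m i : ℕ) : ZMod p) • b i = 0 := by
      have h1 : ∑ i, ((m i : ℕ) : ZMod p) • b i = mk (∑ i, (m i : vring k) * β i) := by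
        rw [map_sum]
        refine Finset.sum_congr rfl (fun i _ => ?_)
        rw [map_mul, hβ, map_natCast, Nat.cast_smul_eq_nsmul, nsmul_eq_mul]
      rw [h1, hmk]
      refine ⟨-∑ i, algebraMap ℚ_[p] k (c i) * (β i : k), ?_, ?_⟩
      · rw [norm_neg]
        apply IsUltrametricDist.norm_sum_le_of_forall_le_of_nonneg zero_le_one
        intro i _
        exact norm_mul_le_one (by rw [hn]; exact hc i) ((mem_vring _).1 (β i).2)
      · have h2 : ((∑ i, (m i : vring k) * β i : vring k) : k) = ∑ i, (m i : k) * (β i : k) := by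
          have h3 := map_sum (vring k).subtype (fun i => (m i : vring k) * β i) Finset.univ
          refine h3.trans ?_
          refine Finset.sum_congr rfl (fun i _ => ?_)
          rw [map_mul, map_natCast]
          rfl
        rw [h2, mul_neg, Finset.mul_sum, eq_neg_iff_add_eq_zero, ← Finset.sum_add_distrib, ← hsum]
        refine Finset.sum_congr rfl (fun i _ => ?_)
        rw [hmc i, Algebra.smul_def, map_add, map_mul, map_natCast, map_natCast]
        ring
    have h1 := (Fintype.linearIndependent_iff.1 b.linearIndependent) _ hQ j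
    rw [ZMod.natCast_eq_zero_iff] at h1
    obtain ⟨q, hq⟩ := h1
    have h2 := hmc j
    rw [div_self hgj, hq] at h2
    have h3 : (1 : ℚ_[p]) = p * (q + c j) := by rw [h2]; push_cast; ring
    have h4 := congrArg norm h3
    rw [norm_one, norm_mul] at h4
    have h5 : ‖((p : ℕ) : ℚ_[p])‖ < 1 := Padic.norm_p_lt_one
    have h6 : ‖(q : ℚ_[p]) + c j‖ ≤ 1 := by
      refine (Padic.nonarchimedean _ _).trans (max_le ?_ (hc j))
      have := Padic.norm_int_le_one (p := p) q
      simpa using this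
    have h7 : ‖((p : ℕ) : ℚ_[p])‖ * ‖(q : ℚ_[p]) + c j‖ < 1 :=
      mul_lt_one_of_nonneg_of_lt_one_left (norm_nonneg _) h5 h6
    exact h7.ne h4.symm
  have hdn : d ≤ Module.finrank ℚ_[p] k := by
    have := hli.fintype_card_le_finrank
    rwa [Fintype.card_fin] at this
  rw [Module.natCard_eq_pow_finrank (K := ZMod p), Nat.card_zmod]
  exact Nat.pow_le_pow_right hpp.pos hdn

/-- at most `p ^ n` residues modulo `p` -/
lemma exists_residues_one (hn : ∀ x : ℚ_[p], ‖algebraMap ℚ_[p] k x‖ = ‖x‖) :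
    ∃ T : Finset k, T.card ≤ p ^ Module.finrank ℚ_[p] k ∧
      ∀ x : k, ‖x‖ ≤ 1 → ∃ t ∈ T, ‖t‖ ≤ 1 ∧ ∃ c, ‖c‖ ≤ 1 ∧ x = t + p * c := by
  classical
  have hpp : p.Prime := Fact.out
  have hpk : ‖(p : k)‖ = (p : ℝ)⁻¹ := by
    rw [← map_natCast (algebraMap ℚ_[p] k), hn, Padic.norm_p]
  have hpk1 : ‖(p : k)‖ < 1 := by
    rw [hpk]
    exact inv_lt_one_of_one_lt₀ (by exact_mod_cast hpp.one_lt)
  have hpk0 : (p : k) ≠ 0 := by
    rw [← norm_pos_iff, hpk, inv_pos]
    exact_mod_cast hpp.pos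
  set pO : vring k := ⟨(p : k), (mem_vring _).2 hpk1.le⟩ with hpO
  have hmk : ∀ x : vring k, Ideal.Quotient.mk (Ideal.span {pO}) x = 0 ↔
      ∃ c : k, ‖c‖ ≤ 1 ∧ (x : k) = p * c := by
    intro x
    rw [Ideal.Quotient.eq_zero_iff_mem, Ideal.mem_span_singleton]
    constructor
    · rintro ⟨c, rfl⟩
      exact ⟨c, (mem_vring _).1 c.2, rfl⟩
    · rintro ⟨c, hc, h⟩
      exact ⟨⟨c, (mem_vring _).2 hc⟩, Subtype.ext h⟩
  -- finiteness
  have hfin : Finite (vring k ⧸ Ideal.span {pO}) := by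
    obtain ⟨i, hi⟩ : ∃ i : ℕ, ‖unif k‖ ^ i ≤ ‖(p : k)‖ := by
      obtain ⟨i, hi⟩ := exists_pow_lt_of_lt_one (norm_pos_iff.2 hpk0) (unif_lt (k := k))
      exact ⟨i, hi.le⟩
    obtain ⟨T, hT⟩ := finite_residues (k := k) i
    have hsurj : Function.Surjective (fun t : {t : T // ‖(t : k)‖ ≤ 1} =>
        Ideal.Quotient.mk (Ideal.span {pO}) ⟨(t : k), (mem_vring _).2 t.2⟩) := by
      intro v
      obtain ⟨y, rfl⟩ := Ideal.Quotient.mk_surjective v
      obtain ⟨t, ht, ht1, a, ha, h1⟩ := hT y ((mem_vring _).1 y.2)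
      refine ⟨⟨⟨t, ht⟩, ht1⟩, ?_⟩
      simp only
      symm
      rw [← sub_eq_zero, ← map_sub, hmk]
      refine ⟨unif k ^ i * a / p, ?_, ?_⟩
      · rw [norm_div, div_le_one (norm_pos_iff.2 hpk0)]
        exact (unif_pow_norm i a ha).trans hi
      · rw [mul_div_cancel₀ _ hpk0]
        show (y : k) - t = _
        rw [h1]; ring
    exact Finite.of_surjective _ hsurj
  have hpQ : ∀ x : vring k ⧸ Ideal.span {pO}, p • x = 0 := by
    intro x
    obtain ⟨y, rfl⟩ := Ideal.Quotient.mk_surjective x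
    rw [← map_nsmul, hmk]
    refine ⟨y, (mem_vring _).1 y.2, ?_⟩
    rw [nsmul_eq_mul]
    have : (((p : vring k) * y : vring k) : k) = ((p : vring k) : k) * (y : k) := rfl
    rw [this]
    congr 1
  have hcard := @card_quot_le p _ k _ _ _ _ _ hn _ _ _ (AddCommGroup.zmodModule hpQ)
    (Ideal.Quotient.mk (Ideal.span {pO})) Ideal.Quotient.mk_surjective hmk
  -- representatives
  let _ : Fintype (vring k ⧸ Ideal.span {pO}) := Fintype.ofFinite _
  choose r hr using fun q : vring k ⧸ Ideal.span {pO} =>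
    Ideal.Quotient.mk_surjective (I := Ideal.span {pO}) q
  refine ⟨Finset.univ.image (fun q => ((r q : vring k) : k)), ?_, ?_⟩
  · refine Finset.card_image_le.trans ?_
    rw [Finset.card_univ, ← Nat.card_eq_fintype_card]
    exact hcard
  · intro x hx
    set xO : vring k := ⟨x, (mem_vring _).2 hx⟩ with hxO
    refine ⟨r (Ideal.Quotient.mk _ xO), Finset.mem_image.2 ⟨_, Finset.mem_univ _, rfl⟩,
      (mem_vring _).1 (SetLike.coe_mem _), ?_⟩
    have h1 : Ideal.Quotient.mk (Ideal.span {pO})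
        (xO - r (Ideal.Quotient.mk (Ideal.span {pO}) xO)) = 0 := by
      rw [map_sub, hr, sub_self]
    rw [hmk] at h1
    obtain ⟨c, hc, h2⟩ := h1
    refine ⟨c, hc, ?_⟩
    have h3 : x - ((r (Ideal.Quotient.mk (Ideal.span {pO}) xO) : vring k) : k) = p * c := h2
    linear_combination h3

/-- at most `p ^ (n j)` residues modulo `p ^ j` -/
lemma exists_residues (hn : ∀ x : ℚ_[p], ‖algebraMap ℚ_[p] k x‖ = ‖x‖) (j : ℕ) :
    ∃ T : Finset k, T.card ≤ p ^ (Module.finrank ℚ_[p] k * j) ∧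
      ∀ x : k, ‖x‖ ≤ 1 → ∃ t ∈ T, ‖t‖ ≤ 1 ∧ ∃ c, ‖c‖ ≤ 1 ∧ x = t + p ^ j * c := by
  classical
  have hpk : ‖(p : k)‖ ≤ 1 := by
    rw [← map_natCast (algebraMap ℚ_[p] k), hn]
    exact Padic.norm_p_lt_one.le
  induction j with
  | zero =>
    refine ⟨{0}, by simp, fun x hx => ⟨0, by simp, by simp, x, hx, by simp⟩⟩
  | succ j ih =>
    obtain ⟨T, hT, hTx⟩ := ih
    obtain ⟨S, hS, hSx⟩ := exists_residues_one hn
    refine ⟨Finset.image₂ (fun t s => t + p ^ j * s) T S, ?_, ?_⟩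
    · refine (Finset.card_image₂_le _ _ _).trans ?_
      rw [mul_add, mul_one, pow_add]
      exact Nat.mul_le_mul hT hS
    · intro x hx
      obtain ⟨t, ht, ht1, c, hc, h1⟩ := hTx x hx
      obtain ⟨s, hs, hs1, e, he, h2⟩ := hSx c hc
      refine ⟨t + p ^ j * s, Finset.mem_image₂.2 ⟨t, ht, s, hs, rfl⟩, ?_, e, he, ?_⟩
      · exact norm_add_le_one ht1 (norm_mul_le_one (norm_pow_le_one hpk j) hs1)
      · rw [h1, h2, pow_succ]; ring

/-- the dimension of the group of classes -/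
lemma Ram.finrank_le (R : Ram k p) (hn : ∀ x : ℚ_[p], ‖algebraMap ℚ_[p] k x‖ = ‖x‖) :
    Module.finrank (ZMod p) (Cl p k) ≤ 3 * Module.finrank ℚ_[p] k + 1 := by
  classical
  have hpp : p.Prime := Fact.out
  set L := R.loc with hL
  obtain ⟨T, hTc, hT⟩ := exists_residues (k := k) hn 3
  -- `p ^ 3` is divisible by `π ^ (E + 1)`
  obtain ⟨η, hη1, hη⟩ : ∃ η : k, ‖η‖ ≤ 1 ∧ (p : k) ^ 3 = unif k ^ (p * R.e + 1) * η := by
    have hrel := R.e_rel
    have h1 : 1 * 1 ≤ (p - 1) * R.e :=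
      Nat.mul_le_mul (by have := hpp.two_le; omega) R.pos
    have h2 : R.e ≤ (p - 1) * R.e := Nat.le_mul_of_pos_left _ (by have := hpp.two_le; omega)
    refine ⟨R.ε ^ 3 * unif k ^ (3 * ((p - 1) * R.e) - (p * R.e + 1)), ?_, ?_⟩
    · exact norm_mul_le_one (norm_pow_le_one R.norm_ε.le 3) (norm_pow_le_one unif_lt.le _)
    · rw [R.p_eq, mul_pow, ← pow_mul, mul_left_comm, ← pow_add]
      congr 2
      omega
  have h : Function.Surjective (fun x : Fin p × T =>
      (x.1 : ℕ) • clsm p (unif k) + clsm p (x.2 : k)) := by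
    intro v
    obtain ⟨x, hx, rfl⟩ := clsm_surj v
    obtain ⟨u, hu, hv, h1⟩ := L.exists_unit_mul x hx
    have hu1 : ‖u‖ = 1 := (nval_eq_zero_iff u hu).1 hv
    obtain ⟨t, ht, ht1, a, ha, h2⟩ := hT u hu1.le
    rw [hη, mul_assoc] at h2
    have hηa := norm_mul_le_one hη1 ha
    have ht2 : ‖t‖ = 1 := by
      have h3 := unif_mul_norm (p * R.e + 1) (by omega) _ hηa
      have h4 : ‖u‖ ≠ ‖-(unif k ^ (p * R.e + 1) * (η * a))‖ := by
        rw [norm_neg, hu1]; exact h3.ne'
      have h5 := IsUltrametricDist.norm_add_eq_max_of_norm_ne_norm h4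
      rw [norm_neg, hu1, max_eq_left h3.le] at h5
      have h6 : u + -(unif k ^ (p * R.e + 1) * (η * a)) = t := by rw [h2]; ring
      rwa [h6] at h5
    obtain ⟨c, hc, h3⟩ := exists_quot u t ht2 (p * R.e + 1) _ hηa (by rw [h2]; ring)
    have h4 : clsm p u = clsm p t := by
      rw [h3]; exact R.clsm_mul_high t c (ne_zero_of_norm ht2) hc
    have hp0 : (0 : ℤ) < p := by exact_mod_cast hpp.pos
    set n := L.val x with hn'
    have h5 := Int.emod_nonneg n hp0.ne'
    have h6 := Int.emod_lt_of_pos n hp0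
    refine ⟨⟨⟨(n % p).toNat, by omega⟩, ⟨t, ht⟩⟩, ?_⟩
    simp only
    have h7 : clsm p x = n • clsm p (unif k) + clsm p u := by
      rw [h1]
      have := L.cls_mul (L.π ^ n) u (zpow_ne_zero _ L.π_ne) hu
      rw [L.cls_zpow _ L.π_ne] at this
      exact this
    rw [h7, h4]
    congr 1
    have h8 : n = (p : ℤ) * (n / p) + n % p := (Int.mul_ediv_add_emod n p).symm
    have h9 : ((n % p).toNat : ℤ) = n % p := Int.toNat_of_nonneg h5
    rw [← natCast_zsmul, h9]
    conv_rhs => rw [h8, add_smul, mul_comm, mul_smul, natCast_zsmul, Cl.p_smul, smul_zero, zero_add]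
  have hfin := R.finite_Cl
  have h1 : Nat.card (Cl p k) ≤ p * p ^ (Module.finrank ℚ_[p] k * 3) := by
    refine (Nat.card_le_card_of_surjective _ h).trans ?_
    rw [Nat.card_prod, Nat.card_fin]
    refine Nat.mul_le_mul_left p ?_
    rw [Nat.card_eq_fintype_card, Fintype.card_coe]
    exact hTc
  rw [Module.natCard_eq_pow_finrank (K := ZMod p), Nat.card_zmod, ← pow_succ'] at h1
  have h2 := (Nat.pow_le_pow_iff_right hpp.one_lt).1 h1
  omega

end

end P025H641
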