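import Mathlib

/-!
# Function field language for the p-adic section conjecture: the notions used in the statement

`k` is a base field, `K` a field containing `k` (in the applications: a function field of one
variable over `k`, the function field of a smooth projective curve `X/k`).
-/

open IntermediateField

namespace P025H641

universe u v w

/-- A place of the field `E` over `k`: a discrete valuation ring of `E` containing `k`. -/
structure IsPlace (k : Type u) (E : Type v) [Field k] [Field E] [Algebra k E]
    (V : ValuationSubring E) : Prop where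
  const_mem : ∀ c : k, algebraMap k E c ∈ V
  discrete : IsDiscreteValuationRing V

/-- A place of `E` over `k` with residue field `k`. -/
structure IsRatPlace (k : Type u) (E : Type v) [Field k] [Field E] [Algebra k E]
    (V : ValuationSubring E) : Prop extends IsPlace k E V where
  residue : ∀ x ∈ V, ∃ c : k, V.valuation (x - algebraMap k E c) < 1

/-- `E/K` is unramified at all places of `E` over `k`: every value of a place `V` of `E`
is already the value of an element of `K`. -/
def IsUnramified (k : Type u) (K : Type v) (E : Type w) [Field k] [Field K] [Field E]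
    [Algebra k E] [Algebra K E] : Prop :=
  ∀ V : ValuationSubring E, IsPlace k E V →
    ∀ x : E, ∃ y : K, V.valuation (algebraMap K E y) = V.valuation x

/-- The maximal unramified extension of `K` in its algebraic closure: the compositum of all
finite extensions of `K` that are unramified at all places over `k`. -/
noncomputable def maxUnr (k : Type u) (K : Type v) [Field k] [Field K] [Algebra k K] :
    IntermediateField K (AlgebraicClosure K) :=
  sSup {E : IntermediateField K (AlgebraicClosure K) |
    FiniteDimensional K E ∧ IsUnramified k K E}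

/-- The algebraic closure of `k` in the algebraic closure of `K`. -/
noncomputable abbrev constClosure (k : Type u) (K : Type v) [Field k] [Field K] [Algebra k K] :
    IntermediateField k (AlgebraicClosure K) :=
  algebraicClosure k (AlgebraicClosure K)

/-- The Galois group `Gal(L / F)` of an intermediate field `L` of `Ω / F`. -/
def GalOf {F : Type u} {Ω : Type v} [Field F] [Field Ω] [Algebra F Ω]
    (L : IntermediateField F Ω) : Type v := L ≃ₐ[F] L

section

variable {F : Type u} {Ω : Type v} [Field F] [Field Ω] [Algebra F Ω] (L : IntermediateField F Ω)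

noncomputable instance GalOf.instGroup : Group (GalOf L) := AlgEquiv.aut

/-- the Krull topology -/
noncomputable instance GalOf.instTop : TopologicalSpace (GalOf L) := krullTopology F L

end

/-- `x` lies in `L` and `σ` maps it to `y`. -/
def GalOf.Maps {F : Type u} {Ω : Type v} [Field F] [Field Ω] [Algebra F Ω]
    {L : IntermediateField F Ω} (σ : GalOf L) (x y : Ω) : Prop :=
  ∃ x' : L, (x' : Ω) = x ∧ (AlgEquiv.toEquiv σ x' : Ω) = y

/-- A section of `Gal(maxUnr k K / K) → Gal(constClosure k K / k)`: a continuous homomorphism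
such that the image of `σ` acts on constants as `σ`. -/
structure Section (k : Type u) (K : Type v) [Field k] [Field K] [Algebra k K] where
  hom : GalOf (constClosure k K) →* GalOf (maxUnr k K)
  cont : Continuous hom
  lifts : ∀ (σ : GalOf (constClosure k K)) (x y : AlgebraicClosure K),
    σ.Maps x y → x ∈ maxUnr k K → (hom σ).Maps x y

/-- `f` has value divisible by `p` at every place of `F` over `k`. -/
def IsDivisible (p : ℕ) (k : Type u) {F : Type v} [Field k] [Field F] [Algebra k F] (f : F) :
    Prop :=
  ∀ V : ValuationSubring F, IsPlace k F V → ∃ y : F, V.valuation f = V.valuation y ^ p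

/-- `t` is not a constant. -/
def NonConst (k : Type u) {K : Type v} [Field k] [Field K] [Algebra k K] (t : K) : Prop :=
  ∀ z : k, t ≠ algebraMap k K z

/-- The embedding of `K` in its algebraic closure. -/
noncomputable def emb {K : Type v} [Field K] (f : K) : AlgebraicClosure K :=
  algebraMap K (AlgebraicClosure K) f

/-- `y` lies in the maximal unramified extension and is fixed by the section. -/
def Section.Fixes {k : Type u} {K : Type v} [Field k] [Field K] [Algebra k K]
    (s : Section k K) (y : AlgebraicClosure K) : Prop :=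
  ∀ σ, (s.hom σ).Maps y y

/-! ### The statement -/

/-- The exponent `N = (3 n + 2) (2 r + 9) + 2` of the density condition. -/
def precision (n r : ℕ) : ℕ := (3 * n + 2) * (2 * r + 9) + 2

/-- `A₀ ⊆ A` are finite sets of elements of the `p`-adic field `k`, the elements `a` of `A₀`
satisfy `|a| ≤ p ^ r` and have mutual distances at least `p ^ (-r)`, and every `x` in `k` with
`|x| ≤ p ^ (r + 2)` has distance at most `p ^ (-N)` from some element of `A`,
`N = (3 n + 2) (2 r + 9) + 2`, `n` the degree of `k` over `ℚ_p`. The absolute value is the one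
extending the `p`-adic absolute value. -/
structure IsFine (p : ℕ) [Fact p.Prime] {k : Type u} [Field k] [Algebra ℚ_[p] k] (r : ℕ)
    (A₀ A : Finset k) : Prop where
  subset : A₀ ⊆ A
  bound : ∀ a ∈ A₀, spectralNorm ℚ_[p] k a ≤ (p : ℝ) ^ r
  sep : ∀ a ∈ A₀, ∀ b ∈ A₀, a ≠ b → ((p : ℝ) ^ r)⁻¹ ≤ spectralNorm ℚ_[p] k (a - b)
  dense : ∀ x : k, spectralNorm ℚ_[p] k x ≤ (p : ℝ) ^ (r + 2) → ∃ a ∈ A,
    spectralNorm ℚ_[p] k (x - a) ≤ ((p : ℝ) ^ precision (Module.finrank ℚ_[p] k) r)⁻¹

/-- `c_j w_j ^ p = ∏_{a ∈ A₀} (t - a) ^ m_j(a)` for all `j`, with `c_j ≠ 0`. -/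
def OnCurve (p : ℕ) {k : Type u} {K : Type v} [Field k] [Field K] [Algebra k K] {J : Type w}
    (A₀ : Finset k) (m : J → k → ℕ) (c : J → k) (t : K) (wf : J → K) : Prop :=
  ∀ j, c j ≠ 0 ∧ algebraMap k K (c j) * wf j ^ p = ∏ a ∈ A₀, (t - algebraMap k K a) ^ m j a

/-- For every `b` in `A` outside `A₀`: `u_b ^ p (t - b') = t - b` with `b' ≠ b`,
`|b - b'| ≤ p ^ (-(r + |A| + 10))`. -/
def OnCover (p : ℕ) [Fact p.Prime] {k : Type u} {K : Type v} [Field k] [Algebra ℚ_[p] k]
    [Field K] [Algebra k K] (r : ℕ) (A₀ A : Finset k) (b' : k → k) (t : K) (uf : k → K) : Prop :=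
  ∀ b ∈ A, b ∉ A₀ → b' b ≠ b ∧
    spectralNorm ℚ_[p] k (b - b' b) ≤ ((p : ℝ) ^ (r + A.card + 10))⁻¹ ∧
    uf b ^ p * (t - algebraMap k K (b' b)) = t - algebraMap k K b

/-- Every `a` in `A₀` has an exponent `m_j(a)` prime to `p`, and for some `j` the sum of the
`m_j(a)` is prime to `p`. -/
def IsBranch (p : ℕ) {k : Type u} {J : Type w} (A₀ : Finset k) (m : J → k → ℕ) : Prop :=
  (∀ a ∈ A₀, ∃ j, ¬ p ∣ m j a) ∧ ∃ j, ¬ p ∣ ∑ a ∈ A₀, m j a

/-- The section `s` looks like the `k`-rational point `(z, h)` of the curve
`c_j w_j ^ p = ∏_{a ∈ A₀} (t - a) ^ m_j(a)`: for suitable `y_a` fixed by `s` one has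
`t - a = (z - a) y_a ^ p` for `a ∈ A₀`, and `w_j = h_j ∏_{a ∈ A₀} y_a ^ m_j(a)`. -/
def LooksLikePoint (p : ℕ) {k : Type u} {K : Type v} [Field k] [Field K] [Algebra k K]
    (s : Section k K) {J : Type w} (A₀ : Finset k) (m : J → k → ℕ) (c : J → k) (t : K)
    (wf : J → K) : Prop :=
  ∃ (z : k) (h : J → k) (y : k → AlgebraicClosure K),
    (∀ a ∈ A₀, z ≠ a ∧ s.Fixes (y a) ∧
      emb (t - algebraMap k K a) = emb (algebraMap k K (z - a)) * y a ^ p) ∧
    OnCurve p A₀ m c z h ∧
    ∀ j, emb (wf j) = emb (algebraMap k K (h j)) * ∏ a ∈ A₀, y a ^ m j a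

/-- Sections look like points: for fine `A₀ ⊆ A`, every section and every non-constant `t` with
relations `c_j w_j ^ p = ∏_{a ∈ A₀} (t - a) ^ m_j(a)` in `K`, the section looks like a
`k`-rational point of the curve defined by these relations, provided that all `t - a`, `a ∈ A`,
have value divisible by `p` at all places, or that `IsBranch` and `OnCover` hold. -/
def SectionsLookLikePoints (p : ℕ) [Fact p.Prime] (k : Type u) (K : Type v) [Field k]
    [Algebra ℚ_[p] k] [Field K] [Algebra k K] : Prop :=
  ∀ (r : ℕ) (A₀ A : Finset k) (s : Section k K) (t : K) (J : Type w) (m : J → k → ℕ)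
    (c : J → k) (wf : J → K), IsFine p r A₀ A → NonConst k t → OnCurve p A₀ m c t wf →
      ((∀ a ∈ A, IsDivisible p k (t - algebraMap k K a)) ∨
        (IsBranch p A₀ m ∧ ∃ b' uf, OnCover p r A₀ A b' t uf)) →
      LooksLikePoint p s A₀ m c t wf

/-- Sections give points: for fine `A₀ ⊆ A`, a transcendental `t` and elements `w_j`, `u_b` of
`K` with `OnCurve`, `OnCover`, `IsBranch`, the existence of a section for `K/k` implies that the
field `k(t, w_j, u_b)` has a `k`-rational place. -/
def SectionGivesPlace (p : ℕ) [Fact p.Prime] (k : Type u) (K : Type v) [Field k]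
    [Algebra ℚ_[p] k] [Field K] [Algebra k K] : Prop :=
  ∀ (r : ℕ) (A₀ A : Finset k) (t : K) (J : Type w) (m : J → k → ℕ) (c : J → k) (wf : J → K)
    (b' : k → k) (uf : k → K), IsFine p r A₀ A → Transcendental k t →
      OnCurve p A₀ m c t wf → OnCover p r A₀ A b' t uf → IsBranch p A₀ m →
      Nonempty (Section k K) →
      ∃ V : ValuationSubring (IntermediateField.adjoin k
        ({t} ∪ (Set.range wf ∪ uf '' {b | b ∈ A ∧ b ∉ A₀}))), IsRatPlace k _ V

end P025H641
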