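import Vale.Agent.P025.H641.SymK
import Vale.Agent.P025.H641.Count
import Vale.Agent.P025.H641.Stmt

/-! # Explicit rigidity over `p`-adic fields -/

namespace P025H641

universe u

open Polynomial

section normed

variable {p : ℕ} [Fact p.Prime] {k : Type u} [NontriviallyNormedField k] [IsUltrametricDist k]
  [ProperSpace k]

lemma norm_le_zpow_iff {x : k} (hx : x ≠ 0) (j : ℤ) : ‖x‖ ≤ ‖unif k‖ ^ j ↔ j ≤ nval x := by
  rw [norm_eq_nval x hx]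
  exact zpow_le_zpow_iff_right_of_lt_one₀ unif_pos unif_lt

lemma zpow_le_norm_iff {x : k} (hx : x ≠ 0) (j : ℤ) : ‖unif k‖ ^ j ≤ ‖x‖ ↔ nval x ≤ j := by
  rw [norm_eq_nval x hx]
  exact zpow_le_zpow_iff_right_of_lt_one₀ unif_pos unif_lt

variable [Algebra ℚ_[p] k] [FiniteDimensional ℚ_[p] k]

/-- **Explicit rigidity** for normed fields. -/
theorem rigid_normed (hn : ∀ x : ℚ_[p], ‖algebraMap ℚ_[p] k x‖ = ‖x‖) {ζ : k}
    (hζ : IsPrimitiveRoot ζ p) :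
    ∃ H : Cl p k →ₗ[ZMod p] Cl p k →ₗ[ZMod p] ZMod p,
      (∀ (γ β : k) (f : k[X]), γ ≠ 0 → β ≠ 0 → β = nrm p ζ f γ →
        H (clsm p γ) (clsm p β) = 0) ∧
      ∀ (r : ℕ) (A₀ : Finset k) (A : Set k), (∀ a ∈ A₀, a ∈ A) →
        (∀ a ∈ A₀, ‖a‖ ≤ (p : ℝ) ^ r) →
        (∀ a ∈ A₀, ∀ b ∈ A₀, a ≠ b → ((p : ℝ) ^ r)⁻¹ ≤ ‖a - b‖) →
        (∀ x : k, ‖x‖ ≤ (p : ℝ) ^ (r + 2) → ∃ a ∈ A,
          ‖x - a‖ ≤ ((p : ℝ) ^ precision (Module.finrank ℚ_[p] k) r)⁻¹) →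
        ∀ x : k → Cl p k, (∀ a ∈ A, ∀ b ∈ A, ∀ c ∈ A, b ≠ a → c ≠ a →
          clsm p (b - a) = x a → H (x a - clsm p (c - a)) (x c - x a) = 0) →
        ∃ z, ∀ b ∈ A₀, z ≠ b ∧ x b = clsm p (z - b) := by
  classical
  have hpp : p.Prime := Fact.out
  have hpk : ‖(p : k)‖ = (p : ℝ)⁻¹ := by
    rw [← map_natCast (algebraMap ℚ_[p] k), hn, Padic.norm_p]
  have hpR : (1 : ℝ) < p := by exact_mod_cast hpp.one_lt
  have hpR0 : (0 : ℝ) < p := by linarith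
  have hpk1 : ‖(p : k)‖ < 1 := by
    rw [hpk]
    exact inv_lt_one_of_one_lt₀ hpR
  have hpk0 : (p : k) ≠ 0 := by
    rw [← norm_pos_iff, hpk, inv_pos]
    exact hpR0
  have : CharZero k := charZero_of_injective_algebraMap (algebraMap ℚ_[p] k).injective
  obtain ⟨R⟩ := exists_ram hpk1 hpk0 hζ
  obtain ⟨H, hH, h0, hnorm⟩ := R.exists_H hζ
  refine ⟨H, hnorm, ?_⟩
  intro r A₀ A hsub hb1 hb2 hdense x hrel
  have hfin := R.finite_Cl
  set L := R.loc with hL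
  set e0 := (p - 1) * R.e with he0
  set n := Module.finrank ℚ_[p] k with hn'
  set N := precision n r with hN
  set d := Module.finrank (ZMod p) (Cl p k) with hd
  have hdn : d ≤ 3 * n + 1 := R.finrank_le hn
  have he1 : 1 ≤ R.e := R.pos
  have hp2 := hpp.two_le
  have hrel0 := R.e_rel
  have he01 : R.e ≤ e0 := Nat.le_mul_of_pos_left _ (by omega)
  have hE : L.E = e0 + R.e := hrel0
  have hpe : p - 1 ≤ e0 := Nat.le_mul_of_pos_right _ R.pos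
  -- the absolute value of `p`
  have hpπ : ∀ j : ℕ, ((p : ℝ) ^ j)⁻¹ = ‖unif k‖ ^ ((e0 * j : ℕ) : ℤ) := by
    intro j
    have h1 : (p : ℝ)⁻¹ = ‖unif k‖ ^ e0 := by
      rw [← hpk, R.p_eq, norm_mul, R.norm_ε, one_mul, norm_pow]
    rw [← inv_pow, h1, zpow_natCast, ← pow_mul]
  have hpπ' : ∀ j : ℕ, (p : ℝ) ^ j = ‖unif k‖ ^ (-((e0 * j : ℕ) : ℤ)) := by
    intro j
    rw [zpow_neg, ← hpπ, inv_inv]
  have h1j : ∀ j : ℕ, (1 : ℝ) ≤ (p : ℝ) ^ j := fun j => one_le_pow₀ hpR.le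
  have h1j' : ∀ j : ℕ, ((p : ℝ) ^ j)⁻¹ ≤ 1 := fun j => inv_le_one_of_one_le₀ (h1j j)
  -- approximations in `A`
  have hdense' : ∀ y : k, ‖y‖ ≤ (p : ℝ) ^ (r + 2) → ∃ a ∈ A, ‖a‖ ≤ (p : ℝ) ^ (r + 2) ∧
      ∃ c : k, ‖c‖ ≤ 1 ∧ a = y + unif k ^ (e0 * N) * c := by
    intro y hy
    obtain ⟨a, ha, h1⟩ := hdense y hy
    have h2 : ‖a - y‖ ≤ ‖unif k‖ ^ (e0 * N) := by
      rw [← norm_neg, neg_sub]
      have := hpπ N
      rw [zpow_natCast] at this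
      rw [← this]
      exact h1
    obtain ⟨c, hc, h3⟩ := exists_of_norm_le _ _ h2
    refine ⟨a, ha, ?_, c, hc, by rw [← h3]; ring⟩
    have h4 : a = y + (a - y) := by ring
    rw [h4]
    refine (norm_add_le_max' _ _).trans (max_le hy ?_)
    exact h2.trans ((unif_pow_le_one _).trans (h1j _))
  set A' : Set k := {a | a ∈ A ∧ ‖a‖ ≤ (p : ℝ) ^ (r + 2)} with hA'
  have hmono : (p : ℝ) ^ r ≤ (p : ℝ) ^ (r + 2) := pow_le_pow_right₀ hpR.le (by omega)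
  have hNbig : (d + 1) * (e0 * (2 * r + 9)) + L.E ≤ e0 * N := by
    have h1 : (d + 1) * (e0 * (2 * r + 9)) ≤ (3 * n + 2) * (e0 * (2 * r + 9)) :=
      Nat.mul_le_mul_right _ (by omega)
    have h2 : e0 * N = (3 * n + 2) * (e0 * (2 * r + 9)) + 2 * e0 := by
      rw [hN, precision]; ring
    omega
  have hNbig2 : e0 * 9 ≤ e0 * N := by
    refine Nat.mul_le_mul_left e0 ?_
    have h1 : 1 * 9 ≤ (3 * n + 2) * (2 * r + 9) := Nat.mul_le_mul (by omega) (by omega)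
    rw [hN, precision]
    omega
  refine hH.finiteR h0 x A₀ A' ?_ (e0 * (r + 2)) (e0 * (2 * r + 9)) ?_ ?_ ?_ ?_ ?_ ?_
  · intro a ha
    exact ⟨hsub a ha, (hb1 a ha).trans hmono⟩
  · have h1 : e0 * 9 ≤ e0 * (2 * r + 9) := Nat.mul_le_mul_left _ (by omega)
    omega
  · intro b hb
    have hb' : ‖b‖ ≤ (p : ℝ) ^ (r + 2) := by
      by_cases h : b = 0
      · rw [h, norm_zero]; positivity
      · rw [hpπ', norm_le_zpow_iff h]
        exact hb.resolve_left h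
    obtain ⟨a, ha, ha1, c, hc, h1⟩ := hdense' b hb'
    refine ⟨a, ⟨ha, ha1⟩, unif k ^ (e0 * N - ((d + 1) * (e0 * (2 * r + 9)) + L.E)) * c, ?_, ?_⟩
    · show _ ∈ (vring k).toSubring
      rw [ValuationSubring.mem_toSubring, mem_vring]
      exact (unif_pow_norm _ c hc).trans (unif_pow_le_one _)
    · show a = b + unif k ^ ((d + 1) * (e0 * (2 * r + 9)) + L.E) * _
      rw [h1, ← mul_assoc, ← pow_add]
      congr 3
      omega
  · intro b hb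
    by_cases h : b = 0
    · exact Or.inl h
    · right
      have h1 := (hb1 b hb).trans hmono
      rw [hpπ', norm_le_zpow_iff h] at h1
      exact h1
  · intro b hb b' hb' hne
    have h1 : b' - b ≠ 0 := sub_ne_zero.2 hne.symm
    have h2 : ‖b' - b‖ ≤ (p : ℝ) ^ r := (norm_sub_le_max _ _).trans (max_le (hb1 b' hb') (hb1 b hb))
    rw [hpπ', norm_le_zpow_iff h1] at h2
    show (L.E : ℤ) - ((e0 * (r + 2) : ℕ) : ℤ) ≤ nval (b' - b)
    have h3 : e0 * (r + 2) = e0 * r + 2 * e0 := by ring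
    omega
  · intro b hb b' hb' hne
    have h1 : b' - b ≠ 0 := sub_ne_zero.2 hne.symm
    have h2 := hb2 b' hb' b hb hne.symm
    rw [hpπ, zpow_le_norm_iff h1] at h2
    show nval (b' - b) + ((e0 * (r + 2) : ℕ) : ℤ) + 2 * (L.E : ℤ) + 1 ≤ ((e0 * (2 * r + 9) : ℕ) : ℤ)
    have h3 : e0 * (r + 2) = e0 * r + 2 * e0 := by ring
    have h4 : e0 * (2 * r + 9) = 2 * (e0 * r) + 9 * e0 := by ring
    omega
  · rintro a ⟨ha, ha1⟩ c ⟨hc, hc1⟩ hac
    rw [hH.rel_iff x a c hac]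
    obtain ⟨δ, hδ0, hδx, hδ1, hδ2⟩ := L.exists_cls_val 0 (x a)
    have hδn : ‖δ‖ ≤ 1 := (norm_le_one_iff δ hδ0).2 hδ1
    obtain ⟨b, hb, -, c', hc', h1⟩ := hdense' (a + δ)
      ((norm_add_le_max' _ _).trans (max_le ha1 (hδn.trans (h1j _))))
    have h2 := L.small δ hδ0 (e0 * N) c' (by
      show _ ∈ (vring k).toSubring
      rw [ValuationSubring.mem_toSubring, mem_vring]
      exact hc') (by omega)
    have h3 : δ + L.π ^ (e0 * N) * c' = b - a := by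
      show δ + unif k ^ (e0 * N) * c' = b - a
      rw [h1]; ring
    rw [h3, hδx] at h2
    exact hrel a ha b hb c hc (fun h => h2.1 (by rw [h, sub_self])) hac.symm h2.2.1

end normed

section padic

variable {p : ℕ} [Fact p.Prime] {k : Type u} [Field k] [Algebra ℚ_[p] k]
  [FiniteDimensional ℚ_[p] k]

/-- **Explicit rigidity** for `p`-adic fields. -/
theorem rigid_padic {ζ : k} (hζ : IsPrimitiveRoot ζ p) :
    ∃ H : Cl p k →ₗ[ZMod p] Cl p k →ₗ[ZMod p] ZMod p,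
      (∀ (γ β : k) (f : k[X]), γ ≠ 0 → β ≠ 0 → β = nrm p ζ f γ →
        H (clsm p γ) (clsm p β) = 0) ∧
      ∀ (r : ℕ) (A₀ : Finset k) (A : Set k), (∀ a ∈ A₀, a ∈ A) →
        (∀ a ∈ A₀, spectralNorm ℚ_[p] k a ≤ (p : ℝ) ^ r) →
        (∀ a ∈ A₀, ∀ b ∈ A₀, a ≠ b → ((p : ℝ) ^ r)⁻¹ ≤ spectralNorm ℚ_[p] k (a - b)) →
        (∀ x : k, spectralNorm ℚ_[p] k x ≤ (p : ℝ) ^ (r + 2) → ∃ a ∈ A,
          spectralNorm ℚ_[p] k (x - a) ≤
            ((p : ℝ) ^ precision (Module.finrank ℚ_[p] k) r)⁻¹) →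
        ∀ x : k → Cl p k, (∀ a ∈ A, ∀ b ∈ A, ∀ c ∈ A, b ≠ a → c ≠ a →
          clsm p (b - a) = x a → H (x a - clsm p (c - a)) (x c - x a) = 0) →
        ∃ z, ∀ b ∈ A₀, z ≠ b ∧ x b = clsm p (z - b) := by
  let inst1 : NontriviallyNormedField k := spectralNorm.nontriviallyNormedField ℚ_[p] k
  have hu : IsUltrametricDist k :=
    IsUltrametricDist.isUltrametricDist_of_isNonarchimedean_norm isNonarchimedean_spectralNorm
  have hn : ∀ x : ℚ_[p], ‖algebraMap ℚ_[p] k x‖ = ‖x‖ := fun x => spectralNorm_extends x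
  have hproper : ProperSpace k := by
    let _ : NormedAlgebra ℚ_[p] k := spectralNorm.normedAlgebra ℚ_[p] k
    exact FiniteDimensional.proper ℚ_[p] k
  exact rigid_normed hn hζ

end padic

end P025H641
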