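import Vale.Agent.P025.H641.SecRel
import Vale.Agent.P025.H641.ChiPad

/-! # The classes attached to divisible functions by a section -/

open IntermediateField

namespace P025H641

universe u v w

section has

variable {k : Type u} {K : Type v} [Field k] [Field K] [Algebra k K]
  (s : Gal(constClosure k K/k) →* Gal(maxUnr k K/K)) (G : Subgroup Gal(constClosure k K/k))
  {k' : Type w} [Field k'] [Algebra k' (maxUnr k K)] (p : ℕ)

/-- `f = x y ^ p` with `x ≠ 0` a constant and `y ≠ 0` fixed by the section -/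
def Has (f : maxUnr k K) (x : k') : Prop :=
  x ≠ 0 ∧ ∃ y : maxUnr k K, y ≠ 0 ∧ (∀ σ ∈ G, s σ y = y) ∧
    f = algebraMap k' (maxUnr k K) x * y ^ p

variable {s G p}

lemma Has.ne {f : maxUnr k K} {x : k'} (h : Has s G p f x) : f ≠ 0 := by
  obtain ⟨hx, y, hy, -, rfl⟩ := h
  exact mul_ne_zero ((map_ne_zero _).2 hx) (pow_ne_zero p hy)

lemma Has.mul {f g : maxUnr k K} {x x' : k'} (h : Has s G p f x) (h' : Has s G p g x') :
    Has s G p (f * g) (x * x') := by
  obtain ⟨hx, y, hy, hyG, rfl⟩ := h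
  obtain ⟨hx', y', hy', hyG', rfl⟩ := h'
  refine ⟨mul_ne_zero hx hx', y * y', mul_ne_zero hy hy', fun σ hσ => ?_, ?_⟩
  · rw [_root_.map_mul, hyG σ hσ, hyG' σ hσ]
  · rw [_root_.map_mul, mul_pow]; ring

lemma has_const (x : k') (hx : x ≠ 0) : Has s G p (algebraMap k' (maxUnr k K) x) x :=
  ⟨hx, 1, one_ne_zero, fun σ _ => map_one _, by rw [one_pow, mul_one]⟩

lemma Has.unique (B : Base s G k') (hp : 0 < p) {f : maxUnr k K} {x x' : k'}
    (h : Has s G p f x) (h' : Has s G p f x') : clsm p x = clsm p x' := by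
  obtain ⟨hx, y, hy, hyG, h1⟩ := h
  obtain ⟨hx', y', hy', hyG', h2⟩ := h'
  have hxM : algebraMap k' (maxUnr k K) x' ≠ 0 := (map_ne_zero _).2 hx'
  have h3 : (y' / y) ^ p = algebraMap k' (maxUnr k K) (x / x') := by
    rw [div_pow, map_div₀, div_eq_div_iff (pow_ne_zero p hy) hxM, ← h1, mul_comm, ← h2]
  obtain ⟨e, he⟩ := B.ex (y' / y) (isIntegral_of_pow' hp (by rw [h3]; exact B.alg _)) (by
    intro σ hσ
    rw [map_div₀, hyG σ hσ, hyG' σ hσ])
  have h4 : x / x' = e ^ p := by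
    apply (algebraMap k' (maxUnr k K)).injective
    rw [← h3, map_pow, he]
  have h5 := (clsm_eq_zero hp.ne' (x / x') (div_ne_zero hx hx')).2 ⟨e, h4⟩
  rw [clsm_div _ _ hx hx'] at h5
  exact sub_eq_zero.1 h5

/-- change of the representative -/
lemma Has.change (hp : 0 < p) {f : maxUnr k K} {x x' : k'} (h : Has s G p f x) (hx' : x' ≠ 0)
    (B : Base s G k') (hc : clsm p x = clsm p x') : Has s G p f x' := by
  obtain ⟨hx, y, hy, hyG, h1⟩ := h
  have h2 : clsm p (x / x') = 0 := by rw [clsm_div _ _ hx hx', hc, sub_self]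
  obtain ⟨e, he⟩ := (clsm_eq_zero hp.ne' (x / x') (div_ne_zero hx hx')).1 h2
  have he0 : e ≠ 0 := by
    rintro rfl
    rw [zero_pow hp.ne'] at he
    exact div_ne_zero hx hx' he
  refine ⟨hx', algebraMap k' (maxUnr k K) e * y, mul_ne_zero ((map_ne_zero _).2 he0) hy,
    fun σ hσ => by rw [_root_.map_mul, B.fix e σ hσ, hyG σ hσ], ?_⟩
  have h3 : x = x' * e ^ p := by rw [← he, mul_div_cancel₀ _ hx']
  rw [h1, h3, _root_.map_mul, map_pow, mul_pow]
  ring

variable (s G p)

open Classical in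
/-- the class attached to an element -/
noncomputable def chiS (k' : Type w) [Field k'] [Algebra k' (maxUnr k K)] (f : maxUnr k K) :
    Cl p k' :=
  if h : ∃ x : k', Has s G p f x then clsm p h.choose else 0

variable {s G p}

lemma chiS_eq (B : Base s G k') (hp : 0 < p) {f : maxUnr k K} {x : k'} (h : Has s G p f x) :
    chiS s G p k' f = clsm p x := by
  have h' : ∃ x : k', Has s G p f x := ⟨x, h⟩
  rw [chiS, dif_pos h']
  exact Has.unique B hp h'.choose_spec h

lemma has_of_chiS (B : Base s G k') (hp : 0 < p) {f : maxUnr k K} {x x' : k'}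
    (h : Has s G p f x) (hx' : x' ≠ 0) (hc : chiS s G p k' f = clsm p x') :
    Has s G p f x' :=
  h.change hp hx' B ((chiS_eq B hp h).symm.trans hc)

variable [CharZero k] [Fact p.Prime]

/-- divisible elements have classes -/
lemma exists_has (hs : IsSection k K s) (B : Base s G k') {ζ : k'} (hζ : IsPrimitiveRoot ζ p)
    {F : IntermediateField K (AlgebraicClosure K)} (hF : IsFinUnr k F) (f : maxUnr k K)
    (hfF : (f : AlgebraicClosure K) ∈ F) (hf0 : f ≠ 0) (hfG : ∀ σ ∈ G, s σ f = f)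
    (hdiv : IsDivisible p k (⟨f, hfF⟩ : F)) : ∃ x : k', Has s G p f x := by
  have hpp : p.Prime := Fact.out
  have hpk : (p : k) ≠ 0 := by exact_mod_cast hpp.ne_zero
  obtain ⟨w, hw⟩ := IsAlgClosed.exists_pow_nat_eq (((⟨f, hfF⟩ : F)) : AlgebraicClosure K) hpp.pos
  obtain ⟨F', hF', -, hwF'⟩ := hF.exists_root hpk w _ hw hdiv
  obtain ⟨x, y, hx0, hyG, hxy⟩ := exists_class hs B hζ f ⟨w, hF'.le_maxUnr hwF'⟩ hf0
    (Subtype.ext hw) hfG
  refine ⟨x, hx0, y, ?_, hyG, hxy⟩
  rintro rfl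
  rw [zero_pow hpp.ne_zero, mul_zero] at hxy
  exact hf0 hxy

end has

section pat

variable {p : ℕ} [Fact p.Prime] {k : Type u} {K : Type v} [Field k] [Field K] [Algebra k K]
  [CharZero k] {s : Gal(constClosure k K/k) →* Gal(maxUnr k K/K)}
  {G : Subgroup Gal(constClosure k K/k)} {k' : Type w} [Field k'] [Algebra k' (maxUnr k K)]
  [Algebra ℚ_[p] k'] [FiniteDimensional ℚ_[p] k']

/-- **The pattern of a section is the pattern of a point**, general form. -/
theorem pattern_gen (hs : IsSection k K s) (B : Base s G k') {ζ : k'} (hζ : IsPrimitiveRoot ζ p)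
    {F : IntermediateField K (AlgebraicClosure K)} (hF : IsFinUnr k F)
    (hkF : ∀ c : k', ((algebraMap k' (maxUnr k K) c : maxUnr k K) : AlgebraicClosure K) ∈ F)
    (t : maxUnr k K) (htF : (t : AlgebraicClosure K) ∈ F) (htG : ∀ σ ∈ G, s σ t = t)
    (ht : ∀ c : k', t ≠ algebraMap k' (maxUnr k K) c) {r : ℕ} {A₀ A : Finset k'}
    (hA : IsFine p r A₀ A)
    (hdiv : ∀ a ∈ A, IsDivisible p k ((⟨t, htF⟩ : F) - ⟨_, hkF a⟩)) :
    ∃ z : k', ∀ a ∈ A₀, z ≠ a ∧ ∃ x : k',
      Has s G p (t - algebraMap k' (maxUnr k K) a) x ∧ clsm p x = clsm p (z - a) := by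
  classical
  have hpp : p.Prime := Fact.out
  obtain ⟨x, y, hxy, hrel⟩ := section_rel hs B hζ hF hkF t htF htG ht (A : Set k') hdiv
  obtain ⟨H, hH, hrig⟩ := rigid_padic hζ
  obtain ⟨z, hz⟩ := hrig r A₀ (A : Set k') (fun a ha => hA.subset ha) hA.bound hA.sep hA.dense
    (fun a => clsm p (x a)) (by
      intro a ha b hb c hc hba hca hcls
      have hxa := (hxy a ha).1
      have hxc := (hxy c hc).1
      have hba' : b - a ≠ 0 := sub_ne_zero.2 hba
      have hca' : c - a ≠ 0 := sub_ne_zero.2 hca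
      have h1 : ∃ e, x a / (b - a) = e ^ p := by
        have h2 : clsm p (x a / (b - a)) = 0 := by
          rw [clsm_div _ _ hxa hba', ← hcls, sub_self]
        exact (clsm_eq_zero hpp.ne_zero _ (div_ne_zero hxa hba')).1 h2
      have h4 : clsm p (x a) - clsm p (c - a) = - clsm p ((c - a) / (b - a)) := by
        rw [clsm_div _ _ hca' hba', hcls]
        abel
      have h5 : clsm p (x c) - clsm p (x a) = clsm p (x c / (b - a)) := by
        rw [clsm_div _ _ hxc hba', hcls]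
      rw [h4, h5, map_neg, LinearMap.neg_apply, neg_eq_zero]
      rcases hrel a ha b hb c hc hba' hca' h1 with ⟨θ0, hθ0⟩ | ⟨f, hf⟩
      · have h6 : clsm p ((c - a) / (b - a)) = 0 :=
          (clsm_eq_zero hpp.ne_zero _ (div_ne_zero hca' hba')).2 ⟨θ0, hθ0⟩
        rw [h6, map_zero]
        rfl
      · exact hH _ _ f (div_ne_zero hca' hba') (div_ne_zero hxc hba') hf)
  refine ⟨z, fun a ha => ⟨(hz a ha).1, x a, ?_, (hz a ha).2⟩⟩
  obtain ⟨h1, h2, h3, h4⟩ := hxy a (hA.subset ha)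
  exact ⟨h1, y a, h2, h3, h4⟩

end pat

end P025H641
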