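import Vale.Agent.P025.H641.Nrm

/-! # Existence of a nonzero symbol -/

namespace P025H641

universe u v

open Polynomial

section chi

variable {p : ℕ} [Fact p.Prime] {k : Type u} [Field k] {M : Type v} [Field M] [Algebra k M]
  {ζ : k} (hζ : IsPrimitiveRoot ζ p)

include hζ

lemma zeta_pow_inj (i j : ZMod p) (h : ζ ^ i.val = ζ ^ j.val) : i = j :=
  ZMod.val_injective p (hζ.pow_inj (ZMod.val_lt i) (ZMod.val_lt j) h)

lemma zeta_pow_add (i j : ZMod p) : ζ ^ (i + j).val = ζ ^ i.val * ζ ^ j.val := by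
  rw [ZMod.val_add, ← pow_add]
  conv_rhs => rw [← Nat.div_add_mod (i.val + j.val) p, pow_add, pow_mul, hζ.pow_eq_one, one_pow,
    one_mul]

/-- the Kummer character -/
lemma exists_chi (hroot : ∀ γ : k, ∃ θ : M, θ ^ p = algebraMap k M γ) (γ : k) (hγ : γ ≠ 0)
    (σ : M ≃ₐ[k] M) : ∃ i : ZMod p, ∀ θ : M, θ ^ p = algebraMap k M γ →
      σ θ = algebraMap k M (ζ ^ i.val) * θ := by
  have hp : 0 < p := (Fact.out : p.Prime).pos
  have hζM : IsPrimitiveRoot (algebraMap k M ζ) p :=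
    hζ.map_of_injective (algebraMap k M).injective
  obtain ⟨θ0, h0⟩ := hroot γ
  have hne : ∀ θ : M, θ ^ p = algebraMap k M γ → θ ≠ 0 := by
    rintro θ h rfl
    rw [zero_pow hp.ne'] at h
    exact hγ ((map_eq_zero _).1 h.symm)
  have h1 : (σ θ0 / θ0) ^ p = 1 := by
    rw [div_pow, ← map_pow, h0, AlgEquiv.commutes]
    exact div_self ((_root_.map_ne_zero _).2 hγ)
  obtain ⟨i, hi, h2⟩ := hζM.eq_pow_of_pow_eq_one h1
  refine ⟨(i : ZMod p), fun θ hθ => ?_⟩
  rw [ZMod.val_natCast, Nat.mod_eq_of_lt hi]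
  have h3 : (θ / θ0) ^ p = 1 := by
    rw [div_pow, hθ, h0]
    exact div_self ((_root_.map_ne_zero _).2 hγ)
  obtain ⟨j, -, h4⟩ := hζM.eq_pow_of_pow_eq_one h3
  have h5 : θ = algebraMap k M (ζ ^ j) * θ0 := by
    rw [map_pow, h4, div_mul_cancel₀ _ (hne θ0 h0)]
  have h6 : σ θ0 = algebraMap k M (ζ ^ i) * θ0 := by
    rw [map_pow, h2, div_mul_cancel₀ _ (hne θ0 h0)]
  rw [h5, map_mul, AlgEquiv.commutes, h6]
  ring

end chi

section sym

variable {p : ℕ} [Fact p.Prime] {k : Type u} [Field k] {M : Type v} [Field M] [Algebra k M]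
  {ζ : k} (hζ : IsPrimitiveRoot ζ p) (hroot : ∀ γ : k, ∃ θ : M, θ ^ p = algebraMap k M γ)

/-- the Kummer character of `γ` -/
noncomputable def chi (γ : kˣ) (σ : M ≃ₐ[k] M) : ZMod p :=
  (exists_chi hζ hroot (γ : k) γ.ne_zero σ).choose

lemma chi_spec (γ : kˣ) (σ : M ≃ₐ[k] M) (θ : M) (hθ : θ ^ p = algebraMap k M γ) :
    σ θ = algebraMap k M (ζ ^ (chi hζ hroot γ σ).val) * θ :=
  (exists_chi hζ hroot (γ : k) γ.ne_zero σ).choose_spec θ hθ

lemma chi_unique (γ : kˣ) (σ : M ≃ₐ[k] M) (θ : M) (hθ : θ ^ p = algebraMap k M γ) (i : ZMod p)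
    (h : σ θ = algebraMap k M (ζ ^ i.val) * θ) : chi hζ hroot γ σ = i := by
  have hp : 0 < p := (Fact.out : p.Prime).pos
  have hθ0 : θ ≠ 0 := by
    rintro rfl
    rw [zero_pow hp.ne'] at hθ
    exact γ.ne_zero ((map_eq_zero _).1 hθ.symm)
  apply zeta_pow_inj hζ
  apply (algebraMap k M).injective
  apply mul_right_cancel₀ hθ0
  rw [← chi_spec hζ hroot γ σ θ hθ, h]

lemma chi_mul (γ γ' : kˣ) (σ : M ≃ₐ[k] M) :
    chi hζ hroot (γ * γ') σ = chi hζ hroot γ σ + chi hζ hroot γ' σ := by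
  obtain ⟨θ, hθ⟩ := hroot γ
  obtain ⟨θ', hθ'⟩ := hroot γ'
  apply chi_unique hζ hroot (γ * γ') σ (θ * θ')
    (by rw [mul_pow, hθ, hθ', ← map_mul, Units.val_mul])
  rw [zeta_pow_add hζ, map_mul, chi_spec hζ hroot γ σ θ hθ, chi_spec hζ hroot γ' σ θ' hθ', map_mul]
  ring

lemma chi_comp (γ : kˣ) (σ τ : M ≃ₐ[k] M) :
    chi hζ hroot γ (σ * τ) = chi hζ hroot γ σ + chi hζ hroot γ τ := by
  obtain ⟨θ, hθ⟩ := hroot γ
  apply chi_unique hζ hroot γ (σ * τ) θ hθ
  rw [zeta_pow_add hζ, AlgEquiv.mul_apply, chi_spec hζ hroot γ τ θ hθ, map_mul,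
    AlgEquiv.commutes, chi_spec hζ hroot γ σ θ hθ, map_mul]
  ring

/-- the carry -/
def carry {p : ℕ} (i j : ZMod p) : ℕ := (i.val + j.val) / p

lemma carry_spec (i j : ZMod p) : i.val + j.val = (i + j).val + p * carry i j := by
  rw [carry, ZMod.val_add, Nat.mod_add_div]

lemma carry_cocycle (i j i' j' : ZMod p) :
    carry i j + carry i' j' + carry (i + j) (i' + j') =
      carry i i' + carry j j' + carry (i + i') (j + j') := by
  have hp : 0 < p := (Fact.out : p.Prime).pos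
  have h1 := carry_spec i j
  have h2 := carry_spec i' j'
  have h3 := carry_spec (i + j) (i' + j')
  have h4 := carry_spec i i'
  have h5 := carry_spec j j'
  have h6 := carry_spec (i + i') (j + j')
  have h7 : i + j + (i' + j') = i + i' + (j + j') := by ring
  rw [h7] at h3
  apply Nat.eq_of_mul_eq_mul_left hp
  rw [mul_add, mul_add, mul_add, mul_add]
  omega

/-- the action of automorphisms on units -/
noncomputable def act (σ : M ≃ₐ[k] M) : Mˣ →* Mˣ := Units.map (σ : M →* M)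

lemma act_val (σ : M ≃ₐ[k] M) (x : Mˣ) : ((act σ x : Mˣ) : M) = σ x := rfl

lemma act_mul (σ τ : M ≃ₐ[k] M) (x : Mˣ) : act (σ * τ) x = act σ (act τ x) := rfl

/-- the coboundary map -/
noncomputable def dd (k : Type u) (M : Type v) [Field k] [Field M] [Algebra k M] :
    ((M ≃ₐ[k] M) → Mˣ) →* ((M ≃ₐ[k] M) × (M ≃ₐ[k] M) → Mˣ) where
  toFun a := fun x => a x.1 * act x.1 (a x.2) / a (x.1 * x.2)
  map_one' := by
    ext x
    simp
  map_mul' a b := by
    funext x
    simp only [Pi.mul_apply, map_mul]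
    rw [div_mul_div_comm, mul_mul_mul_comm (a x.1)]

/-- the embedding of `kˣ` -/
noncomputable def emU (k : Type u) (M : Type v) [Field k] [Field M] [Algebra k M] : kˣ →* Mˣ :=
  Units.map (algebraMap k M : k →* M)

lemma act_emU (σ : M ≃ₐ[k] M) (x : kˣ) : act σ (emU k M x) = emU k M x := by
  apply Units.ext
  rw [act_val]
  exact σ.commutes _

/-- the cocycle of the cyclic algebra -/
noncomputable def cc (γ β : kˣ) : (M ≃ₐ[k] M) × (M ≃ₐ[k] M) → Mˣ :=
  fun x => emU k M β ^ carry (chi hζ hroot γ x.1) (chi hζ hroot γ x.2)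

lemma cc_mul_right (γ β β' : kˣ) :
    cc hζ hroot γ (β * β') = cc hζ hroot γ β * cc (M := M) hζ hroot γ β' := by
  funext x
  simp only [cc, Pi.mul_apply, map_mul, mul_pow]

lemma cc_mul_left (γ γ' β : kˣ) :
    cc hζ hroot γ β * cc hζ hroot γ' β =
      cc hζ hroot (γ * γ') β *
        dd k M (fun σ => emU k M β ^ carry (chi hζ hroot γ σ) (chi hζ hroot γ' σ)) := by
  funext x
  simp only [cc, Pi.mul_apply, dd, MonoidHom.coe_mk, OneHom.coe_mk, map_pow, act_emU]
  rw [mul_div_assoc', eq_div_iff_mul_eq', ← pow_add, ← pow_add, ← pow_add, ← pow_add,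
    chi_mul, chi_mul, chi_comp, chi_comp]
  congr 1
  have h1 := carry_cocycle (chi hζ hroot γ x.1) (chi hζ hroot γ x.2) (chi hζ hroot γ' x.1)
    (chi hζ hroot γ' x.2)
  omega

lemma cc_pow (γ β : kˣ) :
    cc hζ hroot γ β ^ p = dd k M (fun σ => emU k M β ^ (chi hζ hroot γ σ).val) := by
  funext x
  simp only [cc, Pi.pow_apply, dd, MonoidHom.coe_mk, OneHom.coe_mk, map_pow, act_emU]
  rw [eq_div_iff_mul_eq', ← pow_mul, ← pow_add, ← pow_add, chi_comp]
  congr 1
  have h1 := carry_spec (chi hζ hroot γ x.1) (chi hζ hroot γ x.2)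
  rw [h1, mul_comm p, add_comm]

/-- norms give coboundaries -/
lemma cc_nrm (γ β : kˣ) (f : k[X]) (hβ : (β : k) = nrm p ζ f γ) :
    ∃ a, cc hζ hroot γ β = dd k M a := by
  have hp : 0 < p := (Fact.out : p.Prime).pos
  obtain ⟨θ, hθ⟩ := hroot γ
  have h1 := nrm_spec hp hζ f γ θ hθ
  rw [← hβ] at h1
  set z : ℕ → M := fun i => aeval (algebraMap k M (ζ ^ i) * θ) f with hz
  have hz0 : ∀ i, z i ≠ 0 := by
    have h2 : ∀ i, i < p → z i ≠ 0 := by
      intro i hi h
      have h3 : algebraMap k M β = 0 := by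
        rw [h1]
        exact Finset.prod_eq_zero (Finset.mem_range.2 hi) h
      exact β.ne_zero ((map_eq_zero _).1 h3)
    intro i
    have h3 : z i = z (i % p) := by
      simp only [hz]
      rw [← Nat.div_add_mod i p, pow_add, pow_mul, hζ.pow_eq_one, one_pow, one_mul]
      simp
    rw [h3]
    exact h2 _ (Nat.mod_lt i hp)
  have hzp : ∀ i, z (p + i) = z i := by
    intro i
    simp only [hz, pow_add, hζ.pow_eq_one, one_mul]
  set Z : ℕ → Mˣ := fun i => Units.mk0 (z i) (hz0 i) with hZ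
  have hZp : ∀ i, Z (p + i) = Z i := fun i => Units.ext (hzp i)
  have hZβ : ∏ i ∈ Finset.range p, Z i = emU k M β := by
    apply Units.ext
    rw [Units.coe_prod]
    exact h1.symm
  have hZσ : ∀ (σ : M ≃ₐ[k] M) i, act σ (Z i) = Z ((chi hζ hroot γ σ).val + i) := by
    intro σ i
    apply Units.ext
    rw [act_val]
    show σ (z i) = z _
    simp only [hz]
    have h4 : ∀ w, σ (aeval w f) = aeval (σ w) f := fun w =>
      (aeval_algHom_apply (σ : M →ₐ[k] M) w f).symm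
    rw [h4]
    congr 2
    rw [map_mul, AlgEquiv.commutes, chi_spec hζ hroot γ σ θ hθ, pow_add, map_mul]
    ring
  have hmulp : ∀ n m, ∏ i ∈ Finset.range (n + p * m), Z i =
      (∏ i ∈ Finset.range n, Z i) * emU k M β ^ m := by
    intro n m
    induction m with
    | zero => simp
    | succ m ih =>
      have h3 : n + p * (m + 1) = p + (n + p * m) := by ring
      rw [h3, Finset.prod_range_add, hZβ, Finset.prod_congr rfl (fun i _ => hZp i), ih, pow_succ]
      rw [mul_comm, mul_assoc]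
  refine ⟨fun σ => ∏ i ∈ Finset.range (chi hζ hroot γ σ).val, Z i, ?_⟩
  funext x
  simp only [cc, dd, MonoidHom.coe_mk, OneHom.coe_mk, map_prod]
  rw [eq_div_iff_mul_eq', Finset.prod_congr rfl (fun i _ => hZσ x.1 i), ← Finset.prod_range_add,
    carry_spec, hmulp, ← chi_comp, mul_comm]

end sym

end P025H641
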