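import Vale.Agent.P025.H641.Brauer

/-! # The symbol of a non-norm is nonzero -/

namespace P025H641

universe u v

open Polynomial

lemma dual_sep_aux {T : Type*} [AddCommGroup T] (p : ℕ) [Fact p.Prime] [Module (ZMod p) T]
    (s : T) (hs : s ≠ 0) : ∃ φ : T →+ ZMod p, φ s ≠ 0 := by
  obtain ⟨φ, hφ⟩ : ∃ φ : T →ₗ[ZMod p] ZMod p, φ s ≠ 0 := by
    by_contra hcon
    push Not at hcon
    exact hs ((Module.forall_dual_apply_eq_zero_iff (ZMod p) _).1 hcon)
  exact ⟨φ.toAddMonoidHom, hφ⟩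

lemma dual_sep {T : Type*} [AddCommGroup T] (p : ℕ) [Fact p.Prime] (hT : ∀ x : T, p • x = 0)
    (s : T) (hs : s ≠ 0) : ∃ φ : T →+ ZMod p, φ s ≠ 0 :=
  @dual_sep_aux T _ p _ (AddCommGroup.zmodModule hT) s hs

/-- a functional on the `p`-torsion of a quotient -/
lemma exists_torsion_functional {C : Type*} [CommGroup C] (p : ℕ) [Fact p.Prime]
    (B : Subgroup C) (s : C) (hs : s ^ p ∈ B) (h0 : s ∉ B) : ∃ φ : C → ZMod p,
      (∀ x y, x ^ p ∈ B → y ^ p ∈ B → φ (x * y) = φ x + φ y) ∧ (∀ x ∈ B, φ x = 0) ∧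
        φ s ≠ 0 := by
  classical
  let T : Subgroup C := B.comap (powMonoidHom p)
  have hT : ∀ x : C, x ∈ T ↔ x ^ p ∈ B := fun x => Iff.rfl
  let Q := T ⧸ (B.subgroupOf T)
  have hQ : ∀ x : Additive Q, p • x = 0 := by
    intro x
    obtain ⟨t, ht⟩ := QuotientGroup.mk_surjective (Additive.toMul x)
    have h1 : x = Additive.ofMul (QuotientGroup.mk t : Q) := by rw [ht]; rfl
    rw [h1, ← ofMul_pow, ofMul_eq_zero, ← QuotientGroup.mk_pow, QuotientGroup.eq_one_iff,
      Subgroup.mem_subgroupOf]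
    exact t.2
  obtain ⟨φ, hφ⟩ := dual_sep p hQ (Additive.ofMul (QuotientGroup.mk (⟨s, hs⟩ : T) : Q)) (by
    rw [Ne, ofMul_eq_zero, QuotientGroup.eq_one_iff, Subgroup.mem_subgroupOf]
    exact h0)
  refine ⟨fun x => if h : x ^ p ∈ B then
    φ (Additive.ofMul (QuotientGroup.mk (⟨x, h⟩ : T) : Q)) else 0, ?_, ?_, ?_⟩
  · intro x y hx hy
    have hxy : (x * y) ^ p ∈ B := by rw [mul_pow]; exact B.mul_mem hx hy
    simp only [hx, hy, hxy, dif_pos]
    rw [← map_add, ← ofMul_mul, ← QuotientGroup.mk_mul]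
    rfl
  · intro x hx
    have hxp : x ^ p ∈ B := B.pow_mem hx p
    simp only [hxp, dif_pos]
    have h1 : (QuotientGroup.mk (⟨x, hxp⟩ : T) : Q) = 1 := by
      rw [QuotientGroup.eq_one_iff, Subgroup.mem_subgroupOf]
      exact hx
    rw [h1, ofMul_one, map_zero]
  · simp only [hs, dif_pos]
    exact hφ

section

variable {p : ℕ} [Fact p.Prime] {k : Type u} [Field k] {M : Type v} [Field M] [Algebra k M]
  [FiniteDimensional k M] [IsGalois k M]
  {ζ : k} (hζ : IsPrimitiveRoot ζ p) (hroot : ∀ γ : k, ∃ θ : M, θ ^ p = algebraMap k M γ)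

omit [IsGalois k M] in
/-- Hilbert 90 for a subgroup -/
lemma hilbert90 (N : Subgroup (M ≃ₐ[k] M)) (a : (M ≃ₐ[k] M) → Mˣ)
    (ha : ∀ m ∈ N, ∀ n ∈ N, a (m * n) = a m * act m (a n)) :
    ∃ S : Mˣ, ∀ m ∈ N, a m * act m S = S := by
  classical
  have : Fintype N := Fintype.ofFinite _
  have hli : LinearIndependent M (fun n : N => ((n : M ≃ₐ[k] M) : M → M)) :=
    LinearIndependent.comp (ι' := N) (linearIndependent_monoidHom M M)
      (fun n => ((n : M ≃ₐ[k] M) : M →* M))
      (fun x y h => by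
        apply Subtype.ext
        ext z
        exact DFunLike.congr_fun h z)
  obtain ⟨z, hz⟩ : ∃ z : M, ∑ n : N, (a n : M) * (n : M ≃ₐ[k] M) z ≠ 0 := by
    by_contra hcon
    push Not at hcon
    have h1 : ∑ n : N, (a n : M) • ((n : M ≃ₐ[k] M) : M → M) = 0 := by
      funext z
      rw [Finset.sum_apply]
      simpa using hcon z
    have h2 := (Fintype.linearIndependent_iff.1 hli) (fun n => (a n : M)) h1 1
    exact (a _).ne_zero h2
  refine ⟨Units.mk0 _ hz, fun m hm => ?_⟩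
  apply Units.ext
  rw [Units.val_mul, act_val, Units.val_mk0, map_sum, Finset.mul_sum]
  have h1 : ∀ n : N, (a m : M) * m ((a n : M) * (n : M ≃ₐ[k] M) z) =
      (a ((⟨m, hm⟩ * n : N) : M ≃ₐ[k] M) : M) * ((⟨m, hm⟩ * n : N) : M ≃ₐ[k] M) z := by
    intro n
    rw [map_mul, ← mul_assoc]
    congr 1
    have h2 := congrArg (fun u : Mˣ => (u : M)) (ha m hm n n.2)
    exact h2.symm
  rw [Finset.sum_congr rfl (fun n _ => h1 n)]
  exact Fintype.sum_bijective (fun n => ⟨m, hm⟩ * n) (Group.mulLeft_bijective _) _ _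
    (fun n => rfl)

/-- a trivial cyclic algebra gives a norm -/
lemma norm_of_cc (ω π : kˣ) (hω : ¬ ∃ y : k, (ω : k) = y ^ p)
    (a : (M ≃ₐ[k] M) → Mˣ) (ha : cc hζ hroot ω π = dd k M a) :
    ∃ f : k[X], (π : k) = nrm p ζ f ω := by
  have hpp : p.Prime := Fact.out
  have hp := hpp.pos
  obtain ⟨θ, hθ⟩ := hroot ω
  have hθ0 : θ ≠ 0 := by
    rintro rfl
    rw [zero_pow hp.ne'] at hθ
    exact ω.ne_zero ((map_eq_zero _).1 hθ.symm)
  set χ := chi hζ hroot ω with hχ
  have hχ1 : χ 1 = 0 := by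
    have := chi_comp hζ hroot ω (1 : M ≃ₐ[k] M) 1
    rw [mul_one] at this
    exact left_eq_add.1 this
  have hχinv : ∀ σ, χ σ⁻¹ = - χ σ := by
    intro σ
    have := chi_comp hζ hroot ω σ σ⁻¹
    rw [mul_inv_cancel] at this
    rw [← hχ, hχ1] at this
    exact (neg_eq_of_add_eq_zero_right this.symm).symm
  have hχθ : ∀ σ, χ σ = 0 ↔ σ θ = θ := by
    intro σ
    constructor
    · intro h
      have h1 := chi_spec hζ hroot ω σ θ hθ
      rw [← hχ, h, ZMod.val_zero, pow_zero, map_one, one_mul] at h1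
      exact h1
    · intro h
      apply chi_unique hζ hroot ω σ θ hθ
      rw [ZMod.val_zero, pow_zero, map_one, one_mul, h]
  -- a generator
  obtain ⟨g, hg⟩ : ∃ g, χ g = 1 := by
    have h1 : ∃ g0, χ g0 ≠ 0 := by
      by_contra hcon
      push Not at hcon
      apply hω
      have h2 : θ ∈ Set.range (algebraMap k M) := by
        rw [IsGalois.mem_range_algebraMap_iff_fixed]
        intro σ
        exact (hχθ σ).1 (hcon σ)
      obtain ⟨y, hy⟩ := h2
      refine ⟨y, (algebraMap k M).injective ?_⟩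
      rw [map_pow, hy, hθ]
    obtain ⟨g0, hg0⟩ := h1
    have h2 : ∀ n : ℕ, χ (g0 ^ n) = n * χ g0 := by
      intro n
      induction n with
      | zero => rw [pow_zero, hχ1]; simp
      | succ n ih =>
        rw [pow_succ, hχ, chi_comp, ← hχ, ih]; push_cast; ring
    refine ⟨g0 ^ ((χ g0)⁻¹).val, ?_⟩
    rw [h2, ZMod.natCast_zmod_val, inv_mul_cancel₀ hg0]
  -- the kernel
  let N : Subgroup (M ≃ₐ[k] M) :=
    { carrier := {σ | χ σ = 0}
      mul_mem' := by
        intro σ τ hσ hτ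
        simp only [Set.mem_ofPred_eq] at hσ hτ ⊢
        rw [hχ, chi_comp, ← hχ, hσ, hτ, add_zero]
      one_mem' := hχ1
      inv_mem' := by
        intro σ hσ
        simp only [Set.mem_ofPred_eq] at hσ ⊢
        rw [hχinv, hσ, neg_zero] }
  have hN : ∀ σ, σ ∈ N ↔ χ σ = 0 := fun σ => Iff.rfl
  have hcar0 : ∀ i : ZMod p, carry 0 i = 0 := by
    intro i
    rw [carry, ZMod.val_zero, zero_add]
    exact Nat.div_eq_of_lt (ZMod.val_lt i)
  have hcar0' : ∀ i : ZMod p, carry i 0 = 0 := by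
    intro i
    rw [carry, ZMod.val_zero, add_zero]
    exact Nat.div_eq_of_lt (ZMod.val_lt i)
  have hrel : ∀ σ τ, a σ * act σ (a τ) = emU k M π ^ carry (χ σ) (χ τ) * a (σ * τ) := by
    intro σ τ
    have h1 := congrFun ha (σ, τ)
    simp only [cc, dd, MonoidHom.coe_mk, OneHom.coe_mk] at h1
    rw [hχ, h1, div_mul_cancel]
  obtain ⟨S, hS⟩ := hilbert90 N a (by
    intro m hm n hn
    have h1 := hrel m n
    rw [(hN m).1 hm, (hN n).1 hn, hcar0, pow_zero, one_mul] at h1
    exact h1.symm)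
  -- the modified cochain
  set a' : (M ≃ₐ[k] M) → Mˣ := fun σ => a σ * act σ S / S with ha'
  have ha'N : ∀ m ∈ N, a' m = 1 := by
    intro m hm
    rw [ha']
    simp only
    rw [hS m hm, div_self']
  have hrel' : ∀ σ τ, a' σ * act σ (a' τ) = emU k M π ^ carry (χ σ) (χ τ) * a' (σ * τ) := by
    intro σ τ
    simp only [ha', _root_.map_div, map_mul, act_mul]
    have h1 := hrel σ τ
    rw [div_mul_div_comm, mul_mul_mul_comm, mul_div_assoc, mul_comm S (act σ S),
      mul_div_mul_left_eq_div, h1, mul_assoc, mul_div_assoc]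
  set b := a' g with hb
  have hfix : ∀ n ∈ N, act n b = b := by
    intro n hn
    have hn0 := (hN n).1 hn
    have h1 := hrel' n g
    rw [ha'N n hn, one_mul, hn0, hcar0, pow_zero, one_mul] at h1
    set n' := g⁻¹ * n * g with hn'
    have hn'N : n' ∈ N := by
      rw [hN, hn', hχ, chi_comp, chi_comp, ← hχ, hχinv, hn0]
      ring
    have h2 := hrel' g n'
    rw [ha'N n' hn'N, map_one, mul_one, (hN n').1 hn'N, hcar0', pow_zero, one_mul] at h2
    have h3 : g * n' = n * g := by rw [hn']; group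
    rw [h3] at h2
    rw [hb, h1, ← h2]
  -- `b` is a polynomial in `θ`
  obtain ⟨f, hf⟩ : ∃ f : k[X], (b : M) = aeval θ f := by
    have h1 : (b : M) ∈ IntermediateField.adjoin k {θ} := by
      rw [← IsGalois.fixedField_fixingSubgroup (IntermediateField.adjoin k {θ}),
        IntermediateField.mem_fixedField_iff]
      intro σ hσ
      have h2 : σ ∈ N := by
        rw [hN, hχθ]
        rw [IntermediateField.mem_fixingSubgroup_iff] at hσ
        exact hσ θ (IntermediateField.mem_adjoin_simple_self k θ)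
      have h3 := congrArg (fun u : Mˣ => (u : M)) (hfix σ h2)
      exact h3
    have h2 : IsAlgebraic k θ := Algebra.IsAlgebraic.isAlgebraic θ
    have h3 := IntermediateField.adjoin_simple_toSubalgebra_of_isAlgebraic h2
    have h4 : (b : M) ∈ Algebra.adjoin k {θ} := by
      rw [← h3]; exact h1
    rw [Algebra.adjoin_singleton_eq_range_aeval] at h4
    obtain ⟨f, hf⟩ := h4
    exact ⟨f, hf.symm⟩
  refine ⟨f, ?_⟩
  apply (algebraMap k M).injective
  rw [nrm_spec hp hζ f ω θ hθ]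
  -- powers of `g`
  have hgpow : ∀ i : ℕ, χ (g ^ i) = i := by
    intro i
    induction i with
    | zero => rw [pow_zero, hχ1]; simp
    | succ i ih => rw [pow_succ, hχ, chi_comp, ← hχ, ih, hg]; push_cast; ring
  have hprod : ∀ i : ℕ, i < p → a' (g ^ i) = ∏ j ∈ Finset.range i, act (g ^ j) b := by
    intro i
    induction i with
    | zero =>
      intro _
      rw [pow_zero, ha'N 1 N.one_mem]; simp
    | succ i ih =>
      intro hi
      have h1 := hrel' (g ^ i) g
      have h2 : carry (χ (g ^ i)) (χ g) = 0 := by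
        rw [hgpow, hg, carry, ZMod.val_natCast, Nat.mod_eq_of_lt (by omega), ZMod.val_one'']
        · exact Nat.div_eq_of_lt hi
        · exact hpp.one_lt.ne'
      rw [h2, pow_zero, one_mul, ← pow_succ, ih (by omega)] at h1
      rw [← h1, Finset.prod_range_succ]
  have hfinal : emU k M π = ∏ j ∈ Finset.range p, act (g ^ j) b := by
    obtain ⟨m, hm⟩ : ∃ m, p = m + 1 := ⟨p - 1, by omega⟩
    have h1 := hrel' (g ^ m) g
    have h2 : carry (χ (g ^ m)) (χ g) = 1 := by
      rw [hgpow, hg, carry, ZMod.val_natCast, Nat.mod_eq_of_lt (by omega), ZMod.val_one'']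
      · rw [← hm]; exact Nat.div_self hp
      · exact hpp.one_lt.ne'
    have h3 : g ^ m * g ∈ N := by
      rw [← pow_succ, ← hm, hN, hgpow, ZMod.natCast_self]
    rw [h2, pow_one, ha'N _ h3, mul_one, hprod m (by omega)] at h1
    rw [← h1, hm, Finset.prod_range_succ]
  have h1 := congrArg (fun u : Mˣ => (u : M)) hfinal
  simp only [Units.coe_prod] at h1
  have h2 : ((emU k M π : Mˣ) : M) = algebraMap k M π := rfl
  rw [← h2, h1]
  refine Finset.prod_congr rfl (fun j hj => ?_)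
  rw [Finset.mem_range] at hj
  rw [act_val, hf]
  have h4 : ∀ w, (g ^ j) (aeval w f) = aeval ((g ^ j) w) f := fun w =>
    (aeval_algHom_apply ((g ^ j : M ≃ₐ[k] M) : M →ₐ[k] M) w f).symm
  rw [h4, chi_spec hζ hroot ω (g ^ j) θ hθ, ← hχ, hgpow, ZMod.val_natCast, Nat.mod_eq_of_lt hj]

include hζ in
/-- **Existence of a symbol.** -/
theorem exists_symbol (ω π : kˣ) (hω : ¬ ∃ y : k, (ω : k) = y ^ p)
    (hπ : ¬ ∃ f : k[X], (π : k) = nrm p ζ f ω) (M : Type v) [Field M] [Algebra k M]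
    [FiniteDimensional k M] [IsGalois k M]
    (hroot : ∀ γ : k, ∃ θ : M, θ ^ p = algebraMap k M γ) :
    ∃ h : kˣ → kˣ → ZMod p, (∀ x y z, h (x * y) z = h x z + h y z) ∧
      (∀ x y z, h x (y * z) = h x y + h x z) ∧
      (∀ (γ β : kˣ) (f : k[X]), (β : k) = nrm p ζ f γ → h γ β = 0) ∧ h ω π ≠ 0 := by
  classical
  let B : Subgroup ((M ≃ₐ[k] M) × (M ≃ₐ[k] M) → Mˣ) := (dd k M).range
  have hB : ∀ a, dd k M a ∈ B := fun a => ⟨a, rfl⟩
  have hmem : ∀ γ β : kˣ, (cc hζ hroot γ β) ^ p ∈ B := by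
    intro γ β
    rw [cc_pow]
    exact hB _
  have hne : cc hζ hroot ω π ∉ B := by
    rintro ⟨a, ha⟩
    exact hπ (norm_of_cc hζ hroot ω π hω a ha.symm)
  obtain ⟨φ, hφ, hφB, hφ0⟩ := exists_torsion_functional p B _ (hmem ω π) hne
  refine ⟨fun x y => φ (cc hζ hroot x y), ?_, ?_, ?_, hφ0⟩
  · intro x y z
    simp only
    rw [← hφ _ _ (hmem _ _) (hmem _ _), cc_mul_left, hφ _ _ (hmem _ _)
      (B.pow_mem (hB _) p), hφB _ (hB _), add_zero]
  · intro x y z
    simp only
    rw [cc_mul_right, hφ _ _ (hmem _ _) (hmem _ _)]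
  · intro γ β f hf
    obtain ⟨a, ha⟩ := cc_nrm hζ hroot γ β f hf
    simp only
    rw [ha, hφB _ (hB _)]

end

end P025H641
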