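import Vale.Agent.P025.H641.Geo
import Vale.Agent.P025.H16.BaseChange

/-! # Composita of unramified extensions -/

open IntermediateField Polynomial

namespace P025H641

universe u v w

section general

variable {k E E' K F : Type*} [Field k] [Field E] [Field E'] [Field K] [Field F]
    [CharZero k] [Algebra k E] [Algebra k E'] [Algebra k K] [Algebra k F] [Algebra E E']
    [Algebra E K] [Algebra E F] [Algebra E' F] [Algebra K F]
    [IsScalarTower k E E'] [IsScalarTower k E K] [IsScalarTower k E' F] [IsScalarTower k K F]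
    [IsScalarTower E E' F] [IsScalarTower E K F] [FiniteDimensional E E']

/-- base change for simple extensions -/
lemma unram_base_change_simple (θ : E')
    (hgen : ∀ x : F, ∃ P : K[X], x = aeval (algebraMap E' F θ) P)
    (h : IsUnramified k E E') : IsUnramified k K F := by
  refine P025H16.unram_base_change (E := E) (E' := E') (fun x => ?_) h
  obtain ⟨P, rfl⟩ := hgen x
  refine ⟨P.natDegree + 1, fun i => P.coeff i, fun i => θ ^ (i : ℕ), ?_⟩
  rw [aeval_eq_sum_range, Finset.sum_range]
  refine Finset.sum_congr rfl (fun i _ => ?_)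
  rw [Algebra.smul_def, map_pow]

omit [CharZero k] [Algebra k E] [Algebra E K] [Algebra E F] [IsScalarTower k E E']
  [IsScalarTower k E K] [IsScalarTower E E' F] [IsScalarTower E K F] [FiniteDimensional E E'] 
  [Algebra E E'] [Algebra k E'] [Algebra E' F] [IsScalarTower k E' F] [Field E] [Field E'] in
/-- transitivity -/
lemma IsUnramified.trans {L : Type*} [Field L] [Algebra k L] [Algebra L K] [Algebra L F]
    [IsScalarTower L K F] [Algebra.IsAlgebraic K F] (h1 : IsUnramified k L K)
    (h2 : IsUnramified k K F) : IsUnramified k L F := by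
  intro V hV x
  obtain ⟨y, hy⟩ := h2 V hV x
  obtain ⟨z, hz⟩ := h1 _ (hV.comap (F := K)) y
  refine ⟨z, ?_⟩
  rw [comap_val_eq_iff] at hz
  rw [IsScalarTower.algebraMap_apply L K F, hz, hy]

end general

section sup

variable {k : Type u} {K : Type v} [Field k] [CharZero k] [Field K] [Algebra k K]

/-- composita of unramified extensions are unramified -/
lemma IsFinUnr.sup {F₁ F₂ : IntermediateField K (AlgebraicClosure K)} (h₁ : IsFinUnr k F₁)
    (h₂ : IsFinUnr k F₂) : IsFinUnr k (F₁ ⊔ F₂) := by
  have hchar : CharZero K := charZero_of_injective_algebraMap (algebraMap k K).injective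
  obtain ⟨hf₁, hu₁⟩ := h₁
  obtain ⟨hf₂, hu₂⟩ := h₂
  refine ⟨finiteDimensional_sup F₁ F₂, ?_⟩
  obtain ⟨θ, hθ⟩ := Field.exists_primitive_element K F₁
  let _ : Algebra F₁ (F₁ ⊔ F₂ : IntermediateField K (AlgebraicClosure K)) :=
    (IntermediateField.inclusion (le_sup_left : F₁ ≤ F₁ ⊔ F₂)).toRingHom.toAlgebra
  let _ : Algebra F₂ (F₁ ⊔ F₂ : IntermediateField K (AlgebraicClosure K)) :=
    (IntermediateField.inclusion (le_sup_right : F₂ ≤ F₁ ⊔ F₂)).toRingHom.toAlgebra
  have t1 : IsScalarTower K F₁ (F₁ ⊔ F₂ : IntermediateField K (AlgebraicClosure K)) :=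
    IsScalarTower.of_algebraMap_eq (fun x => rfl)
  have t2 : IsScalarTower K F₂ (F₁ ⊔ F₂ : IntermediateField K (AlgebraicClosure K)) :=
    IsScalarTower.of_algebraMap_eq (fun x => rfl)
  have t3 : IsScalarTower k F₁ (F₁ ⊔ F₂ : IntermediateField K (AlgebraicClosure K)) :=
    IsScalarTower.of_algebraMap_eq (fun x => rfl)
  have t4 : IsScalarTower k F₂ (F₁ ⊔ F₂ : IntermediateField K (AlgebraicClosure K)) :=
    IsScalarTower.of_algebraMap_eq (fun x => rfl)
  have hsupfin : FiniteDimensional K (F₁ ⊔ F₂ : IntermediateField K (AlgebraicClosure K)) :=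
    finiteDimensional_sup F₁ F₂
  have halg : Algebra.IsAlgebraic F₂ (F₁ ⊔ F₂ : IntermediateField K (AlgebraicClosure K)) := by
    have h3 : Algebra.IsAlgebraic K (F₁ ⊔ F₂ : IntermediateField K (AlgebraicClosure K)) :=
      inferInstance
    exact Algebra.IsAlgebraic.tower_top (K := K) F₂
  refine IsUnramified.trans hu₂ (unram_base_change_simple (E := K) (E' := F₁) θ ?_ hu₁)
  -- generation
  have hadj : F₁ = K⟮(θ : AlgebraicClosure K)⟯ := by
    have h1 := congrArg (IntermediateField.map F₁.val) hθ
    rw [IntermediateField.adjoin_map, Set.image_singleton, ← AlgHom.fieldRange_eq_map,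
      IntermediateField.fieldRange_val] at h1
    exact h1.symm
  have hint : IsIntegral F₂ (θ : AlgebraicClosure K) := by
    have h1 : IsIntegral K (θ : AlgebraicClosure K) := Algebra.IsIntegral.isIntegral _
    exact h1.tower_top
  intro x
  have hx : (x : AlgebraicClosure K) ∈ F₂⟮(θ : AlgebraicClosure K)⟯ := by
    have h1 := IntermediateField.restrictScalars_adjoin_eq_sup K F₂
      ({(θ : AlgebraicClosure K)} : Set (AlgebraicClosure K))
    have h2 : (x : AlgebraicClosure K) ∈ F₂ ⊔ K⟮(θ : AlgebraicClosure K)⟯ := by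
      rw [← hadj, sup_comm]; exact x.2
    rw [← h1] at h2
    exact h2
  have hx2 : (x : AlgebraicClosure K) ∈ Algebra.adjoin F₂ {(θ : AlgebraicClosure K)} := by
    rw [← IntermediateField.adjoin_simple_toSubalgebra_of_isAlgebraic hint.isAlgebraic]
    exact hx
  rw [Algebra.adjoin_singleton_eq_range_aeval] at hx2
  obtain ⟨P, hP⟩ := hx2
  refine ⟨P, Subtype.ext ?_⟩
  have t5 : IsScalarTower F₂ (F₁ ⊔ F₂ : IntermediateField K (AlgebraicClosure K))
    (AlgebraicClosure K) := IsScalarTower.of_algebraMap_eq (fun x => rfl)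
  have h3 := aeval_algebraMap_apply (AlgebraicClosure K)
    (algebraMap F₁ (F₁ ⊔ F₂ : IntermediateField K (AlgebraicClosure K)) θ) P
  refine Eq.trans ?_ h3
  exact hP.symm

/-- every element of the maximal unramified extension lies in a finite unramified extension -/
lemma exists_finUnr_mem {x : AlgebraicClosure K} (hx : x ∈ maxUnr k K) :
    ∃ F : IntermediateField K (AlgebraicClosure K), IsFinUnr k F ∧ x ∈ F := by
  rw [maxUnr, sSup_eq_iSup', ← SetLike.mem_coe] at hx
  have hne : Nonempty {E : IntermediateField K (AlgebraicClosure K) |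
    FiniteDimensional K E ∧ IsUnramified k K E} := ⟨⟨⊥, isFinUnr_bot⟩⟩
  rw [coe_iSup_of_directed, Set.mem_iUnion] at hx
  · obtain ⟨⟨F, hF⟩, hxF⟩ := hx
    exact ⟨F, hF, hxF⟩
  · rintro ⟨F₁, h₁⟩ ⟨F₂, h₂⟩
    exact ⟨⟨F₁ ⊔ F₂, IsFinUnr.sup h₁ h₂⟩, le_sup_left, le_sup_right⟩

/-- finitely many elements of the maximal unramified extension lie in a finite unramified
extension -/
lemma exists_finUnr_subset (S : Finset (AlgebraicClosure K)) (hS : ∀ x ∈ S, x ∈ maxUnr k K) :
    ∃ F : IntermediateField K (AlgebraicClosure K), IsFinUnr k F ∧ ∀ x ∈ S, x ∈ F := by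
  classical
  induction S using Finset.induction_on with
  | empty => exact ⟨⊥, isFinUnr_bot, by simp⟩
  | insert a S _ ih =>
    obtain ⟨F₁, h₁, hm₁⟩ := ih (fun x hx => hS x (Finset.mem_insert_of_mem hx))
    obtain ⟨F₂, h₂, hm₂⟩ := exists_finUnr_mem (hS a (Finset.mem_insert_self _ _))
    refine ⟨F₁ ⊔ F₂, h₁.sup h₂, fun x hx => ?_⟩
    rcases Finset.mem_insert.1 hx with rfl | hx
    · exact (le_sup_right : F₂ ≤ F₁ ⊔ F₂) hm₂
    · exact (le_sup_left : F₁ ≤ F₁ ⊔ F₂) (hm₁ x hx)

end sup

section push

variable {k : Type u} {E : Type v} {K : Type w} [Field k] [CharZero k] [Field E] [Algebra k E]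
  [Field K] [Algebra k K] [Algebra E K] [IsScalarTower k E K]

/-- the image of an unramified extension of `E` generates an unramified extension of `K` -/
lemma exists_push (j : AlgebraicClosure E →ₐ[E] AlgebraicClosure K)
    {F₀ : IntermediateField E (AlgebraicClosure E)} (hF₀ : IsFinUnr k F₀) :
    ∃ F : IntermediateField K (AlgebraicClosure K), IsFinUnr k F ∧ ∀ x ∈ F₀, j x ∈ F := by
  have hchar : CharZero E := charZero_of_injective_algebraMap (algebraMap k E).injective
  obtain ⟨hfin, hunr⟩ := hF₀
  obtain ⟨θ, hθ⟩ := Field.exists_primitive_element E F₀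
  have hadj : F₀ = E⟮(θ : AlgebraicClosure E)⟯ := by
    have h1 := congrArg (IntermediateField.map F₀.val) hθ
    rw [IntermediateField.adjoin_map, Set.image_singleton, ← AlgHom.fieldRange_eq_map,
      IntermediateField.fieldRange_val] at h1
    exact h1.symm
  have hintE : IsIntegral E (θ : AlgebraicClosure E) := Algebra.IsIntegral.isIntegral _
  have hint : IsIntegral K (j θ) := (hintE.map j).tower_top
  have hmem : ∀ x ∈ F₀, j x ∈ K⟮j θ⟯ := by
    intro x hx
    have hx2 : x ∈ Algebra.adjoin E {(θ : AlgebraicClosure E)} := by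
      rw [← IntermediateField.adjoin_simple_toSubalgebra_of_isAlgebraic hintE.isAlgebraic]
      rw [hadj] at hx
      exact hx
    rw [Algebra.adjoin_singleton_eq_range_aeval] at hx2
    obtain ⟨P, hP⟩ := hx2
    have h1 : j x = aeval (j θ) P := by
      rw [← hP]
      exact (aeval_algHom_apply j (θ : AlgebraicClosure E) P).symm
    rw [h1, aeval_eq_sum_range]
    refine sum_mem (fun i _ => ?_)
    rw [Algebra.smul_def, IsScalarTower.algebraMap_apply E K (AlgebraicClosure K)]
    exact mul_mem (IntermediateField.algebraMap_mem _ _)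
      (pow_mem (IntermediateField.mem_adjoin_simple_self K (j θ)) i)
  let _ : Algebra F₀ K⟮j θ⟯ := (((j : AlgebraicClosure E →+* AlgebraicClosure K).comp
    (algebraMap F₀ (AlgebraicClosure E))).codRestrict (K⟮j θ⟯).toSubfield.toSubring
      (fun x => hmem x x.2)).toAlgebra
  have t1 : IsScalarTower E F₀ K⟮j θ⟯ := IsScalarTower.of_algebraMap_eq (fun x => by
    apply Subtype.ext
    show algebraMap E (AlgebraicClosure K) x = j (algebraMap E (AlgebraicClosure E) x)
    rw [AlgHom.commutes])
  have t2 : IsScalarTower k F₀ K⟮j θ⟯ := IsScalarTower.of_algebraMap_eq (fun x => by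
    rw [IsScalarTower.algebraMap_apply k E F₀, ← IsScalarTower.algebraMap_apply E F₀ K⟮j θ⟯]
    rw [IsScalarTower.algebraMap_apply E K K⟮j θ⟯, ← IsScalarTower.algebraMap_apply k E K,
      ← IsScalarTower.algebraMap_apply k K K⟮j θ⟯])
  refine ⟨K⟮j θ⟯, ⟨IntermediateField.adjoin.finiteDimensional hint, ?_⟩, hmem⟩
  refine unram_base_change_simple (E := E) (E' := F₀) θ ?_ hunr
  intro x
  have hx2 : (x : AlgebraicClosure K) ∈ Algebra.adjoin K {j θ} := by
    rw [← IntermediateField.adjoin_simple_toSubalgebra_of_isAlgebraic hint.isAlgebraic]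
    exact x.2
  rw [Algebra.adjoin_singleton_eq_range_aeval] at hx2
  obtain ⟨P, hP⟩ := hx2
  refine ⟨P, Subtype.ext ?_⟩
  have h3 := aeval_algebraMap_apply (AlgebraicClosure K) (algebraMap F₀ K⟮j θ⟯ θ) P
  refine Eq.trans ?_ h3
  exact hP.symm

/-- the maximal unramified extension of `E` maps to that of `K` -/
lemma push_mem (j : AlgebraicClosure E →ₐ[E] AlgebraicClosure K) {x : AlgebraicClosure E}
    (hx : x ∈ maxUnr k E) : j x ∈ maxUnr k K := by
  obtain ⟨F₀, hF₀, hxF₀⟩ := exists_finUnr_mem hx
  obtain ⟨F, hF, hj⟩ := exists_push j hF₀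
  exact hF.le_maxUnr (hj x hxF₀)

end push

section divis

variable {k : Type u} {E : Type*} {E' : Type*} {K : Type*} {F : Type*} [Field k] [Field E]
  [Field E'] [Field K] [Field F] [Algebra k E] [Algebra k E'] [Algebra k K] [Algebra k F]
  [Algebra E E'] [Algebra E' F] [Algebra E F] [Algebra E K] [Algebra K F]
  [IsScalarTower k E E'] [IsScalarTower k E' F] [IsScalarTower E E' F] [IsScalarTower E K F]
  [IsScalarTower k K F] [Algebra.IsAlgebraic K F]

omit [IsScalarTower k E E'] [Algebra k K] [Algebra E K] [Algebra K F] [IsScalarTower E K F]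
  [IsScalarTower k K F] [Algebra.IsAlgebraic K F] [Field K] [Algebra k E] in
/-- values do not change in unramified extensions -/
lemma val_descend_unr (hunr : IsUnramified k E E') {W : ValuationSubring F} (hW : IsPlace k F W)
    (x : E') : ∃ y : E, W.valuation (algebraMap E F y) = W.valuation (algebraMap E' F x) := by
  by_cases hlt : ∃ x : E', x ≠ 0 ∧ W.valuation (algebraMap E' F x) < 1
  · have hV := hW.comap' hlt
    obtain ⟨y, hy⟩ := hunr _ hV x
    rw [comap_val_eq_iff] at hy
    exact ⟨y, by rw [← hy, ← IsScalarTower.algebraMap_apply]⟩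
  · push Not at hlt
    by_cases hx : x = 0
    · exact ⟨0, by rw [hx, map_zero (algebraMap E F), map_zero (algebraMap E' F)]⟩
    refine ⟨1, ?_⟩
    rw [map_one, map_one]
    apply le_antisymm (hlt x hx)
    have h1 := hlt x⁻¹ (inv_ne_zero hx)
    rw [map_inv₀, map_inv₀] at h1
    have h0 : 0 < W.valuation (algebraMap E' F x) :=
      zero_lt_iff.2 ((_root_.map_ne_zero _).2 ((_root_.map_ne_zero _).2 hx))
    exact (one_le_inv₀ h0).1 h1

omit [IsScalarTower k E E'] [Algebra k E] in
/-- divisibility of the elements of an unramified extension -/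
lemma isDivisible_of_ramified_unr (hunr : IsUnramified k E E') {p : ℕ} {S : Finset E}
    (hS : IsRamifiedOver p k K S) (x : E') (hint : IsIntegral E x) (hx : x ≠ 0)
    (hxS : ∀ i, (minpoly E x).coeff i = 0 ∨ (minpoly E x).coeff i ∈ S) :
    IsDivisible p k (algebraMap E' F x) := by
  intro W hW
  have hV := hW.comap (F := K)
  by_cases h : ∃ g ∈ S, (W.comap (algebraMap K F)).valuation (algebraMap E K g) ≠ 1
  · obtain ⟨y, hy⟩ := val_descend_unr hunr hW x
    obtain ⟨y', hy'⟩ := hS _ hV h y
    refine ⟨algebraMap K F y', ?_⟩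
    rw [← map_pow, comap_val_eq_iff, ← IsScalarTower.algebraMap_apply] at hy'
    rw [← hy, hy', map_pow, map_pow]
  · push Not at h
    have hg : ∀ g ∈ S, W.valuation (algebraMap E F g) = 1 := by
      intro g hgS
      have h1 := h g hgS
      rw [← map_one (W.comap (algebraMap K F)).valuation, comap_val_eq_iff, map_one, map_one,
        ← IsScalarTower.algebraMap_apply] at h1
      exact h1
    refine ⟨1, ?_⟩
    rw [map_one, one_pow]
    refine val_eq_one_of_root W _ ((minpoly E x).map (algebraMap E F))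
      ((minpoly.monic hint).map _) ?_ ?_ ?_
    · rw [eval_map, ← aeval_def, aeval_algebraMap_apply, minpoly.aeval, map_zero]
    · intro i
      rw [coeff_map]
      rcases hxS i with h0 | h0
      · rw [h0, map_zero, map_zero]; exact zero_le
      · exact (hg _ h0).le
    · rw [coeff_map]
      rcases hxS 0 with h0 | h0
      · exact absurd h0 (minpoly.coeff_zero_ne_zero hint hx)
      · exact hg _ h0

end divis

end P025H641
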