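import Vale.Agent.P025.H641.Tower

/-! # Restriction of places to arbitrary subfields -/

namespace P025H641

universe u v w

section comap

variable {F : Type v} {E : Type w} [Field F] [Field E] [Algebra F E]

/-- a uniformizer of the restriction -/
lemma IsPlace.exists_unif_comap' {k : Type u} [Field k] [Algebra k E]
    {V : ValuationSubring E} (hV : IsPlace k E V)
    (hlt0 : ∃ x : F, x ≠ 0 ∧ V.valuation (algebraMap F E x) < 1) :
    ∃ π : F, π ≠ 0 ∧ V.valuation (algebraMap F E π) < 1 ∧
      (∀ x : F, V.valuation (algebraMap F E x) < 1 →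
        V.valuation (algebraMap F E x) ≤ V.valuation (algebraMap F E π)) := by
  classical
  obtain ⟨ϖ, hϖ0, hϖ1, hϖ⟩ := hV.exists_unif
  have hpos : 0 < V.valuation ϖ := zero_lt_iff.2 ((map_ne_zero _).2 hϖ0)
  have hlt : ∀ m n : ℤ, V.valuation ϖ ^ m < V.valuation ϖ ^ n ↔ n < m := by
    intro m n
    constructor
    · intro h
      by_contra h1
      push Not at h1
      exact absurd h (not_lt.2 (zpow_le_zpow_right_of_le_one₀ hpos hϖ1.le h1))
    · intro h
      exact zpow_lt_zpow_right_of_lt_one₀ hpos hϖ1 h
  have hex : ∃ n : ℕ, ∃ x : F, x ≠ 0 ∧ V.valuation (algebraMap F E x) = V.valuation ϖ ^ (n : ℤ) ∧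
      0 < n := by
    obtain ⟨x, hx0, hx1⟩ := hlt0
    obtain ⟨n, hn⟩ := hϖ _ ((map_ne_zero (algebraMap F E)).2 hx0)
    have hn0 : 0 < n := by
      rw [hn, ← zpow_zero (V.valuation ϖ), hlt] at hx1
      exact hx1
    refine ⟨n.toNat, x, hx0, ?_, by omega⟩
    rw [hn, Int.toNat_of_nonneg hn0.le]
  obtain ⟨π, hπ0, hπv, hπpos⟩ := Nat.find_spec hex
  have hmin := fun m => Nat.find_min' hex (m := m)
  refine ⟨π, hπ0, ?_, ?_⟩
  · rw [hπv, ← zpow_zero (V.valuation ϖ), hlt]
    exact_mod_cast hπpos
  · intro x hx
    by_cases hx0 : x = 0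
    · rw [hx0, map_zero, map_zero]; exact zero_le
    obtain ⟨n, hn⟩ := hϖ _ ((map_ne_zero (algebraMap F E)).2 hx0)
    have hn0 : 0 < n := by
      rw [hn, ← zpow_zero (V.valuation ϖ), hlt] at hx
      exact hx
    have h1 := hmin n.toNat ⟨x, hx0, by rw [hn, Int.toNat_of_nonneg hn0.le], by omega⟩
    rw [hn, hπv]
    apply zpow_le_zpow_right_of_le_one₀ hpos hϖ1.le
    omega

/-- the restriction of a place to a subfield on which it is not trivial -/
lemma IsPlace.comap' {k : Type u} [Field k] [Algebra k F] [Algebra k E] [IsScalarTower k F E]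
    {V : ValuationSubring E} (hV : IsPlace k E V)
    (hlt0 : ∃ x : F, x ≠ 0 ∧ V.valuation (algebraMap F E x) < 1) :
    IsPlace k F (V.comap (algebraMap F E)) where
  const_mem c := by
    rw [ValuationSubring.mem_comap, ← IsScalarTower.algebraMap_apply]
    exact hV.const_mem c
  discrete := by
    apply IsDiscreteValuationRing.ofHasUnitMulPowIrreducibleFactorization
    obtain ⟨π, hπ0, hπ1, hπmax⟩ := hV.exists_unif_comap' hlt0
    set W := V.comap (algebraMap F E) with hW
    have hmem : ∀ x : F, x ∈ W ↔ V.valuation (algebraMap F E x) ≤ 1 := by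
      intro x
      rw [hW, ValuationSubring.mem_comap, V.valuation_le_one_iff]
    have hunit : ∀ x : W, IsUnit x ↔ V.valuation (algebraMap F E x) = 1 := by
      intro x
      constructor
      · rintro ⟨u, hu⟩
        have h1 : ((u : W) : F) * ((u⁻¹ : Wˣ) : W) = 1 := by
          exact congrArg (fun z : W => (z : F)) (Units.mul_inv u)
        have h2 := congrArg (fun z => V.valuation (algebraMap F E z)) h1
        simp only [map_mul, map_one] at h2
        have h3 := (hmem _).1 (u : W).2
        have h4 := (hmem _).1 ((u⁻¹ : Wˣ) : W).2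
        rw [← hu]
        apply le_antisymm h3
        by_contra h5
        push Not at h5
        exact (mul_lt_one_of_lt_of_le h5 h4).ne h2
      · intro h
        have hx0 : (x : F) ≠ 0 := by
          intro h0
          rw [h0, map_zero, map_zero] at h
          exact zero_ne_one h
        have h1 : (x : F)⁻¹ ∈ W := by rw [hmem, map_inv₀, map_inv₀, h, inv_one]
        exact ⟨⟨x, ⟨_, h1⟩, Subtype.ext (mul_inv_cancel₀ hx0), Subtype.ext (inv_mul_cancel₀ hx0)⟩,
          rfl⟩
    have hπpos : 0 < V.valuation (algebraMap F E π) :=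
      zero_lt_iff.2 ((map_ne_zero _).2 ((map_ne_zero _).2 hπ0))
    have hπW : π ∈ W := (hmem π).2 hπ1.le
    have hnu : ∀ x : W, ¬ IsUnit x → V.valuation (algebraMap F E x) ≤
        V.valuation (algebraMap F E π) := by
      intro x hx
      apply hπmax
      exact lt_of_le_of_ne ((hmem x).1 x.2) (fun h => hx ((hunit x).2 h))
    refine ⟨⟨π, hπW⟩, ⟨?_, ?_⟩, ?_⟩
    · rw [hunit]; exact hπ1.ne
    · intro a b hab
      by_contra hcon
      push Not at hcon
      have h1 := hnu a hcon.1
      have h2 := hnu b hcon.2
      have h3 : π = (a : F) * b := congrArg Subtype.val hab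
      have h4 := congrArg (fun z => V.valuation (algebraMap F E z)) h3
      simp only [map_mul] at h4
      have h5 : V.valuation (algebraMap F E π) ≤
          V.valuation (algebraMap F E π) * V.valuation (algebraMap F E π) := by
        conv_lhs => rw [h4]
        exact mul_le_mul' h1 h2
      have h6 : V.valuation (algebraMap F E π) * V.valuation (algebraMap F E π) <
          V.valuation (algebraMap F E π) := by
        calc _ < V.valuation (algebraMap F E π) * 1 := by gcongr
          _ = _ := mul_one _
      exact absurd h5 (not_le.2 h6)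
    · intro x hx
      have hx0 : (x : F) ≠ 0 := fun h => hx (Subtype.ext h)
      have hxpos : 0 < V.valuation (algebraMap F E x) :=
        zero_lt_iff.2 ((map_ne_zero _).2 ((map_ne_zero _).2 hx0))
      -- the largest power dividing
      obtain ⟨N, hN⟩ := hV.archimedean (algebraMap F E x) (algebraMap F E π)
        ((map_ne_zero _).2 hx0) hπ1
      classical
      have hex : ∃ n : ℕ, V.valuation (algebraMap F E π) ^ (n + 1) <
          V.valuation (algebraMap F E x) := by
        refine ⟨N, lt_of_le_of_lt ?_ hN⟩
        rw [pow_succ]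
        exact mul_le_of_le_one_right' hπ1.le
      set n := Nat.find hex with hn
      have h1 : V.valuation (algebraMap F E π) ^ (n + 1) < V.valuation (algebraMap F E x) :=
        Nat.find_spec hex
      have h2 : V.valuation (algebraMap F E x) ≤ V.valuation (algebraMap F E π) ^ n := by
        rcases Nat.eq_zero_or_pos n with h0 | h0
        · rw [h0, pow_zero]; exact (hmem x).1 x.2
        · have h3 := Nat.find_min hex (m := n - 1) (by omega)
          rw [Nat.sub_add_cancel h0] at h3
          exact not_lt.1 h3
      refine ⟨n, ?_⟩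
      have hπn : (π : F) ^ n ≠ 0 := pow_ne_zero n hπ0
      have hval : V.valuation (algebraMap F E ((x : F) / π ^ n)) = 1 := by
        apply le_antisymm
        · rw [map_div₀, map_div₀, map_pow, map_pow]
          exact (div_le_one₀ (pow_pos hπpos n)).2 h2
        · by_contra h3
          push Not at h3
          have h4 := hπmax _ h3
          rw [map_div₀, map_div₀, map_pow, map_pow, div_le_iff₀ (pow_pos hπpos n),
            ← pow_succ'] at h4
          exact absurd h1 (not_lt.2 h4)
      have hq : (x : F) / π ^ n ∈ W := (hmem _).2 hval.le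
      obtain ⟨u, hu⟩ := (hunit ⟨_, hq⟩).2 hval
      refine ⟨u, ?_⟩
      apply Subtype.ext
      have h5 : ((u : W) : F) = (x : F) / π ^ n := by rw [hu]
      show (((⟨π, hπW⟩ : W) ^ n * (u : W) : W) : F) = x
      rw [MulMemClass.coe_mul, SubmonoidClass.coe_pow, h5]
      field_simp

end comap

section descend

open Polynomial

variable {k : Type u} {E : Type*} {E' : Type*} {F : Type*} [Field k] [Field E] [Field E'] [Field F]
  [Algebra k E] [Algebra k E'] [Algebra k F] [Algebra E E'] [Algebra E' F] [Algebra E F]
  [IsScalarTower k E E'] [IsScalarTower k E' F] [IsScalarTower E E' F]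

/-- values do not change when constants are adjoined -/
lemma val_descend [CharZero k] (α : E') (hα : IsIntegral k α)
    (hgen : ∀ x : E', ∃ P : E[X], x = aeval α P) {W : ValuationSubring F} (hW : IsPlace k F W)
    (x : E') : ∃ y : E, W.valuation (algebraMap E F y) = W.valuation (algebraMap E' F x) := by
  have halg : Algebra.IsAlgebraic E E' := by
    constructor
    intro x
    have hint : IsIntegral E α := hα.tower_top
    obtain ⟨P, rfl⟩ := hgen x
    have h1 : aeval α P ∈ Algebra.adjoin E {α} := aeval_mem_adjoin_singleton E α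
    exact (IsIntegral.of_mem_of_fg _ hint.fg_adjoin_singleton _ h1).isAlgebraic
  by_cases hlt : ∃ x : E', x ≠ 0 ∧ W.valuation (algebraMap E' F x) < 1
  · have hV := hW.comap' hlt
    obtain ⟨y, hy⟩ := unram_const α hα hgen hV x
    rw [comap_val_eq_iff] at hy
    exact ⟨y, by rw [← hy, ← IsScalarTower.algebraMap_apply]⟩
  · push Not at hlt
    by_cases hx : x = 0
    · exact ⟨0, by rw [hx, map_zero (algebraMap E F), map_zero (algebraMap E' F)]⟩
    refine ⟨1, ?_⟩
    rw [map_one, map_one]
    apply le_antisymm (hlt x hx)
    have h1 := hlt x⁻¹ (inv_ne_zero hx)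
    rw [map_inv₀, map_inv₀] at h1
    have h0 : 0 < W.valuation (algebraMap E' F x) :=
      zero_lt_iff.2 ((_root_.map_ne_zero _).2 ((_root_.map_ne_zero _).2 hx))
    exact (one_le_inv₀ h0).1 h1

/-- roots of monic polynomials with integral coefficients and unit constant coefficient -/
lemma val_eq_one_of_root (W : ValuationSubring F) (x : F) (P : F[X]) (hP : P.Monic)
    (hroot : P.eval x = 0) (hc : ∀ i, W.valuation (P.coeff i) ≤ 1)
    (h0 : W.valuation (P.coeff 0) = 1) : W.valuation x = 1 := by
  have hsum := eval_eq_sum_range (p := P) x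
  rw [hroot] at hsum
  have hdeg : P.natDegree ≠ 0 := by
    intro hd
    rw [hP.natDegree_eq_zero.1 hd, eval_one] at hroot
    exact one_ne_zero hroot
  obtain ⟨n, hn⟩ := Nat.exists_eq_succ_of_ne_zero hdeg
  rw [hn] at hsum
  by_contra hne
  rcases lt_or_gt_of_ne hne with hlt | hgt
  · -- the constant coefficient is small
    rw [Finset.sum_range_succ', pow_zero, mul_one] at hsum
    have h1 : P.coeff 0 = - ∑ i ∈ Finset.range (n + 1), P.coeff (i + 1) * x ^ (i + 1) := by
      rw [eq_neg_iff_add_eq_zero, add_comm]
      exact hsum.symm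
    have h2 : W.valuation (∑ i ∈ Finset.range (n + 1), P.coeff (i + 1) * x ^ (i + 1)) < 1 := by
      apply Valuation.map_sum_lt _ one_ne_zero
      intro i _
      rw [map_mul, map_pow]
      calc W.valuation (P.coeff (i + 1)) * W.valuation x ^ (i + 1) ≤
            1 * W.valuation x ^ (i + 1) := mul_le_mul' (hc _) le_rfl
        _ = W.valuation x ^ (i + 1) := one_mul _
        _ < 1 := pow_lt_one₀ zero_le hlt (by omega)
    rw [h1, Valuation.map_neg] at h0
    exact h2.ne h0
  · rw [Finset.sum_range_succ] at hsum
    have hlead : P.coeff n.succ = 1 := by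
      have h3 := hP.coeff_natDegree
      rwa [hn] at h3
    rw [hlead, one_mul] at hsum
    have h1 : x ^ n.succ = - ∑ i ∈ Finset.range (n + 1), P.coeff i * x ^ i := by
      rw [eq_neg_iff_add_eq_zero, add_comm]
      exact hsum.symm
    have h2 : W.valuation (∑ i ∈ Finset.range (n + 1), P.coeff i * x ^ i) <
        W.valuation x ^ n.succ := by
      have hpos : (0 : ValuationSubring.ValueGroup W) < W.valuation x := lt_trans zero_lt_one hgt
      apply Valuation.map_sum_lt _ (pow_ne_zero _ hpos.ne')
      intro i hi
      rw [Finset.mem_range] at hi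
      rw [map_mul, map_pow]
      calc W.valuation (P.coeff i) * W.valuation x ^ i ≤ 1 * W.valuation x ^ i :=
            mul_le_mul' (hc i) le_rfl
        _ = W.valuation x ^ i := one_mul _
        _ < W.valuation x ^ n.succ := pow_lt_pow_right₀ hgt (by omega)
    rw [← Valuation.map_neg, ← h1, map_pow] at h2
    exact lt_irrefl _ h2

end descend

/-- `K / E` has ramification index divisible by `p` over all places where an element of `S` is not
a unit: at all places of `K` where the value of an element of `S` is not `1`, the values of the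
elements of `E` are divisible by `p`. -/
def IsRamifiedOver (p : ℕ) (k : Type u) {E : Type v} (K : Type w) [Field k] [Field E] [Field K]
    [Algebra k K] [Algebra E K] (S : Finset E) : Prop :=
  ∀ V : ValuationSubring K, IsPlace k K V → (∃ g ∈ S, V.valuation (algebraMap E K g) ≠ 1) →
    ∀ f : E, ∃ y : K, V.valuation (algebraMap E K f) = V.valuation y ^ p

section divis

open Polynomial

variable {k : Type u} {E : Type*} {E' : Type*} {K : Type*} {F : Type*} [Field k] [Field E]
  [Field E'] [Field K] [Field F] [Algebra k E] [Algebra k E'] [Algebra k K] [Algebra k F]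
  [Algebra E E'] [Algebra E' F] [Algebra E F] [Algebra E K] [Algebra K F]
  [IsScalarTower k E E'] [IsScalarTower k E' F] [IsScalarTower E E' F] [IsScalarTower E K F]
  [IsScalarTower k K F] [Algebra.IsAlgebraic K F]

/-- divisibility of the elements of a constant extension -/
lemma isDivisible_of_ramified [CharZero k] (α : E') (hα : IsIntegral k α)
    (hgen : ∀ x : E', ∃ P : E[X], x = aeval α P) {p : ℕ} {S : Finset E}
    (hS : IsRamifiedOver p k K S) (x : E') (hx : x ≠ 0)
    (hxS : ∀ i, (minpoly E x).coeff i = 0 ∨ (minpoly E x).coeff i ∈ S) :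
    IsDivisible p k (algebraMap E' F x) := by
  have hint : IsIntegral E x := by
    have hint : IsIntegral E α := hα.tower_top
    obtain ⟨P, rfl⟩ := hgen x
    have h1 : aeval α P ∈ Algebra.adjoin E {α} := aeval_mem_adjoin_singleton E α
    exact IsIntegral.of_mem_of_fg _ hint.fg_adjoin_singleton _ h1
  intro W hW
  have hV := hW.comap (F := K)
  by_cases h : ∃ g ∈ S, (W.comap (algebraMap K F)).valuation (algebraMap E K g) ≠ 1
  · obtain ⟨y, hy⟩ := val_descend α hα hgen hW x
    obtain ⟨y', hy'⟩ := hS _ hV h y
    refine ⟨algebraMap K F y', ?_⟩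
    rw [← map_pow, comap_val_eq_iff, ← IsScalarTower.algebraMap_apply] at hy'
    rw [← hy, hy', map_pow, map_pow]
  · push Not at h
    have hg : ∀ g ∈ S, W.valuation (algebraMap E F g) = 1 := by
      intro g hgS
      have h1 := h g hgS
      rw [← map_one (W.comap (algebraMap K F)).valuation, comap_val_eq_iff, map_one, map_one,
        ← IsScalarTower.algebraMap_apply] at h1
      exact h1
    refine ⟨1, ?_⟩
    rw [map_one, one_pow]
    refine val_eq_one_of_root W _ ((minpoly E x).map (algebraMap E F))
      ((minpoly.monic hint).map _) ?_ ?_ ?_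
    · rw [eval_map, ← aeval_def, aeval_algebraMap_apply, minpoly.aeval, map_zero]
    · intro i
      rw [coeff_map]
      rcases hxS i with h0 | h0
      · rw [h0, map_zero, map_zero]; exact zero_le
      · exact (hg _ h0).le
    · rw [coeff_map]
      rcases hxS 0 with h0 | h0
      · exact absurd h0 (minpoly.coeff_zero_ne_zero hint hx)
      · exact hg _ h0

end divis

end P025H641
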