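import Vale.Agent.P025.H641.Attach
import Vale.Agent.P025.H641.PlcGen

/-! # Adjoining the `p`-th roots of unity -/

open IntermediateField

namespace P025H641

universe u v w u' v'

open Polynomial

/-- `k' = k(ζ)` and `E' = E(ζ)` -/
structure CycData (p : ℕ) (k : Type u) (E : Type v) (k' : Type u') (E' : Type v') [Field k]
    [Field E] [Field k'] [Field E'] [Algebra k E] [Algebra k k'] [Algebra k' E'] [Algebra E E']
    (ζ : k') : Prop where
  prim : IsPrimitiveRoot ζ p
  genk : ∀ x : k', ∃ P : k[X], x = aeval ζ P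
  genE : ∀ x : E', ∃ P : E[X], x = aeval (algebraMap k' E' ζ) P

section emb

variable {k : Type u} {E : Type v} {k' : Type u'} {E' : Type v'} [Field k] [Field E] [Field k']
  [Field E'] [Algebra k E] [Algebra k k'] [Algebra k' E'] [Algebra E E'] [Algebra k E']
  [IsScalarTower k k' E'] [IsScalarTower k E E'] {p : ℕ} {ζ : k'}

omit [Algebra k E'] [IsScalarTower k k' E'] [IsScalarTower k E E'] in
lemma CycData.isIntegral (C : CycData p k E k' E' ζ) (hp : 0 < p) (x : k') : IsIntegral k x := by
  have hζ : IsIntegral k ζ := isIntegral_of_pow' hp (by rw [C.prim.pow_eq_one]; exact isIntegral_one)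
  obtain ⟨P, rfl⟩ := C.genk x
  exact IsIntegral.of_mem_of_fg _ hζ.fg_adjoin_singleton _ (aeval_mem_adjoin_singleton k ζ)

omit [IsScalarTower k k' E'] [IsScalarTower k E E'] [Algebra k E'] in
lemma CycData.isIntegralE (C : CycData p k E k' E' ζ) (hp : 0 < p) (x : E') : IsIntegral E x := by
  have hζ' : (algebraMap k' E' ζ) ^ p = 1 := by rw [← map_pow, C.prim.pow_eq_one, map_one]
  have hζ : IsIntegral E (algebraMap k' E' ζ) :=
    isIntegral_of_pow' hp (by rw [hζ']; exact isIntegral_one)
  obtain ⟨P, rfl⟩ := C.genE x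
  exact IsIntegral.of_mem_of_fg _ hζ.fg_adjoin_singleton _ (aeval_mem_adjoin_singleton E _)

variable {K : Type w} [Field K] [Algebra k K] [Algebra E K] [IsScalarTower k E K] [CharZero k]

omit [Algebra k E'] [IsScalarTower k k' E'] [IsScalarTower k E E'] [IsScalarTower k E K] in
/-- the embedding of `E'` in the maximal unramified extension -/
lemma CycData.exists_emb (C : CycData p k E k' E' ζ) (hp : 0 < p) :
    ∃ (F : IntermediateField K (AlgebraicClosure K)) (ι : E' →+* maxUnr k K), IsFinUnr k F ∧
      (∀ x, (ι x : AlgebraicClosure K) ∈ F) ∧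
      ∀ e : E, ι (algebraMap E E' e) = algebraMap K (maxUnr k K) (algebraMap E K e) := by
  have halg : Algebra.IsAlgebraic E E' := ⟨fun x => (C.isIntegralE hp x).isAlgebraic⟩
  let j : E' →ₐ[E] AlgebraicClosure K := IsAlgClosed.lift
  have hjζ : IsIntegral k (j (algebraMap k' E' ζ)) := by
    apply isIntegral_of_pow' hp
    rw [← map_pow, ← map_pow, C.prim.pow_eq_one, map_one, map_one]
    exact isIntegral_one
  obtain ⟨F, hF, -, hζF⟩ := (isFinUnr_bot (k := k) (K := K)).exists_const _ hjζ
  have hmem : ∀ x, j x ∈ F := by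
    intro x
    obtain ⟨P, rfl⟩ := C.genE x
    rw [← aeval_algHom_apply, aeval_eq_sum_range]
    refine sum_mem (fun i _ => ?_)
    rw [Algebra.smul_def, IsScalarTower.algebraMap_apply E K (AlgebraicClosure K)]
    exact mul_mem (F.algebraMap_mem _) (pow_mem hζF i)
  refine ⟨F, (j : E' →+* AlgebraicClosure K).codRestrict (maxUnr k K).toSubfield.toSubring
    (fun x => hF.le_maxUnr (hmem x)), hF, hmem, ?_⟩
  intro e
  apply Subtype.ext
  show j (algebraMap E E' e) = _
  rw [AlgHom.commutes]
  exact IsScalarTower.algebraMap_apply E K (AlgebraicClosure K) e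

end emb

section act

variable {k : Type u} {E : Type v} {k' : Type u'} {E' : Type v'} [Field k] [Field E] [Field k']
  [Field E'] [Algebra k E] [Algebra k k'] [Algebra k' E'] [Algebra E E'] [Algebra k E']
  [IsScalarTower k k' E'] [IsScalarTower k E E'] {p : ℕ} {ζ : k'}
  {K : Type w} [Field K] [Algebra k K] [Algebra E K] [IsScalarTower k E K]
  {ι : E' →+* maxUnr k K}
  (hι : ∀ e : E, ι (algebraMap E E' e) = algebraMap K (maxUnr k K) (algebraMap E K e))
  {s : Gal(constClosure k K/k) →* Gal(maxUnr k K/K)}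

include hι

omit [Algebra k k'] [Algebra k' E'] [IsScalarTower k k' E'] [Field k'] in
lemma emb_k (c : k) : ι (algebraMap k E' c) = algebraMap k (maxUnr k K) c := by
  rw [IsScalarTower.algebraMap_apply k E E', hι, ← IsScalarTower.algebraMap_apply k E K,
    ← IsScalarTower.algebraMap_apply]

omit [Algebra k k'] [Algebra k' E'] [IsScalarTower k k' E'] [Field k'] [Algebra k E']
  [IsScalarTower k E E'] [Algebra k E] [IsScalarTower k E K] in
/-- the action on polynomial expressions over `E` -/
lemma act_aevalE (σ : Gal(constClosure k K/k)) (α : E') (P : E[X]) (β : maxUnr k K)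
    (hβ : s σ (ι α) = β) :
    s σ (ι (aeval α P)) = (P.map ((algebraMap K (maxUnr k K)).comp (algebraMap E K))).eval β := by
  rw [aeval_def, hom_eval₂]
  have h1 := hom_eval₂ P (ι.comp (algebraMap E E')) ((s σ : (maxUnr k K) ≃ₐ[K] (maxUnr k K)) :
    (maxUnr k K) →+* (maxUnr k K)) (ι α)
  have h2 : ((s σ : (maxUnr k K) ≃ₐ[K] (maxUnr k K)) : (maxUnr k K) →+* (maxUnr k K)).comp
      (ι.comp (algebraMap E E')) = (algebraMap K (maxUnr k K)).comp (algebraMap E K) := by
    ext e
    show ((s σ (ι (algebraMap E E' e)) : maxUnr k K) : AlgebraicClosure K) = _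
    rw [hι, AlgEquiv.commutes]
    rfl
  rw [h2] at h1
  rw [eval_map, ← hβ]
  exact h1

omit [Algebra k k'] [Algebra k' E'] [IsScalarTower k k' E'] [Field k'] [Algebra k E']
  [IsScalarTower k E E'] [Algebra k E] [IsScalarTower k E K] in
lemma emb_aevalE (α : E') (P : E[X]) :
    ι (aeval α P) = (P.map ((algebraMap K (maxUnr k K)).comp (algebraMap E K))).eval (ι α) := by
  have h := act_aevalE (s := (1 : Gal(constClosure k K/k) →* Gal(maxUnr k K/K))) hι 1 α P (ι α)
    rfl
  exact h

omit [Algebra k k'] [Algebra k' E'] [IsScalarTower k k' E'] [Field k'] in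
/-- the action on polynomial expressions over `k` -/
lemma act_aevalk (σ : Gal(constClosure k K/k)) (α : E') (P : k[X]) (β : maxUnr k K)
    (hβ : s σ (ι α) = β) : s σ (ι (aeval α P)) = aeval β P := by
  have h1 : aeval α P = aeval α (P.map (algebraMap k E)) := by
    rw [aeval_map_algebraMap]
  rw [h1, act_aevalE hι σ α _ β hβ, Polynomial.map_map, aeval_def, eval_map]
  congr 1
  ext c
  show ((algebraMap K (maxUnr k K) (algebraMap E K (algebraMap k E c)) : maxUnr k K) :
    AlgebraicClosure K) = _
  rw [← IsScalarTower.algebraMap_apply k E K, ← IsScalarTower.algebraMap_apply]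

omit [Algebra k k'] [Algebra k' E'] [IsScalarTower k k' E'] [Field k'] in
lemma emb_aevalk (α : E') (P : k[X]) : ι (aeval α P) = aeval (ι α) P := by
  have h := act_aevalk (s := (1 : Gal(constClosure k K/k) →* Gal(maxUnr k K/K))) hι 1 α P (ι α)
    rfl
  exact h

omit [Algebra E K] [IsScalarTower k E K] [Algebra k E'] [IsScalarTower k k' E']
  [IsScalarTower k E E'] hι in
lemma zeta_prim (C : CycData p k E k' E' ζ) : IsPrimitiveRoot (ι (algebraMap k' E' ζ)) p :=
  (C.prim.map_of_injective (algebraMap k' E').injective).map_of_injective ι.injective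

/-- the base given by `k'` -/
theorem base_cyc [CharZero k] (hs : IsSection k K s) (C : CycData p k E k' E' ζ) (hp : 0 < p) :
    letI : Algebra k' (maxUnr k K) := (ι.comp (algebraMap k' E')).toAlgebra
    Base s (stabS s (ι (algebraMap k' E' ζ))) k' := by
  let _ : Algebra k' (maxUnr k K) := (ι.comp (algebraMap k' E')).toAlgebra
  set Z := ι (algebraMap k' E' ζ) with hZ
  have hZp : IsPrimitiveRoot Z p := zeta_prim C
  have hζint : IsIntegral k Z :=
    isIntegral_of_pow' hp (by rw [hZp.pow_eq_one]; exact isIntegral_one)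
  have halg : ∀ c : k', algebraMap k' (maxUnr k K) c = ι (algebraMap k' E' c) := fun _ => rfl
  have hpoly : ∀ P : k[X], algebraMap k' E' (aeval ζ P) = aeval (algebraMap k' E' ζ) P := by
    intro P
    rw [aeval_algebraMap_apply]
  constructor
  · exact isClosed_stabS hs _
  · intro c
    obtain ⟨P, rfl⟩ := C.genk c
    rw [halg, hpoly, emb_aevalk hι]
    exact IsIntegral.of_mem_of_fg _ hζint.fg_adjoin_singleton _ (aeval_mem_adjoin_singleton k _)
  · intro c σ hσ
    rw [mem_stabS] at hσ
    obtain ⟨P, rfl⟩ := C.genk c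
    rw [halg, hpoly, act_aevalk hι σ _ P _ hσ, emb_aevalk hι]
  · intro x hx hfix
    have hmem : (x : AlgebraicClosure K) ∈ constClosure k K :=
      mem_algebraicClosure_iff.2 (isIntegral_coe.2 hx).isAlgebraic
    set xC : constClosure k K := ⟨x, hmem⟩ with hxC
    have hζmem : (Z : AlgebraicClosure K) ∈ constClosure k K :=
      mem_algebraicClosure_iff.2 (isIntegral_coe.2 hζint).isAlgebraic
    set ζC : constClosure k K := ⟨Z, hζmem⟩ with hζC
    have h1 := InfiniteGalois.fixedField_fixingSubgroup (k⟮ζC⟯ : IntermediateField k _)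
    have h2 : xC ∈ IntermediateField.fixedField (k⟮ζC⟯).fixingSubgroup := by
      rw [IntermediateField.mem_fixedField_iff]
      intro σ hσ
      rw [IntermediateField.mem_fixingSubgroup_iff] at hσ
      have h3 := hσ ζC (IntermediateField.mem_adjoin_simple_self k ζC)
      have h4 := hs.lifts σ ζC Z rfl
      rw [h3] at h4
      have h5 : s σ Z = Z := Subtype.ext h4.symm
      have h6 := hs.lifts σ xC x rfl
      rw [hfix σ h5] at h6
      exact Subtype.ext h6
    rw [h1] at h2
    have hζCint : IsIntegral k ζC :=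
      (isIntegral_algHom_iff (constClosure k K).val Subtype.val_injective).1
        (isIntegral_coe.2 hζint)
    have h3 : xC ∈ Algebra.adjoin k {ζC} := by
      rw [← IntermediateField.adjoin_simple_toSubalgebra_of_isAlgebraic hζCint.isAlgebraic]
      exact h2
    rw [Algebra.adjoin_singleton_eq_range_aeval] at h3
    obtain ⟨P, hP⟩ := h3
    refine ⟨aeval ζ P, ?_⟩
    rw [halg, hpoly, emb_aevalk hι]
    apply Subtype.ext
    have h4 := congrArg (fun z : constClosure k K => (z : AlgebraicClosure K)) hP
    have h5 : ((aeval ζC P : constClosure k K) : AlgebraicClosure K) =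
        aeval (Z : AlgebraicClosure K) P :=
      (aeval_algHom_apply (constClosure k K).val ζC P).symm
    have h6 : ((aeval Z P : maxUnr k K) : AlgebraicClosure K) =
        aeval (Z : AlgebraicClosure K) P :=
      (aeval_algHom_apply (((maxUnr k K).val).restrictScalars k) Z P).symm
    rw [h6, ← h5]
    exact h4

omit [Algebra k k'] [Algebra k E] [Algebra k E'] [IsScalarTower k k' E'] [IsScalarTower k E E']
  [IsScalarTower k E K] in
/-- everything in `E'` is fixed -/
lemma fix_cyc (hgenE : ∀ x : E', ∃ P : E[X], x = aeval (algebraMap k' E' ζ) P) (f : E')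
    (σ : Gal(constClosure k K/k)) (hσ : σ ∈ stabS s (ι (algebraMap k' E' ζ))) :
    s σ (ι f) = ι f := by
  rw [mem_stabS] at hσ
  obtain ⟨P, rfl⟩ := hgenE f
  rw [act_aevalE hι σ _ P _ hσ, emb_aevalE hι]

/-- every automorphism of `E' / E` is induced by some `s σ` -/
lemma exists_induce [CharZero k] (hs : IsSection k K s) (C : CycData p k E k' E' ζ) (hp : 0 < p)
    (τ : E' ≃ₐ[E] E') : ∃ σ : Gal(constClosure k K/k), ∀ f : E', s σ (ι f) = ι (τ f) := by
  set z := algebraMap k' E' ζ with hz
  have hzint : IsIntegral k z := (C.isIntegral hp ζ).map (Algebra.ofId k' E' |>.restrictScalars k)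
  have hint : ∀ y : E', IsIntegral k y → IsIntegral k (ι y) := by
    intro y hy
    let φ : E' →ₐ[k] maxUnr k K := { ι with commutes' := emb_k hι }
    exact hy.map φ
  have hτint : IsIntegral k (τ z) := hzint.map ((τ : E' →ₐ[E] E').restrictScalars k)
  have hm1 : ((ι z : maxUnr k K) : AlgebraicClosure K) ∈ constClosure k K :=
    mem_algebraicClosure_iff.2 (isIntegral_coe.2 (hint _ hzint)).isAlgebraic
  have hm2 : ((ι (τ z) : maxUnr k K) : AlgebraicClosure K) ∈ constClosure k K :=
    mem_algebraicClosure_iff.2 (isIntegral_coe.2 (hint _ hτint)).isAlgebraic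
  set zC : constClosure k K := ⟨_, hm1⟩ with hzC
  set tC : constClosure k K := ⟨_, hm2⟩ with htC
  have hval : ∀ (y : E') (hy : ((ι y : maxUnr k K) : AlgebraicClosure K) ∈ constClosure k K)
      (P : k[X]), aeval (⟨_, hy⟩ : constClosure k K) P = 0 ↔ aeval y P = 0 := by
    intro y hy P
    have h5 : ((aeval (⟨_, hy⟩ : constClosure k K) P : constClosure k K) : AlgebraicClosure K) =
        aeval ((ι y : maxUnr k K) : AlgebraicClosure K) P :=
      (aeval_algHom_apply (constClosure k K).val (⟨_, hy⟩ : constClosure k K) P).symm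
    have h6 : ((aeval (ι y) P : maxUnr k K) : AlgebraicClosure K) =
        aeval ((ι y : maxUnr k K) : AlgebraicClosure K) P :=
      (aeval_algHom_apply (((maxUnr k K).val).restrictScalars k) (ι y) P).symm
    rw [← emb_aevalk hι] at h6
    constructor
    · intro h
      rw [h] at h5
      rw [← h5] at h6
      have h7 : ι (aeval y P) = 0 := Subtype.ext h6
      exact (map_eq_zero ι).1 h7
    · intro h
      rw [h, map_zero] at h6
      apply Subtype.ext
      rw [h5, ← h6]
      rfl
  have hzCint : IsIntegral k zC :=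
    (isIntegral_algHom_iff (constClosure k K).val Subtype.val_injective).1
      (isIntegral_coe.2 (hint _ hzint))
  have hroot : aeval tC (minpoly k zC) = 0 := by
    rw [hval]
    have h1 : aeval z (minpoly k zC) = 0 := (hval z hm1 _).1 (minpoly.aeval k zC)
    have h2 := aeval_algHom_apply ((τ : E' →ₐ[E] E').restrictScalars k) z (minpoly k zC)
    rw [h1, map_zero] at h2
    exact h2
  obtain ⟨σ, hσ⟩ := minpoly.exists_algEquiv_of_root' hzCint.isAlgebraic hroot
  refine ⟨σ, fun f => ?_⟩
  have h1 : s σ (ι z) = ι (τ z) := by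
    apply Subtype.ext
    rw [← hs.lifts σ zC (ι z) rfl, hσ]
  obtain ⟨P, rfl⟩ := C.genE f
  rw [act_aevalE hι σ _ P _ h1]
  have h2 := aeval_algHom_apply (τ : E' →ₐ[E] E') z P
  have h3 : τ (aeval z P) = aeval (τ z) P := h2.symm
  rw [h3, emb_aevalE hι]

end act

end P025H641
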