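import Vale.Agent.P025.H641.Cyc

/-! # Equivariance and descent of classes -/

open IntermediateField

namespace P025H641

universe u v w u' v'

open Polynomial

variable {k : Type u} {E : Type v} {k' : Type u'} {E' : Type v'} [Field k] [Field E] [Field k']
  [Field E'] [Algebra k E] [Algebra k k'] [Algebra k' E'] [Algebra E E'] [Algebra k E']
  [IsScalarTower k k' E'] [IsScalarTower k E E'] {p : ℕ} {ζ : k'}
  {K : Type w} [Field K] [Algebra k K] [Algebra E K] [IsScalarTower k E K]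
  {ι : E' →+* maxUnr k K}
  (hι : ∀ e : E, ι (algebraMap E E' e) = algebraMap K (maxUnr k K) (algebraMap E K e))
  {s : Gal(constClosure k K/k) →* Gal(maxUnr k K/K)}

include hι

/-- equivariance of classes -/
lemma has_tau [CharZero k] (hs : IsSection k K s) (C : CycData p k E k' E' ζ) (hp : 0 < p)
    (τ : E' ≃ₐ[E] E') {f : E'} {x x' : k'}
    (hxx' : algebraMap k' E' x' = τ (algebraMap k' E' x)) :
    letI : Algebra k' (maxUnr k K) := (ι.comp (algebraMap k' E')).toAlgebra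
    Has s (stabS s (ι (algebraMap k' E' ζ))) p (ι f) x →
      Has s (stabS s (ι (algebraMap k' E' ζ))) p (ι (τ f)) x' := by
  let _ : Algebra k' (maxUnr k K) := (ι.comp (algebraMap k' E')).toAlgebra
  have halg : ∀ c : k', algebraMap k' (maxUnr k K) c = ι (algebraMap k' E' c) := fun _ => rfl
  rintro ⟨hx, y, hy, hyG, h⟩
  obtain ⟨σ, hσ⟩ := exists_induce hι hs C hp τ
  have hx' : x' ≠ 0 := by
    rintro rfl
    rw [map_zero] at hxx'
    have h1 : algebraMap k' E' x = 0 := (map_eq_zero τ).1 hxx'.symm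
    exact hx ((map_eq_zero _).1 h1)
  refine ⟨hx', s σ y, ?_, ?_, ?_⟩
  · rw [Ne, EmbeddingLike.map_eq_zero_iff]
    exact hy
  · intro g hg
    have h1 : σ⁻¹ * g * σ ∈ stabS s (ι (algebraMap k' E' ζ)) := by
      rw [mem_stabS, map_mul s, map_mul s, AlgEquiv.mul_apply, AlgEquiv.mul_apply, hσ,
        fix_cyc hι C.genE _ g hg, ← hσ, ← AlgEquiv.mul_apply, ← map_mul, inv_mul_cancel, map_one]
      rfl
    have h2 := hyG _ h1
    have h3 : s g (s σ y) = s σ (s (σ⁻¹ * g * σ) y) := by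
      rw [← AlgEquiv.mul_apply, ← AlgEquiv.mul_apply, ← map_mul, ← map_mul]
      congr 2
      group
    rw [h3, h2]
  · rw [← hσ, h, map_mul (s σ), map_pow (s σ), halg, halg, hσ, hxx']

/-- descent of classes to `k` -/
lemma has_descend [Fact p.Prime] (C : CycData p k E k' E' ζ)
    {f : E} {c : k} :
    letI : Algebra k' (maxUnr k K) := (ι.comp (algebraMap k' E')).toAlgebra
    Has s (stabS s (ι (algebraMap k' E' ζ))) p (ι (algebraMap E E' f)) (algebraMap k k' c) →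
      ∃ y : maxUnr k K, (∀ σ, s σ y = y) ∧ algebraMap K (maxUnr k K) (algebraMap E K f) =
        algebraMap k (maxUnr k K) c * y ^ p := by
  let _ : Algebra k' (maxUnr k K) := (ι.comp (algebraMap k' E')).toAlgebra
  have hpp : p.Prime := Fact.out
  have halg : ∀ c : k', algebraMap k' (maxUnr k K) c = ι (algebraMap k' E' c) := fun _ => rfl
  set Z := ι (algebraMap k' E' ζ) with hZ
  have hZp : IsPrimitiveRoot Z p := zeta_prim C
  have hZ0 : Z ≠ 0 := hZp.ne_zero hpp.ne_zero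
  rintro ⟨hx, y, hy, hyG, h⟩
  have hc : c ≠ 0 := by
    rintro rfl
    exact hx (map_zero _)
  have hc' : algebraMap k (maxUnr k K) c ≠ 0 := (_root_.map_ne_zero _).2 hc
  rw [hι, halg, ← IsScalarTower.algebraMap_apply k k' E', emb_k hι] at h
  by_cases hall : ∀ σ, s σ Z = Z
  · exact ⟨y, fun σ => hyG σ (hall σ), h⟩
  push Not at hall
  obtain ⟨σ0, hσ0⟩ := hall
  have hck : ∀ σ, s σ (algebraMap k (maxUnr k K) c) = algebraMap k (maxUnr k K) c := fun σ => by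
    rw [IsScalarTower.algebraMap_apply k K (maxUnr k K), AlgEquiv.commutes]
  have hyp : ∀ σ, s σ (y ^ p) = y ^ p := by
    intro σ
    have h1 : y ^ p = algebraMap K (maxUnr k K) (algebraMap E K f) /
        algebraMap k (maxUnr k K) c := by
      rw [h, mul_div_cancel_left₀ _ hc']
    rw [h1, map_div₀, hck, AlgEquiv.commutes]
  obtain ⟨m, -, hm⟩ := hZp.eq_pow_of_pow_eq_one (ξ := s σ0 Z) (by
    rw [← map_pow, hZp.pow_eq_one, map_one])
  obtain ⟨a, -, ha⟩ := hZp.eq_pow_of_pow_eq_one (ξ := s σ0 y / y) (by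
    rw [div_pow, ← map_pow, hyp, div_self (pow_ne_zero p hy)])
  have ha' : s σ0 y = Z ^ (a : ℤ) * y := by
    rw [zpow_natCast, ha, div_mul_cancel₀ _ hy]
  have hm' : s σ0 Z = Z ^ (m : ℤ) := by rw [zpow_natCast, hm]
  have hpm : ¬ (p : ℤ) ∣ (m : ℤ) - 1 := by
    intro hd
    apply hσ0
    have h1 := (hZp.zpow_eq_one_iff_dvd _).2 hd
    rw [zpow_sub₀ hZ0, zpow_one, div_eq_one_iff_eq hZ0] at h1
    rw [hm', h1]
  have hcop : IsCoprime (p : ℤ) ((m : ℤ) - 1) :=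
    (Nat.prime_iff_prime_int.1 hpp).coprime_iff_not_dvd.2 hpm
  obtain ⟨e1, e2, he⟩ := hcop
  have hmz : ∀ (σ : Gal(constClosure k K/k)) (n : ℤ), s σ (Z ^ n) = (s σ Z) ^ n := fun σ n =>
    map_zpow₀ _ _ _
  have hZone : ∀ n : ℤ, Z ^ ((p : ℤ) * n) = 1 := fun n =>
    (hZp.zpow_eq_one_iff_dvd _).2 (dvd_mul_right _ _)
  set y1 := Z ^ (-(a : ℤ) * e2) * y with hy1
  have hy10 : y1 ≠ 0 := mul_ne_zero (zpow_ne_zero _ hZ0) hy
  have hfix0 : s σ0 y1 = y1 := by
    rw [hy1, map_mul, hmz, hm', ha', ← zpow_mul, ← mul_assoc, ← zpow_add₀ hZ0]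
    congr 1
    have h1 : (m : ℤ) * (-(a : ℤ) * e2) + (a : ℤ) = -(a : ℤ) * e2 + (p : ℤ) * (e1 * a) := by
      linear_combination (-(a : ℤ)) * he
    rw [h1, zpow_add₀ hZ0, hZone, mul_one]
  have hy1G : ∀ σ, s σ Z = Z → s σ y1 = y1 := by
    intro σ hσ
    rw [hy1, map_mul, hmz, hσ, hyG σ hσ]
  have hy1p : y1 ^ p = y ^ p := by
    rw [hy1, mul_pow, ← zpow_natCast (Z ^ _), ← zpow_mul, mul_comm _ (p : ℤ), hZone, one_mul]
  refine ⟨y1, fun σ => ?_, by rw [hy1p]; exact h⟩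
  obtain ⟨b, -, hb⟩ := hZp.eq_pow_of_pow_eq_one (ξ := s σ y1 / y1) (by
    rw [div_pow, ← map_pow, hy1p, hyp, div_self (pow_ne_zero p hy)])
  have hb' : s σ y1 = Z ^ (b : ℤ) * y1 := by
    rw [zpow_natCast, hb, div_mul_cancel₀ _ hy10]
  obtain ⟨i, -, hi⟩ := hZp.eq_pow_of_pow_eq_one (ξ := s σ Z) (by
    rw [← map_pow, hZp.pow_eq_one, map_one])
  have hi' : s σ Z = Z ^ (i : ℤ) := by rw [zpow_natCast, hi]
  -- the commutator
  have hcomm : s ((σ0 * σ)⁻¹ * (σ * σ0)) Z = Z := by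
    have h1 : s (σ * σ0) Z = s (σ0 * σ) Z := by
      rw [map_mul s, map_mul s, AlgEquiv.mul_apply, AlgEquiv.mul_apply, hm', hi', hmz, hmz, hm',
        hi', ← zpow_mul, ← zpow_mul, mul_comm]
    rw [map_mul s, AlgEquiv.mul_apply, h1, ← AlgEquiv.mul_apply, ← map_mul, inv_mul_cancel,
      map_one]
    rfl
  have h1 := hy1G _ hcomm
  have h2 : s (σ * σ0) y1 = s (σ0 * σ) y1 := by
    have h3 : s (σ0 * σ) (s ((σ0 * σ)⁻¹ * (σ * σ0)) y1) = s (σ * σ0) y1 := by
      rw [← AlgEquiv.mul_apply, ← map_mul, mul_inv_cancel_left]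
    rw [← h3, h1]
  rw [map_mul s, map_mul s, AlgEquiv.mul_apply, AlgEquiv.mul_apply, hfix0, hb', map_mul (s σ0),
    hmz, hm', hfix0, ← zpow_mul] at h2
  have h3 := mul_right_cancel₀ hy10 h2
  have h4 : Z ^ (((m : ℤ) - 1) * b) = 1 := by
    rw [sub_mul, one_mul, zpow_sub₀ hZ0, ← h3, div_self (zpow_ne_zero _ hZ0)]
  have h5 := (hZp.zpow_eq_one_iff_dvd _).1 h4
  have h6 : (p : ℤ) ∣ b :=
    ((Nat.prime_iff_prime_int.1 hpp).dvd_or_dvd h5).resolve_left hpm
  rw [hb', (hZp.zpow_eq_one_iff_dvd _).2 h6, one_mul]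

end P025H641
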