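import Vale.Agent.P025.H641.CycDesc
import Vale.Agent.P025.H641.Limit

/-! # Adjoining the `p`-th roots of unity to a field fixed by the section -/

open IntermediateField

namespace P025H641

universe u v w u' v'

open Polynomial

section act

variable {k : Type u} {E : Type v} {k' : Type u'} {E' : Type v'} [Field k] [Field E] [Field k']
  [Field E'] [Algebra k E] [Algebra k k'] [Algebra k' E'] [Algebra E E'] [Algebra k E']
  [IsScalarTower k k' E'] [IsScalarTower k E E'] {p : ℕ} {ζ : k'}
  {K : Type w} [Field K] [Algebra k K]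
  {ι : E' →+* maxUnr k K} {s : Gal(constClosure k K/k) →* Gal(maxUnr k K/K)}
  (hk : ∀ c : k, ι (algebraMap k E' c) = algebraMap k (maxUnr k K) c)
  (hfix : ∀ (e : E) (σ : Gal(constClosure k K/k)),
    s σ (ι (algebraMap E E' e)) = ι (algebraMap E E' e))

include hfix in
omit [Algebra k k'] [Algebra k' E'] [IsScalarTower k k' E'] [Field k'] [Algebra k E']
  [IsScalarTower k E E'] [Algebra k E] in
/-- the action on polynomial expressions over `E` -/
lemma gact_aevalE (σ : Gal(constClosure k K/k)) (α : E') (P : E[X]) (β : maxUnr k K)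
    (hβ : s σ (ι α) = β) :
    s σ (ι (aeval α P)) = (P.map (ι.comp (algebraMap E E'))).eval β := by
  rw [aeval_def, hom_eval₂]
  have h1 := hom_eval₂ P (ι.comp (algebraMap E E')) ((s σ : (maxUnr k K) ≃ₐ[K] (maxUnr k K)) :
    (maxUnr k K) →+* (maxUnr k K)) (ι α)
  have h2 : ((s σ : (maxUnr k K) ≃ₐ[K] (maxUnr k K)) : (maxUnr k K) →+* (maxUnr k K)).comp
      (ι.comp (algebraMap E E')) = ι.comp (algebraMap E E') := by
    ext e
    show ((s σ (ι (algebraMap E E' e)) : maxUnr k K) : AlgebraicClosure K) = _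
    rw [hfix]
    rfl
  rw [h2] at h1
  rw [eval_map, ← hβ]
  exact h1

omit [Algebra k k'] [Algebra k' E'] [IsScalarTower k k' E'] [Field k'] [Algebra k E']
  [IsScalarTower k E E'] [Algebra k E] in
lemma gemb_aevalE (α : E') (P : E[X]) :
    ι (aeval α P) = (P.map (ι.comp (algebraMap E E'))).eval (ι α) := by
  rw [aeval_def, hom_eval₂, eval_map]

include hk

omit [Algebra k k'] [Algebra k' E'] [IsScalarTower k k' E'] [Field k'] [Field E] [Algebra k E]
  [Algebra E E'] [IsScalarTower k E E'] in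
lemma gemb_aevalk (α : E') (P : k[X]) : ι (aeval α P) = aeval (ι α) P := by
  rw [aeval_def, hom_eval₂, aeval_def]
  congr 1
  exact RingHom.ext hk

omit [Algebra k k'] [Algebra k' E'] [IsScalarTower k k' E'] [Field k'] [Field E] [Algebra k E]
  [Algebra E E'] [IsScalarTower k E E'] in
/-- the action on polynomial expressions over `k` -/
lemma gact_aevalk (σ : Gal(constClosure k K/k)) (α : E') (P : k[X]) (β : maxUnr k K)
    (hβ : s σ (ι α) = β) : s σ (ι (aeval α P)) = aeval β P := by
  rw [gemb_aevalk hk, ← hβ]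
  exact (aeval_algHom_apply (((s σ : (maxUnr k K) ≃ₐ[K] (maxUnr k K)) :
    (maxUnr k K) →ₐ[K] (maxUnr k K)).restrictScalars k) (ι α) P).symm

omit [IsScalarTower k E E'] in
/-- the base given by `k'` -/
theorem gbase_cyc [CharZero k] (hs : IsSection k K s) (C : CycData p k E k' E' ζ) (hp : 0 < p) :
    letI : Algebra k' (maxUnr k K) := (ι.comp (algebraMap k' E')).toAlgebra
    Base s (stabS s (ι (algebraMap k' E' ζ))) k' := by
  let _ : Algebra k' (maxUnr k K) := (ι.comp (algebraMap k' E')).toAlgebra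
  set Z := ι (algebraMap k' E' ζ) with hZ
  have hZp : IsPrimitiveRoot Z p := zeta_prim C
  have hζint : IsIntegral k Z :=
    isIntegral_of_pow' hp (by rw [hZp.pow_eq_one]; exact isIntegral_one)
  have halg : ∀ c : k', algebraMap k' (maxUnr k K) c = ι (algebraMap k' E' c) := fun _ => rfl
  have hpoly : ∀ P : k[X], algebraMap k' E' (aeval ζ P) = aeval (algebraMap k' E' ζ) P := by
    intro P
    rw [aeval_algebraMap_apply]
  constructor
  · exact isClosed_stabS hs _
  · intro c
    obtain ⟨P, rfl⟩ := C.genk c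
    rw [halg, hpoly, gemb_aevalk hk]
    exact IsIntegral.of_mem_of_fg _ hζint.fg_adjoin_singleton _ (aeval_mem_adjoin_singleton k _)
  · intro c σ hσ
    rw [mem_stabS] at hσ
    obtain ⟨P, rfl⟩ := C.genk c
    rw [halg, hpoly, gact_aevalk hk σ _ P _ hσ, gemb_aevalk hk]
  · intro x hx hfix
    have hmem : (x : AlgebraicClosure K) ∈ constClosure k K :=
      mem_algebraicClosure_iff.2 (isIntegral_coe.2 hx).isAlgebraic
    set xC : constClosure k K := ⟨x, hmem⟩ with hxC
    have hζmem : (Z : AlgebraicClosure K) ∈ constClosure k K :=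
      mem_algebraicClosure_iff.2 (isIntegral_coe.2 hζint).isAlgebraic
    set ζC : constClosure k K := ⟨Z, hζmem⟩ with hζC
    have h1 := InfiniteGalois.fixedField_fixingSubgroup (k⟮ζC⟯ : IntermediateField k _)
    have h2 : xC ∈ IntermediateField.fixedField (k⟮ζC⟯).fixingSubgroup := by
      rw [IntermediateField.mem_fixedField_iff]
      intro σ hσ
      rw [IntermediateField.mem_fixingSubgroup_iff] at hσ
      have h3 := hσ ζC (IntermediateField.mem_adjoin_simple_self k ζC)
      have h4 := hs.lifts σ ζC Z rfl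
      rw [h3] at h4
      have h5 : s σ Z = Z := Subtype.ext h4.symm
      have h6 := hs.lifts σ xC x rfl
      rw [hfix σ h5] at h6
      exact Subtype.ext h6
    rw [h1] at h2
    have hζCint : IsIntegral k ζC :=
      (isIntegral_algHom_iff (constClosure k K).val Subtype.val_injective).1
        (isIntegral_coe.2 hζint)
    have h3 : xC ∈ Algebra.adjoin k {ζC} := by
      rw [← IntermediateField.adjoin_simple_toSubalgebra_of_isAlgebraic hζCint.isAlgebraic]
      exact h2
    rw [Algebra.adjoin_singleton_eq_range_aeval] at h3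
    obtain ⟨P, hP⟩ := h3
    refine ⟨aeval ζ P, ?_⟩
    rw [halg, hpoly, gemb_aevalk hk]
    apply Subtype.ext
    have h4 := congrArg (fun z : constClosure k K => (z : AlgebraicClosure K)) hP
    have h5 : ((aeval ζC P : constClosure k K) : AlgebraicClosure K) =
        aeval (Z : AlgebraicClosure K) P :=
      (aeval_algHom_apply (constClosure k K).val ζC P).symm
    have h6 : ((aeval Z P : maxUnr k K) : AlgebraicClosure K) =
        aeval (Z : AlgebraicClosure K) P :=
      (aeval_algHom_apply (((maxUnr k K).val).restrictScalars k) Z P).symm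
    rw [h6, ← h5]
    exact h4

include hfix in
omit [Algebra k k'] [Algebra k E] [Algebra k E'] [IsScalarTower k k' E'] [IsScalarTower k E E']
  hk in
/-- everything in `E'` is fixed -/
lemma gfix_cyc (hgenE : ∀ x : E', ∃ P : E[X], x = aeval (algebraMap k' E' ζ) P) (f : E')
    (σ : Gal(constClosure k K/k)) (hσ : σ ∈ stabS s (ι (algebraMap k' E' ζ))) :
    s σ (ι f) = ι f := by
  rw [mem_stabS] at hσ
  obtain ⟨P, rfl⟩ := hgenE f
  rw [gact_aevalE hfix σ _ P _ hσ, gemb_aevalE]

include hfix in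
/-- every automorphism of `E' / E` is induced by some `s σ` -/
lemma gexists_induce [CharZero k] (hs : IsSection k K s) (C : CycData p k E k' E' ζ) (hp : 0 < p)
    (τ : E' ≃ₐ[E] E') : ∃ σ : Gal(constClosure k K/k), ∀ f : E', s σ (ι f) = ι (τ f) := by
  set z := algebraMap k' E' ζ with hz
  have hzint : IsIntegral k z := (C.isIntegral hp ζ).map (Algebra.ofId k' E' |>.restrictScalars k)
  have hint : ∀ y : E', IsIntegral k y → IsIntegral k (ι y) := by
    intro y hy
    let φ : E' →ₐ[k] maxUnr k K := { ι with commutes' := hk }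
    exact hy.map φ
  have hτint : IsIntegral k (τ z) := hzint.map ((τ : E' →ₐ[E] E').restrictScalars k)
  have hm1 : ((ι z : maxUnr k K) : AlgebraicClosure K) ∈ constClosure k K :=
    mem_algebraicClosure_iff.2 (isIntegral_coe.2 (hint _ hzint)).isAlgebraic
  have hm2 : ((ι (τ z) : maxUnr k K) : AlgebraicClosure K) ∈ constClosure k K :=
    mem_algebraicClosure_iff.2 (isIntegral_coe.2 (hint _ hτint)).isAlgebraic
  set zC : constClosure k K := ⟨_, hm1⟩ with hzC
  set tC : constClosure k K := ⟨_, hm2⟩ with htC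
  have hval : ∀ (y : E') (hy : ((ι y : maxUnr k K) : AlgebraicClosure K) ∈ constClosure k K)
      (P : k[X]), aeval (⟨_, hy⟩ : constClosure k K) P = 0 ↔ aeval y P = 0 := by
    intro y hy P
    have h5 : ((aeval (⟨_, hy⟩ : constClosure k K) P : constClosure k K) : AlgebraicClosure K) =
        aeval ((ι y : maxUnr k K) : AlgebraicClosure K) P :=
      (aeval_algHom_apply (constClosure k K).val (⟨_, hy⟩ : constClosure k K) P).symm
    have h6 : ((aeval (ι y) P : maxUnr k K) : AlgebraicClosure K) =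
        aeval ((ι y : maxUnr k K) : AlgebraicClosure K) P :=
      (aeval_algHom_apply (((maxUnr k K).val).restrictScalars k) (ι y) P).symm
    rw [← gemb_aevalk hk] at h6
    constructor
    · intro h
      rw [h] at h5
      rw [← h5] at h6
      have h7 : ι (aeval y P) = 0 := Subtype.ext h6
      exact (map_eq_zero ι).1 h7
    · intro h
      rw [h, map_zero] at h6
      apply Subtype.ext
      rw [h5, ← h6]
      rfl
  have hzCint : IsIntegral k zC :=
    (isIntegral_algHom_iff (constClosure k K).val Subtype.val_injective).1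
      (isIntegral_coe.2 (hint _ hzint))
  have hroot : aeval tC (minpoly k zC) = 0 := by
    rw [hval]
    have h1 : aeval z (minpoly k zC) = 0 := (hval z hm1 _).1 (minpoly.aeval k zC)
    have h2 := aeval_algHom_apply ((τ : E' →ₐ[E] E').restrictScalars k) z (minpoly k zC)
    rw [h1, map_zero] at h2
    exact h2
  obtain ⟨σ, hσ⟩ := minpoly.exists_algEquiv_of_root' hzCint.isAlgebraic hroot
  refine ⟨σ, fun f => ?_⟩
  have h1 : s σ (ι z) = ι (τ z) := by
    apply Subtype.ext
    rw [← hs.lifts σ zC (ι z) rfl, hσ]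
  obtain ⟨P, rfl⟩ := C.genE f
  rw [gact_aevalE hfix σ _ P _ h1]
  have h2 := aeval_algHom_apply (τ : E' →ₐ[E] E') z P
  have h3 : τ (aeval z P) = aeval (τ z) P := h2.symm
  rw [h3, gemb_aevalE]

include hfix in
/-- equivariance of classes -/
lemma ghas_tau [CharZero k] (hs : IsSection k K s) (C : CycData p k E k' E' ζ) (hp : 0 < p)
    (τ : E' ≃ₐ[E] E') {f : E'} {x x' : k'}
    (hxx' : algebraMap k' E' x' = τ (algebraMap k' E' x)) :
    letI : Algebra k' (maxUnr k K) := (ι.comp (algebraMap k' E')).toAlgebra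
    Has s (stabS s (ι (algebraMap k' E' ζ))) p (ι f) x →
      Has s (stabS s (ι (algebraMap k' E' ζ))) p (ι (τ f)) x' := by
  let _ : Algebra k' (maxUnr k K) := (ι.comp (algebraMap k' E')).toAlgebra
  have halg : ∀ c : k', algebraMap k' (maxUnr k K) c = ι (algebraMap k' E' c) := fun _ => rfl
  rintro ⟨hx, y, hy, hyG, h⟩
  obtain ⟨σ, hσ⟩ := gexists_induce hk hfix hs C hp τ
  have hx' : x' ≠ 0 := by
    rintro rfl
    rw [map_zero] at hxx'
    have h1 : algebraMap k' E' x = 0 := (map_eq_zero τ).1 hxx'.symm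
    exact hx ((map_eq_zero _).1 h1)
  refine ⟨hx', s σ y, ?_, ?_, ?_⟩
  · rw [Ne, EmbeddingLike.map_eq_zero_iff]
    exact hy
  · intro g hg
    have h1 : σ⁻¹ * g * σ ∈ stabS s (ι (algebraMap k' E' ζ)) := by
      rw [mem_stabS, map_mul s, map_mul s, AlgEquiv.mul_apply, AlgEquiv.mul_apply, hσ,
        gfix_cyc hfix C.genE _ g hg, ← hσ, ← AlgEquiv.mul_apply, ← map_mul, inv_mul_cancel,
        map_one]
      rfl
    have h2 := hyG _ h1
    have h3 : s g (s σ y) = s σ (s (σ⁻¹ * g * σ) y) := by
      rw [← AlgEquiv.mul_apply, ← AlgEquiv.mul_apply, ← map_mul, ← map_mul]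
      congr 2
      group
    rw [h3, h2]
  · rw [← hσ, h, map_mul (s σ), map_pow (s σ), halg, halg, hσ, hxx']

end act

section finite_level

variable {p : ℕ} [Fact p.Prime] {k : Type u} [Field k] [CharZero k] {E : Type v} [Field E]
  [Algebra k E] {k' : Type u'} [Field k'] [Algebra ℚ_[p] k'] [FiniteDimensional ℚ_[p] k']
  {E' : Type v'} [Field E'] [Algebra k k'] [Algebra k' E'] [Algebra E E'] [Algebra k E']
  [IsScalarTower k k' E'] [IsScalarTower k E E'] {ζ : k'}

/-- the conditions satisfied by the class maps of finite level -/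
structure GLevel (p : ℕ) [Fact p.Prime] (E : Type v) [Field E] (k' : Type u') [Field k']
    [Algebra ℚ_[p] k'] {E' : Type v'} [Field E'] [Algebra k' E'] [Algebra E E'] (S : Finset E')
    (χ : E' → Cl p k') : Prop where
  mul : ∀ f ∈ S, ∀ g ∈ S, f ≠ 0 → g ≠ 0 → χ (f * g) = χ f + χ g
  const : ∀ c : k', c ≠ 0 → χ (algebraMap k' E' c) = clsm p c
  pat : ∀ f, f ∉ Set.range (algebraMap k' E') → ∀ (r : ℕ) (A₀ A : Finset k'), IsFine p r A₀ A →
    (∀ a ∈ A, f - algebraMap k' E' a ∈ S) →
      ∃ z, ∀ a ∈ A₀, z ≠ a ∧ χ (f - algebraMap k' E' a) = clsm p (z - a)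
  equi : ∀ f ∈ S, f ≠ 0 → ∀ (τ : E' ≃ₐ[E] E') (x x' : k'),
    algebraMap k' E' x' = τ (algebraMap k' E' x) → x ≠ 0 → χ f = clsm p x →
      χ (τ f) = clsm p x'

/-- class maps of finite level -/
lemma exists_gLevel (C : CycData p k E k' E' ζ) (S : Finset E') {K : Type w} [Field K]
    [Algebra k K] {s : Gal(constClosure k K/k) →* Gal(maxUnr k K/K)} (hs : IsSection k K s)
    (ι : E' →+* maxUnr k K) (hk : ∀ c : k, ι (algebraMap k E' c) = algebraMap k (maxUnr k K) c)
    (hfix : ∀ (e : E) (σ : Gal(constClosure k K/k)),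
      s σ (ι (algebraMap E E' e)) = ι (algebraMap E E' e))
    (hF : ∀ f₀ : E', ∃ F : IntermediateField K (AlgebraicClosure K), IsFinUnr k F ∧
      (ι f₀ : AlgebraicClosure K) ∈ F ∧
      (∀ c : k', (ι (algebraMap k' E' c) : AlgebraicClosure K) ∈ F) ∧
      ∀ f ∈ S, f ≠ 0 → ∃ hf : (ι f : AlgebraicClosure K) ∈ F,
        IsDivisible p k (⟨ι f, hf⟩ : F)) :
    ∃ χ : E' → Cl p k', GLevel p E k' S χ := by
  classical
  have hpp : p.Prime := Fact.out
  let _ : Algebra k' (maxUnr k K) := (ι.comp (algebraMap k' E')).toAlgebra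
  have halg : ∀ c : k', algebraMap k' (maxUnr k K) c = ι (algebraMap k' E' c) := fun _ => rfl
  set G := stabS s (ι (algebraMap k' E' ζ)) with hG
  have B : Base s G k' := gbase_cyc hk hs C hpp.pos
  have hι0 : ∀ f, f ≠ 0 → ι f ≠ 0 := fun f hf => (_root_.map_ne_zero _).2 hf
  have hιG : ∀ f, ∀ σ ∈ G, s σ (ι f) = ι f := fun f σ hσ => gfix_cyc hfix C.genE f σ hσ
  have hhas : ∀ f ∈ S, f ≠ 0 → ∃ x : k', Has s G p (ι f) x := by
    intro f hf hf0
    obtain ⟨F, hFu, -, -, hdiv⟩ := hF f
    obtain ⟨hfF, hd⟩ := hdiv f hf hf0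
    exact exists_has hs B C.prim hFu (ι f) hfF (hι0 f hf0) (hιG f) hd
  refine ⟨fun f => chiS s G p k' (ι f), ?_, ?_, ?_, ?_⟩
  · intro f hf g hg hf0 hg0
    obtain ⟨x, hx⟩ := hhas f hf hf0
    obtain ⟨x', hx'⟩ := hhas g hg hg0
    rw [chiS_eq B hpp.pos hx, chiS_eq B hpp.pos hx', map_mul, chiS_eq B hpp.pos (hx.mul hx'),
      clsm_mul _ _ hx.1 hx'.1]
  · intro c hc
    rw [← halg]
    exact chiS_eq B hpp.pos (has_const c hc)
  · intro f hf r A₀ A hA hfS
    have hιf : ∀ c : k', ι f ≠ algebraMap k' (maxUnr k K) c := by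
      intro c h
      exact hf ⟨c, (ι.injective h).symm⟩
    obtain ⟨F, hFu, hfF, hkF, hdiv⟩ := hF f
    obtain ⟨z, hz⟩ := pattern_gen hs B C.prim hFu hkF (ι f) hfF (hιG f) hιf hA (by
      intro a ha
      have hne : f - algebraMap k' E' a ≠ 0 := sub_ne_const hf a
      obtain ⟨hm, h1⟩ := hdiv _ (hfS a ha) hne
      have h2 : (⟨ι (f - algebraMap k' E' a), hm⟩ : F) =
          ⟨ι f, hfF⟩ - ⟨ι (algebraMap k' E' a), hkF a⟩ := by
        apply Subtype.ext
        have h3 := congrArg (fun z : maxUnr k K => (z : AlgebraicClosure K))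
          (map_sub ι f (algebraMap k' E' a))
        exact h3
      rwa [h2] at h1)
    refine ⟨z, fun a ha => ⟨(hz a ha).1, ?_⟩⟩
    obtain ⟨x, hx, hxc⟩ := (hz a ha).2
    rw [← hxc, map_sub]
    exact chiS_eq B hpp.pos hx
  · intro f hf hf0 τ x x' hxx' hx0 hfx
    obtain ⟨x1, hx1⟩ := hhas f hf hf0
    have h1 : Has s G p (ι f) x := has_of_chiS B hpp.pos hx1 hx0 hfx
    exact chiS_eq B hpp.pos (ghas_tau hk hfix hs C hpp.pos τ hxx' h1)

/-- **Limits of class maps come from places.** -/
theorem place_of_gLevel (C : CycData p k E k' E' ζ)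
    (hclosed : ∀ e : E, IsIntegral k e → ∃ c, algebraMap k E c = e)
    (h : ∀ S : Finset E', ∃ χ : E' → Cl p k', GLevel p E k' S χ) :
    ∃ V : ValuationSubring E, (∀ c : k, algebraMap k E c ∈ V) ∧
      ∀ f ∈ V, ∃ c : k, V.valuation (f - algebraMap k E c) < 1 := by
  classical
  have hpp : p.Prime := Fact.out
  have hcharE : CharZero E := charZero_of_injective_algebraMap (algebraMap k E).injective
  have hfinC : Finite (Cl p k') := finite_Cl C.prim
  have hcyc : IsCyclotomicExtension {p} E E' := by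
    have : NeZero p := ⟨hpp.ne_zero⟩
    have hprim : IsPrimitiveRoot (algebraMap k' E' ζ) p :=
      C.prim.map_of_injective (algebraMap k' E').injective
    rw [IsCyclotomicExtension.iff_singleton]
    refine ⟨⟨_, hprim⟩, fun x => ?_⟩
    obtain ⟨P, rfl⟩ := C.genE x
    have h1 : aeval (algebraMap k' E' ζ) P ∈ Algebra.adjoin E {algebraMap k' E' ζ} :=
      aeval_mem_adjoin_singleton E _
    refine Algebra.adjoin_mono ?_ h1
    intro y hy
    rw [Set.mem_singleton_iff] at hy
    rw [hy]
    exact hprim.pow_eq_one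
  have hgal : IsGalois E E' := IsCyclotomicExtension.isGalois {p} E E'
  have hfinE : FiniteDimensional E E' := IsCyclotomicExtension.finiteDimensional {p} E E'
  have himage : ∀ (τ : E' ≃ₐ[E] E') (x : k'), ∃ x' : k',
      algebraMap k' E' x' = τ (algebraMap k' E' x) := by
    intro τ x
    have : NeZero p := ⟨hpp.ne_zero⟩
    obtain ⟨i, -, hi⟩ :=
      (C.prim.map_of_injective (algebraMap k' E').injective).eq_pow_of_pow_eq_one
      (ξ := τ (algebraMap k' E' ζ)) (by
        rw [← map_pow, ← map_pow, C.prim.pow_eq_one, map_one, map_one])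
    obtain ⟨P, rfl⟩ := C.genk x
    refine ⟨aeval (ζ ^ i) P, ?_⟩
    have h1 := aeval_algHom_apply ((τ : E' →ₐ[E] E').restrictScalars k) (algebraMap k' E' ζ) P
    have h2 : τ (aeval (algebraMap k' E' ζ) P) = aeval (τ (algebraMap k' E' ζ)) P := h1.symm
    rw [← aeval_algebraMap_apply, ← aeval_algebraMap_apply, h2, map_pow, hi]
  obtain ⟨χ, hχ⟩ := exists_limit (α := E') (C := Cl p k') (GLevel p E k') h
  -- the limit
  have hmul : ∀ f g, f ≠ 0 → g ≠ 0 → χ (f * g) = χ f + χ g := by
    intro f g hf hg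
    obtain ⟨S', χ', hS, h1, hagree⟩ := hχ {f, g, f * g} {f, g}
    rw [← hagree f (by simp), ← hagree g (by simp), ← hagree (f * g) (by simp)]
    exact h1.mul f (hS (by simp)) g (hS (by simp)) hf hg
  have hconst : ∀ c : k', c ≠ 0 → χ (algebraMap k' E' c) = clsm p c := by
    intro c hc
    obtain ⟨S', χ', hS, h1, hagree⟩ := hχ {algebraMap k' E' c} ∅
    rw [← hagree _ (by simp)]
    exact h1.const c hc
  have hpat : ∀ f, f ∉ Set.range (algebraMap k' E') → ∀ A₀ : Finset k', ∃ z, ∀ a ∈ A₀, z ≠ a ∧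
      χ (f - algebraMap k' E' a) = clsm p (z - a) := by
    intro f hf A₀
    obtain ⟨r, A, hA⟩ := exists_fine (p := p) A₀
    obtain ⟨S', χ', hS, h1, hagree⟩ :=
      hχ (A₀.image (fun a => f - algebraMap k' E' a)) (A.image (fun a => f - algebraMap k' E' a))
    obtain ⟨z, hz⟩ := h1.pat f hf r A₀ A hA (fun a ha => hS (Finset.mem_image_of_mem _ ha))
    refine ⟨z, fun a ha => ⟨(hz a ha).1, ?_⟩⟩
    rw [← hagree _ (Finset.mem_image_of_mem _ ha)]
    exact (hz a ha).2
  have hequi : ∀ f, f ≠ 0 → ∀ (τ : E' ≃ₐ[E] E') (x x' : k'),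
      algebraMap k' E' x' = τ (algebraMap k' E' x) → x ≠ 0 → χ f = clsm p x →
        χ (τ f) = clsm p x' := by
    intro f hf τ x x' hxx' hx0 hfx
    obtain ⟨S', χ', hS, h1, hagree⟩ := hχ {f, τ f} {f}
    rw [← hagree _ (by simp)]
    rw [← hagree f (by simp)] at hfx
    exact h1.equi f (hS (by simp)) hf τ x x' hxx' hx0 hfx
  obtain ⟨V', hVk, hVres, hVχ⟩ := place_of_chi C.prim χ hmul hconst hpat
  have hone : ∀ c : k', c ≠ 0 → ¬ V'.valuation (algebraMap k' E' c) < 1 := by
    intro c hc hlt
    have h1 := (V'.valuation_le_one_iff _).2 (hVk c⁻¹)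
    have h2 : V'.valuation (algebraMap k' E' c) * V'.valuation (algebraMap k' E' c⁻¹) = 1 := by
      rw [← map_mul, ← map_mul, mul_inv_cancel₀ hc, map_one, map_one]
    exact absurd h2 (mul_lt_one_of_lt_of_le hlt h1).ne
  have huniq : ∀ (f : E') (z z' : k'), V'.valuation (f - algebraMap k' E' z) < 1 →
      V'.valuation (f - algebraMap k' E' z') < 1 → z = z' := by
    intro f z z' h h'
    by_contra hne
    apply hone _ (sub_ne_zero.2 hne)
    have h1 : algebraMap k' E' (z - z') = (f - algebraMap k' E' z') - (f - algebraMap k' E' z) := by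
      rw [map_sub]; ring
    rw [h1]
    exact (Valuation.map_sub _ _ _).trans_lt (max_lt h' h)
  -- equivariance of the values
  have hval : ∀ (f : E') (z z' : k') (τ : E' ≃ₐ[E] E'),
      algebraMap k' E' z' = τ (algebraMap k' E' z) →
      V'.valuation (f - algebraMap k' E' z) < 1 → V'.valuation (τ f - algebraMap k' E' z') < 1 := by
    intro f z z' τ hzz' hlt
    rw [hVχ]
    intro a' ha'
    obtain ⟨a, ha⟩ := himage τ.symm a'
    have ha2 : algebraMap k' E' a' = τ (algebraMap k' E' a) := by rw [ha]; simp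
    have haz : a ≠ z := by
      rintro rfl
      apply ha'
      apply (algebraMap k' E').injective
      rw [ha2, hzz']
    have hne : f - algebraMap k' E' a ≠ 0 := by
      intro h0
      apply haz
      rw [sub_eq_zero] at h0
      refine (huniq f z a hlt ?_).symm
      rw [h0, sub_self, map_zero]
      exact zero_lt_one
    have h1 : τ f - algebraMap k' E' a' = τ (f - algebraMap k' E' a) := by
      rw [map_sub, ha2]
    rw [h1]
    refine hequi _ hne τ (z - a) (z' - a') ?_ (sub_ne_zero.2 haz.symm) ((hVχ f z).1 hlt a haz)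
    rw [map_sub, map_sub, map_sub, hzz', ha2]
  -- restriction to `E`
  set V := V'.comap (algebraMap E E') with hV
  have hlt_iff : ∀ x : E, V.valuation x < 1 ↔ V'.valuation (algebraMap E E' x) < 1 := by
    intro x
    exact (comap_isEquiv (F := E) V').lt_one_iff_lt_one (x := x)
  have hkk : ∀ c : k, algebraMap E E' (algebraMap k E c) = algebraMap k' E' (algebraMap k k' c) := by
    intro c
    rw [← IsScalarTower.algebraMap_apply k E E', IsScalarTower.algebraMap_apply k k' E']
  refine ⟨V, ?_, ?_⟩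
  · intro c
    rw [hV, ValuationSubring.mem_comap, hkk]
    exact hVk _
  · intro f hf
    rw [hV, ValuationSubring.mem_comap] at hf
    obtain ⟨z, hz⟩ := hVres _ hf
    have hzfix : ∀ τ : E' ≃ₐ[E] E', τ (algebraMap k' E' z) = algebraMap k' E' z := by
      intro τ
      obtain ⟨z', hz'⟩ := himage τ z
      have h1 := hval _ z z' τ hz' hz
      rw [AlgEquiv.commutes] at h1
      rw [← hz', huniq _ _ _ h1 hz]
    obtain ⟨e, he⟩ := (IsGalois.mem_range_algebraMap_iff_fixed (F := E) (E := E')
      (algebraMap k' E' z)).2 hzfix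
    have hint : IsIntegral k e := by
      have h1 : IsIntegral k (algebraMap E E' e) := by
        rw [he]
        exact (C.isIntegral hpp.pos z).map (Algebra.ofId k' E' |>.restrictScalars k)
      exact (isIntegral_algHom_iff (Algebra.ofId E E' |>.restrictScalars k)
        (algebraMap E E').injective).1 h1
    obtain ⟨c, hc⟩ := hclosed e hint
    refine ⟨c, ?_⟩
    rw [hlt_iff, map_sub, hc, he]
    exact hz

end finite_level

end P025H641
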