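import Vale.Agent.P025.H641.Plc

/-! # Adjoining a root of a polynomial with separable reduction does not change the values -/

open IntermediateField

namespace P025H641

universe u v w

open Polynomial

section content

variable {F : Type v} [Field F] (W : ValuationSubring F)

/-- a nonzero polynomial is a constant times an integral polynomial with nonzero reduction -/
lemma exists_content (P : F[X]) (hP : P ≠ 0) : ∃ (i : ℕ) (D : W[X]), P.coeff i ≠ 0 ∧
    P = C (P.coeff i) * D.map W.subtype ∧ D.map (IsLocalRing.residue W) ≠ 0 := by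
  classical
  obtain ⟨i, hi, hmax⟩ := Finset.exists_max_image P.support (fun i => W.valuation (P.coeff i))
    (by rwa [Finset.nonempty_iff_ne_empty, Ne, support_eq_empty])
  have hc0 : P.coeff i ≠ 0 := mem_support_iff.1 hi
  have hcpos : 0 < W.valuation (P.coeff i) := zero_lt_iff.2 ((_root_.map_ne_zero _).2 hc0)
  have hle : ∀ j, W.valuation (P.coeff j) ≤ W.valuation (P.coeff i) := by
    intro j
    by_cases h : j ∈ P.support
    · exact hmax j h
    · rw [notMem_support_iff.1 h, map_zero]; exact zero_le
  have hlift : C (P.coeff i)⁻¹ * P ∈ lifts W.subtype := by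
    rw [lifts_iff_coeff_lifts]
    intro n
    have h1 : W.valuation ((C (P.coeff i)⁻¹ * P).coeff n) ≤ 1 := by
      rw [coeff_C_mul, map_mul, map_inv₀, mul_comm, ← div_eq_mul_inv]
      exact (div_le_one₀ hcpos).2 (hle n)
    exact ⟨⟨_, (W.valuation_le_one_iff _).1 h1⟩, rfl⟩
  obtain ⟨D, hD⟩ := hlift
  refine ⟨i, D, hc0, ?_, ?_⟩
  · have hD' : D.map W.subtype = C (P.coeff i)⁻¹ * P := hD
    rw [hD', ← mul_assoc, ← C_mul, mul_inv_cancel₀ hc0, C_1, one_mul]
  · intro h
    have hD' : D.map W.subtype = C (P.coeff i)⁻¹ * P := hD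
    have h1 := congrArg (fun q => coeff q i) h
    simp only [coeff_map, coeff_zero] at h1
    rw [IsLocalRing.residue_eq_zero_iff, W.valuation_lt_one_iff] at h1
    have h2 : ((D.coeff i : W) : F) = 1 := by
      have h3 := congrArg (fun q => coeff q i) hD'
      simp only [coeff_map, coeff_C_mul] at h3
      rw [inv_mul_cancel₀ hc0] at h3
      exact h3
    rw [h2, map_one] at h1
    exact lt_irrefl _ h1

end content

section etale

variable {k : Type u} [Field k] {F : Type v} {E : Type w} [Field F] [Field E] [Algebra F E]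
  [Algebra k E] [Algebra.IsAlgebraic F E]

/-- **Values do not change under étale extensions.** -/
theorem etale_value {V : ValuationSubring E} (hV : IsPlace k E V) (α : E)
    (hgen : ∀ x : E, ∃ P : F[X], x = aeval α P)
    (W : ValuationSubring F) (hW : W = V.comap (algebraMap F E))
    (h : W[X]) (hmon : h.Monic) (hroot : aeval α (h.map W.subtype) = 0)
    (hsep : (h.map (IsLocalRing.residue W)).Separable) (x : E) :
    ∃ y : F, V.valuation (algebraMap F E y) = V.valuation x := by
  classical
  set v := V.valuation with hv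
  have hmem : ∀ x : F, x ∈ W ↔ v (algebraMap F E x) ≤ 1 := by
    intro x
    rw [hW, ValuationSubring.mem_comap, V.valuation_le_one_iff]
  have hWv : ∀ x : F, W.valuation x < 1 ↔ v (algebraMap F E x) < 1 := by
    intro x
    have h1 := (comap_isEquiv (F := F) V).lt_one_iff_lt_one (x := x)
    rw [hW]
    exact h1
  -- the map to `V`
  let ι : W →+* V := ((algebraMap F E).comp W.subtype).codRestrict V.toSubring (fun x => by
    have := x.2
    rw [hmem, V.valuation_le_one_iff] at this
    exact this)
  have hι : ∀ x : W, ((ι x : V) : E) = algebraMap F E (x : F) := fun x => rfl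
  have hloc : IsLocalHom ι := by
    constructor
    intro a ha
    rw [V.valuation_eq_one_iff, hι] at ha
    have ha0 : (a : F) ≠ 0 := by
      intro h0
      rw [h0, map_zero, map_zero] at ha
      exact zero_ne_one ha
    have h1 : (a : F)⁻¹ ∈ W := by rw [hmem, map_inv₀, map_inv₀, hv, ha, inv_one]
    exact ⟨⟨a, ⟨_, h1⟩, Subtype.ext (mul_inv_cancel₀ ha0), Subtype.ext (inv_mul_cancel₀ ha0)⟩, rfl⟩
  set ρ0 := IsLocalRing.residue W with hρ0
  set ρ := IsLocalRing.residue V with hρ
  let ιb : IsLocalRing.ResidueField W →+* IsLocalRing.ResidueField V :=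
    IsLocalRing.ResidueField.map ι
  have hιb : ∀ x : W, ιb (ρ0 x) = ρ (ι x) := fun x => IsLocalRing.ResidueField.map_residue ι x
  have hιb' : ιb.comp ρ0 = ρ.comp ι := RingHom.ext hιb
  let _ : Algebra (IsLocalRing.ResidueField W) (IsLocalRing.ResidueField V) := ιb.toAlgebra
  -- `α` is integral
  have hαV : α ∈ V := by
    have hint : IsIntegral V α := by
      refine ⟨h.map ι, hmon.map ι, ?_⟩
      rw [eval₂_map]
      rw [aeval_def, eval₂_map] at hroot
      exact hroot
    obtain ⟨y, hy⟩ := IsIntegrallyClosed.isIntegral_iff.mp hint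
    rw [← hy]
    exact y.2
  set a : V := ⟨α, hαV⟩ with ha
  have hev : ∀ D : W[X], ((D.eval₂ ι a : V) : E) = aeval α (D.map W.subtype) := by
    intro D
    rw [aeval_def, eval₂_map]
    have h1 : ((D.eval₂ ι a : V) : E) = V.subtype (D.eval₂ ι a) := rfl
    rw [h1, hom_eval₂]
    rfl
  have hevb : ∀ D : W[X], ρ (D.eval₂ ι a) = aeval (ρ a) (D.map ρ0) := by
    intro D
    rw [hom_eval₂, aeval_def, eval₂_map, ← hιb']
    rfl
  have hval : ∀ D : W[X], v (aeval α (D.map W.subtype)) ≤ 1 := fun D => by
    rw [← hev]; exact V.valuation_le_one _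
  have hval1 : ∀ D : W[X], aeval (ρ a) (D.map ρ0) ≠ 0 → v (aeval α (D.map W.subtype)) = 1 := by
    intro D hD
    rw [← hevb, hρ, Ne, IsLocalRing.residue_eq_zero_iff, V.valuation_lt_one_iff] at hD
    rw [← hev]
    exact le_antisymm (V.valuation_le_one _) (not_lt.1 hD)
  -- the factorization
  have hroot' : aeval (ρ a) (h.map ρ0) = 0 := by
    rw [← hevb]
    have h1 : h.eval₂ ι a = 0 := by
      apply Subtype.ext
      rw [hev, hroot]
      rfl
    rw [h1, map_zero]
  obtain ⟨q, hq⟩ := minpoly.dvd _ _ hroot'
  obtain ⟨h2, rfl⟩ := map_surjective ρ0 IsLocalRing.residue_surjective q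
  have hcop : IsCoprime (minpoly (IsLocalRing.ResidueField W) (ρ a)) (h2.map ρ0) := by
    rw [hq] at hsep
    exact hsep.isCoprime
  have hh2 : aeval (ρ a) (h2.map ρ0) ≠ 0 := by
    intro h0
    obtain ⟨c, d, hcd⟩ := hcop
    have h1 := congrArg (aeval (ρ a)) hcd
    rw [map_add, map_mul, map_mul, minpoly.aeval, h0, mul_zero, mul_zero, add_zero, map_one] at h1
    exact zero_ne_one h1
  have hh2' := hval1 h2 hh2
  -- the uniformizer
  obtain ⟨π, hπ0, hπ1, hπmax⟩ := hV.exists_unif_comap (F := F)
  by_cases hx0 : x = 0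
  · exact ⟨0, by rw [hx0, map_zero]⟩
  obtain ⟨P, hP⟩ := hgen x
  have hP0 : P ≠ 0 := by
    rintro rfl
    rw [map_zero] at hP
    exact hx0 hP
  obtain ⟨i0, D0, hc0, hPD, hD0⟩ := exists_content W P hP0
  set c0 := P.coeff i0 with hc0'
  have hmain : ∀ N : ℕ, (∃ y : F, v (algebraMap F E y) = v x) ∨
      ∃ (c : F) (D : W[X]), v (algebraMap F E c) ≤ v (algebraMap F E c0) *
        v (algebraMap F E π) ^ N ∧ v x = v (algebraMap F E c) * v (aeval α (D.map W.subtype)) := by
    intro N
    induction N with
    | zero =>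
      right
      refine ⟨c0, D0, by rw [pow_zero, mul_one], ?_⟩
      rw [hP]
      conv_lhs => rw [hPD]
      rw [map_mul, aeval_C, map_mul]
    | succ N ih =>
      rcases ih with ih | ⟨c, D, hc, hD⟩
      · exact Or.inl ih
      by_cases hD1 : aeval (ρ a) (D.map ρ0) = 0
      · -- reduce
        have h3 := modByMonic_add_div (D * h2) h
        set D' := (D * h2) %ₘ h with hD'
        have hD'b : D'.map ρ0 = 0 := by
          rw [hD', map_modByMonic ρ0 hmon, Polynomial.map_mul, (modByMonic_eq_zero_iff_dvd
            (hmon.map ρ0)), hq]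
          exact mul_dvd_mul_right (minpoly.dvd _ _ hD1) _
        have hD'α : aeval α (D'.map W.subtype) =
            aeval α (D.map W.subtype) * aeval α (h2.map W.subtype) := by
          have h4 := congrArg (fun z => aeval α (z.map W.subtype)) h3
          simp only [Polynomial.map_add, Polynomial.map_mul, map_add, map_mul, hroot, zero_mul,
            add_zero] at h4
          exact h4
        have hD'v : v (aeval α (D'.map W.subtype)) = v (aeval α (D.map W.subtype)) := by
          rw [hD'α, map_mul, hh2', mul_one]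
        by_cases hD'0 : D'.map W.subtype = 0
        · exfalso
          rw [hD'0, map_zero, map_zero] at hD'v
          rw [← hD'v, mul_zero, map_eq_zero] at hD
          exact hx0 hD
        obtain ⟨i, D'', hi0, hi, -⟩ := exists_content W _ hD'0
        set c' := (D'.map W.subtype).coeff i with hc'
        have hc'1 : v (algebraMap F E c') < 1 := by
          rw [← hWv]
          have h5 := congrArg (fun z => coeff z i) hD'b
          simp only [coeff_map, coeff_zero] at h5
          rw [hρ0, IsLocalRing.residue_eq_zero_iff, W.valuation_lt_one_iff] at h5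
          rw [hc', coeff_map]
          exact h5
        right
        refine ⟨c * c', D'', ?_, ?_⟩
        · rw [map_mul, map_mul, pow_succ, ← mul_assoc]
          exact mul_le_mul' hc (hπmax _ hc'1)
        · rw [hD, ← hD'v, hi, map_mul, aeval_C, map_mul, map_mul, map_mul, mul_assoc]
      · left
        exact ⟨c, by rw [hD, hval1 D hD1, mul_one]⟩
  by_contra hcon
  have hc0E : algebraMap F E c0 ≠ 0 := (_root_.map_ne_zero _).2 hc0
  have hc0pos : 0 < v (algebraMap F E c0) := zero_lt_iff.2 ((_root_.map_ne_zero _).2 hc0E)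
  obtain ⟨N, hN⟩ := hV.archimedean (x / algebraMap F E c0) _ (div_ne_zero hx0 hc0E) hπ1
  obtain ⟨c, D, hc, hD⟩ := (hmain N).resolve_left hcon
  have h1 : v x ≤ v (algebraMap F E c0) * v (algebraMap F E π) ^ N := by
    rw [hD]
    calc _ ≤ v (algebraMap F E c) * 1 := by gcongr; exact hval D
      _ ≤ _ := by rw [mul_one]; exact hc
  rw [map_div₀, lt_div_iff₀ hc0pos, mul_comm] at hN
  exact absurd hN (not_lt.2 h1)

end etale

end P025H641
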