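import Vale.Agent.P025.H641.CycDesc
import Vale.Agent.P025.H641.Every

/-! # Sections over sufficiently ramified covers, all `p`-adic fields -/

open IntermediateField

namespace P025H641

universe u v w u' v'

open Polynomial

section finite_level

variable {p : ℕ} [Fact p.Prime] {k : Type u} [Field k] [CharZero k] {E : Type v} [Field E]
  [Algebra k E] {k' : Type u'} [Field k'] [Algebra ℚ_[p] k'] [FiniteDimensional ℚ_[p] k']
  {E' : Type v'} [Field E'] [Algebra k k'] [Algebra k' E'] [Algebra E E'] [Algebra k E']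
  [IsScalarTower k k' E'] [IsScalarTower k E E'] {ζ : k'}

/-- the conditions satisfied by the class maps of finite level -/
structure FinLevel (p : ℕ) [Fact p.Prime] (k : Type u) [Field k] {E : Type v} [Field E]
    [Algebra k E] (k' : Type u') [Field k'] [Algebra ℚ_[p] k'] {E' : Type v'} [Field E']
    [Algebra k k'] [Algebra k' E'] [Algebra E E'] (S₀ : Finset E) (S : Finset E')
    (χ : E' → Cl p k') : Prop where
  mul : ∀ f ∈ S, ∀ g ∈ S, f ≠ 0 → g ≠ 0 → χ (f * g) = χ f + χ g
  const : ∀ c : k', c ≠ 0 → χ (algebraMap k' E' c) = clsm p c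
  pat : ∀ f, f ∉ Set.range (algebraMap k' E') → ∀ (r : ℕ) (A₀ A : Finset k'), IsFine p r A₀ A →
    (∀ a ∈ A, f - algebraMap k' E' a ∈ S) →
      ∃ z, ∀ a ∈ A₀, z ≠ a ∧ χ (f - algebraMap k' E' a) = clsm p (z - a)
  equi : ∀ f ∈ S, f ≠ 0 → ∀ (τ : E' ≃ₐ[E] E') (x x' : k'),
    algebraMap k' E' x' = τ (algebraMap k' E' x) → x ≠ 0 → χ f = clsm p x →
      χ (τ f) = clsm p x'
  bad : ∀ V : ValuationSubring E, IsRatPlace k E V → ∃ f ∈ S₀, ∃ c : k, c ≠ 0 ∧
    V.valuation (f - algebraMap k E c) < 1 ∧
      (algebraMap E E' f ∈ S → χ (algebraMap E E' f) ≠ clsm p (algebraMap k k' c))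
  closed : ∀ e : E, IsIntegral k e → ∃ c, algebraMap k E c = e

/-- class maps of finite level from bad sections -/
lemma exists_finLevel (C : CycData p k E k' E' ζ) (S₀ : Finset E) (S : Finset E')
    (K : Type w) [Field K] [Algebra k K] [Algebra E K] [IsScalarTower k E K] (s : Section k K)
    (T : Finset E) (hT : ∀ x ∈ S, ∀ i, (minpoly E x).coeff i = 0 ∨ (minpoly E x).coeff i ∈ T)
    (hram : IsRamifiedOver p k K T)
    (hbad : ∀ V : ValuationSubring E, IsRatPlace k E V → ¬ LooksLikePlace p s S₀ V) :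
    ∃ χ : E' → Cl p k', FinLevel p k k' S₀ S χ := by
  classical
  have hpp : p.Prime := Fact.out
  have hs := s.isSection
  obtain ⟨F, ι, hF, hιF, hι⟩ := C.exists_emb (K := K) hpp.pos
  let _ : Algebra k' (maxUnr k K) := (ι.comp (algebraMap k' E')).toAlgebra
  have halg : ∀ c : k', algebraMap k' (maxUnr k K) c = ι (algebraMap k' E' c) := fun _ => rfl
  set G := stabS s.toHom (ι (algebraMap k' E' ζ)) with hG
  have B : Base s.toHom G k' := base_cyc hι hs C hpp.pos
  -- divisibility
  let ιF : E' →+* F := ((algebraMap (maxUnr k K) (AlgebraicClosure K)).comp ι).codRestrict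
    F.toSubfield.toSubring (fun x => hιF x)
  let _ : Algebra E' F := ιF.toAlgebra
  have ht1 : IsScalarTower E E' F := IsScalarTower.of_algebraMap_eq (fun e => by
    apply Subtype.ext
    have h1 := congrArg (fun z : maxUnr k K => (z : AlgebraicClosure K)) (hι e)
    exact h1.symm)
  have ht2 : IsScalarTower k E' F := IsScalarTower.of_algebraMap_eq (fun e => by
    apply Subtype.ext
    have h1 := congrArg (fun z : maxUnr k K => (z : AlgebraicClosure K)) (emb_k hι e)
    exact h1.symm)
  have halgF : Algebra.IsAlgebraic K F := by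
    have := hF.1
    infer_instance
  have hζint : IsIntegral k (algebraMap k' E' ζ) :=
    (C.isIntegral hpp.pos ζ).map (Algebra.ofId k' E' |>.restrictScalars k)
  have hdiv : ∀ f ∈ S, f ≠ 0 → IsDivisible p k (⟨ι f, hιF f⟩ : F) := by
    intro f hf hf0
    exact isDivisible_of_ramified (F := F) (algebraMap k' E' ζ) hζint C.genE hram f hf0
      (hT f hf)
  have hι0 : ∀ f, f ≠ 0 → ι f ≠ 0 := fun f hf => (_root_.map_ne_zero _).2 hf
  have hιG : ∀ f, ∀ σ ∈ G, s.toHom σ (ι f) = ι f := fun f σ hσ => fix_cyc hι C.genE f σ hσ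
  have hhas : ∀ f ∈ S, f ≠ 0 → ∃ x : k', Has s.toHom G p (ι f) x := fun f hf hf0 =>
    exists_has hs B C.prim hF (ι f) (hιF f) (hι0 f hf0) (hιG f) (hdiv f hf hf0)
  refine ⟨fun f => chiS s.toHom G p k' (ι f), ?_, ?_, ?_, ?_, ?_, ?_⟩
  · intro f hf g hg hf0 hg0
    obtain ⟨x, hx⟩ := hhas f hf hf0
    obtain ⟨x', hx'⟩ := hhas g hg hg0
    rw [chiS_eq B hpp.pos hx, chiS_eq B hpp.pos hx', map_mul, chiS_eq B hpp.pos (hx.mul hx'),
      clsm_mul _ _ hx.1 hx'.1]
  · intro c hc
    rw [← halg]
    exact chiS_eq B hpp.pos (has_const c hc)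
  · intro f hf r A₀ A hA hfS
    have hιf : ∀ c : k', ι f ≠ algebraMap k' (maxUnr k K) c := by
      intro c h
      exact hf ⟨c, (ι.injective h).symm⟩
    obtain ⟨z, hz⟩ := pattern_gen hs B C.prim hF (fun c => hιF _) (ι f) (hιF f) (hιG f) hιf hA (by
      intro a ha
      have hne : f - algebraMap k' E' a ≠ 0 := sub_ne_const hf a
      have h1 := hdiv _ (hfS a ha) hne
      have h2 : (⟨ι (f - algebraMap k' E' a), hιF _⟩ : F) =
          ⟨ι f, hιF f⟩ - ⟨ι (algebraMap k' E' a), hιF _⟩ := by
        apply Subtype.ext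
        have h3 := congrArg (fun z : maxUnr k K => (z : AlgebraicClosure K))
          (map_sub ι f (algebraMap k' E' a))
        exact h3
      rwa [h2] at h1)
    refine ⟨z, fun a ha => ⟨(hz a ha).1, ?_⟩⟩
    obtain ⟨x, hx, hxc⟩ := (hz a ha).2
    rw [← hxc, map_sub]
    exact chiS_eq B hpp.pos hx
  · intro f hf hf0 τ x x' hxx' hx0 hfx
    obtain ⟨x1, hx1⟩ := hhas f hf hf0
    have h1 : Has s.toHom G p (ι f) x := has_of_chiS B hpp.pos hx1 hx0 hfx
    exact chiS_eq B hpp.pos (has_tau hι hs C hpp.pos τ hxx' h1)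
  · intro V hV
    have h1 := hbad V hV
    unfold LooksLikePlace at h1
    push Not at h1
    obtain ⟨f, hf, c, hc, hlt, hno⟩ := h1
    refine ⟨f, hf, c, hc, hlt, fun hfS hcls => ?_⟩
    have hf0 : f ≠ 0 := by
      rintro rfl
      rw [zero_sub, Valuation.map_neg, hV.toIsPlace.val_const hc] at hlt
      exact lt_irrefl _ hlt
    obtain ⟨x, hx⟩ := hhas _ hfS ((_root_.map_ne_zero _).2 hf0)
    have h2 := has_of_chiS B hpp.pos hx ((_root_.map_ne_zero _).2 hc) hcls
    obtain ⟨y, hyG, hy⟩ := has_descend hι C h2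
    refine hno (y : AlgebraicClosure K) (s.fixes_of _ hyG) ?_
    exact congrArg (fun z : maxUnr k K => (z : AlgebraicClosure K)) hy
  · intro e he
    have B0 := base_top hs
    obtain ⟨c, hc⟩ := B0.ex (algebraMap K (maxUnr k K) (algebraMap E K e))
      ((he.map (Algebra.ofId E K |>.restrictScalars k)).map
        (Algebra.ofId K (maxUnr k K) |>.restrictScalars k))
      (fun σ _ => AlgEquiv.commutes _ _)
    refine ⟨c, ?_⟩
    apply (algebraMap E K).injective
    apply (algebraMap K (maxUnr k K)).injective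
    rw [← hc, ← IsScalarTower.algebraMap_apply k E K, ← IsScalarTower.algebraMap_apply]

end finite_level

section cyc_aux

variable {p : ℕ} {k : Type u} [Field k] {E : Type v} [Field E]
  [Algebra k E] {k' : Type u'} [Field k'] {E' : Type v'} [Field E'] [Algebra k k'] [Algebra k' E']
  [Algebra E E'] [Algebra k E'] [IsScalarTower k k' E'] [IsScalarTower k E E'] {ζ : k'}

/-- the automorphisms of `E' / E` preserve `k'` -/
lemma CycData.exists_image (C : CycData p k E k' E' ζ) (hp : 0 < p) (τ : E' ≃ₐ[E] E') (x : k') :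
    ∃ x' : k', algebraMap k' E' x' = τ (algebraMap k' E' x) := by
  have : NeZero p := ⟨hp.ne'⟩
  obtain ⟨i, -, hi⟩ := (C.prim.map_of_injective (algebraMap k' E').injective).eq_pow_of_pow_eq_one
    (ξ := τ (algebraMap k' E' ζ)) (by
      rw [← map_pow, ← map_pow, C.prim.pow_eq_one, map_one, map_one])
  obtain ⟨P, rfl⟩ := C.genk x
  refine ⟨aeval (ζ ^ i) P, ?_⟩
  have h1 := aeval_algHom_apply ((τ : E' →ₐ[E] E').restrictScalars k) (algebraMap k' E' ζ) P
  have h2 : τ (aeval (algebraMap k' E' ζ) P) = aeval (τ (algebraMap k' E' ζ)) P := h1.symm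
  rw [← aeval_algebraMap_apply, ← aeval_algebraMap_apply, h2, map_pow, hi]

omit [Algebra k E'] [IsScalarTower k k' E'] [IsScalarTower k E E'] in
lemma CycData.isCyclotomic (C : CycData p k E k' E' ζ) (hp : 0 < p) :
    IsCyclotomicExtension {p} E E' := by
  have : NeZero p := ⟨hp.ne'⟩
  have hprim : IsPrimitiveRoot (algebraMap k' E' ζ) p :=
    C.prim.map_of_injective (algebraMap k' E').injective
  rw [IsCyclotomicExtension.iff_singleton]
  refine ⟨⟨_, hprim⟩, fun x => ?_⟩
  obtain ⟨P, rfl⟩ := C.genE x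
  have h1 : aeval (algebraMap k' E' ζ) P ∈ Algebra.adjoin E {algebraMap k' E' ζ} :=
    aeval_mem_adjoin_singleton E _
  refine Algebra.adjoin_mono ?_ h1
  intro y hy
  rw [Set.mem_singleton_iff] at hy
  rw [hy]
  exact hprim.pow_eq_one

end cyc_aux

section finite_level2

variable {p : ℕ} [Fact p.Prime] {k : Type u} [Field k] [CharZero k] {E : Type v} [Field E]
  [Algebra k E] {k' : Type u'} [Field k'] [Algebra ℚ_[p] k'] [FiniteDimensional ℚ_[p] k']
  {E' : Type v'} [Field E'] [Algebra k k'] [Algebra k' E'] [Algebra E E'] [Algebra k E']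
  [IsScalarTower k k' E'] [IsScalarTower k E E'] {ζ : k'}

/-- **Sections over sufficiently ramified covers.** -/
theorem every_cyc (C : CycData p k E k' E' ζ) (hE : IsFunctionField k E) (S₀ : Finset E) :
    ∃ S : Finset E, (∀ g ∈ S, g ≠ 0) ∧ ∀ (K : Type w) [Field K] [Algebra k K] [Algebra E K]
      [IsScalarTower k E K] (s : Section k K), IsRamifiedOver p k K S →
      ∃ V : ValuationSubring E, IsRatPlace k E V ∧ LooksLikePlace p s S₀ V := by
  classical
  have hpp : p.Prime := Fact.out
  have hcharE : CharZero E := charZero_of_injective_algebraMap (algebraMap k E).injective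
  have hfinC : Finite (Cl p k') := finite_Cl C.prim
  have hcyc := C.isCyclotomic hpp.pos
  have hgal : IsGalois E E' := IsCyclotomicExtension.isGalois {p} E E'
  have hfinE : FiniteDimensional E E' := IsCyclotomicExtension.finiteDimensional {p} E E'
  by_contra hcon
  push Not at hcon
  obtain ⟨χ, hχ⟩ := exists_limit (α := E') (C := Cl p k') (FinLevel p k k' S₀) (by
    intro S
    obtain ⟨K, _, _, _, _, s, hram, hbad⟩ := hcon (S.biUnion (fun x => (minpoly E x).coeffs)) (by
      intro g hg
      rw [Finset.mem_biUnion] at hg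
      obtain ⟨x, -, hx⟩ := hg
      obtain ⟨n, hn, rfl⟩ := Polynomial.mem_coeffs_iff.1 hx
      exact mem_support_iff.1 hn)
    refine exists_finLevel C S₀ S K s _ ?_ hram hbad
    intro x hx i
    by_cases h0 : (minpoly E x).coeff i = 0
    · exact Or.inl h0
    · right
      rw [Finset.mem_biUnion]
      exact ⟨x, hx, coeff_mem_coeffs h0⟩)
  -- the limit
  have hmul : ∀ f g, f ≠ 0 → g ≠ 0 → χ (f * g) = χ f + χ g := by
    intro f g hf hg
    obtain ⟨S', χ', hS, h1, hagree⟩ := hχ {f, g, f * g} {f, g}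
    rw [← hagree f (by simp), ← hagree g (by simp), ← hagree (f * g) (by simp)]
    exact h1.mul f (hS (by simp)) g (hS (by simp)) hf hg
  have hconst : ∀ c : k', c ≠ 0 → χ (algebraMap k' E' c) = clsm p c := by
    intro c hc
    obtain ⟨S', χ', hS, h1, hagree⟩ := hχ {algebraMap k' E' c} ∅
    rw [← hagree _ (by simp)]
    exact h1.const c hc
  have hpat : ∀ f, f ∉ Set.range (algebraMap k' E') → ∀ A₀ : Finset k', ∃ z, ∀ a ∈ A₀, z ≠ a ∧
      χ (f - algebraMap k' E' a) = clsm p (z - a) := by
    intro f hf A₀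
    obtain ⟨r, A, hA⟩ := exists_fine (p := p) A₀
    obtain ⟨S', χ', hS, h1, hagree⟩ :=
      hχ (A₀.image (fun a => f - algebraMap k' E' a)) (A.image (fun a => f - algebraMap k' E' a))
    obtain ⟨z, hz⟩ := h1.pat f hf r A₀ A hA (fun a ha => hS (Finset.mem_image_of_mem _ ha))
    refine ⟨z, fun a ha => ⟨(hz a ha).1, ?_⟩⟩
    rw [← hagree _ (Finset.mem_image_of_mem _ ha)]
    exact (hz a ha).2
  have hequi : ∀ f, f ≠ 0 → ∀ (τ : E' ≃ₐ[E] E') (x x' : k'),
      algebraMap k' E' x' = τ (algebraMap k' E' x) → x ≠ 0 → χ f = clsm p x →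
        χ (τ f) = clsm p x' := by
    intro f hf τ x x' hxx' hx0 hfx
    obtain ⟨S', χ', hS, h1, hagree⟩ := hχ {f, τ f} {f}
    rw [← hagree _ (by simp)]
    rw [← hagree f (by simp)] at hfx
    exact h1.equi f (hS (by simp)) hf τ x x' hxx' hx0 hfx
  have hclosed : ∀ e : E, IsIntegral k e → ∃ c, algebraMap k E c = e := by
    obtain ⟨S', χ', hS, h1, hagree⟩ := hχ ∅ ∅
    exact h1.closed
  obtain ⟨V', hVk, hVres, hVχ⟩ := place_of_chi C.prim χ hmul hconst hpat
  have hone : ∀ c : k', c ≠ 0 → ¬ V'.valuation (algebraMap k' E' c) < 1 := by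
    intro c hc hlt
    have h1 := (V'.valuation_le_one_iff _).2 (hVk c⁻¹)
    have h2 : V'.valuation (algebraMap k' E' c) * V'.valuation (algebraMap k' E' c⁻¹) = 1 := by
      rw [← map_mul, ← map_mul, mul_inv_cancel₀ hc, map_one, map_one]
    exact absurd h2 (mul_lt_one_of_lt_of_le hlt h1).ne
  have huniq : ∀ (f : E') (z z' : k'), V'.valuation (f - algebraMap k' E' z) < 1 →
      V'.valuation (f - algebraMap k' E' z') < 1 → z = z' := by
    intro f z z' h h'
    by_contra hne
    apply hone _ (sub_ne_zero.2 hne)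
    have h1 : algebraMap k' E' (z - z') = (f - algebraMap k' E' z') - (f - algebraMap k' E' z) := by
      rw [map_sub]; ring
    rw [h1]
    exact (Valuation.map_sub _ _ _).trans_lt (max_lt h' h)
  -- equivariance of the values
  have hval : ∀ (f : E') (z z' : k') (τ : E' ≃ₐ[E] E'),
      algebraMap k' E' z' = τ (algebraMap k' E' z) →
      V'.valuation (f - algebraMap k' E' z) < 1 → V'.valuation (τ f - algebraMap k' E' z') < 1 := by
    intro f z z' τ hzz' hlt
    rw [hVχ]
    intro a' ha'
    obtain ⟨a, ha⟩ := C.exists_image hpp.pos τ.symm a'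
    have ha2 : algebraMap k' E' a' = τ (algebraMap k' E' a) := by rw [ha]; simp
    have haz : a ≠ z := by
      rintro rfl
      apply ha'
      apply (algebraMap k' E').injective
      rw [ha2, hzz']
    have hne : f - algebraMap k' E' a ≠ 0 := by
      intro h0
      apply haz
      rw [sub_eq_zero] at h0
      refine (huniq f z a hlt ?_).symm
      rw [h0, sub_self, map_zero]
      exact zero_lt_one
    have h1 : τ f - algebraMap k' E' a' = τ (f - algebraMap k' E' a) := by
      rw [map_sub, ha2]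
    rw [h1]
    refine hequi _ hne τ (z - a) (z' - a') ?_ (sub_ne_zero.2 haz.symm) ((hVχ f z).1 hlt a haz)
    rw [map_sub, map_sub, map_sub, hzz', ha2]
  -- restriction to `E`
  set V := V'.comap (algebraMap E E') with hV
  have hlt_iff : ∀ x : E, V.valuation x < 1 ↔ V'.valuation (algebraMap E E' x) < 1 := by
    intro x
    exact (comap_isEquiv (F := E) V').lt_one_iff_lt_one (x := x)
  have hkk : ∀ c : k, algebraMap E E' (algebraMap k E c) = algebraMap k' E' (algebraMap k k' c) := by
    intro c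
    rw [← IsScalarTower.algebraMap_apply k E E', IsScalarTower.algebraMap_apply k k' E']
  have hres : ∀ f ∈ V, ∃ c : k, V.valuation (f - algebraMap k E c) < 1 := by
    intro f hf
    rw [hV, ValuationSubring.mem_comap] at hf
    obtain ⟨z, hz⟩ := hVres _ hf
    have hzfix : ∀ τ : E' ≃ₐ[E] E', τ (algebraMap k' E' z) = algebraMap k' E' z := by
      intro τ
      obtain ⟨z', hz'⟩ := C.exists_image hpp.pos τ z
      have h1 := hval _ z z' τ hz' hz
      rw [AlgEquiv.commutes] at h1
      rw [← hz', huniq _ _ _ h1 hz]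
    obtain ⟨e, he⟩ := (IsGalois.mem_range_algebraMap_iff_fixed (F := E) (E := E')
      (algebraMap k' E' z)).2 hzfix
    have hint : IsIntegral k e := by
      have h1 : IsIntegral k (algebraMap E E' e) := by
        rw [he]
        exact (C.isIntegral hpp.pos z).map (Algebra.ofId k' E' |>.restrictScalars k)
      exact (isIntegral_algHom_iff (Algebra.ofId E E' |>.restrictScalars k)
        (algebraMap E E').injective).1 h1
    obtain ⟨c, hc⟩ := hclosed e hint
    refine ⟨c, ?_⟩
    rw [hlt_iff, map_sub, hc, he]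
    exact hz
  have hVk2 : ∀ c : k, algebraMap k E c ∈ V := by
    intro c
    rw [hV, ValuationSubring.mem_comap, hkk]
    exact hVk _
  have hVtop : V ≠ ⊤ := by
    intro htop
    obtain ⟨t, ht, -⟩ := id hE
    obtain ⟨z, hz⟩ := hres t (by rw [htop]; exact ValuationSubring.mem_top _)
    have h0 : t - algebraMap k E z ≠ 0 := by
      intro h0
      rw [sub_eq_zero.1 h0] at ht
      exact ht (isAlgebraic_algebraMap z)
    have h1 : V.valuation (t - algebraMap k E z)⁻¹ ≤ 1 :=
      (V.valuation_le_one_iff _).2 (by rw [htop]; exact ValuationSubring.mem_top _)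
    have h2 : V.valuation (t - algebraMap k E z) * V.valuation (t - algebraMap k E z)⁻¹ = 1 := by
      rw [← map_mul, mul_inv_cancel₀ h0, map_one]
    exact absurd h2 (mul_lt_one_of_lt_of_le hz h1).ne
  have hVrat : IsRatPlace k E V := ⟨⟨hVk2, hE.dvr V hVk2 hVtop⟩, hres⟩
  obtain ⟨S', χ', hS, h1, hagree⟩ := hχ (S₀.image (algebraMap E E')) (S₀.image (algebraMap E E'))
  obtain ⟨f, hf, c, hc, hlt, hne⟩ := h1.bad V hVrat
  have hfS : algebraMap E E' f ∈ S₀.image (algebraMap E E') := Finset.mem_image_of_mem _ hf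
  apply hne (hS hfS)
  rw [hagree _ hfS]
  rw [hlt_iff, map_sub, hkk] at hlt
  have hc' : algebraMap k k' c ≠ 0 := (_root_.map_ne_zero _).2 hc
  have h2 := (hVχ _ _).1 hlt 0 hc'.symm
  rwa [map_zero, sub_zero, sub_zero] at h2

end finite_level2

section main

variable {p : ℕ} [Fact p.Prime] {k : Type u} [Field k] [Algebra ℚ_[p] k]
  [FiniteDimensional ℚ_[p] k]

theorem every_gen {E : Type v} [Field E] [Algebra k E] (hE : IsFunctionField k E)
    (S₀ : Finset E) :
    ∃ S : Finset E, (∀ g ∈ S, g ≠ 0) ∧ ∀ (K : Type w) [Field K] [Algebra k K] [Algebra E K]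
      [IsScalarTower k E K] (s : Section k K), IsRamifiedOver p k K S →
      ∃ V : ValuationSubring E, IsRatPlace k E V ∧ LooksLikePlace p s S₀ V := by
  have hpp : p.Prime := Fact.out
  have hchar : CharZero k := charZero_of_injective_algebraMap (algebraMap ℚ_[p] k).injective
  have hcharE : CharZero E := charZero_of_injective_algebraMap (algebraMap k E).injective
  obtain ⟨ζ, hζroot⟩ := IsAlgClosed.exists_root (cyclotomic p (AlgebraicClosure E))
    (degree_cyclotomic_pos p _ hpp.pos).ne'
  have hnz : NeZero ((p : ℕ) : AlgebraicClosure E) := ⟨by exact_mod_cast hpp.ne_zero⟩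
  have hζ : IsPrimitiveRoot ζ p := isRoot_cyclotomic_iff.1 hζroot
  have hintk : IsIntegral k ζ :=
    isIntegral_of_pow' hpp.pos (by rw [hζ.pow_eq_one]; exact isIntegral_one)
  have hintE : IsIntegral E ζ :=
    isIntegral_of_pow' hpp.pos (by rw [hζ.pow_eq_one]; exact isIntegral_one)
  set k' : IntermediateField k (AlgebraicClosure E) := k⟮ζ⟯ with hk'
  set E' : IntermediateField E (AlgebraicClosure E) := E⟮ζ⟯ with hE'
  have hle : ∀ x : k', (x : AlgebraicClosure E) ∈ E' := by
    have h1 : k' ≤ E'.restrictScalars k := by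
      rw [hk', IntermediateField.adjoin_simple_le_iff]
      exact IntermediateField.mem_adjoin_simple_self E ζ
    exact fun x => h1 x.2
  let j : k' →+* E' := (algebraMap k' (AlgebraicClosure E)).codRestrict E'.toSubfield.toSubring hle
  let _ : Algebra k' E' := j.toAlgebra
  have ht1 : IsScalarTower k k' E' := IsScalarTower.of_algebraMap_eq (fun c => rfl)
  let _ : Algebra ℚ_[p] k' := ((algebraMap k k').comp (algebraMap ℚ_[p] k)).toAlgebra
  have ht2 : IsScalarTower ℚ_[p] k k' := IsScalarTower.of_algebraMap_eq (fun c => rfl)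
  have hfin1 : FiniteDimensional k k' := IntermediateField.adjoin.finiteDimensional hintk
  have hfin2 : FiniteDimensional ℚ_[p] k' := FiniteDimensional.trans ℚ_[p] k k'
  let z : k' := ⟨ζ, IntermediateField.mem_adjoin_simple_self k ζ⟩
  have hz : IsPrimitiveRoot z p :=
    IsPrimitiveRoot.of_map_of_injective (f := k'.val) hζ Subtype.val_injective
  have C : CycData p k E k' E' z := by
    refine ⟨hz, ?_, ?_⟩
    · intro x
      have hx : (x : AlgebraicClosure E) ∈ Algebra.adjoin k {ζ} := by
        rw [← IntermediateField.adjoin_simple_toSubalgebra_of_isAlgebraic hintk.isAlgebraic]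
        exact x.2
      rw [Algebra.adjoin_singleton_eq_range_aeval] at hx
      obtain ⟨P, hP⟩ := hx
      refine ⟨P, Subtype.ext ?_⟩
      have h1 : ((aeval z P : k') : AlgebraicClosure E) = aeval ζ P :=
        (aeval_algHom_apply k'.val z P).symm
      rw [h1]
      exact hP.symm
    · intro x
      have hx : (x : AlgebraicClosure E) ∈ Algebra.adjoin E {ζ} := by
        rw [← IntermediateField.adjoin_simple_toSubalgebra_of_isAlgebraic hintE.isAlgebraic]
        exact x.2
      rw [Algebra.adjoin_singleton_eq_range_aeval] at hx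
      obtain ⟨P, hP⟩ := hx
      refine ⟨P, Subtype.ext ?_⟩
      have h1 : ((aeval (algebraMap k' E' z) P : E') : AlgebraicClosure E) = aeval ζ P :=
        (aeval_algHom_apply E'.val (algebraMap k' E' z) P).symm
      rw [h1]
      exact hP.symm
  exact every_cyc C hE S₀

end main

end P025H641
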