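import Vale.Agent.P025.H641.FinGerm

/-! # Descent of the scale of constancy -/

namespace P025H641

universe u v

variable {p : ℕ} {k : Type u} {V : Type v} [Field k] [AddCommGroup V] [Module (ZMod p) V]

namespace Steinberg

variable {L : Loc p k V} {H : V →ₗ[ZMod p] V →ₗ[ZMod p] ZMod p} (hH : Steinberg L H)
  [Fact p.Prime]

include hH

lemma coreF (h0 : H L.ω (L.cls L.π) ≠ 0) (y : k → V) (hR : RelO L H y (L.E + 1))
    (hC : ∀ β ∈ L.O, ∀ c ∈ L.O, y (β + L.π ^ (L.E + 1) * c) = y β) :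
    ∀ c ∈ L.O, y (L.π ^ L.E * c) = y 0 := by
  have hp : Fact (1 < p) := ⟨(Fact.out : p.Prime).one_lt⟩
  have hπ := L.π_ne
  have hE2 := L.two_le
  have hEp : ((L.E : ℕ) : ZMod p) = 0 := (ZMod.natCast_eq_zero_iff _ _).2 L.dvd_E
  have hE1 : ((L.E - 1 : ℕ) : ZMod p) = -1 := by
    rw [Nat.cast_sub (by omega), hEp]; simp
  have hOπ : ∀ i, ∀ a ∈ L.O, L.π ^ i * a ∈ L.O := fun i a ha => L.O.mul_mem (L.π_pow_mem i) ha
  -- differences at distance `i`
  have hF : ∀ i, 1 ≤ i → i ≤ L.E → ∀ β ∈ L.O, ∀ γ, γ ≠ 0 → L.val γ = 0 →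
      ∃ d ∈ L.O, y (β + L.π ^ i * γ) - y β = L.cls (1 + L.π ^ i * d) := by
    intro i hi hiE β hβ γ hγ hγv
    have h := hH.dual h0 (L.E + 1 - i) (by omega) (by omega) (y (β + L.π ^ i * γ) - y β) (by
      intro a ha
      have hγm := L.unit_mem γ hγ hγv
      have h1a := L.one_add_ne (L.E + 1 - i) (by omega) a ha
      have h1 : β + L.π ^ i * γ * (1 + L.π ^ (L.E + 1 - i) * a) =
          (β + L.π ^ i * γ) + L.π ^ (L.E + 1) * (γ * a) := by
        have : L.π ^ (L.E + 1) = L.π ^ i * L.π ^ (L.E + 1 - i) := by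
          rw [← pow_add]; congr 1; omega
        rw [this]; ring
      have hne1 : L.π ^ i * γ ≠ 0 := mul_ne_zero (pow_ne_zero _ hπ) hγ
      have hne2 : L.π ^ i * γ * (1 + L.π ^ (L.E + 1 - i) * a) ≠ 0 := mul_ne_zero hne1 h1a
      have hv1 : L.val (L.π ^ i * γ) = i := by
        rw [L.val_mul _ _ (pow_ne_zero _ hπ) hγ, L.val_π_pow, hγv, add_zero]
      have hm1 : β + L.π ^ i * γ ∈ L.O := L.O.add_mem hβ (hOπ _ _ hγm)
      have h2 := hR β hβ (β + L.π ^ i * γ) hm1 (fun h => hne1 (by linear_combination -h))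
        (by rw [add_sub_cancel_left, hv1]; omega)
      have h3 := hR β hβ (β + L.π ^ i * γ * (1 + L.π ^ (L.E + 1 - i) * a))
        (by rw [h1]; exact L.O.add_mem hm1 (hOπ _ _ (L.O.mul_mem hγm ha)))
        (fun h => hne2 (by linear_combination -h))
        (by rw [add_sub_cancel_left, L.val_mul _ _ hne1 h1a, hv1,
              L.val_one_add _ (by omega) a ha]; omega)
      rw [add_sub_cancel_left] at h2 h3
      rw [h1, hC _ hm1 _ (L.O.mul_mem hγm ha), L.cls_mul _ _ hne1 h1a] at h3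
      have h4 : y β - (L.cls (L.π ^ i * γ) + L.cls (1 + L.π ^ (L.E + 1 - i) * a)) =
          (y β - L.cls (L.π ^ i * γ)) - L.cls (1 + L.π ^ (L.E + 1 - i) * a) := by abel
      rw [h4, LinearMap.map_sub₂, h2, zero_sub, neg_eq_zero] at h3
      rw [hH.antisymm, h3, neg_zero])
    have h5 : L.E + 1 - (L.E + 1 - i) = i := by omega
    rw [h5] at h
    exact h
  by_contra hcon
  push Not at hcon
  obtain ⟨c0, hc0, hne0⟩ := hcon
  -- `c0` is a unit
  obtain ⟨hc00, hc0v⟩ : c0 ≠ 0 ∧ L.val c0 = 0 := by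
    rcases L.dvd_or_unit c0 hc0 with ⟨c1, hc1, h⟩ | h
    · exfalso
      apply hne0
      have h1 := hC 0 L.O.zero_mem c1 hc1
      rw [zero_add] at h1
      rw [h, ← mul_assoc, ← pow_succ, h1]
    · exact h
  obtain ⟨d0, hd0, hd⟩ := hF L.E (by omega) le_rfl 0 L.O.zero_mem c0 hc00 hc0v
  rw [zero_add, L.cls_E d0 hd0] at hd
  have hd1 : L.θ d0 ≠ 0 := by
    intro h
    apply hne0
    rw [h, zero_smul, sub_eq_zero] at hd
    exact hd
  have hEc0 : L.π ^ L.E * c0 ≠ 0 := mul_ne_zero (pow_ne_zero _ hπ) hc00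
  -- the value of `y 0`
  have hlam0 : H L.ω (y 0) = 0 := by
    have h1 := hR 0 L.O.zero_mem (L.π ^ L.E * c0) (hOπ _ _ hc0) hEc0.symm
      (by rw [sub_zero, L.val_mul _ _ (pow_ne_zero _ hπ) hc00, L.val_π_pow, hc0v]; omega)
    rw [sub_zero, hd, map_smul, smul_eq_mul, mul_eq_zero, or_iff_right hd1, hH.antisymm,
      neg_eq_zero, map_sub, hH.cls_ω _ hEc0, L.val_mul _ _ (pow_ne_zero _ hπ) hc00,
      L.val_π_pow, hc0v] at h1
    push_cast at h1
    rw [hEp, add_zero, zero_mul, sub_zero] at h1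
    exact h1
  have hωu : ∀ i, 0 < i → ∀ d ∈ L.O, H L.ω (L.cls (1 + L.π ^ i * d)) = 0 := by
    intro i hi d hd
    rw [hH.cls_ω _ (L.one_add_ne i hi d hd), L.val_one_add i hi d hd]
    simp
  have hlamπ : H L.ω (y L.π) = 0 := by
    obtain ⟨d, hd, h⟩ := hF 1 le_rfl (by omega) 0 L.O.zero_mem 1 one_ne_zero L.val_one
    rw [zero_add, mul_one] at h
    nth_rewrite 1 [pow_one] at h
    rw [sub_eq_iff_eq_add] at h
    rw [h, map_add, hlam0, hωu 1 one_pos d hd, add_zero]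
  have hlamu : ∀ b, b ≠ 0 → L.val b = 0 → H L.ω (y b) = 0 := by
    intro b hb hbv
    obtain ⟨a, ha, hθ⟩ := L.exists_θ_one b⁻¹ (inv_ne_zero hb) (by rw [L.val_inv b hb, hbv]; rfl)
    have hbm := L.unit_inv_mem b hb hbv
    obtain ⟨ha0, hav⟩ : a ≠ 0 ∧ L.val a = 0 := by
      rcases L.dvd_or_unit a ha with ⟨c1, hc1, h⟩ | h
      · exfalso
        have h2 : b⁻¹ * a = L.π * (b⁻¹ * c1) := by rw [h]; ring
        rw [h2, L.θ_π _ (L.O.mul_mem hbm hc1)] at hθ
        exact zero_ne_one hθ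
      · exact h
    have hbm' := L.unit_mem b hb hbv
    obtain ⟨d, hd, h⟩ := hF L.E (by omega) le_rfl b hbm' a ha0 hav
    rw [L.cls_E d hd] at h
    have h1 : b + L.π ^ L.E * a = b * (1 + L.π ^ L.E * (b⁻¹ * a)) := by field_simp
    have hba := L.O.mul_mem hbm ha
    have h1a := L.one_add_ne L.E (by omega) _ hba
    have h2 := hR 0 L.O.zero_mem b hbm' hb.symm (by rw [sub_zero, hbv]; omega)
    have h3 := hR 0 L.O.zero_mem (b + L.π ^ L.E * a) (L.O.add_mem hbm' (hOπ _ _ ha))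
      (by rw [h1]; exact (mul_ne_zero hb h1a).symm)
      (by rw [sub_zero, h1, L.val_mul _ _ hb h1a, hbv, L.val_one_add _ (by omega) _ hba]; omega)
    rw [sub_zero] at h2 h3
    have h4 : y (b + L.π ^ L.E * a) - y 0 = (y b - y 0) + L.θ d • L.ω := by
      rw [← h]; abel
    nth_rewrite 1 [h1] at h3
    rw [h4, L.cls_mul _ _ hb h1a, ← sub_sub, L.cls_E _ hba, hθ, one_smul, map_sub,
      LinearMap.sub_apply, map_add, h2, zero_add, map_smul, smul_eq_mul, hH.antisymm _ L.ω,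
      map_sub, hlam0, hH.cls_ω b hb, hbv, map_add, map_smul, smul_eq_mul] at h3
    have h5 : H L.ω L.ω = 0 := by
      obtain ⟨a', ha', h5⟩ := L.exists_ω
      nth_rewrite 2 [← h5]
      exact hωu _ (by omega) a' ha'
    rw [h5, map_sub, hlam0] at h3
    push_cast at h3
    linear_combination -h3
  -- the slope at `0`
  obtain ⟨κ, hκ, hκD⟩ := hF 1 le_rfl (by omega) 0 L.O.zero_mem 1 one_ne_zero L.val_one
  rw [zero_add, mul_one, pow_one] at hκD
  have h1κ : 1 + L.π * κ ≠ 0 := by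
    have := L.one_add_ne 1 one_pos κ hκ
    rwa [pow_one] at this
  have hcrit : ∀ a ∈ L.O, H (L.cls (1 + L.π ^ (L.E - 1) * a)) (L.cls (1 + L.π * κ)) =
      L.θ (a * κ) * H L.ω (L.cls L.π) := by
    intro a ha
    have h1 := hH.crit (L.E - 1) (by omega) (by omega) a κ ha hκ
    have h2 : L.E - (L.E - 1) = 1 := by omega
    rw [h2, pow_one, hE1] at h1
    rw [h1]; ring
  have hπE : L.π ^ L.E = L.π * L.π ^ (L.E - 1) := by
    rw [← pow_succ']; congr 1; omega
  obtain ⟨hκ0, hκv⟩ : κ ≠ 0 ∧ L.val κ = 0 := by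
    rcases L.dvd_or_unit κ hκ with ⟨κ1, hκ1, h⟩ | h
    · exfalso
      have hc0' := L.O.neg_mem hc0
      have h1c := L.one_add_ne (L.E - 1) (by omega) _ hc0'
      have hπ' : -L.π ≠ 0 := neg_ne_zero.2 hπ
      have e1 : L.π ^ L.E * c0 - L.π = (-L.π) * (1 + L.π ^ (L.E - 1) * (-c0)) := by
        rw [hπE]; ring
      have h2 := hR L.π L.π_mem 0 L.O.zero_mem hπ
        (by rw [zero_sub, L.val_neg _ hπ, L.val_π]; omega)
      have h3 := hR L.π L.π_mem (L.π ^ L.E * c0) (hOπ _ _ hc0) (by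
        intro h4
        apply mul_ne_zero hπ' h1c
        rw [← e1, ← h4, sub_self])
        (by rw [e1, L.val_mul _ _ hπ' h1c, L.val_neg _ hπ, L.val_π,
              L.val_one_add _ (by omega) _ hc0']; omega)
      rw [zero_sub] at h2
      have e2 : y 0 - y L.π = - L.cls (1 + L.π * κ) := by rw [← hκD]; abel
      have e3 : y (L.π ^ L.E * c0) - y L.π = (y 0 - y L.π) + L.θ d0 • L.ω := by
        rw [← hd]; abel
      rw [e1, e3, L.cls_mul _ _ hπ' h1c, ← sub_sub, map_sub, LinearMap.sub_apply, map_add, h2,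
        zero_add, map_add, map_smul, map_smul, smul_eq_mul, smul_eq_mul, e2, map_neg,
        hcrit _ hc0', hH.antisymm _ L.ω, map_sub, hlamπ, L.cls_neg _ hπ, map_add,
        hH.cls_ω (-1) (neg_ne_zero.2 one_ne_zero), L.val_neg 1 one_ne_zero, L.val_one,
        hH.antisymm _ L.ω, hωu _ (by omega) _ hc0', h] at h3
      have e4 : -c0 * (L.π * κ1) = L.π * (-c0 * κ1) := by ring
      rw [e4, L.θ_π _ (L.O.mul_mem hc0' hκ1)] at h3
      push_cast at h3
      have h5 : L.θ d0 * H L.ω (L.cls L.π) = 0 := by linear_combination h3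
      exact (mul_ne_zero hd1 h0) h5
    · exact h
  -- the contradiction
  set c := -κ⁻¹ with hc
  have hκi := L.unit_inv_mem κ hκ0 hκv
  have hcm : c ∈ L.O := L.O.neg_mem hκi
  have hc00 : c ≠ 0 := neg_ne_zero.2 (inv_ne_zero hκ0)
  have hcv : L.val c = 0 := by
    rw [hc, L.val_neg _ (inv_ne_zero hκ0), L.val_inv _ hκ0, hκv]; rfl
  have e1 : c - L.π = c * (1 + L.π * κ) := by
    rw [hc]; field_simp; ring
  have hcπ : c - L.π ≠ 0 := by rw [e1]; exact mul_ne_zero hc00 h1κ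
  obtain ⟨a, ha, hθ⟩ := L.exists_θ_one κ hκ0 hκv
  have h1a := L.one_add_ne (L.E - 1) (by omega) a ha
  set b2 := c + L.π ^ (L.E - 1) * ((c - L.π) * a) with hb2
  have haκ : a * (1 + L.π * κ) ∈ L.O := L.O.mul_mem ha (by
    have := L.one_add_mem 1 κ hκ
    rwa [pow_one] at this)
  have h1aκ := L.one_add_ne (L.E - 1) (by omega) _ haκ
  have e2 : b2 - L.π = (c - L.π) * (1 + L.π ^ (L.E - 1) * a) := by rw [hb2]; ring
  have e3 : b2 = c * (1 + L.π ^ (L.E - 1) * (a * (1 + L.π * κ))) := by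
    rw [hb2, e1]; ring
  have hb20 : b2 ≠ 0 := by rw [e3]; exact mul_ne_zero hc00 h1aκ
  have hb2π : b2 - L.π ≠ 0 := by rw [e2]; exact mul_ne_zero hcπ h1a
  have hb2v : L.val b2 = 0 := by
    rw [e3, L.val_mul _ _ hc00 h1aκ, hcv, L.val_one_add _ (by omega) _ haκ, add_zero]
  have hb2m := L.unit_mem b2 hb20 hb2v
  have h1κv : L.val (1 + L.π * κ) = 0 := by
    have := L.val_one_add 1 one_pos κ hκ
    rwa [pow_one] at this
  have hcπv : L.val (c - L.π) = 0 := by rw [e1, L.val_mul _ _ hc00 h1κ, hcv, h1κv, add_zero]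
  have r1 := hR 0 L.O.zero_mem c hcm hc00.symm (by rw [sub_zero, hcv]; omega)
  have r2 := hR 0 L.O.zero_mem b2 hb2m hb20.symm (by rw [sub_zero, hb2v]; omega)
  have r3 := hR L.π L.π_mem c hcm (fun h => hcπ (by rw [← h, sub_self]))
    (by rw [hcπv]; omega)
  have r4 := hR L.π L.π_mem b2 hb2m (fun h => hb2π (by rw [← h, sub_self]))
    (by rw [e2, L.val_mul _ _ hcπ h1a, hcπv, L.val_one_add _ (by omega) a ha]; omega)
  rw [sub_zero] at r1 r2
  -- identify the classes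
  have f1 : L.cls b2 = L.cls c + L.cls (1 + L.π ^ (L.E - 1) * (a * (1 + L.π * κ))) := by
    nth_rewrite 1 [e3]
    rw [L.cls_mul _ _ hc00 h1aκ]
  have f2 : L.cls (c - L.π) = L.cls c + L.cls (1 + L.π * κ) := by
    rw [e1, L.cls_mul _ _ hc00 h1κ]
  have f3 : L.cls (b2 - L.π) = L.cls c + L.cls (1 + L.π * κ) +
      L.cls (1 + L.π ^ (L.E - 1) * a) := by
    rw [e2, L.cls_mul _ _ hcπ h1a, f2]
  have f4 : y L.π = y 0 + L.cls (1 + L.π * κ) := by rw [← hκD]; abel
  have g1 : y 0 - L.cls b2 = (y 0 - L.cls c) -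
      L.cls (1 + L.π ^ (L.E - 1) * (a * (1 + L.π * κ))) := by rw [f1]; abel
  have g3 : y L.π - L.cls (c - L.π) = y 0 - L.cls c := by rw [f2, f4]; abel
  have g4 : y L.π - L.cls (b2 - L.π) = (y 0 - L.cls c) -
      L.cls (1 + L.π ^ (L.E - 1) * a) := by rw [f3, f4]; abel
  rw [g1] at r2
  rw [g3] at r3
  rw [g4] at r4
  -- the quotient of the two classes has level `E`
  have hinv := L.exists_inv_one_add (L.E - 1) (by omega) a ha
  obtain ⟨a', ha', hinv⟩ := hinv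
  have hs : a * κ * (1 + L.π ^ (L.E - 1) * a') ∈ L.O :=
    L.O.mul_mem (L.O.mul_mem ha hκ) (L.one_add_mem _ _ ha')
  have e5 : 1 + L.π ^ (L.E - 1) * (a * (1 + L.π * κ)) =
      (1 + L.π ^ (L.E - 1) * a) * (1 + L.π ^ L.E * (a * κ * (1 + L.π ^ (L.E - 1) * a'))) := by
    rw [← hinv, hπE]
    field_simp
    ring
  have f5 : L.cls (1 + L.π ^ (L.E - 1) * (a * (1 + L.π * κ))) =
      L.cls (1 + L.π ^ (L.E - 1) * a) +
        L.θ (a * κ * (1 + L.π ^ (L.E - 1) * a')) • L.ω := by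
    rw [e5, L.cls_mul _ _ h1a (L.one_add_ne _ (by omega) _ hs), L.cls_E _ hs]
  rw [f5] at r2
  have hlb2 := hlamu b2 hb20 hb2v
  have hlc := hlamu c hc00 hcv
  have f6 : y b2 - y L.π = (y b2 - y 0) - L.cls (1 + L.π * κ) := by rw [f4]; abel
  have f7 : y c - y L.π = (y c - y 0) - L.cls (1 + L.π * κ) := by rw [f4]; abel
  rw [f6] at r4
  rw [f7] at r3
  have hfin := hcrit a ha
  have hθ' : a * κ = κ * a := mul_comm _ _
  rw [hθ', hθ, one_mul] at hfin
  simp only [map_sub, map_add, map_smul, LinearMap.sub_apply, LinearMap.add_apply,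
    LinearMap.smul_apply, hlb2, hlam0, smul_eq_mul, mul_zero, add_zero] at r1 r2 r3 r4 hfin
  apply h0
  linear_combination r4 - r3 - r2 + r1 - hfin

/-- one step of the descent of scales -/
lemma descentF (h0 : H L.ω (L.cls L.π) ≠ 0) {y : k → V} (n : ℤ) (hy : RelO L H y n) (m : ℕ)
    (hmn : (m : ℤ) < n) (hmE : L.E ≤ m)
    (hm : ∀ b ∈ L.O, ∀ c ∈ L.O, y (b + L.π ^ (m + 1) * c) = y b) :
    ∀ b ∈ L.O, ∀ c ∈ L.O, y (b + L.π ^ m * c) = y b := by
  intro b hb c hc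
  have hπ := L.π_ne
  set μ : k := L.π ^ (m - L.E) with hμ
  have hμ0 : μ ≠ 0 := pow_ne_zero _ hπ
  have hμO : ∀ β ∈ L.O, b + μ * β ∈ L.O := fun β hβ =>
    L.O.add_mem hb (L.O.mul_mem (L.π_pow_mem _) hβ)
  have h1 : μ * L.π ^ (L.E + 1) = L.π ^ (m + 1) := by
    rw [hμ, ← pow_add]; congr 1; omega
  have h2 : μ * L.π ^ L.E = L.π ^ m := by
    rw [hμ, ← pow_add]; congr 1; omega
  have h3 := hH.coreF h0 (fun β => y (b + μ * β) - L.cls μ) (by
    intro β hβ β' hβ' hne hv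
    have hne' : β' - β ≠ 0 := sub_ne_zero.2 hne.symm
    have e : b + μ * β' - (b + μ * β) = μ * (β' - β) := by ring
    have h4 := hy _ (hμO β hβ) _ (hμO β' hβ')
      (fun h => hne (mul_left_cancel₀ hμ0 (by linear_combination h)))
      (by rw [e, L.val_mul _ _ hμ0 hne', hμ, L.val_π_pow]; omega)
    rw [e, L.cls_mul _ _ hμ0 hne', ← sub_sub] at h4
    simp only [sub_sub_sub_cancel_right]
    exact h4) (by
    intro β hβ c hc
    have h4 : b + μ * (β + L.π ^ (L.E + 1) * c) = (b + μ * β) + L.π ^ (m + 1) * c := by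
      rw [← h1]; ring
    simp only [h4, hm _ (hμO β hβ) c hc]) c hc
  simp only [mul_zero, add_zero, sub_left_inj] at h3
  rw [← h2, mul_assoc]
  exact h3

/-- **Rigidity in a bounded window.** -/
theorem window [FiniteDimensional (ZMod p) V] (h0 : H L.ω (L.cls L.π) ≠ 0) (y : k → V) (s : ℕ)
    (hs : 3 * L.E + p < s) (n : ℤ) (hn : (Module.finrank (ZMod p) V + 1 : ℤ) * s ≤ n)
    (hy : RelO L H y n) :
    (∃ a ∈ L.O, ∀ b ∈ L.O, b ≠ a → L.val (a - b) < s - L.E → y b = L.cls (a - b)) ∨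
      ∀ b ∈ L.O, ∀ c ∈ L.O, y (b + L.π ^ L.E * c) = y b := by
  by_cases hex : ∃ a ∈ L.O, ∀ b ∈ L.O, b ≠ a → L.val (a - b) < s - L.E → y b = L.cls (a - b)
  · exact Or.inl hex
  right
  have h1 : ∀ b ∈ L.O, ∀ c ∈ L.O,
      y (b + L.π ^ (Module.finrank (ZMod p) V * s) * c) = y b := by
    intro a ha
    rcases hH.germF h0 y s hs n hn hy a ha with h | h
    · exact absurd ⟨a, ha, h⟩ hex
    · exact h
  have key : ∀ i m : ℕ, L.E ≤ m → m + i = max L.E (Module.finrank (ZMod p) V * s) →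
      ∀ b ∈ L.O, ∀ c ∈ L.O, y (b + L.π ^ m * c) = y b := by
    intro i
    induction i with
    | zero =>
      intro m hm hmi b hb c hc
      obtain ⟨e, he⟩ : ∃ e, m = Module.finrank (ZMod p) V * s + e :=
        ⟨m - Module.finrank (ZMod p) V * s, by omega⟩
      rw [he, pow_add, mul_assoc]
      exact h1 b hb _ (L.O.mul_mem (L.π_pow_mem _) hc)
    | succ i ih =>
      intro m hm hmi
      apply hH.descentF h0 n hy m _ hm (ih (m + 1) (by omega) (by omega))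
      have h2 : (Module.finrank (ZMod p) V + 1 : ℤ) * s =
          ((Module.finrank (ZMod p) V * s : ℕ) : ℤ) + s := by push_cast; ring
      omega
  exact key _ L.E le_rfl (Nat.add_sub_cancel' (le_max_left _ _))

end Steinberg

end P025H641
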