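import Vale.Agent.P025.H641.Near

/-! # Finite rigidity: the germ lemma in a bounded window -/

namespace P025H641

universe u v

variable {p : ℕ} {k : Type u} {V : Type v} [Field k] [AddCommGroup V] [Module (ZMod p) V]

/-- The relations for pairs of integral points whose distance has value less than `n`. -/
def RelO (L : Loc p k V) (H : V →ₗ[ZMod p] V →ₗ[ZMod p] ZMod p) (y : k → V) (n : ℤ) : Prop :=
  ∀ b ∈ L.O, ∀ b' ∈ L.O, b ≠ b' → L.val (b' - b) < n →
    H (y b - L.cls (b' - b)) (y b' - y b) = 0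

lemma exists_stable {F M : Type*} [Field F] [AddCommGroup M] [Module F M] [FiniteDimensional F M]
    (D : ℕ → Submodule F M) (hD : ∀ j, D (j + 1) ≤ D j) :
    ∃ j ≤ Module.finrank F M, D (j + 1) = D j := by
  by_contra hcon
  push Not at hcon
  have key : ∀ j, j ≤ Module.finrank F M + 1 →
      Module.finrank F (D j) + j ≤ Module.finrank F M := by
    intro j
    induction j with
    | zero => intro _; simpa using Submodule.finrank_le (D 0)
    | succ j ih =>
      intro hj
      have h1 : D (j + 1) < D j := lt_of_le_of_ne (hD j) (hcon j (by omega))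
      have h2 := Submodule.finrank_lt_finrank_of_lt h1
      have h3 := ih (by omega)
      omega
  have := key _ le_rfl
  omega

namespace Steinberg

variable {L : Loc p k V} {H : V →ₗ[ZMod p] V →ₗ[ZMod p] ZMod p} (hH : Steinberg L H)
  [Fact p.Prime] [FiniteDimensional (ZMod p) V]

include hH

/-- **Germ lemma in a window.** -/
lemma germF (h0 : H L.ω (L.cls L.π) ≠ 0) (y : k → V) (s : ℕ) (hs : 3 * L.E + p < s) (n : ℤ)
    (hn : (Module.finrank (ZMod p) V + 1 : ℤ) * s ≤ n) (hy : RelO L H y n) (a : k)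
    (ha : a ∈ L.O) :
    (∀ b ∈ L.O, b ≠ a → L.val (a - b) < s - L.E → y b = L.cls (a - b)) ∨
      ∀ c ∈ L.O, y (a + L.π ^ (Module.finrank (ZMod p) V * s) * c) = y a := by
  classical
  have hπ := L.π_ne
  have hp : Fact (1 < p) := ⟨(Fact.out : p.Prime).one_lt⟩
  set d := Module.finrank (ZMod p) V with hd
  let D : ℕ → Submodule (ZMod p) V := fun j => Submodule.span (ZMod p)
    {v | ∃ c ∈ L.O, ∃ c' ∈ L.O, v = y (a + L.π ^ (j * s) * c) - y (a + L.π ^ (j * s) * c')}
  obtain ⟨j, hj, hjD⟩ := exists_stable D (by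
    intro j
    apply Submodule.span_mono
    rintro v ⟨c, hc, c', hc', rfl⟩
    have e : L.π ^ ((j + 1) * s) = L.π ^ (j * s) * L.π ^ s := by rw [← pow_add]; congr 1; ring
    exact ⟨L.π ^ s * c, L.O.mul_mem (L.π_pow_mem _) hc, L.π ^ s * c',
      L.O.mul_mem (L.π_pow_mem _) hc', by rw [e, mul_assoc, mul_assoc]⟩)
  have hjs : ((j + 1 : ℕ) : ℤ) * s ≤ n := by
    refine le_trans ?_ hn
    have : ((j + 1 : ℕ) : ℤ) ≤ d + 1 := by push_cast; omega
    exact mul_le_mul_of_nonneg_right this (by positivity)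
  have hjs' : ((j + 1 : ℕ) : ℤ) * s = j * s + s := by push_cast; ring
  set W := D j with hW
  have hmemW : ∀ b b', (b = a ∨ ((j * s : ℕ) : ℤ) ≤ L.val (b - a)) →
      (b' = a ∨ ((j * s : ℕ) : ℤ) ≤ L.val (b' - a)) → y b - y b' ∈ W := by
    intro b b' h1 h2
    obtain ⟨c, hc, h3⟩ := L.exists_of_val' (b - a) (j * s) (by
      rcases h1 with h1 | h1
      · left; rw [h1, sub_self]
      · right; exact h1)
    obtain ⟨c', hc', h4⟩ := L.exists_of_val' (b' - a) (j * s) (by
      rcases h2 with h2 | h2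
      · left; rw [h2, sub_self]
      · right; exact h2)
    apply Submodule.subset_span
    refine ⟨c, hc, c', hc', ?_⟩
    rw [← h3, ← h4, add_sub_cancel, add_sub_cancel]
  -- the orthogonal complement
  let Wp : Submodule (ZMod p) V :=
    { carrier := {v | ∀ w ∈ W, H v w = 0}
      add_mem' := by
        intro v v' hv hv' w hw
        rw [map_add, LinearMap.add_apply, hv w hw, hv' w hw, add_zero]
      zero_mem' := by
        intro w _
        rw [map_zero]; rfl
      smul_mem' := by
        intro c v hv w hw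
        rw [map_smul, LinearMap.smul_apply, hv w hw, smul_zero] }
  have hWp : ∀ v, v ∈ Wp ↔ ∀ w ∈ W, H v w = 0 := fun v => Iff.rfl
  -- (i)
  have h1 : ∀ b ∈ L.O, b ≠ a → L.val (a - b) < j * s + s - L.E → y b - L.cls (a - b) ∈ Wp := by
    intro b hb hba hv
    have hab : a - b ≠ 0 := sub_ne_zero.2 hba.symm
    rw [hWp]
    intro w hw
    rw [← hjD] at hw
    have hle : ∀ c ∈ L.O, b ≠ a + L.π ^ ((j + 1) * s) * c ∧
        H (y b - L.cls (a - b)) (y (a + L.π ^ ((j + 1) * s) * c) - y b) = 0 := by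
      intro c hc
      have h2 := L.small (a - b) hab ((j + 1) * s) c hc (by push_cast; push_cast at hjs'; omega)
      have e1 : a - b + L.π ^ ((j + 1) * s) * c = a + L.π ^ ((j + 1) * s) * c - b := by ring
      rw [e1] at h2
      have h3 : b ≠ a + L.π ^ ((j + 1) * s) * c := fun h => h2.1 (by rw [← h, sub_self])
      refine ⟨h3, ?_⟩
      rw [← h2.2.1]
      apply hy b hb _ (L.O.add_mem ha (L.O.mul_mem (L.π_pow_mem _) hc)) h3
      rw [h2.2.2]
      omega
    induction hw using Submodule.span_induction with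
    | mem v hv =>
      obtain ⟨c, hc, c', hc', rfl⟩ := hv
      have h8 := (hle c hc).2
      have h9 := (hle c' hc').2
      have h10 : y (a + L.π ^ ((j + 1) * s) * c) - y (a + L.π ^ ((j + 1) * s) * c') =
        (y (a + L.π ^ ((j + 1) * s) * c) - y b) - (y (a + L.π ^ ((j + 1) * s) * c') - y b) := by
        abel
      rw [h10, map_sub, h8, h9, sub_zero]
    | zero => rw [map_zero]
    | add v v' _ _ hv hv' => rw [map_add, hv, hv', add_zero]
    | smul c v _ hv => rw [map_smul, hv, smul_zero]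
  -- points `a - β`
  have hβ : ∀ β, β ≠ 0 → ((j * s : ℕ) : ℤ) ≤ L.val β → L.val β < j * s + s - L.E →
      a - β ∈ L.O ∧ y (a - β) - L.cls β ∈ Wp := by
    intro β hβ0 hβ1 hβ2
    have h2 : a - β ∈ L.O := L.O.sub_mem ha (L.mem_of_val β hβ0 (by omega))
    refine ⟨h2, ?_⟩
    have h3 := h1 (a - β) h2 (fun h => hβ0 (by linear_combination -h)) (by
      rw [sub_sub_cancel]; exact hβ2)
    rw [sub_sub_cancel] at h3
    exact h3
  have hWβ : ∀ β β', ((j * s : ℕ) : ℤ) ≤ L.val β → ((j * s : ℕ) : ℤ) ≤ L.val β' →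
      β ≠ 0 → β' ≠ 0 → y (a - β) - y (a - β') ∈ W := by
    intro β β' h2 h3 h4 h5
    apply hmemW
    · right
      have : a - β - a = -β := by ring
      rw [this, L.val_neg β h4]; exact h2
    · right
      have : a - β' - a = -β' := by ring
      rw [this, L.val_neg β' h5]; exact h3
  -- `V = W + Wp`
  have hsup : W ⊔ Wp = ⊤ := by
    rw [eq_top_iff]
    intro v _
    obtain ⟨β, hβ0, hβv, hβ1, hβ2⟩ := L.exists_cls_val ((j * s : ℕ) : ℤ) v
    obtain ⟨γ, hγ0, hγv, hγ1, hγ2⟩ := L.exists_cls_val ((j * s : ℕ) : ℤ) 0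
    have h2 := (hβ β hβ0 hβ1 (by push_cast at hβ2; omega)).2
    have h3 := (hβ γ hγ0 hγ1 (by push_cast at hγ2; omega)).2
    rw [hβv] at h2
    rw [hγv] at h3
    have h4 : v = (y (a - β) - y (a - γ)) + ((y (a - γ) - 0) - (y (a - β) - v)) := by abel
    rw [h4]
    exact Submodule.add_mem_sup (hWβ _ _ hβ1 hγ1 hβ0 hγ0) (Wp.sub_mem h3 h2)
  have hinf : W ⊓ Wp = ⊥ := by
    rw [eq_bot_iff]
    rintro w ⟨hw, hw'⟩
    rw [Submodule.mem_bot]
    apply hH.nondeg h0
    intro v
    have hv : v ∈ W ⊔ Wp := by rw [hsup]; exact Submodule.mem_top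
    obtain ⟨v1, hv1, v2, hv2, rfl⟩ := Submodule.mem_sup.1 hv
    rw [map_add, hw' v1 hv1, hH.antisymm, hv2 w hw, neg_zero, add_zero]
  have hcompl : IsCompl W Wp := ⟨disjoint_iff.2 hinf, codisjoint_iff.2 hsup⟩
  set P := W.projection Wp hcompl with hP
  have hPW : ∀ v, P v ∈ W := fun v => Submodule.projection_apply_mem hcompl v
  have hPW' : ∀ v, v - P v ∈ Wp := fun v => Submodule.sub_projection_mem hcompl v
  have hPid : ∀ v ∈ W, P v = v := fun v hv => Submodule.projection_apply_of_mem_left hcompl hv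
  have hP0 : ∀ v ∈ Wp, P v = 0 := fun v hv =>
    (Submodule.projection_apply_eq_zero_iff hcompl).2 hv
  have hHP : ∀ v w, H (P v) (P w) = H (P v) w := by
    intro v w
    have h2 : H (P v) (w - P w) = 0 := by
      rw [hH.antisymm, hPW' w (P v) (hPW v), neg_zero]
    rw [map_sub, sub_eq_zero] at h2
    exact h2.symm
  have hHP' : ∀ v w, H v (P w) = H (P v) (P w) := by
    intro v w
    have h2 := hPW' v (P w) (hPW w)
    rw [map_sub, LinearMap.sub_apply, sub_eq_zero] at h2
    exact h2
  -- the compressed form is a Steinberg form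
  have hB : Steinberg L (H.comp P) := by
    apply Steinberg.of_bounded
    intro u hu hu1 hu2 hu3 hu4
    rw [LinearMap.comp_apply]
    set b0 := L.π ^ (j * s + L.E + p) with hb0
    have hb00 : b0 ≠ 0 := pow_ne_zero _ hπ
    have hb0v : L.val b0 = j * s + L.E + p := by rw [hb0, L.val_π_pow]; push_cast; ring
    have hu1' : 1 - u ≠ 0 := sub_ne_zero.2 (Ne.symm hu1)
    have hub0 : u * b0 ≠ 0 := mul_ne_zero hu hb00
    have hubv : L.val (u * b0) = L.val u + (j * s + L.E + p) := by
      rw [L.val_mul _ _ hu hb00, hb0v]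
    have hp0 : (0 : ℤ) ≤ p := by positivity
    have k1 := hβ b0 hb00 (by rw [hb0v]; push_cast; omega) (by rw [hb0v]; omega)
    have k2 := hβ (u * b0) hub0 (by rw [hubv]; push_cast; omega) (by rw [hubv]; omega)
    have k3 := hWβ (u * b0) b0 (by rw [hubv]; push_cast; omega) (by rw [hb0v]; push_cast; omega)
      hub0 hb00
    have hnebb : a - b0 ≠ a - u * b0 := by
      intro h
      have h2 : (1 - u) * b0 = 0 := by linear_combination -h
      exact (mul_ne_zero hu1' hb00) h2
    have h2 := hP0 _ k1.2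
    have h3 := hP0 _ k2.2
    rw [map_sub, sub_eq_zero] at h2 h3
    have h5 : a - u * b0 - (a - b0) = (1 - u) * b0 := by ring
    have h4 := hy _ k1.1 _ k2.1 hnebb (by
      rw [h5, L.val_mul _ _ hu1' hb00, hb0v]; omega)
    have h6 : y (a - u * b0) - y (a - b0) = P (L.cls u) := by
      rw [← hPid _ k3, map_sub, h2, h3, L.cls_mul _ _ hu hb00, map_add, add_sub_cancel_right]
    rw [h6, h5, hHP', map_sub, h2, ← map_sub, L.cls_mul _ _ hu1' hb00, sub_add_cancel_right,
      map_neg, map_neg, LinearMap.neg_apply, neg_eq_zero, hHP, hH.antisymm] at h4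
    rw [← hHP, ← hHP']
    rw [neg_eq_zero] at h4
    exact h4
  obtain ⟨c, hc⟩ := hH.unique h0 hB
  have hPc : ∀ v, P v = c • v := by
    intro v
    have h2 := hH.nondeg h0 (P v - c • v) (by
      intro w
      have h3 := hc v w
      rw [LinearMap.comp_apply] at h3
      rw [map_sub, LinearMap.sub_apply, map_smul, LinearMap.smul_apply, smul_eq_mul, h3, sub_self])
    exact sub_eq_zero.1 h2
  by_cases hWbot : W = ⊥
  · right
    intro c hc
    have h6 := hmemW (a + L.π ^ (d * s) * c) a (by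
      by_cases hc0 : c = 0
      · left; rw [hc0, mul_zero, add_zero]
      · right
        rw [add_sub_cancel_left, L.val_mul _ _ (pow_ne_zero _ hπ) hc0, L.val_π_pow]
        have h7 := (L.mem_O c hc0).1 hc
        have h8 : ((j * s : ℕ) : ℤ) ≤ ((d * s : ℕ) : ℤ) := by
          exact_mod_cast Nat.mul_le_mul_right s hj
        omega) (Or.inl rfl)
    rw [hWbot, Submodule.mem_bot, sub_eq_zero] at h6
    exact h6
  · left
    obtain ⟨w, hw, hw0⟩ := Submodule.exists_mem_ne_zero_of_ne_bot hWbot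
    have hc1 : c = 1 := by
      have h2 := hPc w
      rw [hPid w hw] at h2
      have h3 : (1 - c) • w = 0 := by rw [sub_smul, one_smul, ← h2, sub_self]
      rcases smul_eq_zero.1 h3 with h4 | h4
      · exact (sub_eq_zero.1 h4).symm
      · exact absurd h4 hw0
    intro b hb hba hv
    have hjs0 : (0 : ℤ) ≤ (j : ℤ) * s := by positivity
    have h2 := hP0 _ (h1 b hb hba (by omega))
    rw [hPc, hc1, one_smul, sub_eq_zero] at h2
    exact h2

end Steinberg

end P025H641
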