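import Vale.Agent.P025.H641.FinCore

/-! # Finite rigidity -/

namespace P025H641

universe u v

variable {p : ℕ} {k : Type u} {V : Type v} [Field k] [AddCommGroup V] [Module (ZMod p) V]

/-- The pairwise relations on a set `B` for a pattern `x`. -/
def Rel (L : Loc p k V) (H : V →ₗ[ZMod p] V →ₗ[ZMod p] ZMod p) (x : k → V) (B : Set k) : Prop :=
  ∀ a ∈ B, ∀ b ∈ B, a ≠ b → H (x a - L.cls (b - a)) (x b - L.cls (a - b)) = 0

namespace Steinberg

variable {L : Loc p k V} {H : V →ₗ[ZMod p] V →ₗ[ZMod p] ZMod p} (hH : Steinberg L H)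

include hH

lemma self_V (v : V) : H v v = - H v (L.cls (-1)) := by
  obtain ⟨x, hx, rfl⟩ := L.cls_surj v
  exact hH.self x hx

/-- the second form of the relation -/
lemma rel_iff (x : k → V) (a b : k) (hab : a ≠ b) :
    H (x a - L.cls (b - a)) (x b - L.cls (a - b)) = H (x a - L.cls (b - a)) (x b - x a) := by
  have h0 : b - a ≠ 0 := sub_ne_zero.2 hab.symm
  have h1 : a - b = -(b - a) := by ring
  have h2 : x b - L.cls (a - b) = (x b - x a) + (x a - L.cls (b - a)) - L.cls (-1) := by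
    rw [h1, L.cls_neg _ h0]
    abel
  rw [h2, map_sub, map_add, hH.self_V (x a - L.cls (b - a))]
  have h7 : H (x a - L.cls (b - a)) (L.cls (-1)) + H (x a - L.cls (b - a)) (L.cls (-1)) = 0 := by
    rw [← map_add, L.two_cls_neg_one, map_zero]
  linear_combination -h7

lemma rel' {x : k → V} {B : Set k} (hx : Rel L H x B) {a b : k} (ha : a ∈ B) (hb : b ∈ B)
    (hab : a ≠ b) : H (x a - L.cls (b - a)) (x b - x a) = 0 := by
  rw [← hH.rel_iff x a b hab]
  exact hx a ha b hb hab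

variable [Fact p.Prime] [FiniteDimensional (ZMod p) V]

omit hH [FiniteDimensional (ZMod p) V] in
/-- an element far away -/
lemma far (A₀ : Finset k) (v : V) : ∃ z, ∀ b ∈ A₀, z ≠ b ∧ v = L.cls (z - b) := by
  classical
  obtain ⟨M, hM⟩ : ∃ M : ℤ, ∀ b ∈ A₀, M ≤ L.val b := by
    induction A₀ using Finset.induction_on with
    | empty => exact ⟨0, by simp⟩
    | insert a s _ ih =>
      obtain ⟨M, hM⟩ := ih
      refine ⟨min M (L.val a), ?_⟩
      intro b hb
      rw [Finset.mem_insert] at hb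
      rcases hb with rfl | hb
      · exact min_le_right _ _
      · exact (min_le_left _ _).trans (hM b hb)
  obtain ⟨z, hz0, hzv, hz1, hz2⟩ := L.exists_cls_val (M - L.E - 1 - p) v
  refine ⟨z, fun b hb => ?_⟩
  by_cases hb0 : b = 0
  · rw [hb0, sub_zero]; exact ⟨hz0, hzv.symm⟩
  have h1 := hM b hb
  have hbz : b / z ≠ 0 := div_ne_zero hb0 hz0
  obtain ⟨c, hc, h2⟩ := L.exists_of_val (b / z) hbz (L.E + 1) (by
    rw [L.val_div _ _ hb0 hz0]; push_cast; omega)
  have h3 : z - b = z * (1 + L.π ^ (L.E + 1) * (-c)) := by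
    have h4 : L.π ^ (L.E + 1) * (-c) = -(b / z) := by rw [h2]; ring
    rw [h4]; field_simp; ring
  have h4 := L.cls_congr z (-c) hz0 (L.O.neg_mem hc)
  rw [h3]
  refine ⟨fun h => ?_, by rw [h4.2, hzv]⟩
  have h5 : z - b = 0 := by rw [h, sub_self]
  rw [h3] at h5
  exact h4.1 h5

/-- **Finite rigidity.** -/
theorem finiteR (h0 : H L.ω (L.cls L.π) ≠ 0) (x : k → V) (A₀ : Finset k) (A : Set k)
    (hA₀ : ∀ a ∈ A₀, a ∈ A) (m s : ℕ) (hs : 3 * L.E + p < s)
    (hdense : ∀ b, (b = 0 ∨ -(m : ℤ) ≤ L.val b) → ∃ a ∈ A, ∃ c ∈ L.O,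
      a = b + L.π ^ ((Module.finrank (ZMod p) V + 1) * s + L.E) * c)
    (c1 : ∀ b ∈ A₀, b = 0 ∨ -(m : ℤ) ≤ L.val b)
    (c2 : ∀ b ∈ A₀, ∀ b' ∈ A₀, b ≠ b' → (L.E : ℤ) - m ≤ L.val (b' - b))
    (c3 : ∀ b ∈ A₀, ∀ b' ∈ A₀, b ≠ b' → L.val (b' - b) + m + 2 * L.E + 1 ≤ s)
    (hx : Rel L H x A) : ∃ z, ∀ b ∈ A₀, z ≠ b ∧ x b = L.cls (z - b) := by
  classical
  have hπ := L.π_ne
  have hπm : L.π ^ m ≠ 0 := pow_ne_zero _ hπ
  set d := Module.finrank (ZMod p) V with hd
  set N := (d + 1) * s + L.E with hN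
  -- points of the window
  have hdense' : ∀ β ∈ L.O, ∃ a ∈ A, ∃ c ∈ L.O, a = β / L.π ^ m + L.π ^ N * c := by
    intro β hβ
    apply hdense
    by_cases h : β = 0
    · left; rw [h, zero_div]
    · right
      rw [L.val_div _ _ h hπm, L.val_π_pow]
      have := (L.mem_O β h).1 hβ
      omega
  have hρ : ∃ ρ : k → k, (∀ β ∈ L.O, ρ β ∈ A ∧ ∃ c ∈ L.O, ρ β = β / L.π ^ m + L.π ^ N * c) ∧
      ∀ b ∈ A₀, ρ (b * L.π ^ m) = b := by
    choose! ρ0 h1 h2 using hdense'
    refine ⟨fun β => if β / L.π ^ m ∈ A₀ then β / L.π ^ m else ρ0 β, ?_, ?_⟩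
    · intro β hβ
      by_cases h : β / L.π ^ m ∈ A₀
      · simp only [h, if_true]
        exact ⟨hA₀ _ h, 0, L.O.zero_mem, by ring⟩
      · simp only [h, if_false]
        exact ⟨h1 β hβ, h2 β hβ⟩
    · intro b hb
      have h : b * L.π ^ m / L.π ^ m = b := mul_div_cancel_right₀ _ hπm
      simp only [h, hb, if_true]
  obtain ⟨ρ, hρ1, hρ2⟩ := hρ
  set y : k → V := fun β => x (ρ β) + L.cls (L.π ^ m) with hy
  have hyR : RelO L H y ((d + 1 : ℤ) * s) := by
    intro b hb b' hb' hne hv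
    obtain ⟨h1, c, hc, h2⟩ := hρ1 b hb
    obtain ⟨h1', c', hc', h2'⟩ := hρ1 b' hb'
    have hne' : b' - b ≠ 0 := sub_ne_zero.2 hne.symm
    have hne'' : (b' - b) / L.π ^ m ≠ 0 := div_ne_zero hne' hπm
    have h3 := L.small ((b' - b) / L.π ^ m) hne'' N (c' - c) (L.O.sub_mem hc' hc) (by
      rw [L.val_div _ _ hne' hπm, L.val_π_pow, hN]; push_cast; omega)
    have e : (b' - b) / L.π ^ m + L.π ^ N * (c' - c) = ρ b' - ρ b := by
      rw [h2, h2']; ring
    rw [e] at h3
    have h4 := hH.rel' hx h1 h1' (fun h => h3.1 (by rw [h, sub_self]))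
    rw [h3.2.1, L.cls_div _ _ hne' hπm] at h4
    have e1 : y b - L.cls (b' - b) = x (ρ b) - (L.cls (b' - b) - L.cls (L.π ^ m)) := by
      simp only [hy]; abel
    have e2 : y b' - y b = x (ρ b') - x (ρ b) := by simp only [hy]; abel
    rw [e1, e2]
    exact h4
  have hyA : ∀ b ∈ A₀, y (b * L.π ^ m) = x b + L.cls (L.π ^ m) := by
    intro b hb
    simp only [hy, hρ2 b hb]
  have hmem : ∀ b ∈ A₀, b * L.π ^ m ∈ L.O := by
    intro b hb
    by_cases hb0 : b = 0
    · rw [hb0, zero_mul]; exact L.O.zero_mem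
    have h1 := (c1 b hb).resolve_left hb0
    apply L.mem_of_val _ (mul_ne_zero hb0 hπm)
    rw [L.val_mul _ _ hb0 hπm, L.val_π_pow]
    omega
  rcases hH.window h0 y s hs _ le_rfl hyR with ⟨α, hα, h1⟩ | h1
  · -- a point of the line
    set a := α / L.π ^ m with ha
    have hαa : α = a * L.π ^ m := by rw [ha]; field_simp
    have key : ∀ b ∈ A₀, b ≠ a → L.val (a - b) + m < s - L.E → x b = L.cls (a - b) := by
      intro b hb hba hv
      have hba' : a - b ≠ 0 := sub_ne_zero.2 hba.symm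
      have e : α - b * L.π ^ m = (a - b) * L.π ^ m := by rw [hαa]; ring
      have h2 := h1 _ (hmem b hb) (by
        rw [hαa]
        exact fun h => hba (mul_right_cancel₀ hπm h)) (by
        rw [e, L.val_mul _ _ hba' hπm, L.val_π_pow]
        exact hv)
      rw [e, hyA b hb, L.cls_mul _ _ hba' hπm, add_left_inj] at h2
      exact h2
    by_cases hex : ∃ b0 ∈ A₀, b0 = a ∨ (s : ℤ) - L.E ≤ L.val (a - b0) + m
    · obtain ⟨b0, hb0, hb0a⟩ := hex
      -- lower bound for the distances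
      obtain ⟨δ, hδ0, hδv, hδ1, -⟩ := L.exists_cls_val (s : ℤ) (x b0)
      obtain ⟨δ', hδ', hδπ⟩ := L.exists_of_val δ hδ0 s hδ1
      refine ⟨b0 + δ, fun b hb => ?_⟩
      by_cases hbb : b = b0
      · rw [hbb, add_sub_cancel_left]
        exact ⟨fun h => hδ0 (by linear_combination h), hδv.symm⟩
      have hbb' : b0 - b ≠ 0 := sub_ne_zero.2 (Ne.symm hbb)
      have h3 := c3 b hb b0 hb0 hbb
      have hm0 : (0 : ℤ) ≤ m := by positivity
      -- the class of `b0 + δ - b`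
      have h4 := L.small (b0 - b) hbb' s δ' hδ' (by omega)
      rw [← hδπ] at h4
      have e1 : b0 - b + δ = b0 + δ - b := by ring
      rw [e1] at h4
      -- the class of `a - b`
      have h5 : a ≠ b ∧ L.cls (a - b) = L.cls (b0 - b) ∧ L.val (a - b) = L.val (b0 - b) := by
        by_cases hba : b0 = a
        · rw [← hba]
          exact ⟨Ne.symm hbb, rfl, rfl⟩
        have hab0 : a - b0 ≠ 0 := sub_ne_zero.2 (Ne.symm hba)
        have h6 := hb0a.resolve_left hba
        -- write `a - b0 = (b0 - b) π^(E+1) c`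
        have hq : (a - b0) / (b0 - b) ≠ 0 := div_ne_zero hab0 hbb'
        obtain ⟨c, hc, h7⟩ := L.exists_of_val _ hq (L.E + 1) (by
          rw [L.val_div _ _ hab0 hbb']; push_cast; omega)
        have h8 : a - b = (b0 - b) * (1 + L.π ^ (L.E + 1) * c) := by
          rw [← h7]; field_simp; ring
        have h9 := L.cls_congr _ c hbb' hc
        refine ⟨fun h => ?_, by rw [h8, h9.2], ?_⟩
        · have h10 : a - b = 0 := by rw [h, sub_self]
          rw [h8] at h10
          exact h9.1 h10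
        · rw [h8, L.val_mul _ _ hbb' (L.one_add_ne _ (by omega) c hc),
            L.val_one_add _ (by omega) c hc, add_zero]
      refine ⟨fun h => h4.1 (by rw [h, sub_self]), ?_⟩
      rw [h4.2.1, key b hb h5.1.symm (by rw [h5.2.2]; omega), h5.2.1]
    · push Not at hex
      refine ⟨a, fun b hb => ?_⟩
      have h2 := hex b hb
      exact ⟨fun h => h2.1 h.symm, key b hb h2.1 (by omega)⟩
  · -- constant patterns
    by_cases hemp : A₀ = ∅
    · exact ⟨0, by simp [hemp]⟩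
    obtain ⟨b0, hb0⟩ := Finset.nonempty_of_ne_empty hemp
    have hconst : ∀ b ∈ A₀, x b = x b0 := by
      intro b hb
      by_cases hbb : b = b0
      · rw [hbb]
      have hbb' : b - b0 ≠ 0 := sub_ne_zero.2 hbb
      obtain ⟨c, hc, h2⟩ := L.exists_of_val ((b - b0) * L.π ^ m) (mul_ne_zero hbb' hπm) L.E (by
        rw [L.val_mul _ _ hbb' hπm, L.val_π_pow]
        have := c2 b0 hb0 b hb (Ne.symm hbb)
        omega)
      have h3 := h1 _ (hmem b0 hb0) c hc
      have e : b0 * L.π ^ m + L.π ^ L.E * c = b * L.π ^ m := by rw [← h2]; ring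
      rw [e, hyA b hb, hyA b0 hb0, add_left_inj] at h3
      exact h3
    obtain ⟨z, hz⟩ := far (L := L) A₀ (x b0)
    exact ⟨z, fun b hb => ⟨(hz b hb).1, by rw [hconst b hb]; exact (hz b hb).2⟩⟩

end Steinberg

end P025H641
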