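import Vale.Agent.P025.H641.CycGen

/-! # Valuations on the maximal unramified extension -/

open IntermediateField

namespace P025H641

universe u v w

section ext

/-- extension of valuation rings -/
lemma exists_val_extension {F : Type v} {L : Type w} [Field F] [Field L] [Algebra F L]
    (V : ValuationSubring F) : ∃ W : ValuationSubring L, W.comap (algebraMap F L) = V := by
  obtain ⟨W, h, hloc⟩ := IsLocalRing.exists_factor_valuationRing
    ((algebraMap F L).comp (algebraMap V F))
  refine ⟨W, ?_⟩
  ext x
  rw [ValuationSubring.mem_comap]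
  constructor
  · intro hx
    rcases V.mem_or_inv_mem x with h1 | h1
    · exact h1
    by_cases hx0 : x = 0
    · rw [hx0]; exact V.zero_mem
    -- the image of `x⁻¹` is a unit
    have h2 : IsUnit ((((algebraMap F L).comp (algebraMap V F)).codRestrict W.toSubring h)
        ⟨x⁻¹, h1⟩) := by
      refine IsUnit.of_mul_eq_one (⟨algebraMap F L x, hx⟩ : W) ?_
      apply Subtype.ext
      show algebraMap F L x⁻¹ * algebraMap F L x = 1
      rw [← map_mul, inv_mul_cancel₀ hx0, map_one]
    have h3 := hloc.map_nonunit _ h2
    obtain ⟨u, hu⟩ := h3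
    have h4 : ((u : V) : F) = x⁻¹ := congrArg Subtype.val hu
    have h5 : x = ((u⁻¹ : Vˣ) : V) := by
      have h6 : ((u : V) : F) * (((u⁻¹ : Vˣ) : V) : F) = 1 :=
        congrArg (fun z : V => (z : F)) (Units.mul_inv u)
      rw [h4] at h6
      field_simp at h6
      exact h6.symm
    rw [h5]
    exact ((u⁻¹ : Vˣ) : V).2
  · intro hx
    exact h ⟨x, hx⟩

end ext

section gauss

variable {k : Type u} {F : Type v} {M : Type w} [Field k] [Field F] [Field M] [Algebra k F]
  [Algebra k M] [Algebra F M] [IsScalarTower k F M]

/-- nonzero constants have value one -/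
lemma val_alg_gen {W : ValuationSubring M} (hk : ∀ c : k, algebraMap k M c ∈ W) {c : M}
    (hc : IsIntegral k c) (h0 : c ≠ 0) : W.valuation c = 1 := by
  have hmem : ∀ d : M, IsIntegral k d → d ∈ W := by
    intro d hd
    let φ : k →+* W := (algebraMap k M).codRestrict W.toSubring (fun x => hk x)
    let _ : Algebra k W := φ.toAlgebra
    have : IsScalarTower k W M := IsScalarTower.of_algebraMap_eq (fun x => rfl)
    have hx : IsIntegral W d := hd.tower_top
    obtain ⟨y, hy⟩ := IsIntegrallyClosed.isIntegral_iff.mp hx
    rw [← hy]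
    exact y.2
  apply le_antisymm
  · exact (W.valuation_le_one_iff _).2 (hmem c hc)
  · have h := (W.valuation_le_one_iff _).2 (hmem _ hc.inv)
    rw [map_inv₀] at h
    have h0 : W.valuation c ≠ 0 := by simpa using h0
    exact (inv_le_one₀ (zero_lt_iff.2 h0)).1 h

omit [IsScalarTower k F M] [Algebra k F] in
/-- values of combinations of independent constants -/
lemma gauss_mem {W : ValuationSubring M} (hk : ∀ c : k, algebraMap k M c ∈ W)
    (hres : ∀ f : F, algebraMap F M f ∈ W → ∃ c : k,
      W.valuation (algebraMap F M f - algebraMap k M c) < 1) {I : Type*} (s : Finset I)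
    (c : I → M) (hc : ∀ i, IsIntegral k (c i)) (hli : LinearIndependent k c) (l : I → F) :
    (∑ i ∈ s, algebraMap F M (l i) * c i) ∈ W ↔ ∀ i ∈ s, algebraMap F M (l i) ∈ W := by
  classical
  have hcW : ∀ i, c i ∈ W := by
    intro i
    rw [← W.valuation_le_one_iff, val_alg_gen hk (hc i) (hli.ne_zero i)]
  constructor
  · intro hmem
    by_contra hcon
    push Not at hcon
    obtain ⟨i1, hi1, hnot⟩ := hcon
    obtain ⟨i0, hi0, hmax⟩ := s.exists_max_image (fun i => W.valuation (algebraMap F M (l i)))
      ⟨i1, hi1⟩
    have h1 : 1 < W.valuation (algebraMap F M (l i0)) := by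
      refine lt_of_lt_of_le ?_ (hmax i1 hi1)
      rw [← W.valuation_le_one_iff, not_le] at hnot
      exact hnot
    have hl0 : l i0 ≠ 0 := by
      intro h0
      rw [h0, map_zero, map_zero] at h1
      exact absurd h1 (not_lt.2 zero_le)
    have hlE : algebraMap F M (l i0) ≠ 0 := (map_ne_zero _).2 hl0
    have hpos : 0 < W.valuation (algebraMap F M (l i0)) := zero_lt_iff.2 ((map_ne_zero _).2 hlE)
    -- the quotients
    have hw : ∀ i ∈ s, algebraMap F M (l i / l i0) ∈ W := by
      intro i hi
      rw [← W.valuation_le_one_iff, map_div₀, map_div₀]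
      exact (div_le_one₀ hpos).2 (hmax i hi)
    have hex : ∀ i ∈ s, ∃ z : k, W.valuation (algebraMap F M (l i / l i0) - algebraMap k M z) < 1 :=
      fun i hi => hres _ (hw i hi)
    choose! z hz using hex
    -- the value of the quotient
    have hu : (∑ i ∈ s, algebraMap F M (l i) * c i) / algebraMap F M (l i0) =
        (∑ i ∈ s, (algebraMap F M (l i / l i0) - algebraMap k M (z i)) * c i) +
          ∑ i ∈ s, z i • c i := by
      rw [← Finset.sum_add_distrib, Finset.sum_div]
      refine Finset.sum_congr rfl (fun i _ => ?_)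
      rw [Algebra.smul_def, map_div₀]
      ring
    have hlt : W.valuation (∑ i ∈ s, (algebraMap F M (l i / l i0) - algebraMap k M (z i)) * c i)
        < 1 := by
      apply Valuation.map_sum_lt _ one_ne_zero
      intro i hi
      rw [map_mul, val_alg_gen hk (hc i) (hli.ne_zero i), mul_one]
      exact hz i hi
    have hzi0 : z i0 ≠ 0 := by
      intro h0
      have h2 := hz i0 hi0
      rw [h0, map_zero, sub_zero, div_self hl0, map_one, map_one] at h2
      exact lt_irrefl _ h2
    have hsum0 : ∑ i ∈ s, z i • c i ≠ 0 := by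
      intro h0
      exact hzi0 (linearIndependent_iff'.1 hli s z h0 i0 hi0)
    have hint : IsIntegral k (∑ i ∈ s, z i • c i) :=
      IsIntegral.sum _ (fun i _ => (hc i).smul (z i))
    have h2 : W.valuation ((∑ i ∈ s, algebraMap F M (l i) * c i) / algebraMap F M (l i0)) = 1 := by
      rw [hu, Valuation.map_add_eq_of_lt_right, val_alg_gen hk hint hsum0]
      rw [val_alg_gen hk hint hsum0]
      exact hlt
    rw [map_div₀, div_eq_one_iff_eq hpos.ne'] at h2
    rw [← W.valuation_le_one_iff, h2] at hmem
    exact absurd h1 (not_lt.2 hmem)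
  · intro h
    exact sum_mem (fun i hi => mul_mem (h i hi) (hcW i))

end gauss

section galois

variable {k : Type u} {K : Type v} [Field k] [Field K] [Algebra k K]

lemma IsFinUnr.map {F : IntermediateField K (AlgebraicClosure K)} (hF : IsFinUnr k F)
    (σ : AlgebraicClosure K →ₐ[K] AlgebraicClosure K) : IsFinUnr k (F.map σ) := by
  obtain ⟨hfin, hunr⟩ := hF
  let e : F ≃ₐ[K] F.map σ := IntermediateField.equivMap F σ
  refine ⟨LinearEquiv.finiteDimensional e.toLinearEquiv, ?_⟩
  intro V hV x
  let _ : Algebra F (F.map σ) := (e : F →+* F.map σ).toAlgebra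
  have ht1 : IsScalarTower K F (F.map σ) := IsScalarTower.of_algebraMap_eq (fun x =>
    (e.commutes x).symm)
  have ht2 : IsScalarTower k F (F.map σ) := IsScalarTower.of_algebraMap_eq (fun x => by
    rw [IsScalarTower.algebraMap_apply k K F, ← IsScalarTower.algebraMap_apply K F (F.map σ),
      ← IsScalarTower.algebraMap_apply k K (F.map σ)])
  have halg : Algebra.IsAlgebraic F (F.map σ) :=
    ⟨fun x => by
      have h : algebraMap F (F.map σ) (e.symm x) = x := e.apply_symm_apply x
      rw [← h]
      exact isAlgebraic_algebraMap _⟩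
  obtain ⟨y, hy⟩ := hunr _ (hV.comap (F := F)) (e.symm x)
  refine ⟨y, ?_⟩
  rw [comap_val_eq_iff] at hy
  have h : algebraMap F (F.map σ) (e.symm x) = x := e.apply_symm_apply x
  rw [h, ← IsScalarTower.algebraMap_apply] at hy
  exact hy

instance normal_maxUnr : Normal K (maxUnr k K) := by
  rw [IntermediateField.normal_iff_forall_map_le]
  intro σ
  rw [IntermediateField.map_le_iff_le_comap, maxUnr, sSup_le_iff]
  intro F hF
  rw [← IntermediateField.map_le_iff_le_comap]
  exact (IsFinUnr.map hF σ).le_maxUnr

instance isGalois_maxUnr [CharZero K] : IsGalois K (maxUnr k K) := ⟨⟩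

variable [CharZero k] {s : Gal(constClosure k K/k) →* Gal(maxUnr k K/K)}

/-- the fixed field of a section -/
noncomputable def FixS (s : Gal(constClosure k K/k) →* Gal(maxUnr k K/K)) :
    IntermediateField K (maxUnr k K) := IntermediateField.fixedField s.range

omit [CharZero k] in
lemma mem_fixS (x : maxUnr k K) : x ∈ FixS s ↔ ∀ σ, s σ x = x := by
  rw [FixS, IntermediateField.mem_fixedField_iff]
  constructor
  · exact fun h σ => h _ ⟨σ, rfl⟩
  · rintro h _ ⟨σ, rfl⟩
    exact h σ

/-- the maximal unramified extension is generated by constants over the fixed field -/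
lemma adjoin_const_eq_top (hs : IsSection k K s) :
    IntermediateField.adjoin (FixS s) {x : maxUnr k K | IsIntegral k x} = ⊤ := by
  have hcharK : CharZero K := charZero_of_injective_algebraMap (algebraMap k K).injective
  -- the range is closed
  have hcl : IsClosed (s.range : Set Gal(maxUnr k K/K)) := by
    have h1 : (s.range : Set Gal(maxUnr k K/K)) = Set.range s := MonoidHom.coe_range s
    rw [h1]
    exact (isCompact_range hs.continuous).isClosed
  set L : IntermediateField K (maxUnr k K) :=
    (IntermediateField.adjoin (FixS s) {x : maxUnr k K | IsIntegral k x}).restrictScalars K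
    with hL
  have hfix : L.fixingSubgroup = ⊥ := by
    rw [eq_bot_iff]
    intro g hg
    rw [IntermediateField.mem_fixingSubgroup_iff] at hg
    have h1 := InfiniteGalois.fixingSubgroup_fixedField (⟨s.range, hcl⟩ : ClosedSubgroup _)
    have h2 : g ∈ (IntermediateField.fixedField s.range).fixingSubgroup := by
      rw [IntermediateField.mem_fixingSubgroup_iff]
      intro x hx
      exact hg x (IntermediateField.algebraMap_mem
        (IntermediateField.adjoin (FixS s) {x : maxUnr k K | IsIntegral k x})
        (⟨x, hx⟩ : FixS s))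
    have h3 : (IntermediateField.fixedField s.range).fixingSubgroup = s.range := h1
    rw [h3] at h2
    obtain ⟨σ, rfl⟩ := h2
    have h4 : σ = 1 := by
      ext x
      have hxint : IsIntegral k (x : AlgebraicClosure K) := (mem_algebraicClosure_iff.1 x.2).isIntegral
      have h5 := hs.lifts σ x ⟨x, mem_maxUnr_of_const _ hxint⟩ rfl
      rw [hg _ (IntermediateField.subset_adjoin (FixS s) _ (isIntegral_coe.1 hxint))] at h5
      exact h5
    rw [h4, map_one]
    exact Subgroup.mem_bot.2 rfl
  have h1 := InfiniteGalois.fixedField_fixingSubgroup L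
  rw [hfix, IntermediateField.fixedField_bot] at h1
  rw [eq_top_iff]
  intro x _
  have h2 : x ∈ L := by rw [← h1]; trivial
  exact h2

omit [CharZero k] in
lemma tower_fixS : IsScalarTower k (FixS s) (maxUnr k K) :=
  IsScalarTower.of_algebraMap_eq (fun _ => rfl)

/-- representation by independent constants -/
lemma exists_const_basis (hs : IsSection k K s) : ∃ (I : Type v) (c : I → maxUnr k K),
    (∀ i, IsIntegral k (c i)) ∧ LinearIndependent k c ∧
      ∀ x : maxUnr k K, ∃ l : I →₀ FixS s,
        x = ∑ i ∈ l.support, algebraMap (FixS s) (maxUnr k K) (l i) * c i := by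
  classical
  have htower := tower_fixS (k := k) (K := K) (s := s)
  let b := Module.Basis.ofVectorSpace k (constClosure k K)
  have hint : ∀ y : constClosure k K, IsIntegral k (y : AlgebraicClosure K) := fun y =>
    (mem_algebraicClosure_iff.1 y.2).isIntegral
  let c : Module.Basis.ofVectorSpaceIndex k (constClosure k K) → maxUnr k K := fun i =>
    ⟨b i, mem_maxUnr_of_const _ (hint (b i))⟩
  have hcint : ∀ i, IsIntegral k (c i) := fun i => isIntegral_coe.1 (hint (b i))
  have hli : LinearIndependent k c := by
    let φ : maxUnr k K →ₗ[k] AlgebraicClosure K :=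
      (((maxUnr k K).val).restrictScalars k).toLinearMap
    apply LinearIndependent.of_comp φ
    exact b.linearIndependent.map' ((constClosure k K).val).toLinearMap
      (LinearMap.ker_eq_bot.2 Subtype.val_injective)
  refine ⟨_, c, hcint, hli, ?_⟩
  -- constants are combinations of the `c i`
  have hspan : ∀ y : maxUnr k K, IsIntegral k y → y ∈ Submodule.span (FixS s) (Set.range c) := by
    intro y hy
    have hy' : (y : AlgebraicClosure K) ∈ constClosure k K :=
      mem_algebraicClosure_iff.2 (isIntegral_coe.2 hy).isAlgebraic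
    have h2 : y = ∑ i ∈ (b.repr ⟨(y : AlgebraicClosure K), hy'⟩).support,
        (b.repr ⟨(y : AlgebraicClosure K), hy'⟩ i) • c i := by
      apply Subtype.ext
      have h3 := b.linearCombination_repr ⟨(y : AlgebraicClosure K), hy'⟩
      rw [Finsupp.linearCombination_apply, Finsupp.sum] at h3
      have h4 := congrArg (fun z : constClosure k K => (z : AlgebraicClosure K)) h3
      simp only [AddSubmonoidClass.coe_finsetSum] at h4
      refine h4.symm.trans ?_
      have h5 := map_sum (((maxUnr k K).val).restrictScalars k)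
        (fun i => (b.repr ⟨(y : AlgebraicClosure K), hy'⟩ i) • c i)
        (b.repr ⟨(y : AlgebraicClosure K), hy'⟩).support
      exact h5.symm
    rw [h2]
    refine Submodule.sum_mem _ (fun i _ => ?_)
    have h3 : (b.repr ⟨(y : AlgebraicClosure K), hy'⟩ i) • c i =
        (algebraMap k (FixS s) (b.repr ⟨(y : AlgebraicClosure K), hy'⟩ i)) • c i := by
      rw [algebraMap_smul]
    rw [h3]
    exact Submodule.smul_mem _ _ (Submodule.subset_span ⟨i, rfl⟩)
  intro x
  have hx : x ∈ IntermediateField.adjoin (FixS s) {x : maxUnr k K | IsIntegral k x} := by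
    rw [adjoin_const_eq_top hs]; trivial
  have hx2 : x ∈ Algebra.adjoin (FixS s) {x : maxUnr k K | IsIntegral k x} := by
    rw [← IntermediateField.adjoin_toSubalgebra_of_isAlgebraic]
    · exact hx
    · intro y hy
      have hy' : IsIntegral k y := hy
      exact hy'.isAlgebraic.tower_top (FixS s)
  have hx3 : x ∈ Submodule.span (FixS s) {x : maxUnr k K | IsIntegral k x} := by
    have h1 : x ∈ Subalgebra.toSubmodule
        (Algebra.adjoin (FixS s) {x : maxUnr k K | IsIntegral k x}) := hx2
    rw [Algebra.adjoin_eq_span] at h1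
    have h2 : (Submonoid.closure {x : maxUnr k K | IsIntegral k x} : Set (maxUnr k K)) ⊆
        {x : maxUnr k K | IsIntegral k x} := by
      let T : Submonoid (maxUnr k K) :=
        { carrier := {x : maxUnr k K | IsIntegral k x}
          mul_mem' := fun ha hb => IsIntegral.mul ha hb
          one_mem' := isIntegral_one }
      have h3 : Submonoid.closure {x : maxUnr k K | IsIntegral k x} ≤ T :=
        Submonoid.closure_le.2 (fun y hy => hy)
      exact h3
    exact Submodule.span_mono h2 h1
  have hx4 : x ∈ Submodule.span (FixS s) (Set.range c) :=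
    Submodule.span_le.2 (fun y hy => hspan y hy) hx3
  rw [Finsupp.mem_span_range_iff_exists_finsupp] at hx4
  obtain ⟨l, hl⟩ := hx4
  refine ⟨l, ?_⟩
  rw [← hl, Finsupp.sum]
  refine Finset.sum_congr rfl (fun i _ => ?_)
  rw [Algebra.smul_def]

/-- **Stable extension of rational valuation rings of the fixed field.** -/
theorem exists_stable_val (hs : IsSection k K s) (V : ValuationSubring (FixS s))
    (hVk : ∀ c : k, algebraMap k (FixS s) c ∈ V)
    (hres : ∀ f ∈ V, ∃ c : k, V.valuation (f - algebraMap k (FixS s) c) < 1) :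
    ∃ W : ValuationSubring (maxUnr k K), W.comap (algebraMap (FixS s) (maxUnr k K)) = V ∧
      ∀ σ x, x ∈ W → s σ x ∈ W := by
  have htower := tower_fixS (k := k) (K := K) (s := s)
  obtain ⟨W, hW⟩ := exists_val_extension (L := maxUnr k K) V
  refine ⟨W, hW, ?_⟩
  have hWk : ∀ c : k, algebraMap k (maxUnr k K) c ∈ W := by
    intro c
    have h1 := hVk c
    rw [← hW, ValuationSubring.mem_comap, ← IsScalarTower.algebraMap_apply] at h1
    exact h1
  have hWres : ∀ f : FixS s, algebraMap (FixS s) (maxUnr k K) f ∈ W → ∃ c : k,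
      W.valuation (algebraMap (FixS s) (maxUnr k K) f - algebraMap k (maxUnr k K) c) < 1 := by
    intro f hf
    have h1 : f ∈ V := by rw [← hW, ValuationSubring.mem_comap]; exact hf
    obtain ⟨c, hc⟩ := hres f h1
    refine ⟨c, ?_⟩
    rw [← hW, (comap_isEquiv (F := FixS s) W).lt_one_iff_lt_one, Valuation.comap_apply, map_sub,
      ← IsScalarTower.algebraMap_apply] at hc
    exact hc
  obtain ⟨I, c, hcint, hli, hrep⟩ := exists_const_basis hs
  intro σ x hx
  obtain ⟨l, hl⟩ := hrep x
  rw [hl, gauss_mem hWk hWres _ c hcint hli] at hx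
  let φ : maxUnr k K →ₐ[k] maxUnr k K :=
    ((s σ : (maxUnr k K) ≃ₐ[K] (maxUnr k K)) : (maxUnr k K) →ₐ[K] (maxUnr k K)).restrictScalars k
  have h1 : s σ x = ∑ i ∈ l.support, algebraMap (FixS s) (maxUnr k K) (l i) * s σ (c i) := by
    conv_lhs => rw [hl]
    rw [map_sum]
    refine Finset.sum_congr rfl (fun i _ => ?_)
    rw [map_mul]
    congr 1
    exact (mem_fixS _).1 (l i).2 σ
  rw [h1, gauss_mem hWk hWres _ (fun i => s σ (c i)) (fun i => (hcint i).map φ)]
  · exact hx
  · exact hli.map' φ.toLinearMap (LinearMap.ker_eq_bot.2 (s σ).injective)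

end galois

end P025H641
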