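import Vale.Agent.P025.H641.GeoStmt
import Vale.Agent.P025.H641.EveryGen

/-! # Sections which lift to ramified covers are geometric -/

open IntermediateField Polynomial

namespace P025H641

universe u v w

section level

variable {p : ℕ} {k : Type u} [Field k] [CharZero k] {E : Type v} [Field E]
  [Algebra k E]

/-- divisibility for the push forward -/
lemma exists_push_div {K : Type w} [Field K] [Algebra k K] [Algebra E K] [IsScalarTower k E K]
    (j : AlgebraicClosure E →ₐ[E] AlgebraicClosure K) (S : Finset (AlgebraicClosure E))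
    (hS : ∀ x ∈ S, x ∈ maxUnr k E) (T : Finset E) (hram : IsRamifiedOver p k K T)
    (hT : ∀ x ∈ S, ∀ i, (minpoly E x).coeff i = 0 ∨ (minpoly E x).coeff i ∈ T)
    (S₁ : Finset (AlgebraicClosure E)) (hS₁ : ∀ x ∈ S₁, x ∈ maxUnr k E) :
    ∃ F : IntermediateField K (AlgebraicClosure K), IsFinUnr k F ∧
      (∀ P : k[X], ∀ x ∈ S₁, j (aeval x P) ∈ F) ∧
      ∀ x ∈ S, x ≠ 0 → ∃ hf : j x ∈ F, IsDivisible p k (⟨j x, hf⟩ : F) := by
  classical
  obtain ⟨F₀, hF₀, hm⟩ := exists_finUnr_subset (k := k) (S ∪ S₁) (by
    intro x hx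
    rcases Finset.mem_union.1 hx with h | h
    · exact hS x h
    · exact hS₁ x h)
  obtain ⟨F, hF, hj⟩ := exists_push (k := k) j hF₀
  refine ⟨F, hF, ?_, ?_⟩
  · intro P x hx
    apply hj
    have hx0 := hm x (Finset.mem_union_right _ hx)
    rw [aeval_eq_sum_range]
    refine sum_mem (fun i _ => ?_)
    rw [Algebra.smul_def, IsScalarTower.algebraMap_apply k E (AlgebraicClosure E)]
    exact mul_mem (F₀.algebraMap_mem _) (pow_mem hx0 i)
  · intro x hx hx0
    have hxF : x ∈ F₀ := hm x (Finset.mem_union_left _ hx)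
    refine ⟨hj x hxF, ?_⟩
    let _ : Algebra F₀ F := (((j : AlgebraicClosure E →+* AlgebraicClosure K).comp
      (algebraMap F₀ (AlgebraicClosure E))).codRestrict F.toSubfield.toSubring
        (fun x => hj x x.2)).toAlgebra
    have t1 : IsScalarTower E F₀ F := IsScalarTower.of_algebraMap_eq (fun x => by
      apply Subtype.ext
      show algebraMap E (AlgebraicClosure K) x = j (algebraMap E (AlgebraicClosure E) x)
      rw [AlgHom.commutes])
    have t2 : IsScalarTower k F₀ F := IsScalarTower.of_algebraMap_eq (fun x => by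
      rw [IsScalarTower.algebraMap_apply k E F₀, ← IsScalarTower.algebraMap_apply E F₀ F]
      rw [IsScalarTower.algebraMap_apply E K F, ← IsScalarTower.algebraMap_apply k E K,
        ← IsScalarTower.algebraMap_apply k K F])
    have halgF : Algebra.IsAlgebraic K F := by
      have := hF.1
      infer_instance
    have hfin := hF₀.1
    have hint : IsIntegral E (⟨x, hxF⟩ : F₀) := Algebra.IsIntegral.isIntegral _
    have h0 : (⟨x, hxF⟩ : F₀) ≠ 0 := fun h => hx0 (congrArg Subtype.val h)
    have h1 := isDivisible_of_ramified_unr (F := F) hF₀.2 hram (⟨x, hxF⟩ : F₀) hint h0 (by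
      intro i
      have h2 : minpoly E (⟨x, hxF⟩ : F₀) = minpoly E x :=
        (minpoly.algHom_eq F₀.val Subtype.val_injective (⟨x, hxF⟩ : F₀)).symm
      rw [h2]
      exact hT x hx i)
    exact h1

end level

section core

variable {p : ℕ} [Fact p.Prime] {k : Type u} [Field k] [Algebra ℚ_[p] k]
  [FiniteDimensional ℚ_[p] k]

theorem geo_core {F M : Type v} [Field F] [Algebra k F] [Field M] [Algebra k M] [Algebra F M]
    [IsScalarTower k F M] {ζ : M} (hζ : IsPrimitiveRoot ζ p)
    (hclosed : ∀ e : F, IsIntegral k e → ∃ c, algebraMap k F c = e)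
    (hlev : ∀ S : Finset M, ∃ (K : Type w) (_ : Field K) (_ : Algebra k K) (s : Section k K)
      (ι : M →+* maxUnr k K),
      (∀ c : k, ι (algebraMap k M c) = algebraMap k (maxUnr k K) c) ∧
      (∀ (e : F) (σ : Gal(constClosure k K/k)),
        s.toHom σ (ι (algebraMap F M e)) = ι (algebraMap F M e)) ∧
      ∀ S₁ : Finset M, ∃ L : IntermediateField K (AlgebraicClosure K), IsFinUnr k L ∧
        (∀ P : k[X], ∀ x ∈ S₁, ((ι (aeval x P) : maxUnr k K) : AlgebraicClosure K) ∈ L) ∧
        ∀ x ∈ S, x ≠ 0 → ∃ hf : ((ι x : maxUnr k K) : AlgebraicClosure K) ∈ L,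
          IsDivisible p k (⟨((ι x : maxUnr k K) : AlgebraicClosure K), hf⟩ : L)) :
    ∃ V : ValuationSubring F, (∀ c : k, algebraMap k F c ∈ V) ∧
      ∀ f ∈ V, ∃ c : k, V.valuation (f - algebraMap k F c) < 1 := by
  classical
  have hpp : p.Prime := Fact.out
  have hchar : CharZero k := charZero_of_injective_algebraMap (algebraMap ℚ_[p] k).injective
  have hintk : IsIntegral k ζ :=
    isIntegral_of_pow' hpp.pos (by rw [hζ.pow_eq_one]; exact isIntegral_one)
  have hintE : IsIntegral F ζ :=
    isIntegral_of_pow' hpp.pos (by rw [hζ.pow_eq_one]; exact isIntegral_one)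
  set k' : IntermediateField k M := k⟮ζ⟯ with hk'
  set E' : IntermediateField F M := F⟮ζ⟯ with hE'
  have hle : ∀ x : k', (x : M) ∈ E' := by
    have h1 : k' ≤ E'.restrictScalars k := by
      rw [hk', IntermediateField.adjoin_simple_le_iff]
      exact IntermediateField.mem_adjoin_simple_self F ζ
    exact fun x => h1 x.2
  let e₁ : k' →+* E' := (algebraMap k' M).codRestrict E'.toSubfield.toSubring hle
  let _ : Algebra k' E' := e₁.toAlgebra
  have ht1 : IsScalarTower k k' E' := IsScalarTower.of_algebraMap_eq (fun c => rfl)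
  let _ : Algebra ℚ_[p] k' := ((algebraMap k k').comp (algebraMap ℚ_[p] k)).toAlgebra
  have ht2 : IsScalarTower ℚ_[p] k k' := IsScalarTower.of_algebraMap_eq (fun c => rfl)
  have hfin1 : FiniteDimensional k k' := IntermediateField.adjoin.finiteDimensional hintk
  have hfin2 : FiniteDimensional ℚ_[p] k' := FiniteDimensional.trans ℚ_[p] k k'
  let z : k' := ⟨ζ, IntermediateField.mem_adjoin_simple_self k ζ⟩
  have hz : IsPrimitiveRoot z p :=
    IsPrimitiveRoot.of_map_of_injective (f := k'.val) hζ Subtype.val_injective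
  have C : CycData p k F k' E' z := by
    refine ⟨hz, ?_, ?_⟩
    · intro x
      have hx : (x : M) ∈ Algebra.adjoin k {ζ} := by
        rw [← IntermediateField.adjoin_simple_toSubalgebra_of_isAlgebraic hintk.isAlgebraic]
        exact x.2
      rw [Algebra.adjoin_singleton_eq_range_aeval] at hx
      obtain ⟨P, hP⟩ := hx
      refine ⟨P, Subtype.ext ?_⟩
      have h1 : ((aeval z P : k') : M) = aeval ζ P :=
        (aeval_algHom_apply k'.val z P).symm
      rw [h1]
      exact hP.symm
    · intro x
      have hx : (x : M) ∈ Algebra.adjoin F {ζ} := by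
        rw [← IntermediateField.adjoin_simple_toSubalgebra_of_isAlgebraic hintE.isAlgebraic]
        exact x.2
      rw [Algebra.adjoin_singleton_eq_range_aeval] at hx
      obtain ⟨P, hP⟩ := hx
      refine ⟨P, Subtype.ext ?_⟩
      have h1 : ((aeval (algebraMap k' E' z) P : E') : M) = aeval ζ P :=
        (aeval_algHom_apply E'.val (algebraMap k' E' z) P).symm
      rw [h1]
      exact hP.symm
  refine place_of_gLevel C hclosed (fun S => ?_)
  obtain ⟨K, _, _, s', ι₀, hk, hfix, hF⟩ := hlev (S.image (fun x : E' => (x : M)))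
  let ι : E' →+* maxUnr k K := ι₀.comp (algebraMap E' M)
  refine exists_gLevel C S s'.isSection ι (fun c => hk c) (fun e σ => hfix e σ) ?_
  intro f₀
  obtain ⟨L, hL, hP, hdiv⟩ := hF {(f₀ : M), ζ}
  refine ⟨L, hL, ?_, ?_, ?_⟩
  · have h1 := hP X (f₀ : M) (Finset.mem_insert_self _ _)
    rw [aeval_X] at h1
    exact h1
  · intro c
    obtain ⟨P, rfl⟩ := C.genk c
    have h1 := hP P ζ (by simp)
    have h2 : ((aeval z P : k') : M) = aeval ζ P := (aeval_algHom_apply k'.val z P).symm
    rw [← h2] at h1
    exact h1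
  · intro f hf hf0
    obtain ⟨h1, h2⟩ := hdiv (f : M) (Finset.mem_image_of_mem _ hf) (fun h => hf0 (Subtype.ext h))
    exact ⟨h1, h2⟩

end core

section main

variable {p : ℕ} [Fact p.Prime] {k : Type u} [Field k] [Algebra ℚ_[p] k]
  [FiniteDimensional ℚ_[p] k]

/-- **Sections which lift to ramified covers are geometric.** -/
theorem isGeometric_of_lifts {E : Type v} [Field E] [Algebra k E] (hE : IsFunctionField k E)
    (s : Section k E)
    (hlift : ∀ S : Finset E, (∀ g ∈ S, g ≠ 0) →
      ∃ (K : Type w) (_ : Field K) (_ : Algebra k K) (_ : Algebra E K) (_ : IsScalarTower k E K)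
        (s' : Section k K), IsRamifiedOver p k K S ∧ s.LiftsTo s') : s.IsGeometric := by
  classical
  have hpp : p.Prime := Fact.out
  have hchar : CharZero k := charZero_of_injective_algebraMap (algebraMap ℚ_[p] k).injective
  have hcharE : CharZero E := charZero_of_injective_algebraMap (algebraMap k E).injective
  have hs := s.isSection
  obtain ⟨ζ₀, hζroot⟩ := IsAlgClosed.exists_root (cyclotomic p (AlgebraicClosure E))
    (degree_cyclotomic_pos p _ hpp.pos).ne'
  have hnz : NeZero ((p : ℕ) : AlgebraicClosure E) := ⟨by exact_mod_cast hpp.ne_zero⟩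
  have hζ₀ : IsPrimitiveRoot ζ₀ p := isRoot_cyclotomic_iff.1 hζroot
  have hint₀ : IsIntegral k ζ₀ :=
    isIntegral_of_pow' hpp.pos (by rw [hζ₀.pow_eq_one]; exact isIntegral_one)
  set ζ : maxUnr k E := ⟨ζ₀, mem_maxUnr_of_const _ hint₀⟩ with hζdef
  have hζ : IsPrimitiveRoot ζ p :=
    IsPrimitiveRoot.of_map_of_injective (f := (maxUnr k E).val) hζ₀ Subtype.val_injective
  have htower := tower_fixS (k := k) (K := E) (s := s.toHom)
  -- constants
  have hclosed : ∀ e : FixS s.toHom, IsIntegral k e →
      ∃ c, algebraMap k (FixS s.toHom) c = e := by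
    intro e he
    have B0 := base_top hs
    obtain ⟨c, hc⟩ := B0.ex (e : maxUnr k E)
      (he.map (Algebra.ofId (FixS s.toHom) (maxUnr k E) |>.restrictScalars k))
      (fun σ _ => (mem_fixS (s := s.toHom) _).1 e.2 σ)
    exact ⟨c, Subtype.ext hc⟩
  obtain ⟨V, hVk, hVres⟩ := geo_core (k := k) (F := FixS s.toHom) (M := maxUnr k E) hζ hclosed (by
    intro S
    set S₀ : Finset (AlgebraicClosure E) :=
      S.image (fun x : maxUnr k E => (x : AlgebraicClosure E)) with hS₀
    obtain ⟨K, _, _, _, _, s', hram, j, hj⟩ := hlift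
      (S₀.biUnion (fun x => (minpoly E x).coeffs)) (by
        intro g hg
        rw [Finset.mem_biUnion] at hg
        obtain ⟨x, -, hx⟩ := hg
        obtain ⟨n, hn, rfl⟩ := Polynomial.mem_coeffs_iff.1 hx
        exact mem_support_iff.1 hn)
    refine ⟨K, inferInstance, inferInstance, s', pushM k j, ?_, ?_, ?_⟩
    · intro c
      apply Subtype.ext
      show j (algebraMap k (AlgebraicClosure E) c) = algebraMap k (AlgebraicClosure K) c
      rw [IsScalarTower.algebraMap_apply k E (AlgebraicClosure E), AlgHom.commutes,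
        IsScalarTower.algebraMap_apply E K (AlgebraicClosure K),
        ← IsScalarTower.algebraMap_apply k E K, ← IsScalarTower.algebraMap_apply]
    · intro e σ
      exact fix_of_lift hj (e : maxUnr k E) e.2 σ
    · intro S₁
      obtain ⟨L, hL, hP, hdiv⟩ := exists_push_div j S₀ (by
        intro x hx
        obtain ⟨y, -, rfl⟩ := Finset.mem_image.1 hx
        exact y.2) _ hram (by
        intro x hx i
        by_cases h0 : (minpoly E x).coeff i = 0
        · exact Or.inl h0
        · right
          rw [Finset.mem_biUnion]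
          exact ⟨x, hx, coeff_mem_coeffs h0⟩) (S₁.image (fun x : maxUnr k E => (x : AlgebraicClosure E))) (by
        intro x hx
        obtain ⟨y, -, rfl⟩ := Finset.mem_image.1 hx
        exact y.2)
      refine ⟨L, hL, ?_, ?_⟩
      · intro P x hx
        have h1 := hP P (x : AlgebraicClosure E) (Finset.mem_image_of_mem _ hx)
        have h2 : ((aeval x P : maxUnr k E) : AlgebraicClosure E) =
            aeval (x : AlgebraicClosure E) P :=
          (aeval_algHom_apply (((maxUnr k E).val).restrictScalars k) x P).symm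
        rw [← h2] at h1
        exact h1
      · intro f hf hf0
        obtain ⟨h1, h2⟩ := hdiv (f : AlgebraicClosure E)
          (Finset.mem_image_of_mem _ hf) (fun h => hf0 (Subtype.ext h))
        exact ⟨h1, h2⟩)
  obtain ⟨W, hWV, hWs⟩ := exists_stable_val hs V hVk hVres
  refine ⟨W, ?_, ?_⟩
  · -- the rational place
    set V₀ := W.comap (algebraMap E (maxUnr k E)) with hV₀
    have hVk2 : ∀ c : k, algebraMap k E c ∈ V₀ := by
      intro c
      have h1 := hVk c
      rw [← hWV, ValuationSubring.mem_comap] at h1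
      rw [hV₀, ValuationSubring.mem_comap]
      exact h1
    have hres : ∀ f ∈ V₀, ∃ c : k, V₀.valuation (f - algebraMap k E c) < 1 := by
      intro f hf
      rw [hV₀, ValuationSubring.mem_comap] at hf
      have h1 : algebraMap E (FixS s.toHom) f ∈ V := by
        rw [← hWV, ValuationSubring.mem_comap]
        exact hf
      obtain ⟨c, hc⟩ := hVres _ h1
      refine ⟨c, ?_⟩
      rw [hV₀, (comap_isEquiv (F := E) W).lt_one_iff_lt_one, Valuation.comap_apply]
      rw [← hWV, (comap_isEquiv (F := FixS s.toHom) W).lt_one_iff_lt_one,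
        Valuation.comap_apply] at hc
      have h3 : algebraMap (FixS s.toHom) (maxUnr k E) (algebraMap E (FixS s.toHom) f -
          algebraMap k (FixS s.toHom) c) = algebraMap E (maxUnr k E) (f - algebraMap k E c) := by
        rw [map_sub, map_sub]
        rfl
      rw [← h3]
      exact hc
    have hVtop : V₀ ≠ ⊤ := by
      intro htop
      obtain ⟨t, ht, -⟩ := id hE
      obtain ⟨z, hz⟩ := hres t (by rw [htop]; exact ValuationSubring.mem_top _)
      have h0 : t - algebraMap k E z ≠ 0 := by
        intro h0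
        rw [sub_eq_zero.1 h0] at ht
        exact ht (isAlgebraic_algebraMap z)
      have h1 : V₀.valuation (t - algebraMap k E z)⁻¹ ≤ 1 :=
        (V₀.valuation_le_one_iff _).2 (by rw [htop]; exact ValuationSubring.mem_top _)
      have h2 : V₀.valuation (t - algebraMap k E z) * V₀.valuation (t - algebraMap k E z)⁻¹ = 1 := by
        rw [← map_mul, mul_inv_cancel₀ h0, map_one]
      exact absurd h2 (mul_lt_one_of_lt_of_le hz h1).ne
    exact ⟨⟨hVk2, hE.dvr V₀ hVk2 hVtop⟩, hres⟩
  · rintro σ x y ⟨x', hx', hy⟩ hx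
    have h1 : x' = x := Subtype.ext hx'
    rw [h1] at hy
    have h2 : s.toHom σ x = y := Subtype.ext hy
    rw [← h2]
    exact hWs σ x hx

end main

end P025H641
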