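import Vale.Agent.P025.H641.Comp

/-! # Lifts of sections; geometric sections -/

open IntermediateField Polynomial

namespace P025H641

universe u v w

section defs

variable {k : Type u} {E : Type v} {K : Type w} [Field k] [Field E] [Algebra k E]
  [Field K] [Algebra k K] [Algebra E K]

/-- the section `s'` of `K / k` lifts the section `s` of `E / k`: for some embedding `j` of the
algebraic closure of `E` in that of `K`, whenever `σ'` acts on constants as `σ`, `s' σ'` acts on
the maximal unramified extension of `E` as `s σ`. -/
def Section.LiftsTo (s : Section k E) (s' : Section k K) : Prop :=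
  ∃ j : AlgebraicClosure E →ₐ[E] AlgebraicClosure K,
    ∀ (σ : GalOf (constClosure k E)) (σ' : GalOf (constClosure k K)),
      (∀ x y, σ.Maps x y → σ'.Maps (j x) (j y)) →
        ∀ x y, (s.hom σ).Maps x y → (s'.hom σ').Maps (j x) (j y)

/-- the section `s` is geometric: its image stabilizes a valuation ring of the maximal unramified
extension which lies over a `k`-rational place of `E`. -/
def Section.IsGeometric (s : Section k E) : Prop :=
  ∃ W : ValuationSubring (maxUnr k E), IsRatPlace k E (W.comap (algebraMap E (maxUnr k E))) ∧
    ∀ (σ : GalOf (constClosure k E)) (x y : maxUnr k E), (s.hom σ).Maps x y → x ∈ W → y ∈ W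

end defs

section compat

variable {k : Type u} {E : Type v} {K : Type w} [Field k] [Field E] [Algebra k E]
  [Field K] [Algebra k K] [Algebra E K] [IsScalarTower k E K]

/-- every automorphism of the constants of `K` is compatible with one of the constants of `E` -/
lemma exists_compat (j : AlgebraicClosure E →ₐ[E] AlgebraicClosure K)
    (σ' : GalOf (constClosure k K)) : ∃ σ : GalOf (constClosure k E),
      ∀ x y, σ.Maps x y → σ'.Maps (j x) (j y) := by
  let jk : AlgebraicClosure E →ₐ[k] AlgebraicClosure K := j.restrictScalars k
  have hmem : ∀ x : constClosure k E, jk x ∈ constClosure k K := by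
    intro x
    have h1 : IsAlgebraic k (x : AlgebraicClosure E) := mem_algebraicClosure_iff.1 x.2
    exact mem_algebraicClosure_iff.2 (h1.algHom jk)
  let jC : constClosure k E →ₐ[k] constClosure k K :=
    (jk.comp (constClosure k E).val).codRestrict (constClosure k K).toSubalgebra hmem
  have hjC : ∀ x, ((jC x : constClosure k K) : AlgebraicClosure K) = j x := fun _ => rfl
  have hclosed : IsAlgClosed (constClosure k E) :=
    (inferInstance : IsAlgClosure k (constClosure k E)).isAlgClosed
  have hbij : Function.Bijective jC := by
    let _ : Algebra (constClosure k E) (constClosure k K) := jC.toRingHom.toAlgebra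
    have t1 : IsScalarTower k (constClosure k E) (constClosure k K) :=
      IsScalarTower.of_algebraMap_eq (fun x => (jC.commutes x).symm)
    have halg : Algebra.IsIntegral (constClosure k E) (constClosure k K) := by
      constructor
      intro x
      have h1 : IsAlgebraic k (x : AlgebraicClosure K) := mem_algebraicClosure_iff.1 x.2
      have h2 : IsIntegral k x := (isIntegral_algHom_iff (constClosure k K).val
        Subtype.val_injective).1 h1.isIntegral
      exact h2.tower_top
    exact IsAlgClosed.algebraMap_bijective_of_isIntegral
  let e : constClosure k E ≃ₐ[k] constClosure k K := AlgEquiv.ofBijective jC hbij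
  let σ'' : constClosure k K ≃ₐ[k] constClosure k K := σ'
  refine ⟨((e.trans σ'').trans e.symm : constClosure k E ≃ₐ[k] constClosure k E), ?_⟩
  rintro x y ⟨x', rfl, rfl⟩
  refine ⟨e x', rfl, ?_⟩
  have h1 : e (((e.trans σ'').trans e.symm) x') = σ'' (e x') := by simp
  have h2 := congrArg (fun z : constClosure k K => (z : AlgebraicClosure K)) h1
  exact h2.symm

end compat

section pass

variable {k : Type u} {E : Type v} {K : Type w} [Field k] [CharZero k] [Field E] [Algebra k E]
  [Field K] [Algebra k K] [Algebra E K] [IsScalarTower k E K]

/-- the induced map of maximal unramified extensions -/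
noncomputable def pushM (k : Type u) {E : Type v} {K : Type w} [Field k] [CharZero k] [Field E]
    [Algebra k E] [Field K] [Algebra k K] [Algebra E K] [IsScalarTower k E K]
    (j : AlgebraicClosure E →ₐ[E] AlgebraicClosure K) : maxUnr k E →+* maxUnr k K :=
  ((j : AlgebraicClosure E →+* AlgebraicClosure K).comp
    (algebraMap (maxUnr k E) (AlgebraicClosure E))).codRestrict
      (maxUnr k K).toSubfield.toSubring (fun x => push_mem j x.2)

lemma pushM_coe (j : AlgebraicClosure E →ₐ[E] AlgebraicClosure K) (x : maxUnr k E) :
    ((pushM k j x : maxUnr k K) : AlgebraicClosure K) = j x := rfl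

/-- the elements fixed by `s` are fixed by a lift of `s` -/
lemma fix_of_lift {s : Section k E} {s' : Section k K}
    {j : AlgebraicClosure E →ₐ[E] AlgebraicClosure K}
    (hj : ∀ (σ : GalOf (constClosure k E)) (σ' : GalOf (constClosure k K)),
      (∀ x y, σ.Maps x y → σ'.Maps (j x) (j y)) →
        ∀ x y, (s.hom σ).Maps x y → (s'.hom σ').Maps (j x) (j y))
    (x : maxUnr k E) (hx : x ∈ FixS s.toHom) (σ' : Gal(constClosure k K/k)) :
    s'.toHom σ' (pushM k j x) = pushM k j x := by
  obtain ⟨σ, hσ⟩ := exists_compat j σ'
  have h1 : (s.hom σ).Maps (x : AlgebraicClosure E) x := by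
    refine ⟨x, rfl, ?_⟩
    exact congrArg (fun z : maxUnr k E => (z : AlgebraicClosure E)) ((mem_fixS x).1 hx σ)
  obtain ⟨x', hx', h2⟩ := hj σ σ' hσ _ _ h1
  have h3 : x' = pushM k j x := Subtype.ext hx'
  rw [h3] at h2
  exact Subtype.ext h2

end pass

end P025H641
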