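import Vale.Agent.P025.H641.Arith

/-! # Moving the point away from a finite set -/

namespace P025H641

universe u

open Polynomial

section normed

variable {p : ℕ} [Fact p.Prime] {k : Type u} [NontriviallyNormedField k] [IsUltrametricDist k]
  [ProperSpace k] [Algebra ℚ_[p] k] (R : Ram k p)

lemma norm_natCast_p (hn : ∀ x : ℚ_[p], ‖algebraMap ℚ_[p] k x‖ = ‖x‖) :
    ‖(p : k)‖ = (p : ℝ)⁻¹ := by
  rw [← map_natCast (algebraMap ℚ_[p] k), hn, Padic.norm_p]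

include R in
/-- elements close to `1` are `p`-th powers -/
lemma Ram.near_one (hn : ∀ x : ℚ_[p], ‖algebraMap ℚ_[p] k x‖ = ‖x‖) (x : k)
    (hx : ‖x‖ ≤ ((p : ℝ) ^ 3)⁻¹) : ∃ y : k, 1 + x = y ^ p := by
  have hpp : p.Prime := Fact.out
  have hp3 : ‖(p : k) ^ 3‖ = ((p : ℝ) ^ 3)⁻¹ := by
    rw [norm_pow, norm_natCast_p hn, inv_pow]
  have hrel := R.e_rel
  have h1 : 1 * 1 ≤ (p - 1) * R.e :=
    Nat.mul_le_mul (by have := hpp.two_le; omega) R.pos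
  have h2 : R.e ≤ (p - 1) * R.e := Nat.le_mul_of_pos_left _ (by have := hpp.two_le; omega)
  have h3 : ‖x‖ ≤ ‖unif k‖ ^ (p * R.e + 1) := by
    refine hx.trans ?_
    rw [← hp3, R.p_eq, mul_pow, norm_mul, norm_pow, R.norm_ε, one_pow, one_mul, ← pow_mul,
      norm_pow]
    exact pow_le_pow_of_le_one (norm_nonneg _) unif_lt.le (by omega)
  obtain ⟨a, ha, h4⟩ := exists_of_norm_le _ _ h3
  obtain ⟨z, hz⟩ := R.high_level a ha
  exact ⟨z, by rw [h4, hz]⟩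

include R in
lemma Ram.clsm_near (hn : ∀ x : ℚ_[p], ‖algebraMap ℚ_[p] k x‖ = ‖x‖) (x δ : k) (hx : x ≠ 0)
    (hδ : ‖δ‖ ≤ ‖x‖ * ((p : ℝ) ^ 3)⁻¹) : x + δ ≠ 0 ∧ clsm p (x + δ) = clsm p x := by
  have hpp : p.Prime := Fact.out
  have hxn : 0 < ‖x‖ := norm_pos_iff.2 hx
  have hp3 : ((p : ℝ) ^ 3)⁻¹ < 1 := by
    apply inv_lt_one_of_one_lt₀
    exact one_lt_pow₀ (by exact_mod_cast hpp.one_lt) (by norm_num)
  have h1 : ‖δ / x‖ ≤ ((p : ℝ) ^ 3)⁻¹ := by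
    rw [norm_div, div_le_iff₀ hxn, mul_comm]
    exact hδ
  obtain ⟨y, hy⟩ := R.near_one hn _ h1
  have h2 : x + δ = x * (1 + δ / x) := by field_simp
  have h3 : ‖1 + δ / x‖ = 1 := norm_one_add (h1.trans_lt hp3)
  have h4 := ne_zero_of_norm h3
  refine ⟨by rw [h2]; exact mul_ne_zero hx h4, ?_⟩
  rw [h2, clsm_mul _ _ hx h4, (clsm_eq_zero hpp.ne_zero _ h4).2 ⟨y, hy⟩, add_zero]

include R in
/-- the point can be chosen away from `A` -/
lemma Ram.good (hn : ∀ x : ℚ_[p], ‖algebraMap ℚ_[p] k x‖ = ‖x‖) (r : ℕ) (A₀ A : Finset k)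
    (hb2 : ∀ a ∈ A₀, ∀ b ∈ A₀, a ≠ b → ((p : ℝ) ^ r)⁻¹ ≤ ‖a - b‖)
    (z0 : k) (hz0 : ∀ a ∈ A₀, z0 ≠ a) :
    ∃ z : k, (∀ a ∈ A₀, z ≠ a ∧ clsm p (z - a) = clsm p (z0 - a)) ∧
      ∀ b ∈ A, ((p : ℝ) ^ (r + 7 + A.card))⁻¹ < ‖z - b‖ := by
  classical
  have hpp : p.Prime := Fact.out
  have hpR : (1 : ℝ) < p := by exact_mod_cast hpp.one_lt
  have hpR0 : (0 : ℝ) < p := by linarith
  have hpk := norm_natCast_p (k := k) hn
  have hpj : ∀ j : ℕ, ‖(p : k) ^ j‖ = ((p : ℝ) ^ j)⁻¹ := fun j => by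
    rw [norm_pow, hpk, inv_pow]
  set L := R.loc with hL
  set e0 := (p - 1) * R.e with he0
  have hp2 := hpp.two_le
  have he01 : R.e ≤ e0 := Nat.le_mul_of_pos_left _ (by omega)
  have hpe : p - 1 ≤ e0 := Nat.le_mul_of_pos_right _ R.pos
  have hpπ : ∀ j : ℕ, ((p : ℝ) ^ j)⁻¹ = ‖unif k‖ ^ ((e0 * j : ℕ) : ℤ) := by
    intro j
    have h1 : (p : ℝ)⁻¹ = ‖unif k‖ ^ e0 := by
      rw [← hpk, R.p_eq, norm_mul, R.norm_ε, one_mul, norm_pow]
    rw [← inv_pow, h1, zpow_natCast, ← pow_mul]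
  have hposj : ∀ j : ℕ, (0 : ℝ) < ((p : ℝ) ^ j)⁻¹ := fun j => inv_pos.2 (pow_pos hpR0 j)
  -- step 1
  obtain ⟨z1, hz1, hz1v⟩ : ∃ z1 : k, (∀ a ∈ A₀, z1 ≠ a ∧ clsm p (z1 - a) = clsm p (z0 - a)) ∧
      ∀ a ∈ A₀, ((p : ℝ) ^ (r + 4))⁻¹ ≤ ‖z1 - a‖ := by
    by_cases hex : ∃ a1 ∈ A₀, ‖z0 - a1‖ < ((p : ℝ) ^ (r + 3))⁻¹
    · obtain ⟨a1, ha1, hlt⟩ := hex
      obtain ⟨δ, hδ0, hδc, hδ1, hδ2⟩ := L.exists_cls_val ((e0 * (r + 3) : ℕ) : ℤ)
        (clsm p (z0 - a1))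
      have hδn : ‖δ‖ ≤ ((p : ℝ) ^ (r + 3))⁻¹ := by
        rw [hpπ, norm_le_zpow_iff hδ0]
        exact hδ1
      have hr3 : ((p : ℝ) ^ (r + 3))⁻¹ = ((p : ℝ) ^ r)⁻¹ * ((p : ℝ) ^ 3)⁻¹ := by
        rw [pow_add, mul_inv]
      have key : ∀ a ∈ A₀, a ≠ a1 → ∀ η : k, ‖η‖ ≤ ((p : ℝ) ^ (r + 3))⁻¹ →
          a1 + η ≠ a ∧ clsm p (a1 + η - a) = clsm p (a1 - a) ∧ ‖a1 + η - a‖ = ‖a1 - a‖ := by
        intro a ha hne η hη
        have h1 : a1 - a ≠ 0 := sub_ne_zero.2 hne.symm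
        have h2 := hb2 a1 ha1 a ha hne.symm
        have h3 : ‖η‖ ≤ ‖a1 - a‖ * ((p : ℝ) ^ 3)⁻¹ := by
          refine hη.trans ?_
          rw [hr3]
          exact mul_le_mul_of_nonneg_right h2 (hposj 3).le
        have h4 := R.clsm_near hn _ _ h1 h3
        have e : a1 - a + η = a1 + η - a := by ring
        rw [e] at h4
        refine ⟨fun h => h4.1 (by rw [h, sub_self]), h4.2, ?_⟩
        have h5 : ‖η‖ < ‖a1 - a‖ := by
          refine hη.trans_lt (lt_of_lt_of_le ?_ h2)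
          rw [hr3]
          exact mul_lt_of_lt_one_right (hposj r)
            (inv_lt_one_of_one_lt₀ (one_lt_pow₀ hpR (by norm_num)))
        rw [← e, IsUltrametricDist.norm_add_eq_max_of_norm_ne_norm h5.ne']
        exact max_eq_left h5.le
      refine ⟨a1 + δ, ?_, ?_⟩
      · intro a ha
        by_cases hne : a = a1
        · rw [hne]
          refine ⟨fun h => hδ0 (by linear_combination h), ?_⟩
          rw [add_sub_cancel_left]
          exact hδc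
        · have h1 := key a ha hne δ hδn
          have h2 := key a ha hne (z0 - a1) hlt.le
          have e : a1 + (z0 - a1) - a = z0 - a := by ring
          rw [e] at h2
          exact ⟨h1.1, by rw [h1.2.1, ← h2.2.1]⟩
      · intro a ha
        by_cases hne : a = a1
        · rw [hne, add_sub_cancel_left, hpπ, zpow_le_norm_iff hδ0]
          have h1 : L.val δ < ((e0 * (r + 3) : ℕ) : ℤ) + p := hδ2
          have h2 : L.val δ = nval δ := rfl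
          have h3 : e0 * (r + 4) = e0 * (r + 3) + e0 := by ring
          rw [h2] at h1
          omega
        · rw [(key a ha hne δ hδn).2.2]
          refine le_trans ?_ (hb2 a1 ha1 a ha (Ne.symm hne))
          rw [inv_le_inv₀ (pow_pos hpR0 _) (pow_pos hpR0 _)]
          exact pow_le_pow_right₀ hpR.le (by omega)
    · push Not at hex
      refine ⟨z0, fun a ha => ⟨hz0 a ha, rfl⟩, fun a ha => le_trans ?_ (hex a ha)⟩
      rw [inv_le_inv₀ (pow_pos hpR0 _) (pow_pos hpR0 _)]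
      exact pow_le_pow_right₀ hpR.le (by omega)
  -- step 2
  have hmain : ∃ i ∈ Finset.range (A.card + 1), ∀ b ∈ A,
      ((p : ℝ) ^ (r + 7 + A.card))⁻¹ < ‖z1 + (p : k) ^ (r + 7 + i) - b‖ := by
    by_contra hcon
    push Not at hcon
    choose! f hf1 hf2 using hcon
    obtain ⟨i, hi, j, hj, hij, hfij⟩ := Finset.exists_ne_map_eq_of_card_lt_of_maps_to
      (s := Finset.range (A.card + 1)) (t := A) (f := f) (by simp) hf1
    have key : ∀ i j : ℕ, i ∈ Finset.range (A.card + 1) → j ∈ Finset.range (A.card + 1) →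
        i < j → f i = f j → False := by
      intro i j hi hj hij hfij
      have h1 := hf2 i hi
      have h2 := hf2 j hj
      rw [← hfij] at h2
      have h3 : ‖(p : k) ^ (r + 7 + i) - (p : k) ^ (r + 7 + j)‖ ≤
          ((p : ℝ) ^ (r + 7 + A.card))⁻¹ := by
        have e : (p : k) ^ (r + 7 + i) - (p : k) ^ (r + 7 + j) =
            (z1 + (p : k) ^ (r + 7 + i) - f i) - (z1 + (p : k) ^ (r + 7 + j) - f i) := by ring
        rw [e]
        exact (norm_sub_le_max _ _).trans (max_le h1 h2)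
      have h4 : ‖(p : k) ^ (r + 7 + j)‖ < ‖(p : k) ^ (r + 7 + i)‖ := by
        rw [hpj, hpj, inv_lt_inv₀ (pow_pos hpR0 _) (pow_pos hpR0 _)]
        exact pow_lt_pow_right₀ hpR (by omega)
      have h5 : ‖(p : k) ^ (r + 7 + i) - (p : k) ^ (r + 7 + j)‖ = ‖(p : k) ^ (r + 7 + i)‖ := by
        have h6 : ‖(p : k) ^ (r + 7 + i)‖ ≠ ‖-(p : k) ^ (r + 7 + j)‖ := by
          rw [norm_neg]; exact h4.ne'
        rw [sub_eq_add_neg, IsUltrametricDist.norm_add_eq_max_of_norm_ne_norm h6, norm_neg]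
        exact max_eq_left h4.le
      rw [h5, hpj, inv_le_inv₀ (pow_pos hpR0 _) (pow_pos hpR0 _)] at h3
      have h6 : (p : ℝ) ^ (r + 7 + i) < (p : ℝ) ^ (r + 7 + A.card) := by
        apply pow_lt_pow_right₀ hpR
        rw [Finset.mem_range] at hj
        omega
      exact absurd h3 (not_le.2 h6)
    rcases lt_or_gt_of_ne hij with h | h
    · exact key i j hi hj h hfij
    · exact key j i hj hi h hfij.symm
  obtain ⟨i, -, hi⟩ := hmain
  refine ⟨z1 + (p : k) ^ (r + 7 + i), fun a ha => ?_, hi⟩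
  obtain ⟨h1, h2⟩ := hz1 a ha
  have h3 : z1 - a ≠ 0 := sub_ne_zero.2 h1
  have h4 := R.clsm_near hn (z1 - a) ((p : k) ^ (r + 7 + i)) h3 (by
    rw [hpj]
    calc ((p : ℝ) ^ (r + 7 + i))⁻¹ ≤ ((p : ℝ) ^ (r + 4 + 3))⁻¹ := by
          rw [inv_le_inv₀ (pow_pos hpR0 _) (pow_pos hpR0 _)]
          exact pow_le_pow_right₀ hpR.le (by omega)
      _ = ((p : ℝ) ^ (r + 4))⁻¹ * ((p : ℝ) ^ 3)⁻¹ := by rw [pow_add, mul_inv]
      _ ≤ _ := mul_le_mul_of_nonneg_right (hz1v a ha) (hposj 3).le)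
  have e : z1 - a + (p : k) ^ (r + 7 + i) = z1 + (p : k) ^ (r + 7 + i) - a := by ring
  rw [e] at h4
  exact ⟨fun h => h4.1 (by rw [h, sub_self]), by rw [h4.2, h2]⟩

end normed

section padic

variable {p : ℕ} [Fact p.Prime] {k : Type u} [Field k] [Algebra ℚ_[p] k]
  [FiniteDimensional ℚ_[p] k]

/-- the point can be chosen away from `A`, with control on quotients -/
theorem good_padic {ζ : k} (hζ : IsPrimitiveRoot ζ p) (r : ℕ) (A₀ A : Finset k)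
    (hb2 : ∀ a ∈ A₀, ∀ b ∈ A₀, a ≠ b → ((p : ℝ) ^ r)⁻¹ ≤ spectralNorm ℚ_[p] k (a - b))
    (z0 : k) (hz0 : ∀ a ∈ A₀, z0 ≠ a) :
    ∃ z : k, (∀ a ∈ A₀, z ≠ a ∧ clsm p (z - a) = clsm p (z0 - a)) ∧
      ∀ b ∈ A, z ≠ b ∧ ∀ b' : k,
        spectralNorm ℚ_[p] k (b - b') ≤ ((p : ℝ) ^ (r + A.card + 10))⁻¹ →
          z ≠ b' ∧ ∃ g : k, g ≠ 0 ∧ g ^ p * (z - b') = z - b := by
  have hpp : p.Prime := Fact.out
  let inst1 : NontriviallyNormedField k := spectralNorm.nontriviallyNormedField ℚ_[p] k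
  have hu : IsUltrametricDist k :=
    IsUltrametricDist.isUltrametricDist_of_isNonarchimedean_norm isNonarchimedean_spectralNorm
  have hn : ∀ x : ℚ_[p], ‖algebraMap ℚ_[p] k x‖ = ‖x‖ := fun x => spectralNorm_extends x
  have hproper : ProperSpace k := by
    let _ : NormedAlgebra ℚ_[p] k := spectralNorm.normedAlgebra ℚ_[p] k
    exact FiniteDimensional.proper ℚ_[p] k
  have hpR : (1 : ℝ) < p := by exact_mod_cast hpp.one_lt
  have hpR0 : (0 : ℝ) < p := by linarith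
  have hpk := norm_natCast_p (k := k) hn
  have hpk1 : ‖(p : k)‖ < 1 := by
    rw [hpk]
    exact inv_lt_one_of_one_lt₀ hpR
  have hpk0 : (p : k) ≠ 0 := by
    rw [← norm_pos_iff, hpk, inv_pos]
    exact hpR0
  obtain ⟨R⟩ := exists_ram hpk1 hpk0 hζ
  obtain ⟨z, hz1, hz2⟩ := R.good hn r A₀ A hb2 z0 hz0
  refine ⟨z, hz1, fun b hb => ?_⟩
  have h1 := hz2 b hb
  have hpos : (0 : ℝ) < ((p : ℝ) ^ (r + 7 + A.card))⁻¹ := inv_pos.2 (pow_pos hpR0 _)
  have hzb : z - b ≠ 0 := norm_pos_iff.1 (hpos.trans h1)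
  refine ⟨sub_ne_zero.1 hzb, fun b' hb' => ?_⟩
  have h2 : ‖(b - b') / (z - b)‖ ≤ ((p : ℝ) ^ 3)⁻¹ := by
    rw [norm_div, div_le_iff₀ (norm_pos_iff.2 hzb)]
    calc ‖b - b'‖ ≤ ((p : ℝ) ^ (r + A.card + 10))⁻¹ := hb'
      _ = ((p : ℝ) ^ 3)⁻¹ * ((p : ℝ) ^ (r + 7 + A.card))⁻¹ := by
        rw [← mul_inv, ← pow_add]
        congr 2
        omega
      _ ≤ _ := mul_le_mul_of_nonneg_left h1.le (inv_nonneg.2 (pow_nonneg hpR0.le 3))
  obtain ⟨y, hy⟩ := R.near_one hn _ h2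
  have h3 : z - b' = (z - b) * y ^ p := by
    rw [← hy]
    field_simp
    ring
  have h4 : ‖1 + (b - b') / (z - b)‖ = 1 := norm_one_add (h2.trans_lt
    (inv_lt_one_of_one_lt₀ (one_lt_pow₀ hpR (by norm_num))))
  have hy0 : y ≠ 0 := by
    rintro rfl
    rw [zero_pow hpp.ne_zero] at hy
    rw [hy, norm_zero] at h4
    exact zero_ne_one h4
  have hyp : y ^ p ≠ 0 := pow_ne_zero p hy0
  refine ⟨fun h => ?_, y⁻¹, inv_ne_zero hy0, ?_⟩
  · have h5 : z - b' = 0 := by rw [h, sub_self]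
    rw [h3] at h5
    exact mul_ne_zero hzb hyp h5
  · rw [h3, inv_pow]
    field_simp

end padic

end P025H641
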