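import Mathlib

/-!
# Steinberg symbols over a local field: the abstract setting

`Loc p k V` collects the facts on the group `V` of nonzero elements of `k` modulo `p`-th powers
that are used below.
-/

namespace P025H641

universe u v

/-- Local field data: `cls` is the class map to `V = kˣ / (kˣ)^p`, `O` the valuation ring,
`π` a uniformizer, `E = p e / (p - 1)`. -/
structure Loc (p : ℕ) (k : Type u) (V : Type v) [Field k] [AddCommGroup V]
    [Module (ZMod p) V] where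
  cls : k → V
  cls_mul : ∀ x y, x ≠ 0 → y ≠ 0 → cls (x * y) = cls x + cls y
  cls_surj : ∀ v, ∃ x, x ≠ 0 ∧ cls x = v
  cls_eq_zero : ∀ x, x ≠ 0 → (cls x = 0 ↔ ∃ y, x = y ^ p)
  O : Subring k
  π : k
  π_ne : π ≠ 0
  val : k → ℤ
  val_mul : ∀ x y, x ≠ 0 → y ≠ 0 → val (x * y) = val x + val y
  val_π : val π = 1
  mem_O : ∀ x, x ≠ 0 → (x ∈ O ↔ 0 ≤ val x)
  E : ℕ
  two_le : 2 ≤ E
  dvd_E : p ∣ E
  θ : k → ZMod p
  θ_add : ∀ a ∈ O, ∀ b ∈ O, θ (a + b) = θ a + θ b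
  θ_one : ∃ a ∈ O, θ a = 1
  θ_π : ∀ a ∈ O, θ (π * a) = 0
  ω : V
  cls_E : ∀ a ∈ O, cls (1 + π ^ E * a) = θ a • ω
  cls_E_succ : ∀ a ∈ O, cls (1 + π ^ (E + 1) * a) = 0
  cls_dvd : ∀ j, 0 < j → j < E → p ∣ j → ∀ a ∈ O, ∃ b ∈ O,
    cls (1 + π ^ j * a) = cls (1 + π ^ (j + 1) * b)
  cls_unit : ∀ u, u ≠ 0 → val u = 0 → ∃ a ∈ O, cls u = cls (1 + π * a)

namespace Loc

variable {p : ℕ} {k : Type u} {V : Type v} [Field k] [AddCommGroup V] [Module (ZMod p) V]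
  (L : Loc p k V)

include L

lemma cls_one : L.cls 1 = 0 := by
  have h := L.cls_mul 1 1 one_ne_zero one_ne_zero
  rw [one_mul] at h
  have : L.cls 1 + 0 = L.cls 1 + L.cls 1 := by rw [add_zero]; exact h
  exact (add_left_cancel this).symm

lemma cls_inv (x : k) (hx : x ≠ 0) : L.cls x⁻¹ = - L.cls x := by
  have h := L.cls_mul x x⁻¹ hx (inv_ne_zero hx)
  rw [mul_inv_cancel₀ hx, L.cls_one] at h
  exact (neg_eq_of_add_eq_zero_right h.symm).symm

lemma cls_div (x y : k) (hx : x ≠ 0) (hy : y ≠ 0) : L.cls (x / y) = L.cls x - L.cls y := by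
  rw [div_eq_mul_inv, L.cls_mul x _ hx (inv_ne_zero hy), L.cls_inv y hy, sub_eq_add_neg]

lemma cls_pow (x : k) (hx : x ≠ 0) (n : ℕ) : L.cls (x ^ n) = n • L.cls x := by
  induction n with
  | zero => rw [pow_zero, L.cls_one, zero_smul]
  | succ n ih => rw [pow_succ, L.cls_mul _ _ (pow_ne_zero n hx) hx, ih, succ_nsmul]

lemma cls_zpow (x : k) (hx : x ≠ 0) (n : ℤ) : L.cls (x ^ n) = n • L.cls x := by
  cases n with
  | ofNat n => simpa using L.cls_pow x hx n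
  | negSucc n =>
    rw [zpow_negSucc, L.cls_inv _ (pow_ne_zero _ hx), L.cls_pow x hx, negSucc_zsmul]

lemma cls_neg (x : k) (hx : x ≠ 0) : L.cls (-x) = L.cls (-1) + L.cls x := by
  rw [← L.cls_mul _ _ (neg_ne_zero.2 one_ne_zero) hx, neg_one_mul]

lemma two_cls_neg_one : L.cls (-1) + L.cls (-1) = 0 := by
  rw [← L.cls_mul _ _ (neg_ne_zero.2 one_ne_zero) (neg_ne_zero.2 one_ne_zero)]
  rw [neg_mul_neg, one_mul, L.cls_one]

lemma val_one : L.val 1 = 0 := by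
  have h := L.val_mul 1 1 one_ne_zero one_ne_zero
  rw [one_mul] at h
  omega

lemma val_inv (x : k) (hx : x ≠ 0) : L.val x⁻¹ = - L.val x := by
  have h := L.val_mul x x⁻¹ hx (inv_ne_zero hx)
  rw [mul_inv_cancel₀ hx, L.val_one] at h
  omega

lemma val_div (x y : k) (hx : x ≠ 0) (hy : y ≠ 0) : L.val (x / y) = L.val x - L.val y := by
  rw [div_eq_mul_inv, L.val_mul x _ hx (inv_ne_zero hy), L.val_inv y hy, sub_eq_add_neg]

lemma val_neg (x : k) (hx : x ≠ 0) : L.val (-x) = L.val x := by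
  have h1 : L.val (-1) = 0 := by
    have h := L.val_mul (-1) (-1) (neg_ne_zero.2 one_ne_zero) (neg_ne_zero.2 one_ne_zero)
    rw [neg_mul_neg, one_mul, L.val_one] at h
    omega
  rw [← neg_one_mul, L.val_mul _ _ (neg_ne_zero.2 one_ne_zero) hx, h1, zero_add]

lemma val_pow (x : k) (hx : x ≠ 0) (n : ℕ) : L.val (x ^ n) = n * L.val x := by
  induction n with
  | zero => rw [pow_zero, L.val_one]; simp
  | succ n ih => rw [pow_succ, L.val_mul _ _ (pow_ne_zero n hx) hx, ih]; push_cast; ring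

lemma val_zpow (x : k) (hx : x ≠ 0) (n : ℤ) : L.val (x ^ n) = n * L.val x := by
  cases n with
  | ofNat n => simpa using L.val_pow x hx n
  | negSucc n =>
    rw [zpow_negSucc, L.val_inv _ (pow_ne_zero _ hx), L.val_pow x hx]
    rw [Int.negSucc_eq]; push_cast; ring

lemma val_π_zpow (n : ℤ) : L.val (L.π ^ n) = n := by
  rw [L.val_zpow _ L.π_ne, L.val_π, mul_one]

lemma val_π_pow (n : ℕ) : L.val (L.π ^ n) = n := by
  rw [L.val_pow _ L.π_ne, L.val_π, mul_one]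

lemma π_mem : L.π ∈ L.O := by
  rw [L.mem_O _ L.π_ne, L.val_π]; norm_num

lemma π_pow_mem (n : ℕ) : L.π ^ n ∈ L.O := L.O.pow_mem L.π_mem n

lemma mem_of_val (x : k) (hx : x ≠ 0) (h : 0 ≤ L.val x) : x ∈ L.O := (L.mem_O x hx).2 h

/-- `x` is divisible by `π ^ n` as soon as its value is at least `n`. -/
lemma exists_of_val (x : k) (hx : x ≠ 0) (n : ℕ) (h : n ≤ L.val x) :
    ∃ a ∈ L.O, x = L.π ^ n * a := by
  have hπ := pow_ne_zero n L.π_ne
  refine ⟨x / L.π ^ n, ?_, ?_⟩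
  · apply L.mem_of_val _ (div_ne_zero hx hπ)
    rw [L.val_div x _ hx hπ, L.val_π_pow]; omega
  · field_simp

lemma one_add_ne (j : ℕ) (hj : 0 < j) (a : k) (ha : a ∈ L.O) : 1 + L.π ^ j * a ≠ 0 := by
  intro h
  have h1 : L.π ^ j * a = -1 := by linear_combination h
  have ha0 : a ≠ 0 := by
    rintro rfl
    rw [mul_zero] at h1
    exact (neg_ne_zero.2 one_ne_zero) h1.symm
  have h2 := congrArg L.val h1
  rw [L.val_mul _ _ (pow_ne_zero j L.π_ne) ha0, L.val_π_pow, L.val_neg 1 one_ne_zero,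
    L.val_one] at h2
  have h3 := (L.mem_O a ha0).1 ha
  omega

lemma one_add_mem (j : ℕ) (a : k) (ha : a ∈ L.O) : 1 + L.π ^ j * a ∈ L.O :=
  L.O.add_mem L.O.one_mem (L.O.mul_mem (L.π_pow_mem j) ha)

/-- either divisible by `π` or a unit -/
lemma dvd_or_unit (a : k) (ha : a ∈ L.O) :
    (∃ b ∈ L.O, a = L.π * b) ∨ (a ≠ 0 ∧ L.val a = 0) := by
  by_cases h0 : a = 0
  · exact Or.inl ⟨0, L.O.zero_mem, by rw [h0, mul_zero]⟩
  have h1 := (L.mem_O a h0).1 ha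
  rcases h1.eq_or_lt with h2 | h2
  · exact Or.inr ⟨h0, h2.symm⟩
  · left
    obtain ⟨b, hb, h3⟩ := L.exists_of_val a h0 1 (by omega)
    exact ⟨b, hb, by rw [h3, pow_one]⟩

lemma val_one_add (j : ℕ) (hj : 0 < j) (a : k) (ha : a ∈ L.O) : L.val (1 + L.π ^ j * a) = 0 := by
  have h0 := L.one_add_ne j hj a ha
  rcases L.dvd_or_unit _ (L.one_add_mem j a ha) with ⟨b, hb, h⟩ | h
  · exfalso
    obtain ⟨i, rfl⟩ : ∃ i, j = i + 1 := ⟨j - 1, by omega⟩
    have h1 : 1 + L.π ^ 1 * (L.π ^ i * a - b) = 0 := by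
      linear_combination h
    exact L.one_add_ne 1 one_pos _ (L.O.sub_mem (L.O.mul_mem (L.π_pow_mem i) ha) hb) h1
  · exact h.2

lemma unit_inv_mem (a : k) (ha : a ≠ 0) (h : L.val a = 0) : a⁻¹ ∈ L.O := by
  apply L.mem_of_val _ (inv_ne_zero ha)
  rw [L.val_inv a ha, h]; rfl

lemma unit_mem (a : k) (ha : a ≠ 0) (h : L.val a = 0) : a ∈ L.O :=
  L.mem_of_val _ ha h.ge

/-- `(1 + π ^ j a)⁻¹ = 1 + π ^ j b` -/
lemma exists_inv_one_add (j : ℕ) (hj : 0 < j) (a : k) (ha : a ∈ L.O) :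
    ∃ b ∈ L.O, (1 + L.π ^ j * a)⁻¹ = 1 + L.π ^ j * b := by
  have h0 := L.one_add_ne j hj a ha
  have h1 := L.unit_inv_mem _ h0 (L.val_one_add j hj a ha)
  refine ⟨-(a * (1 + L.π ^ j * a)⁻¹), L.O.neg_mem (L.O.mul_mem ha h1), ?_⟩
  field_simp
  ring

/-- every nonzero element is a power of `π` times a unit -/
lemma exists_unit_mul (x : k) (hx : x ≠ 0) :
    ∃ u, u ≠ 0 ∧ L.val u = 0 ∧ x = L.π ^ L.val x * u := by
  have hπ : L.π ^ L.val x ≠ 0 := zpow_ne_zero _ L.π_ne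
  refine ⟨x / L.π ^ L.val x, div_ne_zero hx hπ, ?_, ?_⟩
  · rw [L.val_div x _ hx hπ, L.val_π_zpow]; omega
  · field_simp

lemma θ_zero : L.θ 0 = 0 := by
  have h := L.θ_π 0 L.O.zero_mem
  rwa [mul_zero] at h

lemma θ_neg (a : k) (ha : a ∈ L.O) : L.θ (-a) = - L.θ a := by
  have h := L.θ_add a ha (-a) (L.O.neg_mem ha)
  rw [add_neg_cancel, L.θ_zero] at h
  exact (neg_eq_of_add_eq_zero_right h.symm).symm

lemma θ_sub (a : k) (ha : a ∈ L.O) (b : k) (hb : b ∈ L.O) : L.θ (a - b) = L.θ a - L.θ b := by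
  rw [sub_eq_add_neg, L.θ_add a ha _ (L.O.neg_mem hb), L.θ_neg b hb, sub_eq_add_neg]

lemma θ_congr (a : k) (ha : a ∈ L.O) (b : k) (hb : b ∈ L.O) : L.θ (a + L.π * b) = L.θ a := by
  rw [L.θ_add a ha _ (L.O.mul_mem L.π_mem hb), L.θ_π b hb, add_zero]

/-- a unit `b` has a multiple with nonzero `θ` -/
lemma exists_θ_one (b : k) (hb : b ≠ 0) (hv : L.val b = 0) : ∃ a ∈ L.O, L.θ (b * a) = 1 := by
  obtain ⟨a, ha, h⟩ := L.θ_one
  refine ⟨b⁻¹ * a, L.O.mul_mem (L.unit_inv_mem b hb hv) ha, ?_⟩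
  rw [mul_inv_cancel_left₀ hb, h]

/-- if `θ (b a) = 0` for all `a` then `b` is divisible by `π` -/
lemma dvd_of_θ [Fact (1 < p)] (b : k) (hb : b ∈ L.O) (h : ∀ a ∈ L.O, L.θ (b * a) = 0) :
    ∃ c ∈ L.O, b = L.π * c := by
  rcases L.dvd_or_unit b hb with h1 | ⟨h1, h2⟩
  · exact h1
  · exfalso
    obtain ⟨a, ha, h3⟩ := L.exists_θ_one b h1 h2
    rw [h a ha] at h3
    exact zero_ne_one h3

lemma exists_ω : ∃ a ∈ L.O, L.cls (1 + L.π ^ L.E * a) = L.ω := by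
  obtain ⟨a, ha, h⟩ := L.θ_one
  exact ⟨a, ha, by rw [L.cls_E a ha, h, one_smul]⟩

/-- lowering the level -/
lemma cls_level (i j : ℕ) (h : i ≤ j) (a : k) (ha : a ∈ L.O) :
    ∃ b ∈ L.O, 1 + L.π ^ j * a = 1 + L.π ^ i * b := by
  refine ⟨L.π ^ (j - i) * a, L.O.mul_mem (L.π_pow_mem _) ha, ?_⟩
  rw [← mul_assoc, ← pow_add, Nat.add_sub_cancel' h]

/-- elements close to `y` have the class of `y` -/
lemma cls_congr (y a : k) (hy : y ≠ 0) (ha : a ∈ L.O) :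
    y * (1 + L.π ^ (L.E + 1) * a) ≠ 0 ∧ L.cls (y * (1 + L.π ^ (L.E + 1) * a)) = L.cls y := by
  have h := L.one_add_ne (L.E + 1) (by omega) a ha
  exact ⟨mul_ne_zero hy h, by rw [L.cls_mul _ _ hy h, L.cls_E_succ a ha, add_zero]⟩

end Loc

end P025H641
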