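import Vale.Agent.P025.H641.Theta
import Vale.Agent.P025.H641.Loc

/-! # The local field data of a locally compact ultrametric field -/

namespace P025H641

universe u

/-- the group of classes of nonzero elements modulo `p`-th powers -/
def Cl (p : ℕ) (k : Type u) [Field k] : Type u :=
  Additive (kˣ ⧸ (powMonoidHom p : kˣ →* kˣ).range)

noncomputable instance Cl.instAddCommGroup (p : ℕ) (k : Type u) [Field k] :
    AddCommGroup (Cl p k) :=
  inferInstanceAs (AddCommGroup (Additive (kˣ ⧸ (powMonoidHom p : kˣ →* kˣ).range)))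

/-- the class homomorphism -/
noncomputable def Cl.mk (p : ℕ) (k : Type u) [Field k] : Additive kˣ →+ Cl p k :=
  MonoidHom.toAdditive (QuotientGroup.mk' (powMonoidHom p : kˣ →* kˣ).range)

section cls

variable {p : ℕ} {k : Type u} [Field k]

lemma Cl.mk_surj (v : Cl p k) : ∃ u : kˣ, Cl.mk p k (Additive.ofMul u) = v := by
  obtain ⟨u, hu⟩ := QuotientGroup.mk'_surjective (powMonoidHom p : kˣ →* kˣ).range
    (Additive.toMul v)
  exact ⟨u, hu⟩

lemma Cl.mk_eq_zero (u : kˣ) : Cl.mk p k (Additive.ofMul u) = 0 ↔ ∃ w : kˣ, w ^ p = u :=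
  QuotientGroup.eq_one_iff u

lemma Cl.p_smul (x : Cl p k) : p • x = 0 := by
  obtain ⟨u, rfl⟩ := Cl.mk_surj x
  rw [← map_nsmul, ← ofMul_pow, Cl.mk_eq_zero]
  exact ⟨u, rfl⟩

noncomputable instance Cl.instModule : Module (ZMod p) (Cl p k) :=
  AddCommGroup.zmodModule Cl.p_smul

open Classical in
/-- the class map -/
noncomputable def clsm (p : ℕ) {k : Type u} [Field k] (x : k) : Cl p k :=
  if h : x ≠ 0 then Cl.mk p k (Additive.ofMul (Units.mk0 x h)) else 0

lemma clsm_eq (x : k) (h : x ≠ 0) :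
    clsm p x = Cl.mk p k (Additive.ofMul (Units.mk0 x h)) := by
  rw [clsm, dif_pos h]

lemma clsm_mul (x y : k) (hx : x ≠ 0) (hy : y ≠ 0) : clsm p (x * y) = clsm p x + clsm p y := by
  rw [clsm_eq x hx, clsm_eq y hy, clsm_eq _ (mul_ne_zero hx hy), ← map_add, ← ofMul_mul,
    Units.mk0_mul]

lemma clsm_surj (v : Cl p k) : ∃ x, x ≠ 0 ∧ clsm p x = v := by
  obtain ⟨u, rfl⟩ := Cl.mk_surj v
  refine ⟨u, u.ne_zero, ?_⟩
  rw [clsm_eq _ u.ne_zero, Units.mk0_val]

lemma clsm_eq_zero (hp : p ≠ 0) (x : k) (hx : x ≠ 0) : clsm p x = 0 ↔ ∃ y, x = y ^ p := by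
  rw [clsm_eq x hx, Cl.mk_eq_zero]
  constructor
  · rintro ⟨u, hu⟩
    refine ⟨u, ?_⟩
    have h1 := congrArg (fun z : kˣ => (z : k)) hu
    simpa using h1.symm
  · rintro ⟨y, hy⟩
    have hy0 : y ≠ 0 := by
      rintro rfl
      rw [zero_pow hp] at hy
      exact hx hy
    refine ⟨Units.mk0 y hy0, ?_⟩
    apply Units.ext
    simpa using hy.symm

lemma clsm_pow (hp : p ≠ 0) (y : k) (hy : y ≠ 0) : clsm p (y ^ p) = 0 :=
  (clsm_eq_zero hp _ (pow_ne_zero p hy)).2 ⟨y, rfl⟩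

end cls

section

variable {k : Type u} [NontriviallyNormedField k] [IsUltrametricDist k] [ProperSpace k]
  {p : ℕ} [Fact p.Prime] (R : Ram k p)

lemma ne_zero_of_norm {x : k} (h : ‖x‖ = 1) : x ≠ 0 := by
  rintro rfl; rw [norm_zero] at h; exact zero_ne_one h

lemma Ram.clsm_high (R : Ram k p) (a : k) (ha : ‖a‖ ≤ 1) :
    clsm p (1 + unif k ^ (p * R.e + 1) * a) = 0 := by
  obtain ⟨z, hz⟩ := R.high_level a ha
  exact (clsm_eq_zero (Fact.out : p.Prime).ne_zero _
    (ne_zero_of_norm (one_add_norm _ (by omega) a ha))).2 ⟨z, hz⟩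

/-- the class of a product with a principal unit of high level -/
lemma Ram.clsm_mul_high (R : Ram k p) (y a : k) (hy : y ≠ 0) (ha : ‖a‖ ≤ 1) :
    clsm p (y * (1 + unif k ^ (p * R.e + 1) * a)) = clsm p y := by
  rw [clsm_mul _ _ hy (ne_zero_of_norm (one_add_norm _ (by omega) a ha)), R.clsm_high a ha,
    add_zero]

/-- additivity at the top level -/
lemma Ram.top_add (R : Ram k p) (a b : k) (ha : ‖a‖ ≤ 1) (hb : ‖b‖ ≤ 1) :
    clsm p (1 + unif k ^ (p * R.e) * (a + b)) =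
      clsm p (1 + unif k ^ (p * R.e) * a) + clsm p (1 + unif k ^ (p * R.e) * b) := by
  have hE : 0 < p * R.e := Nat.mul_pos (Fact.out : p.Prime).pos R.pos
  have hab := norm_add_le_one ha hb
  have h1 := one_add_norm _ hE _ hab
  have ha1 := one_add_norm _ hE _ ha
  have hb1 := one_add_norm _ hE _ hb
  obtain ⟨m, hm⟩ : ∃ m, p * R.e = m + 1 := ⟨p * R.e - 1, by omega⟩
  obtain ⟨c, hc, h2⟩ := exists_quot
    ((1 + unif k ^ (p * R.e) * a) * (1 + unif k ^ (p * R.e) * b)) _ h1 (p * R.e + 1)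
    (unif k ^ m * (a * b)) ((unif_pow_norm m _ (norm_mul_le_one ha hb)).trans (unif_pow_le_one m))
    (by
      have : unif k ^ (p * R.e + 1) * unif k ^ m = unif k ^ (p * R.e) * unif k ^ (p * R.e) := by
        rw [← pow_add, ← pow_add]; congr 1; omega
      linear_combination -(a * b) * this)
  rw [← clsm_mul _ _ (ne_zero_of_norm ha1) (ne_zero_of_norm hb1), h2,
    R.clsm_mul_high _ _ (ne_zero_of_norm h1) hc]

/-- a choice of the functional -/
noncomputable def Ram.τ (R : Ram k p) : kap k → ZMod p := R.exists_τ.choose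

lemma Ram.τ_add (R : Ram k p) (a b : kap k) : R.τ (a + b) = R.τ a + R.τ b :=
  R.exists_τ.choose_spec.1 a b

lemma Ram.τ_one (R : Ram k p) : ∃ a : k, ‖a‖ ≤ 1 ∧ R.τ (rs a) = 1 := by
  obtain ⟨v, hv⟩ := R.exists_τ.choose_spec.2.1
  obtain ⟨a, ha, rfl⟩ := rs_surj v
  exact ⟨a, ha, hv⟩

lemma Ram.τ_ker (R : Ram k p) (x : kap k) (hx : R.τ x = 0) : ∃ y, x = y ^ p + rs R.ε * y :=
  R.exists_τ.choose_spec.2.2.1 x hx

lemma Ram.τ_ker' (R : Ram k p) (y : kap k) : R.τ (y ^ p + rs R.ε * y) = 0 :=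
  R.exists_τ.choose_spec.2.2.2 y

lemma Ram.τ_zero (R : Ram k p) : R.τ 0 = 0 := by
  have h := R.τ_add 0 0
  rw [add_zero] at h
  exact left_eq_add.1 h

/-- an element with `τ = 1` -/
noncomputable def Ram.a1 (R : Ram k p) : k := R.τ_one.choose

lemma Ram.a1_norm (R : Ram k p) : ‖R.a1‖ ≤ 1 := R.τ_one.choose_spec.1

lemma Ram.a1_τ (R : Ram k p) : R.τ (rs R.a1) = 1 := R.τ_one.choose_spec.2

/-- the unramified class -/
noncomputable def Ram.ω (R : Ram k p) : Cl p k := clsm p (1 + unif k ^ (p * R.e) * R.a1)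

lemma rs_close (a : k) (ha : ‖a‖ ≤ 1) (b : k) (hb : ‖b‖ ≤ 1) (h : rs a = rs b) :
    ∃ d : k, ‖d‖ ≤ 1 ∧ a = b + unif k * d := by
  have h1 : rs (a - b) = 0 := by
    have h2 := rs_add (a - b) b (norm_sub_le_one ha hb) hb
    rw [sub_add_cancel, h] at h2
    exact right_eq_add.1 h2
  rw [rs_eq_zero_iff _ (norm_sub_le_one ha hb)] at h1
  obtain ⟨d, hd, h2⟩ := exists_of_norm_lt _ h1
  exact ⟨d, hd, by rw [← h2]; ring⟩

lemma Ram.top_zero (R : Ram k p) (a : k) (ha : ‖a‖ ≤ 1) (h : R.τ (rs a) = 0) :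
    clsm p (1 + unif k ^ (p * R.e) * a) = 0 := by
  have hpp : p.Prime := Fact.out
  have hE : 0 < p * R.e := Nat.mul_pos hpp.pos R.pos
  obtain ⟨v, hv⟩ := R.τ_ker _ h
  obtain ⟨y, hy, rfl⟩ := rs_surj v
  have hεy := norm_mul_le_one R.norm_ε.le hy
  have hyp := norm_pow_le_one hy p
  rw [← rs_pow y hy, ← rs_mul _ _ R.norm_ε.le hy, ← rs_add _ _ hyp hεy] at hv
  obtain ⟨d, hd, h1⟩ := rs_close _ ha _ (norm_add_le_one hyp hεy) hv
  obtain ⟨r, hr, h2⟩ := R.as_level y hy
  have hz := one_add_norm _ R.pos y hy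
  have hzp : ‖(1 + unif k ^ R.e * y) ^ p‖ = 1 := by rw [norm_pow, hz, one_pow]
  obtain ⟨m, hm⟩ : ∃ m, R.e = m + 1 := ⟨R.e - 1, by have := R.pos; omega⟩
  obtain ⟨c, hc, h3⟩ := exists_quot (1 + unif k ^ (p * R.e) * a) _ hzp (p * R.e + 1)
    (d - unif k ^ m * r) (norm_sub_le_one hd ((unif_pow_norm m r hr).trans (unif_pow_le_one m)))
    (by
      rw [h2, h1]
      have : unif k ^ R.e = unif k * unif k ^ m := by rw [← pow_succ']; congr 1
      rw [this, pow_succ]
      ring)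
  rw [h3, R.clsm_mul_high _ _ (pow_ne_zero _ (ne_zero_of_norm hz)) hc,
    clsm_pow hpp.ne_zero _ (ne_zero_of_norm hz)]

lemma Ram.τ_nsmul (R : Ram k p) (a : k) (ha : ‖a‖ ≤ 1) (n : ℕ) :
    ‖(n : k) * a‖ ≤ 1 ∧ R.τ (rs (n * a)) = n * R.τ (rs a) ∧
      clsm p (1 + unif k ^ (p * R.e) * (n * a)) = n • clsm p (1 + unif k ^ (p * R.e) * a) := by
  induction n with
  | zero =>
    have h0 : rs (0 : k) = 0 := (rs_eq_zero_iff 0 (by simp)).2 (by simp)
    have h1 : clsm p (1 : k) = 0 :=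
      (clsm_eq_zero (Fact.out : p.Prime).ne_zero 1 one_ne_zero).2 ⟨1, by rw [one_pow]⟩
    simp [h0, R.τ_zero, h1]
  | succ n ih =>
    obtain ⟨h1, h2, h3⟩ := ih
    have e : ((n + 1 : ℕ) : k) * a = n * a + a := by push_cast; ring
    rw [e]
    refine ⟨norm_add_le_one h1 ha, ?_, ?_⟩
    · rw [rs_add _ _ h1 ha, R.τ_add, h2]; push_cast; ring
    · rw [R.top_add _ _ h1 ha, h3, succ_nsmul]

lemma Ram.cls_top (R : Ram k p) (a : k) (ha : ‖a‖ ≤ 1) :
    clsm p (1 + unif k ^ (p * R.e) * a) = R.τ (rs a) • R.ω := by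
  set n := (R.τ (rs a)).val with hn
  have hn' : (n : ZMod p) = R.τ (rs a) := by rw [hn, ZMod.natCast_zmod_val]
  obtain ⟨h1, h2, h3⟩ := R.τ_nsmul R.a1 R.a1_norm n
  rw [R.a1_τ, mul_one, hn'] at h2
  have h4 := norm_sub_le_one ha h1
  have h5 : R.τ (rs (a - n * R.a1)) = 0 := by
    have h6 := rs_add (a - n * R.a1) (n * R.a1) h4 h1
    rw [sub_add_cancel] at h6
    have h7 := congrArg R.τ h6
    rw [R.τ_add, h2] at h7
    exact right_eq_add.1 h7
  have h6 := R.top_add _ _ h4 h1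
  rw [sub_add_cancel, R.top_zero _ h4 h5, zero_add, h3] at h6
  rw [h6, ← hn', Nat.cast_smul_eq_nsmul]
  rfl

/-- **The local field data.** -/
noncomputable def Ram.loc (R : Ram k p) : Loc p k (Cl p k) where
  cls := clsm p
  cls_mul := clsm_mul
  cls_surj := clsm_surj
  cls_eq_zero := clsm_eq_zero (Fact.out : p.Prime).ne_zero
  O := (vring k).toSubring
  π := unif k
  π_ne := unif_ne
  val := nval
  val_mul := nval_mul
  val_π := nval_unif
  mem_O := fun x hx => by
    rw [ValuationSubring.mem_toSubring, mem_vring]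
    exact norm_le_one_iff x hx
  E := p * R.e
  two_le := by
    have h1 := (Fact.out : p.Prime).two_le
    have h2 := R.pos
    calc 2 = 2 * 1 := rfl
      _ ≤ p * R.e := Nat.mul_le_mul h1 h2
  dvd_E := Dvd.intro _ rfl
  θ := fun a => R.τ (rs a)
  θ_add := fun a ha b hb => by
    rw [ValuationSubring.mem_toSubring, mem_vring] at ha hb
    rw [rs_add a b ha hb, R.τ_add]
  θ_one := ⟨R.a1, by rw [ValuationSubring.mem_toSubring, mem_vring]; exact R.a1_norm, R.a1_τ⟩
  θ_π := fun a ha => by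
    rw [ValuationSubring.mem_toSubring, mem_vring] at ha
    have h := unif_mul_norm 1 one_pos a ha
    rw [pow_one] at h
    rw [(rs_eq_zero_iff _ h.le).2 h, R.τ_zero]
  ω := R.ω
  cls_E := fun a ha => by
    rw [ValuationSubring.mem_toSubring, mem_vring] at ha
    exact R.cls_top a ha
  cls_E_succ := fun a ha => by
    rw [ValuationSubring.mem_toSubring, mem_vring] at ha
    exact R.clsm_high a ha
  cls_dvd := fun j hj hjE hpj a ha => by
    rw [ValuationSubring.mem_toSubring, mem_vring] at ha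
    obtain ⟨i, rfl⟩ := hpj
    have hp := (Fact.out : p.Prime).pos
    have hi : 0 < i := Nat.pos_of_mul_pos_left hj
    have hie : i < R.e := Nat.lt_of_mul_lt_mul_left hjE
    obtain ⟨b, c, hb, hc, h⟩ := R.level_dvd i hi hie a ha
    refine ⟨c, by rw [ValuationSubring.mem_toSubring, mem_vring]; exact hc, ?_⟩
    have h1 := ne_zero_of_norm (one_add_norm i hi b hb)
    rw [h, clsm_mul _ _ (pow_ne_zero _ h1) (ne_zero_of_norm (one_add_norm _ (by omega) c hc)),
      clsm_pow (Fact.out : p.Prime).ne_zero _ h1, zero_add]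
  cls_unit := fun u hu hv => by
    have h1 := (nval_eq_zero_iff u hu).1 hv
    obtain ⟨y, hy, h2⟩ := exists_root_mod R.norm_p u h1.le
    have hy1 : ‖y ^ p‖ = 1 := by
      have h3 : ‖u‖ ≠ ‖y ^ p - u‖ := by rw [h1]; exact h2.ne'
      have h4 := IsUltrametricDist.norm_add_eq_max_of_norm_ne_norm h3
      rw [add_sub_cancel, h1, max_eq_left h2.le] at h4
      exact h4
    obtain ⟨d, hd, h3⟩ := exists_of_norm_lt _ h2
    obtain ⟨c, hc, h4⟩ := exists_quot u _ hy1 1 (-d) (by rw [norm_neg]; exact hd)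
      (by rw [pow_one]; linear_combination -h3)
    have hy0 : y ≠ 0 := by
      rintro rfl
      rw [zero_pow (Fact.out : p.Prime).ne_zero, norm_zero] at hy1
      exact zero_ne_one hy1
    refine ⟨c, by rw [ValuationSubring.mem_toSubring, mem_vring]; exact hc, ?_⟩
    rw [pow_one] at h4
    have h5 := one_add_norm 1 one_pos c hc
    rw [pow_one] at h5
    rw [h4, clsm_mul _ _ (pow_ne_zero _ hy0) (ne_zero_of_norm h5),
      clsm_pow (Fact.out : p.Prime).ne_zero _ hy0, zero_add]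

/-- there are finitely many classes -/
lemma Ram.finite_Cl (R : Ram k p) : Finite (Cl p k) := by
  classical
  set L := R.loc with hL
  obtain ⟨T, hT⟩ := finite_residues (k := k) (p * R.e + 1)
  have h : Function.Surjective (fun x : Fin p × T =>
      (x.1 : ℕ) • clsm p (unif k) + clsm p (x.2 : k)) := by
    intro v
    obtain ⟨x, hx, rfl⟩ := clsm_surj v
    obtain ⟨u, hu, hv, h1⟩ := L.exists_unit_mul x hx
    have hu1 : ‖u‖ = 1 := (nval_eq_zero_iff u hu).1 hv
    obtain ⟨t, ht, ht1, a, ha, h2⟩ := hT u hu1.le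
    have ht2 : ‖t‖ = 1 := by
      have h3 := unif_mul_norm (p * R.e + 1) (by omega) a ha
      have h4 : ‖u‖ ≠ ‖-(unif k ^ (p * R.e + 1) * a)‖ := by
        rw [norm_neg, hu1]; exact h3.ne'
      have h5 := IsUltrametricDist.norm_add_eq_max_of_norm_ne_norm h4
      rw [norm_neg, hu1, max_eq_left h3.le] at h5
      have h6 : u + -(unif k ^ (p * R.e + 1) * a) = t := by rw [h2]; ring
      rwa [h6] at h5
    obtain ⟨c, hc, h3⟩ := exists_quot u t ht2 (p * R.e + 1) a ha (by rw [h2]; ring)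
    have h4 : clsm p u = clsm p t := by
      rw [h3]; exact R.clsm_mul_high t c (ne_zero_of_norm ht2) hc
    have hp0 : (0 : ℤ) < p := by exact_mod_cast (Fact.out : p.Prime).pos
    set n := L.val x with hn
    have h5 := Int.emod_nonneg n hp0.ne'
    have h6 := Int.emod_lt_of_pos n hp0
    refine ⟨⟨⟨(n % p).toNat, by omega⟩, ⟨t, ht⟩⟩, ?_⟩
    simp only
    have h7 : clsm p x = n • clsm p (unif k) + clsm p u := by
      rw [h1]
      have := L.cls_mul (L.π ^ n) u (zpow_ne_zero _ L.π_ne) hu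
      rw [L.cls_zpow _ L.π_ne] at this
      exact this
    rw [h7, h4]
    congr 1
    have h8 : n = (p : ℤ) * (n / p) + n % p := (Int.mul_ediv_add_emod n p).symm
    have h9 : ((n % p).toNat : ℤ) = n % p := Int.toNat_of_nonneg h5
    rw [← natCast_zsmul, h9]
    conv_rhs => rw [h8, add_smul, mul_comm, mul_smul, natCast_zsmul, Cl.p_smul, smul_zero, zero_add]
  exact Finite.of_surjective _ h

end

end P025H641
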