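import Vale.Agent.P025.H641.Tower

/-! # Kummer theory for closed subgroups -/

open IntermediateField

namespace P025H641

universe u v w

section kummer

variable {k : Type u} {L : Type v} [Field k] [Field L] [Algebra k L] [IsGalois k L]

/-- Kummer theory of prime degree for closed subgroups of an infinite Galois group -/
lemma kummer_p {p : ℕ} [Fact p.Prime] (H N : Subgroup Gal(L/k)) (hN : IsClosed (N : Set Gal(L/k)))
    (χ : Gal(L/k) → ZMod p) (hχ : ∀ σ ∈ H, ∀ τ ∈ H, χ (σ * τ) = χ σ + χ τ)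
    (hNH : ∀ σ, σ ∈ N ↔ σ ∈ H ∧ χ σ = 0) (ζ : L) (hζ : IsPrimitiveRoot ζ p)
    (hζH : ∀ σ ∈ H, σ ζ = ζ) :
    ∃ l : L, l ≠ 0 ∧ ∀ σ ∈ H, σ l = ζ ^ (χ σ).val * l := by
  classical
  have hpp : p.Prime := Fact.out
  by_cases hall : ∀ σ ∈ H, χ σ = 0
  · exact ⟨1, one_ne_zero, fun σ hσ => by rw [hall σ hσ, ZMod.val_zero, pow_zero, one_mul, map_one]⟩
  push Not at hall
  obtain ⟨τ, hτH, hτ0⟩ := hall
  have hχ1 : χ 1 = 0 := by
    have h := hχ 1 H.one_mem 1 H.one_mem
    rw [mul_one] at h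
    exact left_eq_add.1 h
  have hχpow : ∀ σ ∈ H, ∀ n : ℕ, χ (σ ^ n) = n * χ σ := by
    intro σ hσ n
    induction n with
    | zero => rw [pow_zero, hχ1]; simp
    | succ n ih => rw [pow_succ, hχ _ (H.pow_mem hσ n) _ hσ, ih]; push_cast; ring
  have hχinv : ∀ σ ∈ H, χ σ⁻¹ = - χ σ := by
    intro σ hσ
    have h := hχ σ hσ σ⁻¹ (H.inv_mem hσ)
    rw [mul_inv_cancel, hχ1] at h
    exact (neg_eq_of_add_eq_zero_right h.symm).symm
  set c := χ τ with hc
  set ξ := ζ ^ c.val with hξ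
  have hcv : c.val ≠ 0 := by
    rw [Ne, ZMod.val_eq_zero]; exact hτ0
  have hζ0 : ζ ≠ 0 := hζ.ne_zero hpp.ne_zero
  have hξ0 : ξ ≠ 0 := pow_ne_zero _ hζ0
  have hξp : ξ ^ p = 1 := by rw [hξ, ← pow_mul, mul_comm, pow_mul, hζ.pow_eq_one, one_pow]
  have hξH : ∀ σ ∈ H, σ ξ = ξ := fun σ hσ => by rw [hξ, map_pow, hζH σ hσ]
  -- the fixed field of `N`
  set F := IntermediateField.fixedField N with hF
  have hfixN : ∀ σ : Gal(L/k), (∀ x ∈ F, σ x = x) → σ ∈ N := by
    intro σ hσ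
    have h1 := InfiniteGalois.fixingSubgroup_fixedField (⟨N, hN⟩ : ClosedSubgroup Gal(L/k))
    have h2 : σ ∈ (IntermediateField.fixedField N).fixingSubgroup := by
      rw [IntermediateField.mem_fixingSubgroup_iff]
      exact hσ
    have h3 : (IntermediateField.fixedField N).fixingSubgroup = N := h1
    rw [h3] at h2
    exact h2
  have hmemF : ∀ x ∈ F, ∀ n ∈ N, n x = x := fun x hx n hn =>
    (IntermediateField.mem_fixedField_iff N x).1 hx n hn
  -- the Lagrange resolvent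
  have hex : ∃ μ ∈ F, ∑ i ∈ Finset.range p, (ξ⁻¹) ^ i * (τ ^ i) μ ≠ 0 := by
    by_contra hcon
    push Not at hcon
    let f : Fin p → (F →* L) := fun i =>
      (((τ ^ (i : ℕ) : Gal(L/k)) : L ≃ₐ[k] L) : L →* L).comp (F.val : F →* L)
    have hf : ∀ i x, f i x = (τ ^ (i : ℕ)) (x : L) := fun i x => rfl
    have hinj : Function.Injective f := by
      have key : ∀ i j : Fin p, i < j → f i ≠ f j := by
        intro i j hij h
        have h1 : ((τ ^ (i : ℕ))⁻¹ * τ ^ (j : ℕ)) ∈ N := by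
          apply hfixN
          intro x hx
          have h2 : (τ ^ (i : ℕ)) x = (τ ^ (j : ℕ)) x := by
            have := congrArg (fun g : F →* L => g ⟨x, hx⟩) h
            exact this
          rw [AlgEquiv.mul_apply, ← h2, ← AlgEquiv.mul_apply, inv_mul_cancel, AlgEquiv.one_apply]
        have h2 := ((hNH _).1 h1).2
        rw [hχ _ (H.inv_mem (H.pow_mem hτH _)) _ (H.pow_mem hτH _), hχinv _ (H.pow_mem hτH _),
          hχpow τ hτH, hχpow τ hτH] at h2
        have h3 : ((j : ℕ) : ZMod p) - ((i : ℕ) : ZMod p) = 0 := by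
          have h4 : (((j : ℕ) : ZMod p) - ((i : ℕ) : ZMod p)) * c = 0 := by linear_combination h2
          exact (mul_eq_zero.1 h4).resolve_right hτ0
        rw [← Nat.cast_sub (by exact_mod_cast hij.le), ZMod.natCast_eq_zero_iff] at h3
        have h5 := Nat.le_of_dvd (by have : (i : ℕ) < j := hij; omega) h3
        have := j.2
        omega
      intro i j h
      rcases lt_trichotomy i j with h1 | h1 | h1
      · exact absurd h (key i j h1)
      · exact h1
      · exact absurd h.symm (key j i h1)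
    have hli := (linearIndependent_monoidHom F L).comp f hinj
    rw [Fintype.linearIndependent_iff] at hli
    have h1 := hli (fun i => (ξ⁻¹) ^ (i : ℕ)) (by
      funext x
      have h2 := hcon x x.2
      rw [← Fin.sum_univ_eq_sum_range (fun i => (ξ⁻¹) ^ i * (τ ^ i) (x : L))] at h2
      simpa [Finset.sum_apply, hf] using h2) ⟨0, hpp.pos⟩
    simp at h1
  obtain ⟨μ, hμF, hμ⟩ := hex
  set l := ∑ i ∈ Finset.range p, (ξ⁻¹) ^ i * (τ ^ i) μ with hl
  have hτp : τ ^ p ∈ N := by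
    rw [hNH, hχpow τ hτH]
    exact ⟨H.pow_mem hτH p, by simp⟩
  have hτl : τ l = ξ * l := by
    obtain ⟨m, hm⟩ : ∃ m, p = m + 1 := ⟨p - 1, by have := hpp.pos; omega⟩
    have h1 : τ l = ξ * ∑ i ∈ Finset.range p, (ξ⁻¹) ^ (i + 1) * (τ ^ (i + 1)) μ := by
      rw [hl, map_sum, Finset.mul_sum]
      refine Finset.sum_congr rfl (fun i _ => ?_)
      rw [map_mul, map_pow, map_inv₀, hξH τ hτH, ← AlgEquiv.mul_apply, ← pow_succ', pow_succ ξ⁻¹ i]
      field_simp
    rw [h1]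
    congr 1
    have h2 : (ξ⁻¹) ^ p * (τ ^ p) μ = (ξ⁻¹) ^ 0 * (τ ^ 0) μ := by
      rw [inv_pow, hξp, inv_one, one_mul, pow_zero, pow_zero, one_mul, hmemF μ hμF _ hτp]
      rfl
    rw [hl, hm, Finset.sum_range_succ, Finset.sum_range_succ', ← hm, h2]
  have hτjl : ∀ j : ℕ, (τ ^ j) l = ξ ^ j * l := by
    intro j
    induction j with
    | zero => rw [pow_zero, pow_zero, one_mul]; rfl
    | succ j ih =>
      rw [pow_succ', AlgEquiv.mul_apply, ih, map_mul, map_pow, hξH τ hτH, hτl, pow_succ]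
      ring
  have hNl : ∀ n ∈ N, n l = l := by
    intro n hn
    rw [hl, map_sum]
    refine Finset.sum_congr rfl (fun i _ => ?_)
    have hnH := ((hNH n).1 hn).1
    rw [map_mul, map_pow, map_inv₀, hξH n hnH]
    congr 1
    have h1 : (τ ^ i)⁻¹ * n * τ ^ i ∈ N := by
      have hτi := H.pow_mem hτH i
      rw [hNH]
      refine ⟨H.mul_mem (H.mul_mem (H.inv_mem hτi) hnH) hτi, ?_⟩
      rw [hχ _ (H.mul_mem (H.inv_mem hτi) hnH) _ hτi, hχ _ (H.inv_mem hτi) _ hnH, hχinv _ hτi,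
        ((hNH n).1 hn).2]
      ring
    have h2 := hmemF μ hμF _ h1
    have h3 : (τ ^ i) (((τ ^ i)⁻¹ * n * τ ^ i) μ) = (τ ^ i) μ := by rw [h2]
    rw [← AlgEquiv.mul_apply] at h3
    have h4 : τ ^ i * ((τ ^ i)⁻¹ * n * τ ^ i) = n * τ ^ i := by group
    rw [h4, AlgEquiv.mul_apply] at h3
    exact h3
  refine ⟨l, hμ, ?_⟩
  intro σ hσ
  -- write `σ = τ ^ j * n`
  set j := (χ σ / c).val with hj
  have hjc : (j : ZMod p) * c = χ σ := by
    rw [hj, ZMod.natCast_zmod_val, div_mul_cancel₀ _ hτ0]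
  have hn : (τ ^ j)⁻¹ * σ ∈ N := by
    have hτj := H.pow_mem hτH j
    rw [hNH]
    refine ⟨H.mul_mem (H.inv_mem hτj) hσ, ?_⟩
    rw [hχ _ (H.inv_mem hτj) _ hσ, hχinv _ hτj, hχpow τ hτH, hjc]
    ring
  have h1 : σ l = (τ ^ j) (((τ ^ j)⁻¹ * σ) l) := by
    rw [← AlgEquiv.mul_apply, mul_inv_cancel_left]
  rw [h1, hNl _ hn, hτjl]
  congr 1
  rw [hξ, ← pow_mul]
  have h2 : ((c.val * j : ℕ) : ZMod p) = χ σ := by
    push_cast
    rw [ZMod.natCast_zmod_val, mul_comm]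
    exact hjc
  have h3 : (χ σ).val = (c.val * j) % p := by rw [← h2, ZMod.val_natCast]
  rw [h3, ← pow_mod_orderOf ζ (c.val * j), ← hζ.eq_orderOf]

end kummer

end P025H641
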