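import Vale.Agent.P025.H641.Sym

/-! # Small perturbations -/

namespace P025H641

universe u v

variable {p : ℕ} {k : Type u} {V : Type v} [Field k] [AddCommGroup V] [Module (ZMod p) V]

namespace Loc

variable (L : Loc p k V)

include L

/-- small perturbations do not change the class -/
lemma small (x : k) (hx : x ≠ 0) (m : ℕ) (c : k) (hc : c ∈ L.O) (h : L.val x + L.E + 1 ≤ m) :
    x + L.π ^ m * c ≠ 0 ∧ L.cls (x + L.π ^ m * c) = L.cls x ∧
      L.val (x + L.π ^ m * c) = L.val x := by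
  have hπ := L.π_ne
  set e := L.π ^ m / (x * L.π ^ (L.E + 1)) * c with he
  have hden : x * L.π ^ (L.E + 1) ≠ 0 := mul_ne_zero hx (pow_ne_zero _ hπ)
  have heO : e ∈ L.O := by
    apply L.O.mul_mem _ hc
    apply L.mem_of_val _ (div_ne_zero (pow_ne_zero _ hπ) hden)
    rw [L.val_div _ _ (pow_ne_zero _ hπ) hden, L.val_mul _ _ hx (pow_ne_zero _ hπ),
      L.val_π_pow, L.val_π_pow]
    push_cast
    omega
  have h1 : x + L.π ^ m * c = x * (1 + L.π ^ (L.E + 1) * e) := by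
    rw [he]; field_simp
  have h2 := L.cls_congr x e hx heO
  rw [h1]
  refine ⟨h2.1, h2.2, ?_⟩
  rw [L.val_mul _ _ hx (L.one_add_ne _ (by omega) _ heO), L.val_one_add _ (by omega) _ heO,
    add_zero]

/-- the value of a product with a unit factor -/
lemma exists_of_val' (x : k) (n : ℕ) (h : x = 0 ∨ n ≤ L.val x) : ∃ a ∈ L.O, x = L.π ^ n * a := by
  rcases h with rfl | h
  · exact ⟨0, L.O.zero_mem, by rw [mul_zero]⟩
  by_cases hx : x = 0
  · exact ⟨0, L.O.zero_mem, by rw [hx, mul_zero]⟩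
  · exact L.exists_of_val x hx n h

variable [Fact p.Prime]

omit [Fact p.Prime] [Field k] L in
lemma p_smul (v : V) (t : ℤ) : ((p : ℤ) * t) • v = 0 := by
  rw [← Int.cast_smul_eq_zsmul (ZMod p)]
  push_cast
  rw [ZMod.natCast_self, zero_mul, zero_smul]

/-- elements with prescribed class and almost prescribed value -/
lemma exists_cls_val (n : ℤ) (v : V) :
    ∃ x, x ≠ 0 ∧ L.cls x = v ∧ n ≤ L.val x ∧ L.val x < n + p := by
  obtain ⟨r, hr, hv⟩ := L.cls_surj v
  have hπ := L.π_ne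
  have hp : (0 : ℤ) < p := by exact_mod_cast (Fact.out : p.Prime).pos
  set t := (L.val r - n) / p with ht
  have h1 : L.π ^ (-((p : ℤ) * t)) ≠ 0 := zpow_ne_zero _ hπ
  refine ⟨L.π ^ (-((p : ℤ) * t)) * r, mul_ne_zero h1 hr, ?_, ?_, ?_⟩
  · rw [L.cls_mul _ _ h1 hr, L.cls_zpow _ hπ, neg_smul, Loc.p_smul, neg_zero, zero_add, hv]
  · rw [L.val_mul _ _ h1 hr, L.val_π_zpow]
    have := Int.emod_nonneg (L.val r - n) hp.ne'
    have h2 := Int.mul_ediv_add_emod (L.val r - n) p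
    rw [← ht] at h2
    omega
  · rw [L.val_mul _ _ h1 hr, L.val_π_zpow]
    have := Int.emod_lt_of_pos (L.val r - n) hp
    have h2 := Int.mul_ediv_add_emod (L.val r - n) p
    rw [← ht] at h2
    omega

end Loc

namespace Steinberg

variable {L : Loc p k V}

/-- it suffices to check the Steinberg relation in a bounded range -/
lemma of_bounded [Fact p.Prime] (B : V →ₗ[ZMod p] V →ₗ[ZMod p] ZMod p)
    (h : ∀ u, u ≠ 0 → u ≠ 1 → -(L.E + p : ℤ) ≤ L.val u → L.val u ≤ L.E →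
      L.val (1 - u) ≤ L.E → B (L.cls u) (L.cls (1 - u)) = 0) : Steinberg L B := by
  have hπ := L.π_ne
  have hp : (0 : ℤ) < p := by exact_mod_cast (Fact.out : p.Prime).pos
  intro u hu hu1
  have hu1' : 1 - u ≠ 0 := sub_ne_zero.2 (Ne.symm hu1)
  by_cases h1 : (L.E : ℤ) + 1 ≤ L.val u
  · obtain ⟨c, hc, h2⟩ := L.exists_of_val u hu (L.E + 1) (by push_cast; exact h1)
    have h3 : 1 - u = 1 + L.π ^ (L.E + 1) * (-c) := by rw [h2]; ring
    rw [h3, L.cls_E_succ _ (L.O.neg_mem hc), map_zero]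
  by_cases h2 : (L.E : ℤ) + 1 ≤ L.val (1 - u)
  · obtain ⟨c, hc, h3⟩ := L.exists_of_val _ hu1' (L.E + 1) (by push_cast; exact h2)
    have h4 : u = 1 + L.π ^ (L.E + 1) * (-c) := by linear_combination -h3
    rw [h4, L.cls_E_succ _ (L.O.neg_mem hc), map_zero]
    rfl
  by_cases h3 : -(L.E + p : ℤ) ≤ L.val u
  · exact h u hu hu1 h3 (by omega) (by omega)
  -- very negative value
  push Not at h3
  have key : ∀ w, w ≠ 0 → L.val w ≤ -(L.E + 1 : ℤ) →
      1 - w ≠ 0 ∧ L.cls (1 - w) = L.cls (-w) ∧ L.val (1 - w) = L.val w := by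
    intro w hw hwv
    obtain ⟨c, hc, h4⟩ := L.exists_of_val w⁻¹ (inv_ne_zero hw) (L.E + 1)
      (by rw [L.val_inv w hw]; push_cast; omega)
    have h5 : 1 - w = (-w) * (1 + L.π ^ (L.E + 1) * (-c)) := by
      have h6 : L.π ^ (L.E + 1) * (-c) = - w⁻¹ := by rw [h4]; ring
      rw [h6]; field_simp; ring
    have h6 := L.cls_congr (-w) _ (neg_ne_zero.2 hw) (L.O.neg_mem hc)
    rw [h5]
    refine ⟨h6.1, h6.2, ?_⟩
    rw [L.val_mul _ _ (neg_ne_zero.2 hw) (L.one_add_ne _ (by omega) _ (L.O.neg_mem hc)),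
      L.val_one_add _ (by omega) _ (L.O.neg_mem hc), add_zero, L.val_neg w hw]
  set t := (L.val u + L.E + p) / p with ht
  have h4 := Int.mul_ediv_add_emod (L.val u + L.E + p) p
  rw [← ht] at h4
  have h5 := Int.emod_nonneg (L.val u + L.E + p) hp.ne'
  have h6 := Int.emod_lt_of_pos (L.val u + L.E + p) hp
  set u' := L.π ^ (-((p : ℤ) * t)) * u with hu'
  have h7 : L.π ^ (-((p : ℤ) * t)) ≠ 0 := zpow_ne_zero _ hπ
  have hu'0 : u' ≠ 0 := mul_ne_zero h7 hu
  have hcu : L.cls u' = L.cls u := by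
    rw [hu', L.cls_mul _ _ h7 hu, L.cls_zpow _ hπ, neg_smul, Loc.p_smul, neg_zero, zero_add]
  have hvu : L.val u' = L.val u - p * t := by
    rw [hu', L.val_mul _ _ h7 hu, L.val_π_zpow]; ring
  obtain ⟨k1, k2, k3⟩ := key u hu (by omega)
  obtain ⟨k1', k2', k3'⟩ := key u' hu'0 (by omega)
  rw [k2, L.cls_neg u hu, ← hcu, ← L.cls_neg u' hu'0, ← k2']
  exact h u' hu'0 (by rintro h; rw [h, sub_self] at k1'; exact k1' rfl) (by omega) (by omega)
    (by omega)

end Steinberg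

end P025H641
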