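import Mathlib

/-! # Norms from a Kummer extension of prime degree -/

namespace P025H641

universe u v

open Polynomial

/-- the norm of `f(θ)`, `θ ^ p = γ` -/
noncomputable def nrm {k : Type u} [Field k] (p : ℕ) (ζ : k) (f : k[X]) (γ : k) : k :=
  (contract p (∏ i ∈ Finset.range p, f.comp (C (ζ ^ i) * X))).eval γ

lemma expand_contract_of_coeff {k : Type u} [Field k] {p : ℕ} (hp : 0 < p) (F : k[X])
    (hF : ∀ n, ¬ p ∣ n → F.coeff n = 0) : expand k p (contract p F) = F := by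
  ext n
  rw [coeff_expand hp, coeff_contract hp.ne']
  split_ifs with h
  · rw [Nat.div_mul_cancel h]
  · exact (hF n h).symm

lemma prod_comp_coeff {k : Type u} [Field k] {p : ℕ} (hp : 0 < p) {ζ : k}
    (hζ : IsPrimitiveRoot ζ p) (f : k[X]) (n : ℕ) (hn : ¬ p ∣ n) :
    (∏ i ∈ Finset.range p, f.comp (C (ζ ^ i) * X)).coeff n = 0 := by
  set F := ∏ i ∈ Finset.range p, f.comp (C (ζ ^ i) * X) with hF
  have h1 : F.comp (C ζ * X) = F := by
    obtain ⟨m, rfl⟩ : ∃ m, p = m + 1 := ⟨p - 1, by omega⟩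
    rw [hF, prod_comp]
    have h2 : ∀ i, (f.comp (C (ζ ^ i) * X)).comp (C ζ * X) = f.comp (C (ζ ^ (i + 1)) * X) := by
      intro i
      rw [comp_assoc]
      congr 1
      simp only [mul_comp, C_comp, X_comp, ← mul_assoc, ← C_mul, pow_succ]
    rw [Finset.prod_congr rfl (fun i _ => h2 i), Finset.prod_range_succ, Finset.prod_range_succ',
      hζ.pow_eq_one, pow_zero]
  have h2 := congrArg (fun g => coeff g n) h1
  simp only [comp_C_mul_X_coeff] at h2
  have h3 : ζ ^ n ≠ 1 := by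
    intro h
    exact hn ((hζ.pow_eq_one_iff_dvd n).1 h)
  have h4 : F.coeff n * (ζ ^ n - 1) = 0 := by linear_combination h2
  exact (mul_eq_zero.1 h4).resolve_right (sub_ne_zero.2 h3)

lemma nrm_spec {k : Type u} [Field k] {p : ℕ} (hp : 0 < p) {ζ : k} (hζ : IsPrimitiveRoot ζ p)
    (f : k[X]) (γ : k) {Ω : Type v} [Field Ω] [Algebra k Ω] (θ : Ω)
    (hθ : θ ^ p = algebraMap k Ω γ) :
    algebraMap k Ω (nrm p ζ f γ) =
      ∏ i ∈ Finset.range p, aeval (algebraMap k Ω (ζ ^ i) * θ) f := by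
  set F := ∏ i ∈ Finset.range p, f.comp (C (ζ ^ i) * X) with hF
  have h1 := expand_contract_of_coeff hp F (prod_comp_coeff hp hζ f)
  have h2 := congrArg (aeval θ) h1
  rw [expand_aeval, hθ] at h2
  have h3 : aeval (algebraMap k Ω γ) (contract p F) = algebraMap k Ω ((contract p F).eval γ) := by
    rw [aeval_algebraMap_apply_eq_algebraMap_eval]
  rw [nrm, ← hF, ← h3, h2, hF, map_prod]
  refine Finset.prod_congr rfl (fun i _ => ?_)
  rw [aeval_comp]
  simp

end P025H641
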