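import Vale.Agent.P025.H641.Inst
import Vale.Agent.P025.H641.Nrm
import Vale.Agent.P025.H641.AS

/-! # The uniformizer is not a norm from the unramified extension -/

namespace P025H641

universe u v

open Polynomial

section

variable {k : Type u} [NontriviallyNormedField k] [IsUltrametricDist k] [ProperSpace k]
  {p : ℕ} [Fact p.Prime] (R : Ram k p)

/-- the `p`-th roots of a unit of the top level -/
lemma Ram.small_root {Ω : Type v} [NontriviallyNormedField Ω] [IsUltrametricDist Ω] [Algebra k Ω]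
    (hn : ∀ x : k, ‖algebraMap k Ω x‖ = ‖x‖) (w : Ω) (a : k) (ha : ‖a‖ ≤ 1)
    (h : w ^ p = algebraMap k Ω (1 + unif k ^ (p * R.e) * a)) :
    ∃ y r : Ω, ‖y‖ ≤ 1 ∧ ‖r‖ ≤ 1 ∧ w = 1 + algebraMap k Ω (unif k ^ R.e) * y ∧
      y ^ p + algebraMap k Ω R.ε * y + algebraMap k Ω (unif k ^ R.e) * r = algebraMap k Ω a := by
  have hpp : p.Prime := Fact.out
  have hE : 0 < p * R.e := Nat.mul_pos hpp.pos R.pos
  set P : Ω := algebraMap k Ω (unif k ^ R.e) with hP
  have hPn : ‖P‖ = ‖unif k‖ ^ R.e := by rw [hP, hn, norm_pow]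
  have hPpos : 0 < ‖P‖ := by rw [hPn]; exact pow_pos unif_pos _
  have hP0 : P ≠ 0 := norm_pos_iff.1 hPpos
  have hP1 : ‖P‖ ≤ 1 := by rw [hPn]; exact unif_pow_le_one _
  have hεn : ‖algebraMap k Ω R.ε‖ = 1 := by rw [hn, R.norm_ε]
  have hpΩ : (p : Ω) = algebraMap k Ω R.ε * P ^ (p - 1) := by
    rw [hP, ← map_pow, ← pow_mul, mul_comm R.e, ← map_mul, ← R.p_eq, map_natCast]
  have hPp : P ^ p = P ^ (p - 1) * P := by
    rw [← pow_succ, Nat.sub_add_cancel hpp.one_lt.le]
  have hw : ‖w‖ = 1 := by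
    have h1 : ‖w‖ ^ p = 1 := by
      rw [← norm_pow, h, hn, one_add_norm _ hE a ha]
    exact (pow_eq_one_iff_of_nonneg (norm_nonneg _) hpp.ne_zero).1 h1
  set z : Ω := w - 1 with hz
  have hz1 : ‖z‖ ≤ 1 := by
    rw [hz]
    refine (norm_sub_le_max w 1).trans ?_
    rw [hw, norm_one, max_self]
  obtain ⟨r, hr, h1⟩ := one_add_pow_prime hpp z hz1
  have hwz : w = 1 + z := by rw [hz]; ring
  rw [← hwz, h, hpΩ] at h1
  have h2 : z ^ p + algebraMap k Ω R.ε * P ^ (p - 1) * z * (1 + z * r) =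
      P ^ p * algebraMap k Ω a := by
    have h3 : algebraMap k Ω (1 + unif k ^ (p * R.e) * a) = 1 + P ^ p * algebraMap k Ω a := by
      rw [hP, ← map_pow, ← pow_mul, mul_comm R.e, map_add, map_one, map_mul]
    rw [h3] at h1
    linear_combination -h1
  have han : ‖algebraMap k Ω a‖ ≤ 1 := by rw [hn]; exact ha
  have hzr : ‖1 + z * r‖ ≤ 1 := by
    refine (norm_add_le_max' _ _).trans (max_le (by rw [norm_one]) ?_)
    rw [norm_mul]; exact mul_le_one₀ hz1 (norm_nonneg _) hr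
  have hzP : ‖z‖ ≤ ‖P‖ := by
    by_contra hcon
    push Not at hcon
    have h4 : ‖algebraMap k Ω R.ε * P ^ (p - 1) * z * (1 + z * r)‖ < ‖z‖ ^ p := by
      rw [norm_mul, norm_mul, norm_mul, hεn, one_mul, norm_pow]
      have hz0 : 0 < ‖z‖ := hPpos.trans hcon
      have h5 : ‖P‖ ^ (p - 1) < ‖z‖ ^ (p - 1) :=
        pow_lt_pow_left₀ hcon hPpos.le (by have := hpp.two_le; omega)
      calc ‖P‖ ^ (p - 1) * ‖z‖ * ‖1 + z * r‖ ≤ ‖P‖ ^ (p - 1) * ‖z‖ * 1 := by gcongr
        _ = ‖P‖ ^ (p - 1) * ‖z‖ := mul_one _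
        _ < ‖z‖ ^ (p - 1) * ‖z‖ := by gcongr
        _ = ‖z‖ ^ p := by rw [← pow_succ, Nat.sub_add_cancel hpp.one_lt.le]
    have h5 : ‖P ^ p * algebraMap k Ω a‖ < ‖z‖ ^ p := by
      rw [norm_mul, norm_pow]
      calc ‖P‖ ^ p * ‖algebraMap k Ω a‖ ≤ ‖P‖ ^ p * 1 := by gcongr
        _ = ‖P‖ ^ p := mul_one _
        _ < ‖z‖ ^ p := pow_lt_pow_left₀ hcon hPpos.le hpp.ne_zero
    have h6 : z ^ p = P ^ p * algebraMap k Ω a -
        algebraMap k Ω R.ε * P ^ (p - 1) * z * (1 + z * r) := by linear_combination h2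
    have h7 : ‖z ^ p‖ < ‖z‖ ^ p := by
      rw [h6]
      exact lt_of_le_of_lt (norm_sub_le_max _ _) (max_lt h5 h4)
    rw [norm_pow] at h7
    exact lt_irrefl _ h7
  set y : Ω := z / P with hy
  have hy1 : ‖y‖ ≤ 1 := by rw [hy, norm_div]; exact (div_le_one hPpos).2 hzP
  have hzy : z = P * y := by rw [hy]; field_simp
  refine ⟨y, algebraMap k Ω R.ε * y ^ 2 * r, hy1, ?_, by rw [hwz, hzy], ?_⟩
  · rw [norm_mul, norm_mul, hεn, one_mul, norm_pow]
    exact mul_le_one₀ (pow_le_one₀ (norm_nonneg _) hy1) (norm_nonneg _) hr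
  · rw [hzy] at h2
    have h3 : P ^ p * (y ^ p + algebraMap k Ω R.ε * y +
        P * (algebraMap k Ω R.ε * y ^ 2 * r)) = P ^ p * algebraMap k Ω a := by
      rw [← h2, mul_pow, hPp]
      ring
    exact mul_left_cancel₀ (pow_ne_zero p hP0) h3

/-- the unramified class is not trivial -/
lemma Ram.not_pow (w : k) : w ^ p ≠ 1 + unif k ^ (p * R.e) * R.a1 := by
  intro h
  obtain ⟨y, r, hy, hr, -, h1⟩ := R.small_root (Ω := k) (fun x => rfl) w R.a1 R.a1_norm h
  simp only [Algebra.algebraMap_self, RingHom.id_apply] at h1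
  have h2 := norm_pow_le_one hy p
  have h3 := norm_mul_le_one R.norm_ε.le hy
  have h4 := unif_mul_norm R.e R.pos r hr
  have h5 : rs R.a1 = rs y ^ p + rs R.ε * rs y := by
    rw [← h1, rs_add _ _ (norm_add_le_one h2 h3) h4.le, (rs_eq_zero_iff _ h4.le).2 h4, add_zero,
      rs_add _ _ h2 h3, rs_pow _ hy, rs_mul _ _ R.norm_ε.le hy]
  have h6 := R.a1_τ
  rw [h5, R.τ_ker'] at h6
  have : Fact (1 < p) := ⟨(Fact.out : p.Prime).one_lt⟩
  exact zero_ne_one h6

omit [ProperSpace k] in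
lemma eval_norm_le {Ω : Type v} [NontriviallyNormedField Ω] [IsUltrametricDist Ω]
    (i : vring k →+* Ω) (C : ℝ) (hC : 0 ≤ C) (y : Ω) (hy : ‖y‖ ≤ 1) (F : (vring k)[X])
    (hF : ∀ n, ‖i (F.coeff n)‖ ≤ C) : ‖F.eval₂ i y‖ ≤ C := by
  rw [eval₂_eq_sum_range]
  apply IsUltrametricDist.norm_sum_le_of_forall_le_of_nonneg hC
  intro n _
  rw [norm_mul, norm_pow]
  calc ‖i (F.coeff n)‖ * ‖y‖ ^ n ≤ ‖i (F.coeff n)‖ * 1 := by
        gcongr; exact pow_le_one₀ (norm_nonneg _) hy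
    _ = ‖i (F.coeff n)‖ := mul_one _
    _ ≤ C := hF n

/-- the norm of a polynomial value at the roots is the norm of a constant -/
lemma Ram.norm_aeval {Ω : Type v} [NontriviallyNormedField Ω] [IsUltrametricDist Ω] [Algebra k Ω]
    (hn : ∀ x : k, ‖algebraMap k Ω x‖ = ‖x‖) (f : k[X]) :
    ∃ c : k, ∀ w : Ω, w ^ p = algebraMap k Ω (1 + unif k ^ (p * R.e) * R.a1) →
      ‖aeval w f‖ = ‖c‖ := by
  classical
  have hpp : p.Prime := Fact.out
  set α : k := 1 + unif k ^ (p * R.e) * R.a1 with hα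
  set π := unif k with hπ
  -- reduce the degree
  have hmon : (X ^ p - C α : k[X]).Monic := monic_X_pow_sub_C α hpp.ne_zero
  set f1 := f %ₘ (X ^ p - C α) with hf1
  have hdeg1 : f1.natDegree < p := by
    have h1 := natDegree_modByMonic_lt f hmon (by
      intro h
      have h2 := congrArg natDegree h
      rw [natDegree_X_pow_sub_C, natDegree_one] at h2
      exact hpp.ne_zero h2)
    rwa [natDegree_X_pow_sub_C] at h1
  have hev1 : ∀ w : Ω, w ^ p = algebraMap k Ω α → aeval w f = aeval w f1 := by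
    intro w hw
    have h1 := modByMonic_add_div f (X ^ p - C α)
    have h2 := congrArg (aeval w) h1
    rw [← h2, map_add, map_mul]
    simp [hw, hf1]
  set r : k[X] := f1.comp (1 + C (π ^ R.e) * X) with hr
  have hdegr : r.natDegree < p := by
    refine lt_of_le_of_lt natDegree_comp_le ?_
    have h1 : (1 + C (π ^ R.e) * X : k[X]).natDegree ≤ 1 := by
      refine (natDegree_add_le _ _).trans (max_le (by simp) ?_)
      exact (natDegree_C_mul_le _ _).trans natDegree_X_le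
    calc f1.natDegree * (1 + C (π ^ R.e) * X : k[X]).natDegree ≤ f1.natDegree * 1 := by gcongr
      _ < p := by rw [mul_one]; exact hdeg1
  have hev2 : ∀ y : Ω, aeval (1 + algebraMap k Ω (π ^ R.e) * y) f1 = aeval y r := by
    intro y
    rw [hr, aeval_comp]
    simp
  by_cases hr0 : r = 0
  · refine ⟨0, fun w hw => ?_⟩
    obtain ⟨y, s, hy, hs, h1, -⟩ := R.small_root hn w R.a1 R.a1_norm hw
    rw [hev1 w hw, h1, hev2, hr0, map_zero, norm_zero, norm_zero]
  -- the content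
  obtain ⟨i0, hi0, hmax⟩ := Finset.exists_max_image r.support (fun i => ‖r.coeff i‖)
    (by rwa [Finset.nonempty_iff_ne_empty, Ne, support_eq_empty])
  set c := r.coeff i0 with hc
  have hc0 : c ≠ 0 := mem_support_iff.1 hi0
  have hcpos : 0 < ‖c‖ := norm_pos_iff.2 hc0
  have hle : ∀ i, ‖r.coeff i‖ ≤ ‖c‖ := by
    intro i
    by_cases h : i ∈ r.support
    · exact hmax i h
    · rw [notMem_support_iff.1 h, norm_zero]; exact norm_nonneg _
  set r0 : k[X] := C c⁻¹ * r with hr0'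
  have hrr0 : r = C c * r0 := by
    rw [hr0', ← mul_assoc, ← C_mul, mul_inv_cancel₀ hc0, C_1, one_mul]
  have hlift : r0 ∈ lifts (vring k).subtype := by
    rw [lifts_iff_coeff_lifts]
    intro n
    have h1 : ‖r0.coeff n‖ ≤ 1 := by
      rw [hr0', coeff_C_mul, norm_mul, norm_inv, inv_mul_le_iff₀ hcpos, mul_one]
      exact hle n
    exact ⟨⟨_, (mem_vring _).2 h1⟩, rfl⟩
  obtain ⟨R0, hR0, hR0deg⟩ := exists_natDegree_eq_of_mem_lifts hlift
  let ρ : vring k →+* kap k := IsLocalRing.residue (vring k)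
  have hρ : ∀ a : vring k, ρ a = 0 ↔ ‖(a : k)‖ < 1 := by
    intro a
    have h1 := (mem_vring _).1 a.2
    rw [← rs_eq_zero_iff _ h1, rs_eq _ h1]
  have hcoe : ∀ a : vring k, ‖(a : k)‖ ≤ 1 := fun a => (mem_vring _).1 a.2
  have hbar0 : R0.map ρ ≠ 0 := by
    intro h
    have h1 := congrArg (fun q => coeff q i0) h
    simp only [coeff_map, coeff_zero] at h1
    rw [hρ] at h1
    have h2 : ((R0.coeff i0 : vring k) : k) = r0.coeff i0 := by
      rw [← hR0, coeff_map]; rfl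
    rw [h2, hr0', coeff_C_mul, ← hc, inv_mul_cancel₀ hc0, norm_one] at h1
    exact lt_irrefl _ h1
  have hbardeg : (R0.map ρ).natDegree < p := by
    refine lt_of_le_of_lt natDegree_map_le ?_
    rw [hR0deg, hr0']
    exact lt_of_le_of_lt (natDegree_C_mul_le _ _) hdegr
  -- the irreducible polynomial
  let εO : vring k := ⟨R.ε, (mem_vring _).2 R.norm_ε.le⟩
  let aO : vring k := ⟨R.a1, (mem_vring _).2 R.a1_norm⟩
  have hεO : ρ εO = rs R.ε := (rs_eq _ R.norm_ε.le).symm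
  have haO : ρ aO = rs R.a1 := (rs_eq _ R.a1_norm).symm
  set G0 : (vring k)[X] := X ^ p + C εO * X - C aO with hG0
  have hG0bar : G0.map ρ = X ^ p + C (rs R.ε) * X - C (rs R.a1) := by
    rw [hG0]
    simp only [Polynomial.map_sub, Polynomial.map_add, Polynomial.map_pow, Polynomial.map_mul,
      map_X, map_C, hεO, haO]
  have hchar := R.charP_kap
  have hirr : Irreducible (G0.map ρ) := by
    rw [hG0bar]
    apply as_irreducible p (rs R.ε) (rs R.y) (rs R.a1) R.rs_y.1 R.rs_y.2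
    intro y hy
    have h6 := R.a1_τ
    rw [← hy, R.τ_ker'] at h6
    have : Fact (1 < p) := ⟨hpp.one_lt⟩
    exact zero_ne_one h6
  have hGdeg : (G0.map ρ).natDegree = p := by
    rw [hG0bar]
    have h1p : ¬ (p = 1) := hpp.one_lt.ne'
    have h1p' : 1 ≤ p := hpp.one_lt.le
    have h0p : ¬ (p = 0) := hpp.ne_zero
    compute_degree!
    all_goals first
      | exact h1p'
      | simp [h1p, h0p]
  have hcop : IsCoprime (G0.map ρ) (R0.map ρ) := by
    rw [hirr.coprime_iff_not_dvd]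
    intro h
    have h1 := natDegree_le_of_dvd h hbar0
    rw [hGdeg] at h1
    omega
  obtain ⟨u, v, huv⟩ := hcop
  have hρs : Function.Surjective ρ := IsLocalRing.residue_surjective
  obtain ⟨U, rfl⟩ := map_surjective ρ hρs u
  obtain ⟨V, rfl⟩ := map_surjective ρ hρs v
  set D : (vring k)[X] := U * G0 + V * R0 - 1 with hD
  have hDbar : D.map ρ = 0 := by
    rw [hD, Polynomial.map_sub, Polynomial.map_add, Polynomial.map_mul, Polynomial.map_mul, huv,
      Polynomial.map_one, sub_self]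
  have hDc : ∀ n, ‖((D.coeff n : vring k) : k)‖ < 1 := by
    intro n
    rw [← hρ, ← coeff_map, hDbar, coeff_zero]
  -- evaluation
  let ι : vring k →+* Ω := (algebraMap k Ω).comp (vring k).subtype
  have hι : ∀ a : vring k, ‖ι a‖ = ‖(a : k)‖ := fun a => hn a
  refine ⟨c, fun w hw => ?_⟩
  obtain ⟨y, s, hy, hs, h1, h2⟩ := R.small_root hn w R.a1 R.a1_norm hw
  rw [hev1 w hw, h1, hev2, hrr0, map_mul, aeval_C, norm_mul, hn]
  have hE0 : aeval y r0 = R0.eval₂ ι y := by
    rw [← hR0, aeval_def, eval₂_map]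
  have hle1 : ∀ F : (vring k)[X], ‖F.eval₂ ι y‖ ≤ 1 := fun F =>
    eval_norm_le ι 1 zero_le_one y hy F (fun n => by rw [hι]; exact hcoe _)
  have hEG : ‖G0.eval₂ ι y‖ < 1 := by
    have h3 : G0.eval₂ ι y = -(algebraMap k Ω (unif k ^ R.e) * s) := by
      rw [hG0]
      simp only [eval₂_sub, eval₂_add, eval₂_mul, eval₂_X_pow, eval₂_X, eval₂_C]
      have h4 : ι εO = algebraMap k Ω R.ε := rfl
      have h5 : ι aO = algebraMap k Ω R.a1 := rfl
      rw [h4, h5]
      linear_combination h2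
    rw [h3, norm_neg, norm_mul, hn, norm_pow]
    calc ‖unif k‖ ^ R.e * ‖s‖ ≤ ‖unif k‖ ^ R.e * 1 := by gcongr
      _ < 1 := by rw [mul_one]; exact pow_lt_one₀ (norm_nonneg _) unif_lt R.pos.ne'
  have hED : ‖D.eval₂ ι y‖ < 1 := by
    refine lt_of_le_of_lt (eval_norm_le ι ‖unif k‖ (norm_nonneg _) y hy D (fun n => ?_)) unif_lt
    rw [hι]
    exact unif_max _ (hDc n)
  have h3 : V.eval₂ ι y * R0.eval₂ ι y = 1 + (D.eval₂ ι y - U.eval₂ ι y * G0.eval₂ ι y) := by
    rw [hD]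
    simp only [eval₂_sub, eval₂_add, eval₂_mul, eval₂_one]
    ring
  have h4 : ‖D.eval₂ ι y - U.eval₂ ι y * G0.eval₂ ι y‖ < 1 := by
    refine lt_of_le_of_lt (norm_sub_le_max _ _) (max_lt hED ?_)
    rw [norm_mul]
    exact mul_lt_one_of_nonneg_of_lt_one_right (hle1 U) (norm_nonneg _) hEG
  have h5 : ‖V.eval₂ ι y * R0.eval₂ ι y‖ = 1 := by rw [h3]; exact norm_one_add h4
  have h6 : ‖R0.eval₂ ι y‖ = 1 := by
    apply le_antisymm (hle1 R0)
    by_contra h7
    push Not at h7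
    rw [norm_mul] at h5
    exact (mul_lt_one_of_nonneg_of_lt_one_right (hle1 V) (norm_nonneg _) h7).ne h5
  rw [hE0, h6, mul_one]

/-- the uniformizer is not a norm from the unramified extension of degree `p` -/
lemma Ram.not_nrm {ζ : k} (hζ : IsPrimitiveRoot ζ p) (f : k[X]) :
    unif k ≠ nrm p ζ f (1 + unif k ^ (p * R.e) * R.a1) := by
  intro h
  have hpp : p.Prime := Fact.out
  let _ : NontriviallyNormedField (AlgebraicClosure k) :=
    spectralNorm.nontriviallyNormedField k (AlgebraicClosure k)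
  have hu : IsUltrametricDist (AlgebraicClosure k) :=
    IsUltrametricDist.isUltrametricDist_of_isNonarchimedean_norm isNonarchimedean_spectralNorm
  have hn : ∀ x : k, ‖algebraMap k (AlgebraicClosure k) x‖ = ‖x‖ := fun x =>
    spectralNorm_extends x
  obtain ⟨θ, hθ⟩ := IsAlgClosed.exists_pow_nat_eq
    (algebraMap k (AlgebraicClosure k) (1 + unif k ^ (p * R.e) * R.a1)) hpp.pos
  obtain ⟨c, hc⟩ := R.norm_aeval hn f
  have h1 := nrm_spec hpp.pos hζ f _ θ hθ
  have h2 := congrArg norm h1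
  rw [hn, ← h, norm_prod, Finset.prod_congr rfl (fun i _ => hc _ (by
    rw [mul_pow, hθ, ← map_pow, ← pow_mul, mul_comm i, pow_mul, hζ.pow_eq_one, one_pow, map_one,
      one_mul])), Finset.prod_const, Finset.card_range] at h2
  have hc0 : c ≠ 0 := by
    rintro rfl
    rw [norm_zero, zero_pow hpp.ne_zero] at h2
    exact unif_pos.ne' h2
  have h3 : nval (unif k) = nval c * p := by
    apply nval_eq
    calc ‖unif k‖ = ‖c‖ ^ p := h2
      _ = (‖unif k‖ ^ nval c) ^ p := by rw [← norm_eq_nval c hc0]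
      _ = ‖unif k‖ ^ (nval c * p) := by rw [zpow_mul, zpow_natCast]
  rw [nval_unif] at h3
  have h4 : (p : ℤ) ∣ 1 := Dvd.intro_left _ h3.symm
  have h5 := Int.le_of_dvd one_pos h4
  have h6 := hpp.two_le
  omega

end

end P025H641
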