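import Mathlib

/-! # Locally compact ultrametric fields: uniformizer, values, residues -/

namespace P025H641

universe u

open NormedField

section basic

variable {k : Type u} [NontriviallyNormedField k] [IsUltrametricDist k]

/-- the valuation ring -/
noncomputable def vring (k : Type u) [NontriviallyNormedField k] [IsUltrametricDist k] :
    ValuationSubring k := (NormedField.valuation (K := k)).valuationSubring

lemma mem_vring (x : k) : x ∈ vring k ↔ ‖x‖ ≤ 1 := by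
  rw [vring, Valuation.mem_valuationSubring_iff]
  rfl

lemma norm_add_le_max' (x y : k) : ‖x + y‖ ≤ max ‖x‖ ‖y‖ := IsUltrametricDist.norm_add_le_max x y

lemma norm_sub_le_max (x y : k) : ‖x - y‖ ≤ max ‖x‖ ‖y‖ := by
  rw [sub_eq_add_neg, ← norm_neg y]
  exact norm_add_le_max' x (-y)

lemma norm_one_add {x : k} (hx : ‖x‖ < 1) : ‖1 + x‖ = 1 := by
  have h1 : ‖(1 : k)‖ ≠ ‖x‖ := by rw [norm_one]; exact hx.ne'
  rw [IsUltrametricDist.norm_add_eq_max_of_norm_ne_norm h1, norm_one]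
  exact max_eq_left hx.le

variable [ProperSpace k]

lemma exists_unif : ∃ π : k, π ≠ 0 ∧ ‖π‖ < 1 ∧ ∀ x : k, ‖x‖ < 1 → ‖x‖ ≤ ‖π‖ := by
  have hcomp : IsCompact (Metric.ball (0 : k) 1) :=
    (isCompact_closedBall (0 : k) 1).of_isClosed_subset
      (IsUltrametricDist.isClosed_ball 0 1) Metric.ball_subset_closedBall
  obtain ⟨π, hπ, hmax⟩ := hcomp.exists_isMaxOn ⟨0, by simp⟩ (f := fun x => ‖x‖)
    continuous_norm.continuousOn
  obtain ⟨y, hy0, hy1⟩ := NormedField.exists_norm_lt_one k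
  have h1 := hmax (a := y) (by simpa using hy1)
  simp only [Set.mem_ofPred_eq] at h1
  refine ⟨π, ?_, by simpa using hπ, fun x hx => hmax (by simpa using hx)⟩
  rintro rfl
  rw [norm_zero] at h1
  exact absurd hy0 (not_lt.2 h1)

/-- a uniformizer -/
noncomputable def unif (k : Type u) [NontriviallyNormedField k] [IsUltrametricDist k]
    [ProperSpace k] : k := (exists_unif (k := k)).choose

lemma unif_ne : unif k ≠ 0 := (exists_unif (k := k)).choose_spec.1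

lemma unif_lt : ‖unif k‖ < 1 := (exists_unif (k := k)).choose_spec.2.1

lemma unif_max (x : k) (hx : ‖x‖ < 1) : ‖x‖ ≤ ‖unif k‖ :=
  (exists_unif (k := k)).choose_spec.2.2 x hx

lemma unif_pos : 0 < ‖unif k‖ := norm_pos_iff.2 unif_ne

lemma exists_zpow (x : k) (hx : x ≠ 0) : ∃ n : ℤ, ‖x‖ = ‖unif k‖ ^ n := by
  have h1 : 1 < ‖unif k‖⁻¹ := (one_lt_inv₀ unif_pos).2 unif_lt
  obtain ⟨n, hn1, hn2⟩ := exists_mem_Ioc_zpow (norm_pos_iff.2 hx) h1
  refine ⟨-(n + 1), ?_⟩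
  have h2 : ‖x * (unif k) ^ (n + 1)‖ ≤ 1 := by
    rw [norm_mul, norm_zpow]
    rw [inv_zpow] at hn2
    have h3 : (0 : ℝ) < ‖unif k‖ ^ (n + 1) := zpow_pos unif_pos _
    calc ‖x‖ * ‖unif k‖ ^ (n + 1) ≤ (‖unif k‖ ^ (n + 1))⁻¹ * ‖unif k‖ ^ (n + 1) := by gcongr
      _ = 1 := inv_mul_cancel₀ h3.ne'
  have h3 : ¬ ‖x * (unif k) ^ (n + 1)‖ < 1 := by
    intro h4
    have h5 := unif_max _ h4
    rw [norm_mul, norm_zpow, zpow_add_one₀ unif_pos.ne', ← mul_assoc] at h5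
    have h6 : ‖x‖ * ‖unif k‖ ^ n ≤ 1 := by
      refine le_of_mul_le_mul_right (?_ : _ * ‖unif k‖ ≤ 1 * ‖unif k‖) unif_pos
      rw [one_mul]; exact h5
    rw [inv_zpow] at hn1
    have h7 : (0 : ℝ) < ‖unif k‖ ^ n := zpow_pos unif_pos _
    have h8 : 1 < ‖x‖ * ‖unif k‖ ^ n := by
      calc 1 = (‖unif k‖ ^ n)⁻¹ * ‖unif k‖ ^ n := (inv_mul_cancel₀ h7.ne').symm
        _ < _ := by gcongr
    exact absurd h8 (not_lt.2 h6)
  have h4 : ‖x‖ * ‖unif k‖ ^ (n + 1) = 1 := by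
    have := le_antisymm h2 (not_lt.1 h3)
    rwa [norm_mul, norm_zpow] at this
  rw [zpow_neg]
  exact eq_inv_of_mul_eq_one_left h4

open Classical in
/-- the normalized valuation, with value `0` at `0` -/
noncomputable def nval (x : k) : ℤ := if h : x = 0 then 0 else (exists_zpow x h).choose

lemma norm_eq_nval (x : k) (hx : x ≠ 0) : ‖x‖ = ‖unif k‖ ^ nval x := by
  rw [nval, dif_neg hx]
  exact (exists_zpow x hx).choose_spec

lemma zpow_inj' {m n : ℤ} (h : ‖unif k‖ ^ m = ‖unif k‖ ^ n) : m = n :=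
  zpow_right_injective₀ unif_pos unif_lt.ne h

lemma nval_eq {x : k} {n : ℤ} (h : ‖x‖ = ‖unif k‖ ^ n) : nval x = n := by
  have hx : x ≠ 0 := by
    rintro rfl
    rw [norm_zero] at h
    exact (zpow_pos unif_pos n).ne h
  rw [norm_eq_nval x hx] at h
  exact zpow_inj' h

lemma nval_mul (x y : k) (hx : x ≠ 0) (hy : y ≠ 0) : nval (x * y) = nval x + nval y := by
  apply nval_eq
  rw [norm_mul, norm_eq_nval x hx, norm_eq_nval y hy, zpow_add₀ unif_pos.ne']

lemma nval_unif : nval (unif k) = 1 := by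
  have h : ‖unif k‖ = ‖unif k‖ ^ (1 : ℤ) := by rw [zpow_one]
  exact nval_eq h

lemma norm_le_one_iff (x : k) (hx : x ≠ 0) : ‖x‖ ≤ 1 ↔ 0 ≤ nval x := by
  rw [norm_eq_nval x hx]
  constructor
  · intro h
    by_contra h1
    push Not at h1
    have h2 := one_lt_zpow_of_neg₀ (unif_pos (k := k)) unif_lt h1
    exact absurd h2 (not_lt.2 h)
  · intro h
    exact zpow_le_one₀ unif_pos unif_lt.le h

lemma nval_eq_zero_iff (x : k) (hx : x ≠ 0) : nval x = 0 ↔ ‖x‖ = 1 := by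
  constructor
  · intro h; rw [norm_eq_nval x hx, h, zpow_zero]
  · intro h; exact nval_eq (by rw [zpow_zero, h])

/-- elements of the ball of radius `‖π‖ ^ n` -/
lemma exists_of_norm_le (x : k) (n : ℕ) (h : ‖x‖ ≤ ‖unif k‖ ^ n) :
    ∃ a : k, ‖a‖ ≤ 1 ∧ x = unif k ^ n * a := by
  have hπ : unif k ^ n ≠ 0 := pow_ne_zero n unif_ne
  refine ⟨x / unif k ^ n, ?_, by field_simp⟩
  rw [norm_div, norm_pow]
  exact (div_le_one (pow_pos unif_pos n)).2 h

lemma exists_of_norm_lt (x : k) (h : ‖x‖ < 1) : ∃ a : k, ‖a‖ ≤ 1 ∧ x = unif k * a := by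
  obtain ⟨a, ha, h1⟩ := exists_of_norm_le x 1 (by rw [pow_one]; exact unif_max x h)
  exact ⟨a, ha, by rw [h1, pow_one]⟩

/-- finitely many residues modulo `π ^ n` -/
lemma finite_residues (n : ℕ) : ∃ T : Finset k, ∀ x : k, ‖x‖ ≤ 1 → ∃ t ∈ T, ‖t‖ ≤ 1 ∧
    ∃ a : k, ‖a‖ ≤ 1 ∧ x = t + unif k ^ n * a := by
  obtain ⟨T, hT1, hT2⟩ := (isCompact_closedBall (0 : k) 1).elim_nhds_subcover
    (fun x => Metric.closedBall x (‖unif k‖ ^ n))
    (fun x _ => Metric.closedBall_mem_nhds x (pow_pos unif_pos n))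
  refine ⟨T, fun x hx => ?_⟩
  have h1 := hT2 (show x ∈ Metric.closedBall (0 : k) 1 by simpa using hx)
  simp only [Set.mem_iUnion] at h1
  obtain ⟨t, ht, h2⟩ := h1
  have h3 := hT1 t ht
  rw [Metric.mem_closedBall, dist_eq_norm] at h2
  obtain ⟨a, ha, h4⟩ := exists_of_norm_le _ n h2
  exact ⟨t, ht, by simpa using h3, a, ha, by rw [← h4]; ring⟩

end basic

end P025H641
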