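import Vale.Agent.P025.H641.Quot
import Vale.Agent.P025.H641.Nrm

/-! # Norm relations between the classes attached by a section -/

open IntermediateField

namespace P025H641

universe u v w

open Polynomial

variable {k : Type u} {K : Type v} [Field k] [Field K] [Algebra k K] [CharZero k]
  {s : Gal(constClosure k K/k) →* Gal(maxUnr k K/K)} {G : Subgroup Gal(constClosure k K/k)}
  {k' : Type w} [Field k'] [Algebra k' (maxUnr k K)]

section cyc

variable {p : ℕ} [Fact p.Prime] {ζ : maxUnr k K} (hζ : IsPrimitiveRoot ζ p)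
  (hζG : ∀ σ ∈ G, s σ ζ = ζ) {θ : maxUnr k K} (hθ0 : θ ≠ 0) (hθG : ∀ σ ∈ G, s σ (θ ^ p) = θ ^ p)
  {τ : Gal(constClosure k K/k)} (hτ : τ ∈ G) (hτθ : s τ θ = ζ * θ)

include hζ hζG hθ0 hτ hτθ

omit [CharZero k] hζ hθ0 in
lemma tau_pow (i : ℕ) : s (τ ^ i) θ = ζ ^ i * θ := by
  induction i with
  | zero => rw [pow_zero, pow_zero, one_mul, map_one]; rfl
  | succ i ih =>
    rw [pow_succ', map_mul, AlgEquiv.mul_apply, ih, map_mul, map_pow, hζG τ hτ, hτθ, pow_succ]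
    ring

omit [CharZero k] [Fact p.Prime] hθ0 in
lemma tau_p_mem : τ ^ p ∈ G ⊓ stabS s θ := by
  rw [Subgroup.mem_inf, mem_stabS]
  refine ⟨G.pow_mem hτ p, ?_⟩
  rw [tau_pow hζG hτ hτθ, hζ.pow_eq_one, one_mul]

omit [CharZero k] hζ hθ0 in
lemma inv_tau_pow (i : ℕ) : s (τ ^ i)⁻¹ (ζ ^ i * θ) = θ := by
  rw [← tau_pow hζG hτ hτθ i, ← AlgEquiv.mul_apply, ← map_mul, inv_mul_cancel, map_one]
  rfl

omit [CharZero k] hζ hθ0 in
lemma conj_mem (h : Gal(constClosure k K/k)) (hh : h ∈ G ⊓ stabS s θ) (i : ℕ) :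
    (τ ^ i)⁻¹ * h * τ ^ i ∈ G ⊓ stabS s θ := by
  rw [Subgroup.mem_inf, mem_stabS] at hh ⊢
  have hτi := G.pow_mem hτ i
  refine ⟨G.mul_mem (G.mul_mem (G.inv_mem hτi) hh.1) hτi, ?_⟩
  have h1 : s h (ζ ^ i * θ) = ζ ^ i * θ := by rw [map_mul, map_pow, hζG h hh.1, hh.2]
  have h2 : s ((τ ^ i)⁻¹ * h * τ ^ i) θ = s (τ ^ i)⁻¹ (s h (s (τ ^ i) θ)) := by
    rw [map_mul s, map_mul s]
    rfl
  rw [h2, tau_pow hζG hτ hτθ, h1, inv_tau_pow hζG hτ hτθ]

include hθG in
omit [CharZero k] in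
lemma exists_tau_pow (σ : Gal(constClosure k K/k)) (hσ : σ ∈ G) :
    ∃ j : ℕ, (τ ^ j)⁻¹ * σ ∈ G ⊓ stabS s θ := by
  have hpp : p.Prime := Fact.out
  have h1 : (s σ θ / θ) ^ p = 1 := by
    rw [div_pow, ← map_pow, hθG σ hσ, div_self (pow_ne_zero p hθ0)]
  obtain ⟨j, hj, h2⟩ := hζ.eq_pow_of_pow_eq_one h1
  refine ⟨j, ?_⟩
  have h3 : s σ θ = ζ ^ j * θ := by rw [h2, div_mul_cancel₀ _ hθ0]
  rw [Subgroup.mem_inf, mem_stabS]
  refine ⟨G.mul_mem (G.inv_mem (G.pow_mem hτ j)) hσ, ?_⟩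
  rw [map_mul, AlgEquiv.mul_apply, h3, inv_tau_pow hζG hτ hτθ]

include hθG in
omit [CharZero k] in
lemma fixed_of (x : maxUnr k K) (hH : ∀ h ∈ G ⊓ stabS s θ, s h x = x) (hx : s τ x = x) :
    ∀ σ ∈ G, s σ x = x := by
  intro σ hσ
  obtain ⟨j, hj⟩ := exists_tau_pow hζ hζG hθ0 hθG hτ hτθ σ hσ
  have h1 : ∀ i : ℕ, s (τ ^ i) x = x := by
    intro i
    induction i with
    | zero => rw [pow_zero, map_one]; rfl
    | succ i ih => rw [pow_succ, map_mul, AlgEquiv.mul_apply, hx, ih]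
  have h2 : s σ x = s (τ ^ j) (s ((τ ^ j)⁻¹ * σ) x) := by
    rw [← AlgEquiv.mul_apply, ← map_mul, mul_inv_cancel_left]
  rw [h2, hH _ hj, h1]

omit [CharZero k] hζ hθ0 in
/-- conjugates of elements fixed by `H` are fixed by `H` -/
lemma conj_fixed (r : maxUnr k K) (hr : ∀ h ∈ G ⊓ stabS s θ, s h r = r) (i : ℕ)
    (h : Gal(constClosure k K/k)) (hh : h ∈ G ⊓ stabS s θ) : s h (s (τ ^ i) r) = s (τ ^ i) r := by
  have h1 := hr _ (conj_mem hζG hτ hτθ h hh i)
  have h2 : s (τ ^ i) (s ((τ ^ i)⁻¹ * h * τ ^ i) r) = s (τ ^ i) r := by rw [h1]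
  rw [← AlgEquiv.mul_apply, ← map_mul] at h2
  have h3 : τ ^ i * ((τ ^ i)⁻¹ * h * τ ^ i) = h * τ ^ i := by group
  rw [h3, map_mul, AlgEquiv.mul_apply] at h2
  exact h2

omit [CharZero k] [Fact p.Prime] hθ0 in
lemma tau_shift (r : maxUnr k K) (hr : ∀ h ∈ G ⊓ stabS s θ, s h r = r) :
    s (τ ^ p) r = s (τ ^ 0) r := by
  rw [hr _ (tau_p_mem hζ hζG hτ hτθ), pow_zero, map_one]
  rfl

include hθG in
omit [CharZero k] in
/-- the norm is fixed -/
lemma norm_fixed (r : maxUnr k K) (hr : ∀ h ∈ G ⊓ stabS s θ, s h r = r) :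
    ∀ σ ∈ G, s σ (∏ i ∈ Finset.range p, s (τ ^ i) r) = ∏ i ∈ Finset.range p, s (τ ^ i) r := by
  apply fixed_of hζ hζG hθ0 hθG hτ hτθ
  · intro h hh
    rw [map_prod]
    exact Finset.prod_congr rfl (fun i _ => conj_fixed hζG hτ hτθ r hr i h hh)
  · obtain ⟨m, hm⟩ : ∃ m, p = m + 1 := ⟨p - 1, by have := (Fact.out : p.Prime).pos; omega⟩
    rw [map_prod]
    have h1 : ∀ i, s τ (s (τ ^ i) r) = s (τ ^ (i + 1)) r := by
      intro i
      rw [← AlgEquiv.mul_apply, ← map_mul, ← pow_succ']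
    rw [Finset.prod_congr rfl (fun i _ => h1 i), hm, Finset.prod_range_succ,
      Finset.prod_range_succ', ← hm, tau_shift hζ hζG hτ hτθ r hr]

end cyc

section poly

variable {p : ℕ} [Fact p.Prime]

/-- constants fixed by the stabilizer of `θ` are polynomials in `θ` -/
lemma fixed_poly (B : Base s G k') {ζ : k'} (hζ : IsPrimitiveRoot ζ p) {θ : maxUnr k K}
    (hθ0 : θ ≠ 0) (hθk : IsIntegral k θ) (hθG : ∀ σ ∈ G, s σ (θ ^ p) = θ ^ p)
    {τ : Gal(constClosure k K/k)} (hτ : τ ∈ G)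
    (hτθ : s τ θ = algebraMap k' (maxUnr k K) ζ * θ) (c : maxUnr k K) (hc : IsIntegral k c)
    (hcH : ∀ h ∈ G ⊓ stabS s θ, s h c = c) : ∃ f : k'[X], c = aeval θ f := by
  classical
  have hpp : p.Prime := Fact.out
  set Z := algebraMap k' (maxUnr k K) ζ with hZ
  have hZp : IsPrimitiveRoot Z p := hζ.map_of_injective (algebraMap k' (maxUnr k K)).injective
  have hZG : ∀ σ ∈ G, s σ Z = Z := B.fix ζ
  have hZ0 : Z ≠ 0 := hZp.ne_zero hpp.ne_zero
  have hZint : IsIntegral k Z := B.alg ζ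
  set e : ℕ → maxUnr k K := fun j => ∑ i ∈ Finset.range p, (Z⁻¹) ^ (i * j) * s (τ ^ i) c with he
  have hconj : ∀ i, IsIntegral k (s (τ ^ i) c) := by
    intro i
    exact hc.map (((s (τ ^ i) : (maxUnr k K) ≃ₐ[K] (maxUnr k K)) :
      (maxUnr k K) →ₐ[K] (maxUnr k K)).restrictScalars k)
  have heint : ∀ j, IsIntegral k (e j) := fun j =>
    IsIntegral.sum _ (fun i _ => (hZint.inv.pow _).mul (hconj i))
  have heH : ∀ j, ∀ h ∈ G ⊓ stabS s θ, s h (e j) = e j := by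
    intro j h hh
    rw [he]
    simp only [map_sum]
    refine Finset.sum_congr rfl (fun i _ => ?_)
    rw [map_mul, map_pow, map_inv₀, hZG h (Subgroup.mem_inf.1 hh).1,
      conj_fixed hZG hτ hτθ c hcH i h hh]
  have heτ : ∀ j, s τ (e j) = Z ^ j * e j := by
    intro j
    obtain ⟨m, hm⟩ : ∃ m, p = m + 1 := ⟨p - 1, by have := hpp.pos; omega⟩
    have h1 : s τ (e j) = Z ^ j * ∑ i ∈ Finset.range p, (Z⁻¹) ^ ((i + 1) * j) *
        s (τ ^ (i + 1)) c := by
      rw [he]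
      simp only [map_sum, Finset.mul_sum]
      refine Finset.sum_congr rfl (fun i _ => ?_)
      rw [map_mul, map_pow, map_inv₀, hZG τ hτ]
      have e1 : s τ (s (τ ^ i) c) = s (τ ^ (i + 1)) c := by
        rw [← AlgEquiv.mul_apply, ← map_mul, ← pow_succ']
      have e2 : (Z⁻¹) ^ (i * j) = Z ^ j * (Z⁻¹) ^ ((i + 1) * j) := by
        rw [add_mul, one_mul, pow_add, mul_comm (Z ^ j), mul_assoc, ← mul_pow,
          inv_mul_cancel₀ hZ0, one_pow, mul_one]
      rw [e1, e2, mul_assoc]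
    rw [h1]
    congr 1
    have h2 : (Z⁻¹) ^ (p * j) * s (τ ^ p) c = (Z⁻¹) ^ (0 * j) * s (τ ^ 0) c := by
      have e3 : (Z⁻¹) ^ (p * j) = 1 := by
        rw [pow_mul, inv_pow, hZp.pow_eq_one, inv_one, one_pow]
      rw [tau_shift hZp hZG hτ hτθ c hcH]
      congr 1
      rw [e3, zero_mul, pow_zero]
    rw [he]
    simp only
    rw [hm, Finset.sum_range_succ, Finset.sum_range_succ', ← hm, h2]
  -- coefficients
  have hcoef : ∀ j, ∃ d : k', algebraMap k' (maxUnr k K) d = e j / θ ^ j := by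
    intro j
    apply B.ex
    · rw [div_eq_mul_inv]
      exact (heint j).mul (hθk.pow j).inv
    · apply fixed_of hZp hZG hθ0 hθG hτ hτθ
      · intro h hh
        rw [map_div₀, map_pow, heH j h hh, (Subgroup.mem_inf.1 hh).2]
      · rw [map_div₀, map_pow, heτ, hτθ, mul_pow, mul_div_mul_left _ _ (pow_ne_zero j hZ0)]
  choose d hd using hcoef
  have hsum : ∑ j ∈ Finset.range p, e j = p * c := by
    rw [he]
    simp only
    rw [Finset.sum_comm]
    have h1 : ∀ i ∈ Finset.range p, ∑ j ∈ Finset.range p, (Z⁻¹) ^ (i * j) * s (τ ^ i) c =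
        if i = 0 then (p : maxUnr k K) * c else 0 := by
      intro i hi
      rw [← Finset.sum_mul]
      split_ifs with h0
      · rw [h0, pow_zero, map_one]
        simp
      · have h2 : (Z⁻¹) ^ i ≠ 1 := by
          intro h3
          rw [inv_pow, inv_eq_one] at h3
          have := (hZp.pow_eq_one_iff_dvd i).1 h3
          have := Nat.le_of_dvd (Nat.pos_of_ne_zero h0) this
          have := Finset.mem_range.1 hi
          omega
        have h3 : ∑ j ∈ Finset.range p, (Z⁻¹) ^ (i * j) = 0 := by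
          have h4 : (∑ j ∈ Finset.range p, ((Z⁻¹) ^ i) ^ j) * ((Z⁻¹) ^ i - 1) =
              ((Z⁻¹) ^ i) ^ p - 1 := geom_sum_mul _ _
          rw [← pow_mul, mul_comm i p, pow_mul, inv_pow Z p, hZp.pow_eq_one, inv_one, one_pow,
            sub_self] at h4
          have h5 := (mul_eq_zero.1 h4).resolve_right (sub_ne_zero.2 h2)
          rw [← h5]
          exact Finset.sum_congr rfl (fun j _ => by rw [pow_mul])
        rw [h3, zero_mul]
    rw [Finset.sum_congr rfl h1, Finset.sum_ite_eq' ]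
    simp [hpp.pos]
  have hp0 : (p : maxUnr k K) ≠ 0 := by
    have h1 : ((p : k) : k) ≠ 0 := by exact_mod_cast hpp.ne_zero
    have h2 := (_root_.map_ne_zero (algebraMap k (maxUnr k K))).2 h1
    rwa [map_natCast] at h2
  have hp0' : (p : k') ≠ 0 := by
    intro h0
    apply hp0
    rw [← map_natCast (algebraMap k' (maxUnr k K)), h0, map_zero]
  refine ⟨∑ j ∈ Finset.range p, C (d j / p) * X ^ j, ?_⟩
  rw [map_sum]
  have h1 : ∀ j ∈ Finset.range p, aeval θ (C (d j / p) * X ^ j) = e j / p := by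
    intro j _
    rw [map_mul, aeval_C, map_pow, aeval_X, map_div₀, hd, map_natCast, div_div, mul_comm (θ ^ j),
      ← div_div, div_mul_cancel₀ _ (pow_ne_zero j hθ0)]
  rw [Finset.sum_congr rfl h1, ← Finset.sum_div, hsum, mul_div_cancel_left₀ _ hp0]

/-- **The norm relation.** -/
lemma norm_relation (hs : IsSection k K s) (B : Base s G k') {ζ : k'} (hζ : IsPrimitiveRoot ζ p)
    (a b c xc : k') (hab : b - a ≠ 0) (hca : c - a ≠ 0) (t y yc : maxUnr k K)
    (hyG : ∀ σ ∈ G, s σ y = y) (hycG : ∀ σ ∈ G, s σ yc = yc) (hyc0 : yc ≠ 0)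
    (hy1 : y - 1 ≠ 0)
    (hy : t - algebraMap k' (maxUnr k K) a = algebraMap k' (maxUnr k K) (b - a) * y ^ p)
    (hyc : t - algebraMap k' (maxUnr k K) c = algebraMap k' (maxUnr k K) xc * yc ^ p)
    (θ : maxUnr k K) (hθ : algebraMap k' (maxUnr k K) (c - a) =
      algebraMap k' (maxUnr k K) (b - a) * θ ^ p)
    (hyθ : y - θ ≠ 0)
    (γ : maxUnr k K) (hγ : γ ^ p = (y - θ) / (y - 1)) :
    (∃ θ0 : k', (c - a) / (b - a) = θ0 ^ p) ∨
      ∃ f : k'[X], xc / (b - a) = nrm p ζ f ((c - a) / (b - a)) := by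
  classical
  have hpp : p.Prime := Fact.out
  set Z := algebraMap k' (maxUnr k K) ζ with hZ
  have hZp : IsPrimitiveRoot Z p := hζ.map_of_injective (algebraMap k' (maxUnr k K)).injective
  have hZG : ∀ σ ∈ G, s σ Z = Z := B.fix ζ
  have hZ0 : Z ≠ 0 := hZp.ne_zero hpp.ne_zero
  have hab' : algebraMap k' (maxUnr k K) (b - a) ≠ 0 := (_root_.map_ne_zero _).2 hab
  have hca' : algebraMap k' (maxUnr k K) (c - a) ≠ 0 := (_root_.map_ne_zero _).2 hca
  have hθp : θ ^ p = algebraMap k' (maxUnr k K) ((c - a) / (b - a)) := by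
    rw [map_div₀, hθ, mul_div_cancel_left₀ _ hab']
  have hθ0 : θ ≠ 0 := by
    rintro rfl
    rw [zero_pow hpp.ne_zero, mul_zero] at hθ
    exact hca' hθ
  have hθint : IsIntegral k θ := by
    apply isIntegral_of_pow' hpp.pos
    rw [hθp]
    exact B.alg _
  have hθG : ∀ σ ∈ G, s σ (θ ^ p) = θ ^ p := by
    intro σ hσ
    rw [hθp, B.fix _ σ hσ]
  by_cases hfix : ∀ σ ∈ G, s σ θ = θ
  · left
    obtain ⟨θ0, hθ0'⟩ := B.ex θ hθint hfix
    refine ⟨θ0, ?_⟩
    apply (algebraMap k' (maxUnr k K)).injective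
    rw [← hθp, map_pow, hθ0']
  right
  push Not at hfix
  obtain ⟨τ', hτ'G, hτ'⟩ := hfix
  -- normalize
  obtain ⟨τ, hτ, hτθ⟩ : ∃ τ ∈ G, s τ θ = Z * θ := by
    have h1 : (s τ' θ / θ) ^ p = 1 := by
      rw [div_pow, ← map_pow, hθG τ' hτ'G, div_self (pow_ne_zero p hθ0)]
    obtain ⟨j, hj, h2⟩ := hZp.eq_pow_of_pow_eq_one h1
    have h3 : s τ' θ = Z ^ j * θ := by rw [h2, div_mul_cancel₀ _ hθ0]
    have hj0 : j ≠ 0 := by
      rintro rfl
      rw [pow_zero, one_mul] at h3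
      exact hτ' h3
    obtain ⟨m, -, hm⟩ := Nat.exists_mul_mod_eq_one_of_coprime
      ((Nat.coprime_of_lt_prime hj0 hj hpp).symm) hpp.one_lt
    refine ⟨τ' ^ m, G.pow_mem hτ'G m, ?_⟩
    have h4 : ∀ i : ℕ, s (τ' ^ i) θ = Z ^ (j * i) * θ := by
      intro i
      induction i with
      | zero => rw [pow_zero, mul_zero, pow_zero, one_mul, map_one]; rfl
      | succ i ih =>
        rw [pow_succ', map_mul, AlgEquiv.mul_apply, ih, map_mul, map_pow, hZG τ' hτ'G, h3, mul_add,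
          mul_one, pow_add]
        ring
    rw [h4]
    congr 1
    rw [← pow_mod_orderOf Z (j * m), ← hZp.eq_orderOf, hm, pow_one]
  set H := G ⊓ stabS s θ with hH
  have hHcl : IsClosed (H : Set Gal(constClosure k K/k)) := by
    rw [hH, Subgroup.coe_inf]
    exact B.closed.inter (isClosed_stabS hs θ)
  set g : maxUnr k K := (y - θ) / (y - 1) with hg
  have hg0 : g ≠ 0 := div_ne_zero hyθ hy1
  have hγ0 : γ ≠ 0 := by
    rintro rfl
    rw [zero_pow hpp.ne_zero] at hγ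
    exact hg0 hγ.symm
  have hgH : ∀ σ ∈ H, s σ g = g := by
    intro σ hσ
    obtain ⟨h1, h2⟩ := Subgroup.mem_inf.1 hσ
    rw [mem_stabS] at h2
    rw [hg, map_div₀, map_sub, map_sub, hyG σ h1, h2, map_one]
  obtain ⟨l, hl0, hlint, hlH⟩ := exists_const_class hs H hHcl Z hZp
    (fun σ hσ => hZG σ (Subgroup.mem_inf.1 hσ).1) γ hγ0 (fun σ hσ => by rw [hγ, hgH σ hσ])
  set r := γ / l with hr
  have hr0 : r ≠ 0 := div_ne_zero hγ0 hl0
  have hlp : l ^ p = g / r ^ p := by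
    rw [hr, div_pow, hγ]
    field_simp
  have hlpH : ∀ σ ∈ H, s σ (l ^ p) = l ^ p := by
    intro σ hσ
    rw [hlp, map_div₀, map_pow, hgH σ hσ, hlH σ hσ]
  obtain ⟨f, hf⟩ := fixed_poly B hζ hθ0 hθint hθG hτ hτθ (l ^ p) (hlint.pow p) hlpH
  -- norms
  have hact : ∀ (i : ℕ) (q : k'[X]), s (τ ^ i) (aeval θ q) = aeval (Z ^ i * θ) q := by
    intro i q
    have h1 : ∀ d : k', s (τ ^ i) (algebraMap k' (maxUnr k K) d) =
        algebraMap k' (maxUnr k K) d := fun d => B.fix d _ (G.pow_mem hτ i)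
    rw [aeval_eq_sum_range, aeval_eq_sum_range, map_sum]
    refine Finset.sum_congr rfl (fun j _ => ?_)
    rw [Algebra.smul_def, Algebra.smul_def, map_mul, h1, map_pow, tau_pow hZG hτ hτθ]
  set P := ∏ i ∈ Finset.range p, s (τ ^ i) r with hP
  have hPG : ∀ σ ∈ G, s σ P = P := norm_fixed hZp hZG hθ0 hθG hτ hτθ r hlH
  have hP0 : P ≠ 0 := Finset.prod_ne_zero_iff.2 (fun i _ => by
    rw [Ne, EmbeddingLike.map_eq_zero_iff]; exact hr0)
  have h1 : ∏ i ∈ Finset.range p, s (τ ^ i) g =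
      (y ^ p - algebraMap k' (maxUnr k K) ((c - a) / (b - a))) / (y - 1) ^ p := by
    have h2 : ∀ i ∈ Finset.range p, s (τ ^ i) g = (y - Z ^ i * θ) / (y - 1) := by
      intro i _
      rw [hg, map_div₀, map_sub, map_sub, hyG _ (G.pow_mem hτ i), tau_pow hZG hτ hτθ, map_one]
    rw [Finset.prod_congr rfl h2, Finset.prod_div_distrib, Finset.prod_const, Finset.card_range,
      ← hθp]
    congr 1
    have h3 := X_pow_sub_C_eq_prod hZp hpp.pos (rfl : θ ^ p = θ ^ p)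
    have h4 := congrArg (Polynomial.eval y) h3
    rw [Polynomial.eval_prod] at h4
    simp only [Polynomial.eval_sub, Polynomial.eval_pow, Polynomial.eval_X,
      Polynomial.eval_C] at h4
    exact h4.symm
  have h2 : ∏ i ∈ Finset.range p, s (τ ^ i) g =
      algebraMap k' (maxUnr k K) (nrm p ζ f ((c - a) / (b - a))) * P ^ p := by
    rw [nrm_spec hpp.pos hζ f _ θ hθp, hP, ← Finset.prod_pow, ← Finset.prod_mul_distrib]
    refine Finset.prod_congr rfl (fun i _ => ?_)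
    have h3 : g = aeval θ f * r ^ p := by
      rw [← hf, hlp, div_mul_cancel₀ _ (pow_ne_zero p hr0)]
    calc s (τ ^ i) g = s (τ ^ i) (aeval θ f * r ^ p) := by rw [← h3]
      _ = s (τ ^ i) (aeval θ f) * s (τ ^ i) r ^ p := by
        rw [map_mul (s (τ ^ i)), map_pow (s (τ ^ i))]
      _ = _ := by rw [hact, hZ, ← map_pow (algebraMap k' (maxUnr k K))]
  -- the constant
  have h3 : algebraMap k' (maxUnr k K) (b - a) *
      (y ^ p - algebraMap k' (maxUnr k K) ((c - a) / (b - a))) =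
        algebraMap k' (maxUnr k K) xc * yc ^ p := by
    rw [mul_sub, ← hy, ← hyc, ← map_mul, mul_div_cancel₀ _ hab, map_sub]
    ring
  set nf := nrm p ζ f ((c - a) / (b - a)) with hnf
  have hy1p : (y - 1) ^ p ≠ 0 := pow_ne_zero p hy1
  have h4 : algebraMap k' (maxUnr k K) xc * yc ^ p =
      algebraMap k' (maxUnr k K) (b - a) * (algebraMap k' (maxUnr k K) nf * (P * (y - 1)) ^ p) := by
    rw [← h3]
    congr 1
    rw [h2, eq_div_iff hy1p] at h1
    rw [← h1, mul_pow]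
    ring
  have hnf0 : nf = 0 → xc = 0 := by
    intro h0
    rw [h0, map_zero, zero_mul, mul_zero] at h4
    have h5 := (mul_eq_zero.1 h4).resolve_right (pow_ne_zero p hyc0)
    exact (map_eq_zero _).1 h5
  by_cases hxc : xc = 0
  · refine ⟨0, ?_⟩
    rw [hxc, zero_div]
    apply (algebraMap k' (maxUnr k K)).injective
    rw [nrm_spec hpp.pos hζ 0 _ θ hθp, map_zero]
    simp [hpp.ne_zero]
  have hnf0' : nf ≠ 0 := fun h => hxc (hnf0 h)
  have hnfM : algebraMap k' (maxUnr k K) nf ≠ 0 := (_root_.map_ne_zero _).2 hnf0'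
  set ρ := P * (y - 1) / yc with hρ
  have hρp : ρ ^ p = algebraMap k' (maxUnr k K) (xc / (b - a) / nf) := by
    rw [hρ, div_pow, map_div₀, map_div₀, div_eq_div_iff (pow_ne_zero p hyc0) hnfM]
    have h5 : algebraMap k' (maxUnr k K) (b - a) *
        ((P * (y - 1)) ^ p * algebraMap k' (maxUnr k K) nf) =
        algebraMap k' (maxUnr k K) (b - a) * (algebraMap k' (maxUnr k K) xc /
          algebraMap k' (maxUnr k K) (b - a) * yc ^ p) := by
      field_simp
      rw [h4]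
      ring
    exact mul_left_cancel₀ hab' h5
  obtain ⟨ρ0, hρ0⟩ := B.ex ρ (isIntegral_of_pow' hpp.pos (by rw [hρp]; exact B.alg _)) (by
    intro σ hσ
    rw [hρ, map_div₀, map_mul, map_sub, map_one, hPG σ hσ, hyG σ hσ, hycG σ hσ])
  refine ⟨C ρ0 * f, ?_⟩
  apply (algebraMap k' (maxUnr k K)).injective
  rw [nrm_spec hpp.pos hζ (C ρ0 * f) _ θ hθp]
  simp only [map_mul, aeval_C]
  rw [Finset.prod_mul_distrib, Finset.prod_const, Finset.card_range, hρ0, hρp]
  have h6 := nrm_spec hpp.pos hζ f ((c - a) / (b - a)) θ hθp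
  rw [← hnf] at h6
  rw [← h6, ← map_mul, div_mul_cancel₀ _ hnf0']

end poly

end P025H641
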