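import Vale.Agent.P025.H641.OSec
import Vale.Agent.P025.H641.OMax

/-! # Sections of the `p`-orbifold group: notions used in the statement -/

open IntermediateField Polynomial

namespace P025H641

universe u v w

variable {k : Type u} {E : Type v} [Field k] [Field E] [Algebra k E]
  {M : IntermediateField E (AlgebraicClosure E)}

/-- the section `s₁` of `Gal(M / E)` lifts the section `s`: whenever `s σ` maps `x` to `y`, so
does `s₁ σ`. -/
def SecOf.Lifts (s₁ : SecOf k M) (s : Section k E) : Prop :=
  ∀ (σ : GalOf (constClosure k E)) (x y : AlgebraicClosure E),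
    (s.hom σ).Maps x y → (s₁.hom σ).Maps x y

/-- the section `s` of `Gal(M / E)` is geometric: its image stabilizes a valuation ring of `M`
which lies over a `k`-rational place of `E`. -/
def SecOf.IsGeometric (s : SecOf k M) : Prop :=
  ∃ W : ValuationSubring M, IsRatPlace k E (W.comap (algebraMap E M)) ∧
    ∀ (σ : GalOf (constClosure k E)) (x y : M), (s.hom σ).Maps x y → x ∈ W → y ∈ W

end P025H641
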