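import Vale.Agent.P025.H641.OLift
import Vale.Agent.P025.H641.OStmt
import Vale.Agent.P025.H16.GeoLift
import Vale.Agent.P025.H641.GeoMain

/-! # Theorem S and the equivalences -/

open IntermediateField Polynomial

namespace P025H641

universe u v w

variable {p : ℕ} [Fact p.Prime] {k : Type u} [Field k] [Algebra ℚ_[p] k]
  [FiniteDimensional ℚ_[p] k] {E : Type v} [Field E] [Algebra k E]

theorem secOf_isGeometric (hE : IsFunctionField k E) {T : Set (ValuationSubring E)}
    (hT : T.Countable)
    (s : SecOf k (maxOrb p k T : IntermediateField E (AlgebraicClosure E))) : s.IsGeometric :=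
  secOf_geometric hE hT s

theorem isGeometric_iff_orb (hE : IsFunctionField k E) (s : Section k E) :
    s.IsGeometric ↔ ∃ s₁ : SecOf k (maxOrb p k (∅ : Set (ValuationSubring E)) :
      IntermediateField E (AlgebraicClosure E)), s₁.Lifts s := by
  have hpp : p.Prime := Fact.out
  have hchar : CharZero k := charZero_of_injective_algebraMap (algebraMap ℚ_[p] k).injective
  constructor
  · intro hs
    exact P025H16.exists_lift_orb hpp hE s hs
  · rintro ⟨s₁, h⟩
    exact isGeometric_of_induces hE Set.countable_empty s₁ s h

theorem isGeometric_iff_ram (hE : IsFunctionField k E) (s : Section k E) :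
    s.IsGeometric ↔ ∀ S : Finset E, (∀ g ∈ S, g ≠ 0) →
      ∃ K : IntermediateField E (AlgebraicClosure E), FiniteDimensional E K ∧
        IsRamifiedOver p k K S ∧ ∃ s' : Section k K, s.LiftsTo s' := by
  have hchar : CharZero k := charZero_of_injective_algebraMap (algebraMap ℚ_[p] k).injective
  constructor
  · intro hs S hS
    obtain ⟨s₁, h⟩ := (isGeometric_iff_orb (p := p) hE s).1 hs
    exact lifts_of_secOf hE s₁ s h S hS
  · intro h
    refine isGeometric_of_lifts (p := p) hE s (fun S hS => ?_)
    obtain ⟨K, -, hram, s', hs'⟩ := h S hS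
    exact ⟨K, inferInstance, inferInstance, inferInstance,
      IsScalarTower.of_algebraMap_eq (fun _ => rfl), s', hram, hs'⟩

end P025H641
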