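import Vale.Agent.P025.H641.OSec

/-! # The fixed field of a section, stable valuations: general extensions -/

open IntermediateField

namespace P025H641

universe u v w

section galoisM

variable {k : Type u} {K : Type v} [Field k] [Field K] [Algebra k K]
  {M : IntermediateField K (AlgebraicClosure K)}

/-- all constants lie in `M` -/
def ConstIn (k : Type u) {K : Type v} [Field k] [Field K] [Algebra k K]
    (M : IntermediateField K (AlgebraicClosure K)) : Prop :=
  ∀ x : AlgebraicClosure K, IsIntegral k x → x ∈ M

lemma isIntegral_coeM {x : M} : IsIntegral k (x : AlgebraicClosure K) ↔ IsIntegral k x :=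
  isIntegral_algHom_iff ((M.val).restrictScalars k) Subtype.val_injective

variable [Normal K M]

variable [CharZero k] {s : Gal(constClosure k K/k) →* Gal(M/K)}

/-- the fixed field of a section -/
noncomputable def FixM (s : Gal(constClosure k K/k) →* Gal(M/K)) :
    IntermediateField K M := IntermediateField.fixedField s.range

omit [CharZero k] in
lemma mem_fixM (x : M) : x ∈ FixM s ↔ ∀ σ, s σ x = x := by
  rw [FixM, IntermediateField.mem_fixedField_iff]
  constructor
  · exact fun h σ => h _ ⟨σ, rfl⟩
  · rintro h _ ⟨σ, rfl⟩
    exact h σ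

/-- the maximal unramified extension is generated by constants over the fixed field -/
lemma adjoin_const_eq_topM (hM : ConstIn k M) (hs : IsSecOf k M s) :
    IntermediateField.adjoin (FixM s) {x : M | IsIntegral k x} = ⊤ := by
  have hcharK : CharZero K := charZero_of_injective_algebraMap (algebraMap k K).injective
  have hgal : IsGalois K M := ⟨⟩
  -- the range is closed
  have hcl : IsClosed (s.range : Set Gal(M/K)) := by
    have h1 : (s.range : Set Gal(M/K)) = Set.range s := MonoidHom.coe_range s
    rw [h1]
    exact (isCompact_range hs.continuous).isClosed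
  set L : IntermediateField K M :=
    (IntermediateField.adjoin (FixM s) {x : M | IsIntegral k x}).restrictScalars K
    with hL
  have hfix : L.fixingSubgroup = ⊥ := by
    rw [eq_bot_iff]
    intro g hg
    rw [IntermediateField.mem_fixingSubgroup_iff] at hg
    have h1 := InfiniteGalois.fixingSubgroup_fixedField (⟨s.range, hcl⟩ : ClosedSubgroup _)
    have h2 : g ∈ (IntermediateField.fixedField s.range).fixingSubgroup := by
      rw [IntermediateField.mem_fixingSubgroup_iff]
      intro x hx
      exact hg x (IntermediateField.algebraMap_mem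
        (IntermediateField.adjoin (FixM s) {x : M | IsIntegral k x})
        (⟨x, hx⟩ : FixM s))
    have h3 : (IntermediateField.fixedField s.range).fixingSubgroup = s.range := h1
    rw [h3] at h2
    obtain ⟨σ, rfl⟩ := h2
    have h4 : σ = 1 := by
      ext x
      have hxint : IsIntegral k (x : AlgebraicClosure K) := (mem_algebraicClosure_iff.1 x.2).isIntegral
      have h5 := hs.lifts σ x ⟨x, hM _ hxint⟩ rfl
      rw [hg _ (IntermediateField.subset_adjoin (FixM s) _ (isIntegral_coeM.1 hxint))] at h5
      exact h5
    rw [h4, map_one]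
    exact Subgroup.mem_bot.2 rfl
  have h1 := InfiniteGalois.fixedField_fixingSubgroup L
  rw [hfix, IntermediateField.fixedField_bot] at h1
  rw [eq_top_iff]
  intro x _
  have h2 : x ∈ L := by rw [← h1]; trivial
  exact h2

omit [CharZero k] in
lemma tower_fixM : IsScalarTower k (FixM s) M :=
  IsScalarTower.of_algebraMap_eq (fun _ => rfl)

/-- representation by independent constants -/
lemma exists_const_basisM (hM : ConstIn k M) (hs : IsSecOf k M s) : ∃ (I : Type v) (c : I → M),
    (∀ i, IsIntegral k (c i)) ∧ LinearIndependent k c ∧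
      ∀ x : M, ∃ l : I →₀ FixM s,
        x = ∑ i ∈ l.support, algebraMap (FixM s) M (l i) * c i := by
  classical
  have htower := tower_fixM (k := k) (K := K) (s := s)
  let b := Module.Basis.ofVectorSpace k (constClosure k K)
  have hint : ∀ y : constClosure k K, IsIntegral k (y : AlgebraicClosure K) := fun y =>
    (mem_algebraicClosure_iff.1 y.2).isIntegral
  let c : Module.Basis.ofVectorSpaceIndex k (constClosure k K) → M := fun i =>
    ⟨b i, hM _ (hint (b i))⟩
  have hcint : ∀ i, IsIntegral k (c i) := fun i => isIntegral_coeM.1 (hint (b i))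
  have hli : LinearIndependent k c := by
    let φ : M →ₗ[k] AlgebraicClosure K :=
      (((M).val).restrictScalars k).toLinearMap
    apply LinearIndependent.of_comp φ
    exact b.linearIndependent.map' ((constClosure k K).val).toLinearMap
      (LinearMap.ker_eq_bot.2 Subtype.val_injective)
  refine ⟨_, c, hcint, hli, ?_⟩
  -- constants are combinations of the `c i`
  have hspan : ∀ y : M, IsIntegral k y → y ∈ Submodule.span (FixM s) (Set.range c) := by
    intro y hy
    have hy' : (y : AlgebraicClosure K) ∈ constClosure k K :=
      mem_algebraicClosure_iff.2 (isIntegral_coeM.2 hy).isAlgebraic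
    have h2 : y = ∑ i ∈ (b.repr ⟨(y : AlgebraicClosure K), hy'⟩).support,
        (b.repr ⟨(y : AlgebraicClosure K), hy'⟩ i) • c i := by
      apply Subtype.ext
      have h3 := b.linearCombination_repr ⟨(y : AlgebraicClosure K), hy'⟩
      rw [Finsupp.linearCombination_apply, Finsupp.sum] at h3
      have h4 := congrArg (fun z : constClosure k K => (z : AlgebraicClosure K)) h3
      simp only [AddSubmonoidClass.coe_finsetSum] at h4
      refine h4.symm.trans ?_
      have h5 := map_sum (((M).val).restrictScalars k)
        (fun i => (b.repr ⟨(y : AlgebraicClosure K), hy'⟩ i) • c i)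
        (b.repr ⟨(y : AlgebraicClosure K), hy'⟩).support
      exact h5.symm
    rw [h2]
    refine Submodule.sum_mem _ (fun i _ => ?_)
    have h3 : (b.repr ⟨(y : AlgebraicClosure K), hy'⟩ i) • c i =
        (algebraMap k (FixM s) (b.repr ⟨(y : AlgebraicClosure K), hy'⟩ i)) • c i := by
      rw [algebraMap_smul]
    rw [h3]
    exact Submodule.smul_mem _ _ (Submodule.subset_span ⟨i, rfl⟩)
  intro x
  have hx : x ∈ IntermediateField.adjoin (FixM s) {x : M | IsIntegral k x} := by
    rw [adjoin_const_eq_topM hM hs]; trivial
  have hx2 : x ∈ Algebra.adjoin (FixM s) {x : M | IsIntegral k x} := by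
    rw [← IntermediateField.adjoin_toSubalgebra_of_isAlgebraic]
    · exact hx
    · intro y hy
      have hy' : IsIntegral k y := hy
      exact hy'.isAlgebraic.tower_top (FixM s)
  have hx3 : x ∈ Submodule.span (FixM s) {x : M | IsIntegral k x} := by
    have h1 : x ∈ Subalgebra.toSubmodule
        (Algebra.adjoin (FixM s) {x : M | IsIntegral k x}) := hx2
    rw [Algebra.adjoin_eq_span] at h1
    have h2 : (Submonoid.closure {x : M | IsIntegral k x} : Set (M)) ⊆
        {x : M | IsIntegral k x} := by
      let T : Submonoid (M) :=
        { carrier := {x : M | IsIntegral k x}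
          mul_mem' := fun ha hb => IsIntegral.mul ha hb
          one_mem' := isIntegral_one }
      have h3 : Submonoid.closure {x : M | IsIntegral k x} ≤ T :=
        Submonoid.closure_le.2 (fun y hy => hy)
      exact h3
    exact Submodule.span_mono h2 h1
  have hx4 : x ∈ Submodule.span (FixM s) (Set.range c) :=
    Submodule.span_le.2 (fun y hy => hspan y hy) hx3
  rw [Finsupp.mem_span_range_iff_exists_finsupp] at hx4
  obtain ⟨l, hl⟩ := hx4
  refine ⟨l, ?_⟩
  rw [← hl, Finsupp.sum]
  refine Finset.sum_congr rfl (fun i _ => ?_)
  rw [Algebra.smul_def]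

/-- **Stable extension of rational valuation rings of the fixed field.** -/
theorem exists_stable_valM (hM : ConstIn k M) (hs : IsSecOf k M s) (V : ValuationSubring (FixM s))
    (hVk : ∀ c : k, algebraMap k (FixM s) c ∈ V)
    (hres : ∀ f ∈ V, ∃ c : k, V.valuation (f - algebraMap k (FixM s) c) < 1) :
    ∃ W : ValuationSubring (M), W.comap (algebraMap (FixM s) M) = V ∧
      ∀ σ x, x ∈ W → s σ x ∈ W := by
  have htower := tower_fixM (k := k) (K := K) (s := s)
  obtain ⟨W, hW⟩ := exists_val_extension (L := M) V
  refine ⟨W, hW, ?_⟩
  have hWk : ∀ c : k, algebraMap k (M) c ∈ W := by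
    intro c
    have h1 := hVk c
    rw [← hW, ValuationSubring.mem_comap, ← IsScalarTower.algebraMap_apply] at h1
    exact h1
  have hWres : ∀ f : FixM s, algebraMap (FixM s) M f ∈ W → ∃ c : k,
      W.valuation (algebraMap (FixM s) M f - algebraMap k (M) c) < 1 := by
    intro f hf
    have h1 : f ∈ V := by rw [← hW, ValuationSubring.mem_comap]; exact hf
    obtain ⟨c, hc⟩ := hres f h1
    refine ⟨c, ?_⟩
    rw [← hW, (comap_isEquiv (F := FixM s) W).lt_one_iff_lt_one, Valuation.comap_apply, map_sub,
      ← IsScalarTower.algebraMap_apply] at hc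
    exact hc
  obtain ⟨I, c, hcint, hli, hrep⟩ := exists_const_basisM hM hs
  intro σ x hx
  obtain ⟨l, hl⟩ := hrep x
  rw [hl, gauss_mem hWk hWres _ c hcint hli] at hx
  let φ : M →ₐ[k] M :=
    ((s σ : (M) ≃ₐ[K] (M)) : (M) →ₐ[K] (M)).restrictScalars k
  have h1 : s σ x = ∑ i ∈ l.support, algebraMap (FixM s) M (l i) * s σ (c i) := by
    conv_lhs => rw [hl]
    rw [map_sum]
    refine Finset.sum_congr rfl (fun i _ => ?_)
    rw [map_mul]
    congr 1
    exact (mem_fixM _).1 (l i).2 σ
  rw [h1, gauss_mem hWk hWres _ (fun i => s σ (c i)) (fun i => (hcint i).map φ)]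
  · exact hx
  · exact hli.map' φ.toLinearMap (LinearMap.ker_eq_bot.2 (s σ).injective)

end galoisM

end P025H641
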