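import Vale.Agent.P025.H641.OFix

/-! # Kummer classes for general extensions -/

open IntermediateField

namespace P025H641

universe u v w

variable {k : Type u} {K : Type v} [Field k] [Field K] [Algebra k K]
  {M : IntermediateField K (AlgebraicClosure K)} [Normal K M]

section stab

variable {s : Gal(constClosure k K/k) →* Gal(M/K)}

/-- the stabilizer of an element under the action through `s` -/
def stabM (s : Gal(constClosure k K/k) →* Gal(M/K)) (γ : M) :
    Subgroup Gal(constClosure k K/k) where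
  carrier := {σ | s σ γ = γ}
  mul_mem' := by
    intro a b ha hb
    simp only [Set.mem_ofPred_eq] at ha hb ⊢
    rw [map_mul, AlgEquiv.mul_apply, hb, ha]
  one_mem' := by simp
  inv_mem' := by
    intro a ha
    simp only [Set.mem_ofPred_eq] at ha ⊢
    rw [map_inv]
    apply (s a).injective
    rw [← AlgEquiv.mul_apply, mul_inv_cancel, ha]
    simp

lemma mem_stabM (γ : M) (σ : Gal(constClosure k K/k)) :
    σ ∈ stabM s γ ↔ s σ γ = γ := Iff.rfl

/-- stabilizers of the action through a section are closed -/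
lemma isClosed_stabM (hs : IsSecOf k M s) (γ : M) :
    IsClosed (stabM s γ : Set Gal(constClosure k K/k)) := by
  have : FiniteDimensional K (IntermediateField.adjoin K {γ}) :=
    IntermediateField.adjoin.finiteDimensional (Algebra.IsIntegral.isIntegral γ)
  have hopen := IntermediateField.fixingSubgroup_isOpen (IntermediateField.adjoin K {γ})
  have h1 : IsOpen (((IntermediateField.adjoin K {γ}).fixingSubgroup.comap s :
      Subgroup Gal(constClosure k K/k)) : Set Gal(constClosure k K/k)) :=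
    hopen.preimage hs.continuous
  have h2 : (IntermediateField.adjoin K {γ}).fixingSubgroup.comap s ≤ stabM s γ := by
    intro σ hσ
    rw [Subgroup.mem_comap, IntermediateField.mem_fixingSubgroup_iff] at hσ
    exact hσ γ (IntermediateField.mem_adjoin_simple_self K γ)
  have h3 : IsOpen (stabM s γ : Set Gal(constClosure k K/k)) := Subgroup.isOpen_mono h2 h1
  exact Subgroup.isClosed_of_isOpen _ h3

end stab

variable [CharZero k]

/-- `k'` is the field of constants fixed by the closed subgroup `G` -/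
structure BaseM (s : Gal(constClosure k K/k) →* Gal(M/K))
    (G : Subgroup Gal(constClosure k K/k)) (k' : Type w) [Field k'] [Algebra k' M] :
    Prop where
  closed : IsClosed (G : Set Gal(constClosure k K/k))
  alg : ∀ c : k', IsIntegral k (algebraMap k' M c)
  fix : ∀ c : k', ∀ σ ∈ G, s σ (algebraMap k' M c) = algebraMap k' M c
  ex : ∀ x : M, IsIntegral k x → (∀ σ ∈ G, s σ x = x) →
    ∃ c : k', algebraMap k' M c = x

variable {s : Gal(constClosure k K/k) →* Gal(M/K)}

/-- **Classes of divisible elements**, for a closed subgroup `H`. -/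
lemma exists_const_classM (hM : ConstIn k M) (hs : IsSecOf k M s) {p : ℕ} [Fact p.Prime]
    (H : Subgroup Gal(constClosure k K/k)) (hH : IsClosed (H : Set Gal(constClosure k K/k)))
    (ζ : M) (hζ : IsPrimitiveRoot ζ p) (hζH : ∀ σ ∈ H, s σ ζ = ζ)
    (γ : M) (hγ0 : γ ≠ 0) (hγ : ∀ σ ∈ H, s σ (γ ^ p) = γ ^ p) :
    ∃ l : M, l ≠ 0 ∧ IsIntegral k l ∧ ∀ σ ∈ H, s σ (γ / l) = γ / l := by
  classical
  have hpp : p.Prime := Fact.out
  have hζ0 : ζ ≠ 0 := hζ.ne_zero hpp.ne_zero
  -- `ζ` as a constant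
  have hζint : IsIntegral k ζ :=
    isIntegral_of_pow' (n := p) hpp.pos (by rw [hζ.pow_eq_one]; exact isIntegral_one)
  have hζmem : (ζ : AlgebraicClosure K) ∈ constClosure k K :=
    mem_algebraicClosure_iff.2 (isIntegral_coeM.2 hζint).isAlgebraic
  set ζC : constClosure k K := ⟨ζ, hζmem⟩ with hζC
  have hζCprim : IsPrimitiveRoot ζC p := by
    have h1 : IsPrimitiveRoot (ζ : AlgebraicClosure K) p :=
      hζ.map_of_injective (f := (M).val) Subtype.val_injective
    exact IsPrimitiveRoot.of_map_of_injective (f := (constClosure k K).val) h1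
      Subtype.val_injective
  have hζCH : ∀ σ ∈ H, σ ζC = ζC := by
    intro σ hσ
    have := hs.lifts σ ζC ζ rfl
    rw [hζH σ hσ] at this
    exact Subtype.ext this
  -- the character
  have hex : ∀ σ ∈ H, ∃ i : ℕ, i < p ∧ s σ γ = ζ ^ i * γ := by
    intro σ hσ
    have h1 : (s σ γ / γ) ^ p = 1 := by
      rw [div_pow, ← map_pow, hγ σ hσ, div_self (pow_ne_zero p hγ0)]
    obtain ⟨i, hi, h2⟩ := hζ.eq_pow_of_pow_eq_one h1
    exact ⟨i, hi, by rw [h2, div_mul_cancel₀ _ hγ0]⟩
  let χ : Gal(constClosure k K/k) → ZMod p := fun σ =>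
    if h : ∃ i : ℕ, i < p ∧ s σ γ = ζ ^ i * γ then ((h.choose : ℕ) : ZMod p) else 0
  have hχs : ∀ σ ∈ H, s σ γ = ζ ^ (χ σ).val * γ := by
    intro σ hσ
    have h := hex σ hσ
    have h1 : χ σ = ((h.choose : ℕ) : ZMod p) := dif_pos h
    rw [h1, ZMod.val_natCast, Nat.mod_eq_of_lt h.choose_spec.1]
    exact h.choose_spec.2
  have hinj : ∀ a b : ZMod p, ζ ^ a.val = ζ ^ b.val → a = b := by
    intro a b h
    exact ZMod.val_injective p (hζ.pow_inj (ZMod.val_lt a) (ZMod.val_lt b) h)
  have hζval : ∀ n : ℕ, ζ ^ n = ζ ^ ((n : ZMod p)).val := by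
    intro n
    rw [ZMod.val_natCast, hζ.eq_orderOf, pow_mod_orderOf]
  have hχ : ∀ σ ∈ H, ∀ τ ∈ H, χ (σ * τ) = χ σ + χ τ := by
    intro σ hσ τ hτ
    apply hinj
    have h1 := hχs _ (H.mul_mem hσ hτ)
    rw [map_mul, AlgEquiv.mul_apply, hχs τ hτ, map_mul, map_pow, hζH σ hσ, hχs σ hσ,
      ← mul_assoc, ← pow_add] at h1
    have h2 := mul_right_cancel₀ hγ0 h1
    rw [← h2, hζval]
    push_cast
    rw [ZMod.natCast_zmod_val, ZMod.natCast_zmod_val, add_comm]
  set N := H ⊓ stabM s γ with hN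
  obtain ⟨l, hl0, hl⟩ := kummer_p H N
    (by
      rw [hN, Subgroup.coe_inf]
      exact hH.inter (isClosed_stabM hs γ)) χ hχ
    (by
      intro σ
      rw [hN, Subgroup.mem_inf, mem_stabM]
      constructor
      · rintro ⟨h1, h2⟩
        refine ⟨h1, ?_⟩
        apply hinj
        rw [hχs σ h1] at h2
        have h3 : ζ ^ (χ σ).val = 1 := mul_right_cancel₀ hγ0 (by rw [h2, one_mul])
        rw [h3, ZMod.val_zero, pow_zero]
      · rintro ⟨h1, h2⟩
        refine ⟨h1, ?_⟩
        rw [hχs σ h1, h2, ZMod.val_zero, pow_zero, one_mul]) ζC hζCprim hζCH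
  have hlint : IsIntegral k (l : AlgebraicClosure K) :=
    (mem_algebraicClosure_iff.1 l.2).isIntegral
  set lM : M := ⟨l, hM _ hlint⟩ with hlM
  have hlM0 : lM ≠ 0 := by
    intro h0
    apply hl0
    apply Subtype.ext
    exact congrArg (fun x : M => (x : AlgebraicClosure K)) h0
  refine ⟨lM, hlM0, isIntegral_coeM.1 hlint, ?_⟩
  intro σ hσ
  have h1 : s σ lM = ζ ^ (χ σ).val * lM := by
    apply Subtype.ext
    have h2 := hs.lifts σ l lM rfl
    rw [hl σ hσ] at h2
    rw [← h2]
    simp [hζC, hlM]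
  rw [map_div₀, h1, hχs σ hσ, mul_div_mul_left _ _ (pow_ne_zero _ hζ0)]

/-- **Classes of divisible functions.** -/
lemma exists_classM {G : Subgroup Gal(constClosure k K/k)} {k' : Type w} [Field k']
    [Algebra k' (M)] (hM : ConstIn k M) (hs : IsSecOf k M s) (B : BaseM s G k') {p : ℕ} [Fact p.Prime]
    {ζ : k'} (hζ : IsPrimitiveRoot ζ p) (f γ : M) (hf0 : f ≠ 0) (hγ : γ ^ p = f)
    (hf : ∀ σ ∈ G, s σ f = f) :
    ∃ (x : k') (y : M), x ≠ 0 ∧ (∀ σ ∈ G, s σ y = y) ∧
      f = algebraMap k' (M) x * y ^ p := by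
  have hpp : p.Prime := Fact.out
  have hγ0 : γ ≠ 0 := by
    rintro rfl
    rw [zero_pow hpp.ne_zero] at hγ
    exact hf0 hγ.symm
  obtain ⟨l, hl0, hl, hγl⟩ := exists_const_classM hM hs G B.closed _
    (hζ.map_of_injective (algebraMap k' (M)).injective) (B.fix ζ) γ hγ0
    (fun σ hσ => by rw [hγ, hf σ hσ])
  have hlp : l ^ p = f / (γ / l) ^ p := by
    rw [div_pow, hγ]
    field_simp
  obtain ⟨x, hx⟩ := B.ex (l ^ p) (hl.pow p) (by
    intro σ hσ
    rw [hlp, map_div₀, map_pow, hγl σ hσ, hf σ hσ])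
  refine ⟨x, γ / l, ?_, hγl, ?_⟩
  · rintro rfl
    rw [map_zero] at hx
    exact pow_ne_zero p hl0 hx.symm
  · rw [hx, hlp]
    have h1 : (γ / l) ^ p ≠ 0 := pow_ne_zero p (div_ne_zero hγ0 hl0)
    rw [div_mul_cancel₀ _ h1]

end P025H641
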