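import Vale.Agent.P025.H641.OKum

/-! # Adjoining the roots of unity to the fixed field -/

open IntermediateField Polynomial

namespace P025H641

universe u v w

variable {k : Type u} {K : Type v} [Field k] [CharZero k] [Field K] [Algebra k K]
  {M : IntermediateField K (AlgebraicClosure K)} [Normal K M]
  {s : Gal(constClosure k K/k) →* Gal(M/K)}

/-- the base `k(ζ)` -/
lemma baseM_cyc (hM : ConstIn k M) (hs : IsSecOf k M s) {ζ : M} (hζ : IsIntegral k ζ) :
    BaseM s (stabM s ζ) k⟮ζ⟯ := by
  have hpol : ∀ c : k⟮ζ⟯, ∃ P : k[X], (c : M) = aeval ζ P := by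
    intro c
    have h1 : (c : M) ∈ Algebra.adjoin k {ζ} := by
      rw [← IntermediateField.adjoin_simple_toSubalgebra_of_isAlgebraic hζ.isAlgebraic]
      exact c.2
    rw [Algebra.adjoin_singleton_eq_range_aeval] at h1
    obtain ⟨P, hP⟩ := h1
    exact ⟨P, hP.symm⟩
  have hact : ∀ (σ : Gal(constClosure k K/k)) (P : k[X]), s σ (aeval ζ P) = aeval (s σ ζ) P := by
    intro σ P
    exact (aeval_algHom_apply (((s σ : M ≃ₐ[K] M) : M →ₐ[K] M).restrictScalars k) ζ P).symm
  constructor
  · exact isClosed_stabM hs _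
  · intro c
    obtain ⟨P, hP⟩ := hpol c
    show IsIntegral k (c : M)
    rw [hP]
    exact IsIntegral.of_mem_of_fg _ hζ.fg_adjoin_singleton _ (aeval_mem_adjoin_singleton k _)
  · intro c σ hσ
    rw [mem_stabM] at hσ
    obtain ⟨P, hP⟩ := hpol c
    show s σ (c : M) = (c : M)
    rw [hP, hact, hσ]
  · intro x hx hfix
    have hmem : (x : AlgebraicClosure K) ∈ constClosure k K :=
      mem_algebraicClosure_iff.2 (isIntegral_coeM.2 hx).isAlgebraic
    set xC : constClosure k K := ⟨x, hmem⟩ with hxC
    have hζmem : (ζ : AlgebraicClosure K) ∈ constClosure k K :=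
      mem_algebraicClosure_iff.2 (isIntegral_coeM.2 hζ).isAlgebraic
    set ζC : constClosure k K := ⟨ζ, hζmem⟩ with hζC
    have h1 := InfiniteGalois.fixedField_fixingSubgroup (k⟮ζC⟯ : IntermediateField k _)
    have h2 : xC ∈ IntermediateField.fixedField (k⟮ζC⟯).fixingSubgroup := by
      rw [IntermediateField.mem_fixedField_iff]
      intro σ hσ
      rw [IntermediateField.mem_fixingSubgroup_iff] at hσ
      have h3 := hσ ζC (IntermediateField.mem_adjoin_simple_self k ζC)
      have h4 := hs.lifts σ ζC ζ rfl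
      rw [h3] at h4
      have h5 : s σ ζ = ζ := Subtype.ext h4.symm
      have h6 := hs.lifts σ xC x rfl
      rw [hfix σ h5] at h6
      exact Subtype.ext h6
    rw [h1] at h2
    have hζCint : IsIntegral k ζC :=
      (isIntegral_algHom_iff (constClosure k K).val Subtype.val_injective).1
        (isIntegral_coeM.2 hζ)
    have h3 : xC ∈ Algebra.adjoin k {ζC} := by
      rw [← IntermediateField.adjoin_simple_toSubalgebra_of_isAlgebraic hζCint.isAlgebraic]
      exact h2
    rw [Algebra.adjoin_singleton_eq_range_aeval] at h3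
    obtain ⟨P, hP⟩ := h3
    have h4 := congrArg (fun z : constClosure k K => (z : AlgebraicClosure K)) hP
    have h5 : ((aeval ζC P : constClosure k K) : AlgebraicClosure K) =
        aeval (ζ : AlgebraicClosure K) P :=
      (aeval_algHom_apply (constClosure k K).val ζC P).symm
    have h6 : ((aeval ζ P : M) : AlgebraicClosure K) = aeval (ζ : AlgebraicClosure K) P :=
      (aeval_algHom_apply ((M.val).restrictScalars k) ζ P).symm
    have h7 : x = aeval ζ P := by
      apply Subtype.ext
      rw [h6, ← h5]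
      exact h4.symm
    refine ⟨⟨x, ?_⟩, rfl⟩
    rw [h7]
    have h8 : aeval ζ P ∈ Algebra.adjoin k {ζ} := aeval_mem_adjoin_singleton k _
    exact IntermediateField.algebra_adjoin_le_adjoin k {ζ} h8

/-- the field fixed by the stabilizer of `ζ` -/
lemma mem_adjoin_of_fix (hM : ConstIn k M) (hs : IsSecOf k M s) {ζ : M} (x : M)
    (hx : ∀ σ ∈ stabM s ζ, s σ x = x) : x ∈ (FixM s)⟮ζ⟯ := by
  have hcharK : CharZero K := charZero_of_injective_algebraMap (algebraMap k K).injective
  have hgal : IsGalois K M := ⟨⟩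
  have hcl : IsClosed (s.range : Set Gal(M/K)) := by
    have h1 : (s.range : Set Gal(M/K)) = Set.range s := MonoidHom.coe_range s
    rw [h1]
    exact (isCompact_range hs.continuous).isClosed
  set L : IntermediateField K M := ((FixM s)⟮ζ⟯).restrictScalars K with hL
  have h1 := InfiniteGalois.fixedField_fixingSubgroup L
  have h2 : x ∈ IntermediateField.fixedField L.fixingSubgroup := by
    rw [IntermediateField.mem_fixedField_iff]
    intro g hg
    rw [IntermediateField.mem_fixingSubgroup_iff] at hg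
    have h3 := InfiniteGalois.fixingSubgroup_fixedField (⟨s.range, hcl⟩ : ClosedSubgroup _)
    have h4 : g ∈ (IntermediateField.fixedField s.range).fixingSubgroup := by
      rw [IntermediateField.mem_fixingSubgroup_iff]
      intro y hy
      exact hg y (IntermediateField.algebraMap_mem ((FixM s)⟮ζ⟯) (⟨y, hy⟩ : FixM s))
    have h5 : (IntermediateField.fixedField s.range).fixingSubgroup = s.range := h3
    rw [h5] at h4
    obtain ⟨σ, rfl⟩ := h4
    exact hx σ (hg ζ (IntermediateField.mem_adjoin_simple_self (FixM s) ζ))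
  rw [h1] at h2
  exact h2

lemma fix_of_mem_adjoin {ζ : M} (hζ : IsIntegral k ζ) (x : M) (hx : x ∈ (FixM s)⟮ζ⟯) :
    ∀ σ ∈ stabM s ζ, s σ x = x := by
  intro σ hσ
  have htow := tower_fixM (k := k) (K := K) (M := M) (s := s)
  have hint : IsIntegral (FixM s) ζ := hζ.tower_top
  have h1 : x ∈ Algebra.adjoin (FixM s) {ζ} := by
    rw [← IntermediateField.adjoin_simple_toSubalgebra_of_isAlgebraic hint.isAlgebraic]
    exact hx
  rw [Algebra.adjoin_singleton_eq_range_aeval] at h1
  obtain ⟨P, hP⟩ := h1
  have hP' : aeval ζ P = x := hP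
  rw [← hP', aeval_def]
  rw [mem_stabM] at hσ
  have h2 : ((s σ : M ≃ₐ[K] M) : M →+* M).comp (algebraMap (FixM s) M) = algebraMap (FixM s) M := by
    ext e
    show ((s σ (e : M) : M) : AlgebraicClosure K) = _
    rw [(mem_fixM _).1 e.2 σ]
    rfl
  have h3 := hom_eval₂ P (algebraMap (FixM s) M) ((s σ : M ≃ₐ[K] M) : M →+* M) ζ
  have h4 : s σ (eval₂ (algebraMap (FixM s) M) ζ P) =
      eval₂ (((s σ : M ≃ₐ[K] M) : M →+* M).comp (algebraMap (FixM s) M)) (s σ ζ) P := h3
  rw [h2, hσ] at h4
  exact h4

end P025H641
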