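import Vale.Agent.P025.H641.OTrans2
import Vale.Agent.P025.H641.OKum2

/-! # Class maps of finite level: transfer to bigger fields -/

open IntermediateField Polynomial

namespace P025H641

universe u v w u' v' w'

section transfer

/-- restriction of automorphisms to normal subextensions -/
lemma exists_restrict {K : Type u} {K' : Type v} {L : Type w} [Field K] [Field K'] [Field L]
    [Algebra K K'] [Algebra K L] [Normal K K'] (e : K' →ₐ[K] L) (τ : L ≃ₐ[K] L) :
    ∃ τ' : K' ≃ₐ[K] K', ∀ x, e (τ' x) = τ (e x) := by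
  let _ : Algebra K' L := e.toRingHom.toAlgebra
  have ht : IsScalarTower K K' L := IsScalarTower.of_algebraMap_eq (fun x => (e.commutes x).symm)
  exact ⟨τ.restrictNormal K', fun x => τ.restrictNormal_commutes K' x⟩

variable {p : ℕ} [Fact p.Prime] {K : Type u} {K' : Type v} {E : Type w} {E' : Type w'} {k' : Type u'}
  [Field K] [Field K'] [Field E] [Field E'] [Field k'] [Algebra ℚ_[p] k'] [Algebra K K']
  [Algebra E E'] [Algebra k' K'] [Algebra k' E'] [Normal K K']

/-- transfer of class maps -/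
lemma GLevel.transfer (i : K →+* E) (e : K' →+* E')
    (hie : ∀ x, e (algebraMap K K' x) = algebraMap E E' (i x))
    (hk : ∀ c, e (algebraMap k' K' c) = algebraMap k' E' c) [DecidableEq K'] [DecidableEq E']
    {S : Finset K'} {χ : K' → Cl p k'} (h : GLevel p K k' S χ) :
    ∃ χ' : E' → Cl p k', GLevel p E k' (S.image e) χ' := by
  classical
  let χ' : E' → Cl p k' := fun x => if h : ∃ y, e y = x then χ h.choose else 0
  have hχ' : ∀ y, χ' (e y) = χ y := by
    intro y
    have h1 : ∃ y', e y' = e y := ⟨y, rfl⟩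
    have h2 : χ' (e y) = χ h1.choose := dif_pos h1
    rw [h2, e.injective h1.choose_spec]
  refine ⟨χ', ?_, ?_, ?_, ?_⟩
  · intro f hf g hg hf0 hg0
    obtain ⟨f, hf', rfl⟩ := Finset.mem_image.1 hf
    obtain ⟨g, hg', rfl⟩ := Finset.mem_image.1 hg
    rw [← map_mul, hχ', hχ', hχ']
    exact h.mul f hf' g hg' (fun h => hf0 (by rw [h, map_zero])) (fun h => hg0 (by rw [h, map_zero]))
  · intro c hc
    rw [← hk, hχ']
    exact h.const c hc
  · intro f hf r A₀ A hA hfS
    by_cases hAe : ∃ a, a ∈ A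
    · obtain ⟨a₀, ha₀⟩ := hAe
      obtain ⟨f', -, hf'⟩ := Finset.mem_image.1 (hfS a₀ ha₀)
      have h1 : f = e (f' + algebraMap k' K' a₀) := by
        rw [map_add, hf', hk, sub_add_cancel]
      set g := f' + algebraMap k' K' a₀ with hg
      have h2 : ∀ a, f - algebraMap k' E' a = e (g - algebraMap k' K' a) := by
        intro a
        rw [h1, map_sub, hk]
      obtain ⟨z, hz⟩ := h.pat g (by
        rintro ⟨c, hc⟩
        exact hf ⟨c, by rw [h1, ← hc, hk]⟩) r A₀ A hA (by
        intro a ha
        obtain ⟨y, hy, hy2⟩ := Finset.mem_image.1 (hfS a ha)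
        rw [h2] at hy2
        rw [← e.injective hy2]
        exact hy)
      refine ⟨z, fun a ha => ⟨(hz a ha).1, ?_⟩⟩
      rw [h2, hχ']
      exact (hz a ha).2
    · refine ⟨0, fun a ha => ?_⟩
      exact absurd ⟨a, hA.subset ha⟩ hAe
  · intro f hf hf0 τ x x' hxx' hx0 hfx
    obtain ⟨f, hf', rfl⟩ := Finset.mem_image.1 hf
    rw [hχ'] at hfx
    let _ : Algebra K E' := ((algebraMap E E').comp i).toAlgebra
    let e' : K' →ₐ[K] E' := { e with commutes' := fun x => hie x }
    let τ₁ : E' ≃ₐ[K] E' := { τ with commutes' := fun x => τ.commutes (i x) }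
    obtain ⟨τ', hτ'⟩ := exists_restrict e' τ₁
    have h1 : ∀ y, e (τ' y) = τ (e y) := hτ'
    rw [← h1, hχ']
    refine h.equi f hf' (fun h => hf0 (by rw [h, map_zero])) τ' x x' ?_ hx0 hfx
    apply e.injective
    rw [h1, hk, hk, hxx']

end transfer

end P025H641
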