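import Vale.Agent.P025.H641.OLev

/-! # Class maps of finite level from transported sections -/

open IntermediateField Polynomial

namespace P025H641

universe u v w u' v' w'

section sub

variable {p : ℕ} [Fact p.Prime] {k : Type u} [Field k] [CharZero k] {E : Type v} [Field E]
  [Algebra k E] {M : IntermediateField E (AlgebraicClosure E)}
  {s : Gal(constClosure k E/k) →* Gal(M/E)}
  {K : IntermediateField E (AlgebraicClosure E)} {ψ : AlgebraicClosure K ≃ₐ[K] AlgebraicClosure E}
  {k' : Type u'} [Field k'] [Algebra ℚ_[p] k'] [FiniteDimensional ℚ_[p] k']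
  {K' : Type v'} [Field K'] [Algebra k k'] [Algebra k' K'] [Algebra K K'] [Algebra k K']
  [IsScalarTower k k' K'] [IsScalarTower k K K'] {ζ : k'}

theorem exists_gLevel_sub (D : TransData k M s K ψ) (hs : IsSecOf k M s)
    (C : CycData p k K k' K' ζ) (e : K' →ₐ[K] AlgebraicClosure E) (S : Finset K')
    (hS : ∀ x ∈ S, x ≠ 0 → ∃ (c : k') (y : K'), x = algebraMap k' K' c * y ^ p) :
    ∃ χ : K' → Cl p k', GLevel p K k' S χ := by
  classical
  have hpp : p.Prime := Fact.out
  -- the embedding in the algebraic closure of `K`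
  let e₁ : K' →ₐ[K] AlgebraicClosure K := (ψ.symm : AlgebraicClosure E →ₐ[K] AlgebraicClosure K).comp e
  have htK : IsScalarTower k K (AlgebraicClosure K) := inferInstance
  have hpoly : ∀ (F : IntermediateField K (AlgebraicClosure K)),
      e₁ (algebraMap k' K' ζ) ∈ F → ∀ x, e₁ x ∈ F := by
    intro F hF x
    obtain ⟨P, rfl⟩ := C.genE x
    rw [← aeval_algHom_apply e₁, aeval_eq_sum_range]
    refine sum_mem (fun i _ => ?_)
    rw [Algebra.smul_def]
    exact mul_mem (F.algebraMap_mem _) (pow_mem hF i)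
  let e₂ : K' →ₐ[k] AlgebraicClosure K := e₁.restrictScalars k
  have hint : ∀ c : k', IsIntegral k (e₁ (algebraMap k' K' c)) := by
    intro c
    have h1 : IsIntegral k (algebraMap k' K' c) :=
      (C.isIntegral hpp.pos c).map (Algebra.ofId k' K' |>.restrictScalars k)
    exact h1.map e₂
  have hmem : ∀ x, e₁ x ∈ maxUnr k K := hpoly _ (mem_maxUnr_of_const _ (hint ζ))
  let ι : K' →+* maxUnr k K :=
    (e₁ : K' →+* AlgebraicClosure K).codRestrict (maxUnr k K).toSubfield.toSubring hmem
  have hι : ∀ x, ((ι x : maxUnr k K) : AlgebraicClosure K) = e₁ x := fun _ => rfl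
  have hιK : ∀ x : K, ι (algebraMap K K' x) = algebraMap K (maxUnr k K) x := by
    intro x
    apply Subtype.ext
    rw [hι, AlgHom.commutes]
    rfl
  refine exists_gLevel C S (D.isSection hs) ι ?_ ?_ ?_
  · intro c
    rw [IsScalarTower.algebraMap_apply k K K', hιK, ← IsScalarTower.algebraMap_apply]
  · intro x σ
    rw [hιK, AlgEquiv.commutes]
  · intro f₀
    obtain ⟨F, hF, -, hζF⟩ := isFinUnr_bot.exists_const _ (hint ζ)
    have hall := hpoly F hζF
    refine ⟨F, hF, hall f₀, fun c => hall _, ?_⟩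
    intro f hf hf0
    obtain ⟨c, y, hcy⟩ := hS f hf hf0
    refine ⟨hall f, ?_⟩
    intro V hV
    refine ⟨⟨e₁ y, hall y⟩, ?_⟩
    have hc0 : c ≠ 0 := by
      rintro rfl
      rw [map_zero, zero_mul] at hcy
      exact hf0 hcy
    have h1 : (⟨(ι f : maxUnr k K), hall f⟩ : F) =
        ⟨e₁ (algebraMap k' K' c), hall _⟩ * ⟨e₁ y, hall y⟩ ^ p := by
      apply Subtype.ext
      show e₁ f = e₁ (algebraMap k' K' c) * e₁ y ^ p
      rw [hcy, map_mul, map_pow]
    have h2 : V.valuation (⟨e₁ (algebraMap k' K' c), hall _⟩ : F) = 1 := by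
      have ht : IsScalarTower k K F := inferInstance
      refine val_alg_gen (k := k) (fun x => hV.const_mem x) ?_ ?_
      · exact (isIntegral_algHom_iff (F.val.restrictScalars k) Subtype.val_injective).1 (hint c)
      · intro h
        have h3 : e₁ (algebraMap k' K' c) = 0 := congrArg Subtype.val h
        rw [map_eq_zero, map_eq_zero] at h3
        exact hc0 h3
    rw [h1, map_mul, h2, one_mul, map_pow]

end sub

end P025H641
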