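import Vale.Agent.P025.H641.OLev2

/-! # Class maps of finite level for sections of `Gal(M / E)` -/

open IntermediateField Polynomial

namespace P025H641

universe u v w u' v' w'

section cyc

variable {p : ℕ} [Fact p.Prime] {k : Type u} {K : Type v} {k' : Type u'} {K' : Type v'} [Field k]
  [Field K] [Field k'] [Field K'] [Algebra k K] [Algebra k k'] [Algebra k' K'] [Algebra K K']
  {ζ : k'}

lemma CycData.isCyclotomicExtension (C : CycData p k K k' K' ζ) :
    IsCyclotomicExtension {p} K K' := by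
  have hpp : p.Prime := Fact.out
  have : NeZero p := ⟨hpp.ne_zero⟩
  have hprim : IsPrimitiveRoot (algebraMap k' K' ζ) p :=
    C.prim.map_of_injective (algebraMap k' K').injective
  rw [IsCyclotomicExtension.iff_singleton]
  refine ⟨⟨_, hprim⟩, fun x => ?_⟩
  obtain ⟨P, rfl⟩ := C.genE x
  have h1 : aeval (algebraMap k' K' ζ) P ∈ Algebra.adjoin K {algebraMap k' K' ζ} :=
    aeval_mem_adjoin_singleton K _
  refine Algebra.adjoin_mono ?_ h1
  intro y hy
  rw [Set.mem_singleton_iff] at hy
  rw [hy]
  exact hprim.pow_eq_one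

lemma CycData.normal (C : CycData p k K k' K' ζ) [CharZero K] : Normal K K' := by
  have := C.isCyclotomicExtension
  have hgal : IsGalois K K' := IsCyclotomicExtension.isGalois {p} K K'
  exact hgal.to_normal

end cyc

section main

variable {p : ℕ} [Fact p.Prime] {k : Type u} [Field k] [CharZero k] {E : Type v} [Field E]
  [Algebra k E] {M : IntermediateField E (AlgebraicClosure E)} [Normal E M]
  {s : Gal(constClosure k E/k) →* Gal(M/E)}
  {k' : Type u'} [Field k'] [Algebra ℚ_[p] k'] [FiniteDimensional ℚ_[p] k']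
  {L : Type v'} [Field L] [Algebra k k'] [Algebra k' L] [Algebra (FixM s) L] [Algebra k L]
  [IsScalarTower k k' L] [IsScalarTower k (FixM s) L] {ζ : k'}

/-- Kummer classes -/
lemma exists_class_L (hM : ConstIn k M) (hs : IsSecOf k M s)
    (C : CycData p k (FixM s) k' L ζ) (eL : L →ₐ[FixM s] M) (x : L) (hx0 : x ≠ 0)
    (hx : ∃ y : M, y ^ p = eL x) : ∃ (c : k') (y : L), x = algebraMap k' L c * y ^ p := by
  have hpp : p.Prime := Fact.out
  have htow := tower_fixM (k := k) (K := E) (M := M) (s := s)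
  obtain ⟨y, hy⟩ := hx
  set ζM : M := eL (algebraMap k' L ζ) with hζM
  have hprim : IsPrimitiveRoot ζM p :=
    (C.prim.map_of_injective (algebraMap k' L).injective).map_of_injective eL.injective
  have hint : IsIntegral k ζM :=
    isIntegral_of_pow' hpp.pos (by rw [hprim.pow_eq_one]; exact isIntegral_one)
  have B := baseM_cyc hM hs hint
  let z : k⟮ζM⟯ := ⟨ζM, IntermediateField.mem_adjoin_simple_self k ζM⟩
  have hz : IsPrimitiveRoot z p :=
    IsPrimitiveRoot.of_map_of_injective (f := (k⟮ζM⟯).val) hprim Subtype.val_injective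
  have hxL : eL x ∈ (FixM s)⟮ζM⟯ := by
    obtain ⟨P, rfl⟩ := C.genE x
    rw [← aeval_algHom_apply eL, ← hζM]
    exact IntermediateField.algebra_adjoin_le_adjoin _ _ (aeval_mem_adjoin_singleton (FixM s) ζM)
  obtain ⟨c, y', -, hy', hcy⟩ := exists_classM hM hs B hz (eL x) y
    (fun h => hx0 ((map_eq_zero _).1 h)) hy (fix_of_mem_adjoin hint _ hxL)
  have hyL := mem_adjoin_of_fix hM hs y' hy'
  -- elements of the generated fields
  have hgenL : ∀ u : M, u ∈ (FixM s)⟮ζM⟯ → ∃ v : L, eL v = u := by
    intro u hu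
    have hintF : IsIntegral (FixM s) ζM := hint.tower_top
    have h1 : u ∈ Algebra.adjoin (FixM s) {ζM} := by
      rw [← IntermediateField.adjoin_simple_toSubalgebra_of_isAlgebraic hintF.isAlgebraic]
      exact hu
    rw [Algebra.adjoin_singleton_eq_range_aeval] at h1
    obtain ⟨P, hP⟩ := h1
    refine ⟨aeval (algebraMap k' L ζ) P, ?_⟩
    rw [← aeval_algHom_apply eL, ← hζM]
    exact hP
  have hgenk : ∃ d : k', eL (algebraMap k' L d) = (c : M) := by
    have h1 : (c : M) ∈ Algebra.adjoin k {ζM} := by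
      rw [← IntermediateField.adjoin_simple_toSubalgebra_of_isAlgebraic hint.isAlgebraic]
      exact c.2
    rw [Algebra.adjoin_singleton_eq_range_aeval] at h1
    obtain ⟨P, hP⟩ := h1
    refine ⟨aeval ζ P, ?_⟩
    rw [← aeval_algebraMap_apply]
    have h2 := aeval_algHom_apply (eL.restrictScalars k) (algebraMap k' L ζ) P
    refine Eq.trans h2.symm ?_
    exact hP
  obtain ⟨v, hv⟩ := hgenL y' hyL
  obtain ⟨d, hd⟩ := hgenk
  refine ⟨d, v, ?_⟩
  have h5 : eL x = eL (algebraMap k' L d * v ^ p) := by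
    rw [map_mul, map_pow, hv, hd]
    exact hcy
  exact eL.injective h5

/-- class maps of finite level, for a given finite subfield `K` -/
lemma gLevel_of_sub (hs : IsSecOf k M s) {K : IntermediateField E (AlgebraicClosure E)}
    {ψ : AlgebraicClosure K ≃ₐ[K] AlgebraicClosure E} (D : TransData k M s K ψ)
    (i : K →+* FixM s) (hi : ∀ x, ((i x : M) : AlgebraicClosure E) = x)
    (C : CycData p k (FixM s) k' L ζ) (eL : L →ₐ[FixM s] M) (S : Finset L)
    (hSK : ∀ x ∈ S, ∃ P : K[X], x = aeval (algebraMap k' L ζ) (P.map i))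
    (hS : ∀ x ∈ S, x ≠ 0 → ∃ (c : k') (y : L), x = algebraMap k' L c * y ^ p ∧
      ∃ P : K[X], y = aeval (algebraMap k' L ζ) (P.map i)) :
    ∃ χ : L → Cl p k', GLevel p (FixM s) k' S χ := by
  classical
  have hpp : p.Prime := Fact.out
  have hcharE : CharZero E := charZero_of_injective_algebraMap (algebraMap k E).injective
  have hcharK : CharZero K := charZero_of_injective_algebraMap (algebraMap E K).injective
  have htow := tower_fixM (k := k) (K := E) (M := M) (s := s)
  set z : L := algebraMap k' L ζ with hz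
  let _ : Algebra K L := ((algebraMap (FixM s) L).comp i).toAlgebra
  have hKL : ∀ x : K, algebraMap K L x = algebraMap (FixM s) L (i x) := fun _ => rfl
  have haev : ∀ P : K[X], aeval z (P.map i) = aeval z P := by
    intro P
    rw [aeval_def, aeval_def, eval₂_map]
    rfl
  have hzint : IsIntegral K z := by
    apply isIntegral_of_pow' hpp.pos
    rw [hz, ← map_pow, C.prim.pow_eq_one, map_one]
    exact isIntegral_one
  let K' : IntermediateField K L := K⟮z⟯
  have hgenK' : ∀ x : K', ∃ P : K[X], (x : L) = aeval z P := by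
    intro x
    have h1 : (x : L) ∈ Algebra.adjoin K {z} := by
      rw [← IntermediateField.adjoin_simple_toSubalgebra_of_isAlgebraic hzint.isAlgebraic]
      exact x.2
    rw [Algebra.adjoin_singleton_eq_range_aeval] at h1
    obtain ⟨P, hP⟩ := h1
    exact ⟨P, hP.symm⟩
  have hmemK' : ∀ P : K[X], aeval z P ∈ K' := fun P =>
    IntermediateField.algebra_adjoin_le_adjoin _ _ (aeval_mem_adjoin_singleton K z)
  -- constants
  have hik : ∀ c : k, algebraMap K L (algebraMap k K c) = algebraMap k L c := by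
    intro c
    rw [hKL, IsScalarTower.algebraMap_apply k (FixM s) L]
    congr 1
    apply Subtype.ext
    apply Subtype.ext
    rw [hi]
    rfl
  have htkKL : IsScalarTower k K L := IsScalarTower.of_algebraMap_eq (fun c => (hik c).symm)
  have hk'K' : ∀ c : k', algebraMap k' L c ∈ K' := by
    intro c
    obtain ⟨P, rfl⟩ := C.genk c
    rw [← aeval_algebraMap_apply, ← hz]
    have h1 : aeval z P = aeval z (P.map (algebraMap k K)) := by
      rw [aeval_map_algebraMap]
    rw [h1]
    exact hmemK' _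
  let _ : Algebra k' K' := ((algebraMap k' L).codRestrict K'.toSubfield.toSubring hk'K').toAlgebra
  have hk'coe : ∀ c : k', ((algebraMap k' K' c : K') : L) = algebraMap k' L c := fun _ => rfl
  have ht1 : IsScalarTower k k' K' := IsScalarTower.of_algebraMap_eq (fun c => by
    apply Subtype.ext
    rw [hk'coe, ← IsScalarTower.algebraMap_apply]
    rfl)
  have ht2 : IsScalarTower k K K' := IsScalarTower.of_algebraMap_eq (fun c => by
    apply Subtype.ext
    exact (hik c).symm)
  have CK : CycData p k K k' K' ζ := by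
    refine ⟨C.prim, C.genk, ?_⟩
    intro x
    obtain ⟨P, hP⟩ := hgenK' x
    refine ⟨P, Subtype.ext ?_⟩
    rw [hP]
    exact aeval_algHom_apply K'.val (algebraMap k' K' ζ) P
  have hnorm := CK.normal
  -- the embedding in the algebraic closure of `E`
  let e : K' →ₐ[K] AlgebraicClosure E :=
    { ((M.val : M →+* AlgebraicClosure E).comp (eL : L →+* M)).comp (algebraMap K' L) with
      commutes' := fun x => by
        show ((eL (algebraMap (FixM s) L (i x)) : M) : AlgebraicClosure E) = _
        rw [AlgHom.commutes]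
        exact hi x }
  let eK : K' →+* L := algebraMap K' L
  have hmem : ∀ x ∈ S, x ∈ K' := by
    intro x hx
    obtain ⟨P, rfl⟩ := hSK x hx
    rw [haev]
    exact hmemK' P
  let SK : Finset K' := S.attach.image (fun x : {x // x ∈ S} => ⟨x, hmem x x.2⟩)
  have hSKimg : SK.image eK = S := by
    ext x
    constructor
    · intro hx
      obtain ⟨y, hy, rfl⟩ := Finset.mem_image.1 hx
      obtain ⟨u, -, rfl⟩ := Finset.mem_image.1 hy
      exact u.2
    · intro hx
      exact Finset.mem_image.2 ⟨⟨x, hmem x hx⟩,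
        Finset.mem_image.2 ⟨⟨x, hx⟩, Finset.mem_attach _ _, rfl⟩, rfl⟩
  obtain ⟨χ, hχ⟩ := exists_gLevel_sub D hs CK e SK (by
    intro x hx hx0
    obtain ⟨u, -, rfl⟩ := Finset.mem_image.1 hx
    obtain ⟨c, y, h1, P, h2⟩ := hS u u.2 (fun h => hx0 (Subtype.ext h))
    refine ⟨c, ⟨y, ?_⟩, Subtype.ext h1⟩
    rw [h2, haev]
    exact hmemK' P)
  have hk1 : ∀ c : k', eK (algebraMap k' K' c) = algebraMap k' L c := fun _ => rfl
  have hk2 : ∀ x : K, eK (algebraMap K K' x) = algebraMap (FixM s) L (i x) := fun _ => rfl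
  obtain ⟨χ', hχ'⟩ := hχ.transfer i eK hk2 hk1
  rw [hSKimg] at hχ'
  exact ⟨χ', hχ'⟩

/-- **Class maps of finite level.** -/
theorem exists_gLevelM (hM : ConstIn k M) (hs : IsSecOf k M s)
    (hunr : ∀ (K : IntermediateField E (AlgebraicClosure E)) [FiniteDimensional E K], K ≤ M →
      ∀ (ψ : AlgebraicClosure K ≃ₐ[K] AlgebraicClosure E) (x : maxUnr k K), ψ x ∈ M)
    (C : CycData p k (FixM s) k' L ζ) (eL : L →ₐ[FixM s] M) (S : Finset L)
    (hS : ∀ x ∈ S, x ≠ 0 → ∃ y : M, y ^ p = eL x) :
    ∃ χ : L → Cl p k', GLevel p (FixM s) k' S χ := by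
  classical
  have hpp : p.Prime := Fact.out
  have hcharE : CharZero E := charZero_of_injective_algebraMap (algebraMap k E).injective
  have htow := tower_fixM (k := k) (K := E) (M := M) (s := s)
  -- the roots
  have hex : ∀ x : L, ∃ (c : k') (y : L), x ∈ S → x ≠ 0 → x = algebraMap k' L c * y ^ p := by
    intro x
    by_cases h : x ∈ S ∧ x ≠ 0
    · obtain ⟨c, y, h1⟩ := exists_class_L hM hs C eL x h.2 (hS x h.1 h.2)
      exact ⟨c, y, fun _ _ => h1⟩
    · exact ⟨0, 0, fun h1 h2 => absurd ⟨h1, h2⟩ h⟩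
  choose cc yy hcy using hex
  choose PL hPL using C.genE
  -- the finite subfield
  let φ : FixM s → AlgebraicClosure E := fun x => ((x : M) : AlgebraicClosure E)
  let S₁ : Finset L := S ∪ S.image yy
  let B : Finset (AlgebraicClosure E) := S₁.biUnion (fun x => (PL x).coeffs.image φ)
  let K : IntermediateField E (AlgebraicClosure E) := IntermediateField.adjoin E (B : Set _)
  have hB : ∀ x ∈ B, ∃ y : FixM s, φ y = x := by
    intro x hx
    obtain ⟨u, -, hu⟩ := Finset.mem_biUnion.1 hx
    obtain ⟨v, -, rfl⟩ := Finset.mem_image.1 hu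
    exact ⟨v, rfl⟩
  have hfinK : FiniteDimensional E K := by
    apply IntermediateField.finiteDimensional_adjoin
    intro x _
    exact (Algebra.IsAlgebraic.isAlgebraic x).isIntegral
  let FF : IntermediateField E (AlgebraicClosure E) := (FixM s).map M.val
  have hKF : K ≤ FF := by
    rw [IntermediateField.adjoin_le_iff]
    intro x hx
    obtain ⟨y, rfl⟩ := hB x hx
    exact ⟨(y : M), y.2, rfl⟩
  have hKM : K ≤ M := by
    intro x hx
    obtain ⟨y, -, rfl⟩ := hKF hx
    exact y.2
  have hfixK : ∀ x : M, (x : AlgebraicClosure E) ∈ K → ∀ σ, s σ x = x := by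
    intro x hx
    obtain ⟨y, hy, hyx⟩ := hKF hx
    have h1 : y = x := Subtype.ext hyx
    rw [← h1]
    exact (mem_fixM y).1 hy
  let i : K →+* FixM s :=
    { toFun := fun x => ⟨⟨x, hKM x.2⟩, (mem_fixM _).2 (hfixK ⟨x, hKM x.2⟩ x.2)⟩
      map_one' := rfl
      map_zero' := rfl
      map_mul' := fun _ _ => rfl
      map_add' := fun _ _ => rfl }
  have hlift : ∀ x ∈ S₁, ∃ P : K[X], x = aeval (algebraMap k' L ζ) (P.map i) := by
    intro x hx
    have hP : PL x ∈ Polynomial.lifts i := by
      rw [Polynomial.lifts_iff_coeff_lifts]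
      intro n
      by_cases h0 : (PL x).coeff n = 0
      · exact ⟨0, by rw [h0, map_zero]⟩
      have h1 : φ ((PL x).coeff n) ∈ B :=
        Finset.mem_biUnion.2 ⟨x, hx, Finset.mem_image_of_mem _ (coeff_mem_coeffs h0)⟩
      refine ⟨⟨_, IntermediateField.subset_adjoin E _ h1⟩, ?_⟩
      apply Subtype.ext
      apply Subtype.ext
      rfl
    obtain ⟨P, hP⟩ := hP
    refine ⟨P, ?_⟩
    have h2 : P.map i = PL x := hP
    rw [h2]
    exact hPL x
  -- the algebraic closure of `K`
  have halg : Algebra.IsAlgebraic K (AlgebraicClosure E) := Algebra.IsAlgebraic.tower_top (K := E) K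
  have hac : IsAlgClosure K (AlgebraicClosure E) := ⟨inferInstance, halg⟩
  let ψ : AlgebraicClosure K ≃ₐ[K] AlgebraicClosure E :=
    IsAlgClosure.equiv K (AlgebraicClosure K) (AlgebraicClosure E)
  have D : TransData k M s K ψ := ⟨hKM, hfixK, hunr K hKM ψ⟩
  refine gLevel_of_sub hs D i (fun _ => rfl) C eL S
    (fun x hx => hlift x (Finset.mem_union_left _ hx)) ?_
  intro x hx hx0
  exact ⟨cc x, yy x, hcy x hx hx0, hlift _ (Finset.mem_union_right _
    (Finset.mem_image_of_mem _ hx))⟩

end main

end P025H641
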