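import Vale.Agent.P025.H641.ORam

/-! # Sections of the `p`-orbifold group lift to ramified covers -/

open IntermediateField Polynomial

namespace P025H641

universe u v w

section mk

variable {k : Type u} {K : Type v} [Field k] [Field K] [Algebra k K]

/-- sections from homomorphisms -/
noncomputable def sectionOf (s : Gal(constClosure k K/k) →* Gal(maxUnr k K/K))
    (hs : IsSection k K s) : Section k K where
  hom := s
  cont := hs.continuous
  lifts := by
    rintro σ x y ⟨x', rfl, rfl⟩ hx
    exact ⟨⟨x', hx⟩, rfl, (hs.lifts σ x' ⟨x', hx⟩ rfl).symm⟩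

/-- sections of `Gal(M / K)` from homomorphisms -/
noncomputable def secOfOf {M : IntermediateField K (AlgebraicClosure K)}
    (s : Gal(constClosure k K/k) →* Gal(M/K)) (hs : IsSecOf k M s) : SecOf k M where
  hom := s
  cont := hs.continuous
  lifts := by
    rintro σ x y ⟨x', rfl, rfl⟩ hx
    exact ⟨⟨x', hx⟩, rfl, (hs.lifts σ x' ⟨x', hx⟩ rfl).symm⟩

end mk

section lift

variable {p : ℕ} [Fact p.Prime] {k : Type u} [Field k] [CharZero k] {E : Type v} [Field E]
  [Algebra k E] {M : IntermediateField E (AlgebraicClosure E)}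

/-- `s₁` induces `s` -/
def SecOf.Induces (s₁ : SecOf k M) (s : Section k E) : Prop :=
  ∀ (σ : GalOf (constClosure k E)) (x y : AlgebraicClosure E),
    (s.hom σ).Maps x y → (s₁.hom σ).Maps x y

/-- transported sections lift the given one -/
theorem liftsTo_of_trans (s₁ : SecOf k M) (s : Section k E) (h : s₁.Induces s)
    (K : IntermediateField E (AlgebraicClosure E))
    (ψ : AlgebraicClosure K ≃ₐ[K] AlgebraicClosure E) (D : TransData k M s₁.toHom K ψ) :
    s.LiftsTo (sectionOf D.trans (D.isSection s₁.isSecOf)) := by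
  have ht : IsScalarTower E K (AlgebraicClosure E) := IsScalarTower.of_algebraMap_eq (fun _ => rfl)
  have ht2 : IsScalarTower E K (AlgebraicClosure K) := inferInstance
  let j : AlgebraicClosure E →ₐ[E] AlgebraicClosure K :=
    ((ψ.symm : AlgebraicClosure E →ₐ[K] AlgebraicClosure K)).restrictScalars E
  have hj : ∀ x, j x = ψ.symm x := fun _ => rfl
  refine ⟨j, ?_⟩
  intro σ σ' hσ x y hxy
  obtain ⟨x', rfl, rfl⟩ := hxy
  -- the constants
  have hconj : conjC K ψ (σ' : Gal(constClosure k K/k)) = (σ : Gal(constClosure k E/k)) := by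
    refine AlgEquiv.ext (fun c => Subtype.ext ?_)
    refine (congrArg (fun z : constClosure k E => (z : AlgebraicClosure E))
      (conjC_apply K ψ (σ' : Gal(constClosure k K/k)) c)).trans ?_
    refine (constEquiv_coe K ψ _).trans ?_
    obtain ⟨c', hc', h2⟩ := hσ c ((AlgEquiv.toEquiv σ c : constClosure k E) : AlgebraicClosure E)
      ⟨c, rfl, rfl⟩
    have h3 : c' = (constEquiv k K ψ).symm c := by
      apply Subtype.ext
      rw [hc', hj]
      have h4 : ψ (((constEquiv k K ψ).symm c : constClosure k K) : AlgebraicClosure K) = c := by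
        rw [← constEquiv_coe, AlgEquiv.apply_symm_apply]
      rw [← h4, AlgEquiv.symm_apply_apply]
    rw [← h3]
    have h5 : ((AlgEquiv.toEquiv σ' c' : constClosure k K) : AlgebraicClosure K) =
        j ((AlgEquiv.toEquiv σ c : constClosure k E) : AlgebraicClosure E) := h2
    refine (congrArg ψ h5).trans ?_
    rw [hj, AlgEquiv.apply_symm_apply]
    rfl
  have hmem : j (x' : AlgebraicClosure E) ∈ maxUnr k K := push_mem j x'.2
  refine ⟨⟨j (x' : AlgebraicClosure E), hmem⟩, rfl, ?_⟩
  have h1 := D.trans_coe σ' ⟨j (x' : AlgebraicClosure E), hmem⟩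
  rw [hconj] at h1
  obtain ⟨x₁, hx₁, h2⟩ := h σ x' _ ⟨x', rfl, rfl⟩
  have h3 : D.toM ⟨j (x' : AlgebraicClosure E), hmem⟩ = x₁ := by
    apply Subtype.ext
    rw [D.toM_coe, hx₁]
    show ψ (j (x' : AlgebraicClosure E)) = _
    rw [hj, AlgEquiv.apply_symm_apply]
  rw [h3] at h1
  have h4 : ((s₁.toHom σ x₁ : M) : AlgebraicClosure E) =
      ((AlgEquiv.toEquiv (s.hom σ) x' : maxUnr k E) : AlgebraicClosure E) := h2
  rw [h4] at h1
  have h5 := congrArg ψ.symm h1
  rw [AlgEquiv.symm_apply_apply] at h5
  exact h5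

end lift

section main

variable {p : ℕ} [Fact p.Prime] {k : Type u} [Field k] [CharZero k] {E : Type v} [Field E]
  [Algebra k E]

/-- sections of the `p`-orbifold group lift to ramified covers -/
theorem lifts_of_secOf (hE : IsFunctionField k E)
    (s₁ : SecOf k (maxOrb p k (∅ : Set (ValuationSubring E)) :
      IntermediateField E (AlgebraicClosure E))) (s : Section k E) (h : s₁.Induces s)
    (S : Finset E) (hS : ∀ g ∈ S, g ≠ 0) :
    ∃ K : IntermediateField E (AlgebraicClosure E), FiniteDimensional E K ∧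
      IsRamifiedOver p k K S ∧ ∃ s' : Section k K, s.LiftsTo s' := by
  have hpp : p.Prime := Fact.out
  obtain ⟨K, hfin, hKM, hfix, hram⟩ := exists_ram_sub hE s₁.isSecOf S hS
    (fun V hV => absurd hV (Set.notMem_empty V)) (by
      intro V₀ hV₀ _
      obtain ⟨t, ht0, ht1, ht⟩ := hV₀.exists_unif
      exact ⟨t, ht0, ht1, ht, fun V hV => absurd hV (Set.notMem_empty V)⟩)
  have halg : Algebra.IsAlgebraic K (AlgebraicClosure E) := Algebra.IsAlgebraic.tower_top (K := E) K
  have hac : IsAlgClosure K (AlgebraicClosure E) := ⟨inferInstance, halg⟩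
  let ψ : AlgebraicClosure K ≃ₐ[K] AlgebraicClosure E :=
    IsAlgClosure.equiv K (AlgebraicClosure K) (AlgebraicClosure E)
  have D : TransData k (maxOrb p k (∅ : Set (ValuationSubring E))) s₁.toHom K ψ :=
    ⟨hKM, hfix, unr_mem_maxOrb hpp hKM ψ⟩
  exact ⟨K, hfin, hram, _, liftsTo_of_trans s₁ s h K ψ D⟩

end main

section geo

variable {p : ℕ} [Fact p.Prime] {k : Type u} [Field k] [Algebra ℚ_[p] k]
  [FiniteDimensional ℚ_[p] k]

/-- restriction of valuation rings along an inclusion -/
lemma restrict_val {k : Type u} {E : Type v} [Field k] [Field E] [Algebra k E]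
    {A B : IntermediateField E (AlgebraicClosure E)} (hle : A ≤ B) (W : ValuationSubring B) :
    ∃ W' : ValuationSubring A, W'.comap (algebraMap E A) = W.comap (algebraMap E B) ∧
      ∀ (x : A) (y : B), (x : AlgebraicClosure E) = (y : AlgebraicClosure E) →
        (x ∈ W' ↔ y ∈ W) := by
  let i : A →+* B := (IntermediateField.inclusion hle).toRingHom
  have hi : ∀ z : A, ((i z : B) : AlgebraicClosure E) = z := fun z =>
    IntermediateField.coe_inclusion hle z
  refine ⟨W.comap i, ?_, ?_⟩
  · ext x
    rw [ValuationSubring.mem_comap, ValuationSubring.mem_comap, ValuationSubring.mem_comap]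
    have h1 : i (algebraMap E A x) = algebraMap E B x := Subtype.ext (hi _)
    rw [h1]
  · intro x y hxy
    rw [ValuationSubring.mem_comap]
    have h1 : i x = y := Subtype.ext ((hi x).trans hxy)
    rw [h1]

/-- sections which lift to a section of the `p`-orbifold group are geometric -/
theorem isGeometric_of_induces {E : Type v} [Field E] [Algebra k E] (hE : IsFunctionField k E)
    {T : Set (ValuationSubring E)} (hT : T.Countable)
    (s₁ : SecOf k (maxOrb p k T : IntermediateField E (AlgebraicClosure E)))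
    (s : Section k E) (h : s₁.Induces s) : s.IsGeometric := by
  obtain ⟨W, hW, hWs⟩ := secOf_geometric hE hT s₁
  have hle : maxUnr k E ≤ (maxOrb p k T : IntermediateField E (AlgebraicClosure E)) :=
    maxUnr_le_maxOrb
  obtain ⟨W', hW', hmem⟩ := restrict_val (k := k) hle W
  refine ⟨W', ?_, ?_⟩
  · rw [hW']
    exact hW
  · intro σ x y hxy hx
    obtain ⟨x₁, hx₁, hy₁⟩ := h σ _ _ hxy
    have h1 : x₁ ∈ W := (hmem x x₁ hx₁.symm).1 hx
    have h2 := hWs σ x₁ (AlgEquiv.toEquiv (s₁.hom σ) x₁) ⟨x₁, rfl, rfl⟩ h1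
    exact (hmem y _ hy₁.symm).2 h2

end geo

end P025H641
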