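import Vale.Agent.P025.H641.Comp
import Vale.Agent.P025.H641.Every

/-! # Local forms of the statements on values: base change, roots; extension of places -/

open IntermediateField Polynomial

namespace P025H641

universe u v w

section bc

open P025H16 in
/-- local base change -/
theorem local_base_change {k : Type*} {E E' K F : Type*} [Field k] [Field E] [Field E']
    [Field K] [Field F] [CharZero k] [Algebra k K] [Algebra k F]
    [Algebra E E'] [Algebra E K] [Algebra E F] [Algebra E' F] [Algebra K F]
    [IsScalarTower k K F] [IsScalarTower E E' F] [IsScalarTower E K F]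
    [halgEE' : Algebra.IsAlgebraic E E']
    (hgen : ∀ x : F, ∃ (n : ℕ) (a : Fin n → K) (b : Fin n → E'),
      x = ∑ i, algebraMap K F (a i) * algebraMap E' F (b i))
    {W : ValuationSubring F} (hW : IsPlace k F W)
    (hvals : ∀ b : E', ∃ y : E, W.valuation (algebraMap E' F b) =
      W.valuation (algebraMap E F y)) (x : F) :
    ∃ y : K, W.valuation (algebraMap K F y) = W.valuation x := by
  have halg : Algebra.IsAlgebraic K F := by
    refine ⟨fun x => ?_⟩
    obtain ⟨n, a, b, rfl⟩ := hgen x
    apply IsIntegral.isAlgebraic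
    apply IsIntegral.sum
    intro i _
    apply IsIntegral.mul
    · exact isIntegral_algebraMap
    · have h1 : IsIntegral E (b i) := Algebra.IsIntegral.isIntegral (b i)
      have h2 : IsIntegral E (algebraMap E' F (b i)) :=
        h1.map (IsScalarTower.toAlgHom E E' F)
      exact h2.tower_top
  obtain ⟨p, hp0, hp1, hpmax⟩ := hW.exists_unif_comap (F := K)
  set π : subW W K := ⟨⟨algebraMap K F p, (W.valuation_le_one_iff _).1 hp1.le⟩, ⟨p, rfl⟩⟩ with hπ
  have hπF : ((π : W) : F) = algebraMap K F p := rfl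
  have hchar : CharZero (IsLocalRing.ResidueField W) := by
    let φ : k →+* W := (algebraMap k F).codRestrict W.toSubring (fun x => hW.const_mem x)
    exact charZero_of_injective_ringHom ((IsLocalRing.residue W).comp φ).injective
  have B : BC (E := E) (E' := E') W π :=
    { ne := by rw [hπF]; exact (_root_.map_ne_zero _).2 hp0
      lt := by rw [hπF]; exact hp1
      max := fun x hx => by rw [hπF]; exact hpmax x hx
      vals := hvals
      alg := halgEE'
      char := hchar }
  have harch : ∀ y : F, y ≠ 0 → ∃ N : ℕ, W.valuation ((π : W) : F) ^ N < W.valuation y :=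
    fun y hy => hW.archimedean y _ hy hp1
  by_cases hx0 : x = 0
  · exact ⟨0, by rw [hx0, map_zero]⟩
  have hppos : 0 < W.valuation (algebraMap K F p) :=
    zero_lt_iff.2 ((_root_.map_ne_zero _).2 ((_root_.map_ne_zero _).2 hp0))
  obtain ⟨n, a, b, hx⟩ := hgen x
  -- normalise the summands
  have hterm : ∀ i, ∃ (c : K) (b' : W), b' ∈ subW W E' ∧
      algebraMap K F (a i) * algebraMap E' F (b i) = algebraMap K F c * (b' : F) := by
    intro i
    obtain ⟨y, hy⟩ := hvals (b i)
    by_cases hb0 : b i = 0
    · exact ⟨0, 0, (subW W E').zero_mem, by rw [hb0, map_zero, map_zero]; simp⟩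
    have hy0 : y ≠ 0 := by
      rintro rfl
      rw [map_zero, map_zero, map_eq_zero, map_eq_zero] at hy
      exact hb0 hy
    have hyF : algebraMap E F y ≠ 0 := (_root_.map_ne_zero _).2 hy0
    have h1 : W.valuation (algebraMap E' F (b i / algebraMap E E' y)) ≤ 1 := by
      rw [map_div₀, map_div₀, ← IsScalarTower.algebraMap_apply, hy]
      exact div_self_le_one _
    refine ⟨a i * algebraMap E K y, ⟨_, (W.valuation_le_one_iff _).1 h1⟩,
      ⟨b i / algebraMap E E' y, rfl⟩, ?_⟩
    rw [map_mul, ← IsScalarTower.algebraMap_apply]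
    show _ = _ * algebraMap E' F (b i / algebraMap E E' y)
    rw [map_div₀, ← IsScalarTower.algebraMap_apply]
    field_simp
  choose c b' hb' hcb using hterm
  have hN : ∀ i, ∃ N : ℕ, W.valuation (algebraMap K F (p ^ N * c i)) ≤ 1 := by
    intro i
    by_cases hc0 : c i = 0
    · exact ⟨0, by rw [hc0, mul_zero, map_zero, map_zero]; exact zero_le_one⟩
    have hcF : algebraMap K F (c i) ≠ 0 := (_root_.map_ne_zero _).2 hc0
    obtain ⟨N, hN⟩ := hW.archimedean (algebraMap K F (c i))⁻¹ _ (inv_ne_zero hcF) hp1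
    refine ⟨N, ?_⟩
    have hcpos : 0 < W.valuation (algebraMap K F (c i)) :=
      zero_lt_iff.2 ((_root_.map_ne_zero _).2 hcF)
    rw [map_inv₀] at hN
    rw [map_mul, map_mul, map_pow, map_pow]
    calc _ ≤ (W.valuation (algebraMap K F (c i)))⁻¹ * W.valuation (algebraMap K F (c i)) := by
          gcongr
      _ = 1 := inv_mul_cancel₀ hcpos.ne'
  choose N hN using hN
  set M := ∑ i, N i with hM
  have hNM : ∀ i, W.valuation (algebraMap K F (p ^ M * c i)) ≤ 1 := by
    intro i
    have h1 : N i ≤ M := Finset.single_le_sum (f := N) (fun _ _ => Nat.zero_le _)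
      (Finset.mem_univ i)
    obtain ⟨d, hd⟩ := Nat.exists_eq_add_of_le h1
    have h2 : p ^ M * c i = p ^ d * (p ^ N i * c i) := by rw [hd, pow_add]; ring
    rw [h2, map_mul, map_mul, map_pow, map_pow]
    exact mul_le_one' (pow_le_one' hp1.le d) (hN i)
  -- the integral multiple
  set y : W := ∑ i, (⟨algebraMap K F (p ^ M * c i), (W.valuation_le_one_iff _).1 (hNM i)⟩ : W) *
    b' i with hy
  have hyR : y ∈ baseR E' K W := by
    refine Subalgebra.sum_mem _ fun i _ => Subalgebra.mul_mem _ ?_ (mem_baseR_E' W _ (hb' i))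
    exact mem_baseR_K W ⟨⟨algebraMap K F (p ^ M * c i), (W.valuation_le_one_iff _).1 (hNM i)⟩,
      ⟨p ^ M * c i, rfl⟩⟩
  have hyx : (y : F) = algebraMap K F p ^ M * x := by
    have h1 : (y : F) = W.subtype y := rfl
    rw [h1, hy, map_sum, hx, Finset.mul_sum]
    refine Finset.sum_congr rfl fun i _ => ?_
    rw [map_mul, hcb i]
    show algebraMap K F (p ^ M * c i) * (b' i : F) = _
    rw [map_mul, map_pow, mul_assoc]
  have hpF : algebraMap K F p ≠ 0 := (_root_.map_ne_zero _).2 hp0
  have hy0 : (y : F) ≠ 0 := by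
    rw [hyx]
    exact mul_ne_zero (pow_ne_zero _ hpF) hx0
  obtain ⟨m, hm⟩ := B.val_pow harch y hyR hy0
  rw [hyx, map_mul, map_pow, hπF] at hm
  refine ⟨p ^ m / p ^ M, ?_⟩
  rw [map_div₀, map_div₀, map_pow, map_pow, map_pow, map_pow, ← hm]
  rw [mul_div_cancel_left₀ _ (pow_pos hppos M).ne']

end bc

section root

variable {k : Type u} [Field k]

/-- adjoining an `n`-th root of an element whose value is an `n`-th power -/
lemma unram_root_local {F : Type v} {E : Type w} [Field F] [Field E] [Algebra F E] [Algebra k F]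
    [Algebra k E] [IsScalarTower k F E] [Algebra.IsAlgebraic F E] {n : ℕ} (hn : (n : k) ≠ 0)
    (w : E) (f : F) (hw : w ^ n = algebraMap F E f)
    (hgen : ∀ x : E, ∃ P : F[X], x = aeval w P)
    {V : ValuationSubring E} (hV : IsPlace k E V)
    (hdiv : ∃ y : F, V.valuation (algebraMap F E f) = V.valuation (algebraMap F E y) ^ n) (x : E) :
    ∃ y : F, V.valuation (algebraMap F E y) = V.valuation x := by
  have hn0 : n ≠ 0 := by rintro rfl; exact hn Nat.cast_zero
  by_cases hf : f = 0
  · have hw0 : w = 0 := by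
      rw [hf, map_zero] at hw
      exact (pow_eq_zero_iff hn0).1 hw
    obtain ⟨P, hP⟩ := hgen x
    refine ⟨P.eval 0, ?_⟩
    rw [hP, hw0, ← map_zero (algebraMap F E), aeval_algebraMap_apply_eq_algebraMap_eval]
  set W := V.comap (algebraMap F E) with hW
  have hWp : IsPlace k F W := hV.comap
  obtain ⟨y, hy⟩ := hdiv
  rw [← map_pow, ← map_pow, ← comap_val_eq_iff, ← hW, map_pow] at hy
  have hy0 : y ≠ 0 := by
    rintro rfl
    rw [map_zero, zero_pow hn0, map_eq_zero] at hy
    exact hf hy
  have hyE : algebraMap F E y ≠ 0 := (_root_.map_ne_zero _).2 hy0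
  have hg1 : W.valuation (f / y ^ n) = 1 := by
    rw [map_div₀, hy, map_pow]
    exact div_self (pow_ne_zero n ((_root_.map_ne_zero _).2 hy0))
  have hgW : f / y ^ n ∈ W := (W.valuation_le_one_iff _).1 hg1.le
  set g : W := ⟨f / y ^ n, hgW⟩ with hg
  have hgu : IsLocalRing.residue W g ≠ 0 := by
    rw [Ne, IsLocalRing.residue_eq_zero_iff, W.valuation_lt_one_iff]
    exact hg1.not_lt
  have hnu : ((n : ℕ) : IsLocalRing.ResidueField W) ≠ 0 := by
    have h1 : ((n : ℕ) : IsLocalRing.ResidueField W) = IsLocalRing.residue W (n : W) := by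
      rw [map_natCast]
    rw [h1, Ne, IsLocalRing.residue_eq_zero_iff, W.valuation_lt_one_iff]
    have h2 : (((n : ℕ) : W) : F) = algebraMap k F n := by
      rw [map_natCast]
      exact map_natCast W.subtype n
    rw [h2, hWp.val_const hn]
    exact lt_irrefl _
  refine etale_value hV (w / algebraMap F E y) ?_ W hW (X ^ n - C g) (monic_X_pow_sub_C g hn0)
    ?_ ?_ x
  · intro z
    obtain ⟨P, hP⟩ := hgen z
    refine ⟨P.comp (C y * X), ?_⟩
    rw [aeval_comp, map_mul, aeval_C, aeval_X, mul_div_cancel₀ _ hyE, hP]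
  · rw [Polynomial.map_sub, Polynomial.map_pow, map_X, map_C, map_sub, map_pow, aeval_X, aeval_C,
      div_pow, hw]
    have h1 : W.subtype g = f / y ^ n := rfl
    rw [h1, map_div₀, map_pow, sub_self]
  · rw [Polynomial.map_sub, Polynomial.map_pow, map_X, map_C]
    exact separable_X_pow_sub_C _ hnu hgu

/-- adjoining a `p`-th root of an element whose value is not a `p`-th power -/
lemma ram_root_local {F : Type v} {E : Type w} [Field F] [Field E] [Algebra F E]
    {p : ℕ} (hp : p.Prime) (w : E) (f : F) (hw : w ^ p = algebraMap F E f)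
    (hgen : ∀ x : E, ∃ P : F[X], x = aeval w P) (V : ValuationSubring E)
    (hnd : ¬ ∃ y : F, V.valuation (algebraMap F E f) = V.valuation (algebraMap F E y) ^ p) (x : E)
    (hx : x ≠ 0) :
    ∃ (e : ℕ → F) (m : ℕ), m < p ∧ x = ∑ j ∈ Finset.range p, algebraMap F E (e j) * w ^ j ∧
      V.valuation x = V.valuation (algebraMap F E (e m) * w ^ m) ∧
        ∀ j < p, j ≠ m → V.valuation (algebraMap F E (e j) * w ^ j) < V.valuation x := by
  classical
  have hf0 : f ≠ 0 := by
    rintro rfl
    exact hnd ⟨0, by rw [map_zero, map_zero, zero_pow hp.ne_zero]⟩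
  have hfE : algebraMap F E f ≠ 0 := (_root_.map_ne_zero _).2 hf0
  have hw0 : w ≠ 0 := by
    rintro rfl
    rw [zero_pow hp.ne_zero] at hw
    exact hfE hw.symm
  have hvw : V.valuation w ^ p = V.valuation (algebraMap F E f) := by rw [← map_pow, hw]
  have hdist : ∀ i j : ℕ, i < j → j < p → ∀ a b : F, a ≠ 0 → b ≠ 0 →
      V.valuation (algebraMap F E a * w ^ i) ≠ V.valuation (algebraMap F E b * w ^ j) := by
    intro i j hij hj a b ha hb heq
    apply hnd
    obtain ⟨d, rfl⟩ := Nat.exists_eq_add_of_lt hij
    have haE : V.valuation (algebraMap F E a) ≠ 0 :=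
      (_root_.map_ne_zero _).2 ((_root_.map_ne_zero _).2 ha)
    have hbE : V.valuation (algebraMap F E b) ≠ 0 :=
      (_root_.map_ne_zero _).2 ((_root_.map_ne_zero _).2 hb)
    have hwV : V.valuation w ≠ 0 := (_root_.map_ne_zero _).2 hw0
    have hfV : V.valuation (algebraMap F E f) ≠ 0 := (_root_.map_ne_zero _).2 hfE
    have h1 : V.valuation w ^ (d + 1) = V.valuation (algebraMap F E a) /
        V.valuation (algebraMap F E b) := by
      rw [map_mul, map_mul, map_pow, map_pow] at heq
      rw [eq_div_iff hbE]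
      have h2 : V.valuation w ^ (i + d + 1) = V.valuation w ^ i * V.valuation w ^ (d + 1) := by
        rw [← pow_add, add_assoc]
      rw [h2] at heq
      have h3 : V.valuation w ^ i ≠ 0 := pow_ne_zero _ hwV
      have h4 : V.valuation (algebraMap F E a) * V.valuation w ^ i =
          (V.valuation w ^ (d + 1) * V.valuation (algebraMap F E b)) * V.valuation w ^ i := by
        rw [heq]
        ac_rfl
      exact (mul_right_cancel₀ h3 h4).symm
    have h2 : V.valuation (algebraMap F E f) ^ (d + 1) =
        (V.valuation (algebraMap F E (a / b))) ^ p := by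
      rw [← hvw, ← pow_mul, mul_comm, pow_mul, h1, map_div₀, map_div₀]
    have hcop : IsCoprime ((d + 1 : ℕ) : ℤ) (p : ℤ) := by
      rw [Nat.isCoprime_iff_coprime]
      exact (Nat.coprime_of_lt_prime (by omega) (by omega) hp).symm
    obtain ⟨r, q, hrq⟩ := hcop
    refine ⟨(a / b) ^ r * f ^ q, ?_⟩
    have h3 : V.valuation (algebraMap F E f) = V.valuation (algebraMap F E f) ^
        (r * ((d + 1 : ℕ) : ℤ) + q * (p : ℤ)) := by
      rw [hrq, zpow_one]
    rw [h3, zpow_add₀ hfV, mul_comm r, zpow_mul, zpow_natCast, h2, zpow_mul, zpow_natCast,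
      map_mul, map_mul, map_zpow₀, map_zpow₀, map_zpow₀, map_zpow₀, mul_pow]
    congr 1
    rw [← zpow_natCast, ← zpow_natCast, ← zpow_mul, ← zpow_mul, mul_comm]
  obtain ⟨P, hP⟩ := hgen x
  have hmonic : (X ^ p - C f : F[X]).Monic := monic_X_pow_sub_C _ hp.ne_zero
  set Q := P %ₘ (X ^ p - C f) with hQ
  have hdeg : Q.natDegree < p := by
    have h1 := natDegree_modByMonic_lt P hmonic (by
      intro h
      have := congrArg natDegree h
      rw [natDegree_X_pow_sub_C, natDegree_one] at this
      exact hp.ne_zero this)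
    rwa [natDegree_X_pow_sub_C] at h1
  have hxQ : x = ∑ j ∈ Finset.range p, algebraMap F E (Q.coeff j) * w ^ j := by
    have h1 : aeval w (X ^ p - C f : F[X]) = 0 := by
      rw [map_sub, map_pow, aeval_X, aeval_C, hw, sub_self]
    have h2 : x = aeval w Q := by
      rw [hQ, modByMonic_eq_sub_mul_div, map_sub, map_mul, h1, zero_mul, sub_zero, hP]
    rw [h2, aeval_eq_sum_range' hdeg]
    refine Finset.sum_congr rfl (fun j _ => ?_)
    rw [Algebra.smul_def]
  obtain ⟨m, hm, hmax⟩ := Finset.exists_max_image (Finset.range p)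
    (fun j => V.valuation (algebraMap F E (Q.coeff j) * w ^ j)) ⟨0, Finset.mem_range.2 hp.pos⟩
  have hmp := Finset.mem_range.1 hm
  have hm0 : Q.coeff m ≠ 0 := by
    intro h0
    apply hx
    rw [hxQ]
    refine Finset.sum_eq_zero (fun j hj => ?_)
    have h1 := hmax j hj
    simp only [h0, map_zero, zero_mul] at h1
    have h2 : V.valuation (algebraMap F E (Q.coeff j) * w ^ j) = 0 := le_antisymm h1 zero_le
    exact (map_eq_zero _).1 h2
  have hlt : ∀ j < p, j ≠ m → V.valuation (algebraMap F E (Q.coeff j) * w ^ j) <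
      V.valuation (algebraMap F E (Q.coeff m) * w ^ m) := by
    intro j hj hjm
    refine lt_of_le_of_ne (hmax j (Finset.mem_range.2 hj)) ?_
    by_cases hj0 : Q.coeff j = 0
    · rw [hj0, map_zero, zero_mul, map_zero]
      apply Ne.symm
      apply (_root_.map_ne_zero _).2
      exact mul_ne_zero ((_root_.map_ne_zero _).2 hm0) (pow_ne_zero _ hw0)
    rcases lt_or_gt_of_ne hjm with h | h
    · exact hdist j m h hmp _ _ hj0 hm0
    · exact (hdist m j h hj _ _ hm0 hj0).symm
  have hval : V.valuation x = V.valuation (algebraMap F E (Q.coeff m) * w ^ m) := by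
    have h1 : x = algebraMap F E (Q.coeff m) * w ^ m +
        ∑ j ∈ (Finset.range p).erase m, algebraMap F E (Q.coeff j) * w ^ j := by
      rw [Finset.add_sum_erase (Finset.range p)
        (fun j => algebraMap F E (Q.coeff j) * w ^ j) hm]
      exact hxQ
    rw [h1]
    apply Valuation.map_add_eq_of_lt_left
    apply Valuation.map_sum_lt
    · apply (_root_.map_ne_zero _).2
      exact mul_ne_zero ((_root_.map_ne_zero _).2 hm0) (pow_ne_zero _ hw0)
    · intro j hj
      rw [Finset.mem_erase, Finset.mem_range] at hj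
      exact hlt j hj.2 hj.1
  exact ⟨Q.coeff, m, hmp, hxQ, hval, fun j hj hjm => by rw [hval]; exact hlt j hj hjm⟩

end root

section dvr

open IsDedekindDomain IsDedekindDomain.HeightOneSpectrum

/-- finite extensions of discrete valuation rings -/
theorem dvr_ext {K : Type u} {F : Type v} [Field K] [Field F] [Algebra K F] [CharZero K]
    [FiniteDimensional K F] (W : ValuationSubring F)
    (hV : IsDiscreteValuationRing (W.comap (algebraMap K F))) (hne : W ≠ ⊤) :
    IsDiscreteValuationRing W := by
  classical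
  set V := W.comap (algebraMap K F) with hVdef
  let _ : Algebra V F := ((algebraMap K F).comp V.subtype).toAlgebra
  have htow : IsScalarTower V K F := IsScalarTower.of_algebraMap_eq (fun _ => rfl)
  have hAV : ∀ a : V, algebraMap V F a ∈ W := fun a => a.2
  have hded : IsDedekindDomain V := inferInstance
  have hsep : Algebra.IsSeparable K F := inferInstance
  have hB : IsDedekindDomain (integralClosure V F) := integralClosure.isDedekindDomain V K F
  have hfrac : IsFractionRing (integralClosure V F) F :=
    integralClosure.isFractionRing_of_finite_extension K F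
  let ι : V →+* W := (algebraMap V F).codRestrict W.toSubring hAV
  have hBV : ∀ b : integralClosure V F, (b : F) ∈ W := by
    rintro ⟨b, f, hf, hfb⟩
    have h1 : IsIntegral W b := by
      refine ⟨f.map ι, hf.map ι, ?_⟩
      rw [Polynomial.eval₂_map]
      exact hfb
    obtain ⟨y, hy⟩ := IsIntegrallyClosed.isIntegral_iff.1 h1
    have h2 : b ∈ W := hy ▸ y.2
    exact h2
  let ιB : integralClosure V F →+* W := (algebraMap (integralClosure V F) F).codRestrict
    W.toSubring hBV
  let P : Ideal (integralClosure V F) := (IsLocalRing.maximalIdeal W).comap ιB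
  have hPmem : ∀ b, b ∈ P ↔ ιB b ∈ IsLocalRing.maximalIdeal W := fun b => Iff.rfl
  have hPinv : ∀ b, b ∉ P → ((b : F))⁻¹ ∈ W := by
    intro b hb
    rw [hPmem, IsLocalRing.mem_maximalIdeal, mem_nonunits_iff, not_not] at hb
    obtain ⟨c, hc⟩ := isUnit_iff_exists_inv.1 hb
    have h1 : (b : F) * (c : F) = 1 := by
      have := congrArg (fun x : W => (x : F)) hc
      exact this
    rw [inv_eq_of_mul_eq_one_right h1]
    exact c.2
  have hP0 : P ≠ ⊥ := by
    intro h0
    apply hne
    rw [eq_top_iff]
    intro x _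
    obtain ⟨a, b, hb, rfl⟩ := IsFractionRing.div_surjective (A := integralClosure V F) x
    have hb0 : b ∉ P := by
      rw [h0, Ideal.mem_bot]
      exact nonZeroDivisors.ne_zero hb
    rw [div_eq_mul_inv]
    exact mul_mem (hBV a) (hPinv b hb0)
  let v : HeightOneSpectrum (integralClosure V F) := ⟨P, inferInstance, hP0⟩
  have hle : valuationSubringAtPrime F v ≤ W := by
    rintro x ⟨a, s, hs, rfl⟩
    exact mul_mem (hBV a) (hPinv s hs)
  have heq : valuationSubringAtPrime F v = W := ValuationSubring.eq_of_le_of_ne_top _ hle hne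
  rw [← heq]
  exact P025H16.dvr_atPrime _ _ v

end dvr

end P025H641
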