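import Vale.Agent.P025.H641.OPlace
import Vale.Agent.P025.H16.Bad

/-! # The rings of functions without bad poles -/

open IntermediateField Polynomial

namespace P025H641

universe u v w u' v' w'

section local_ring

variable {p : ℕ} {k : Type u} {E : Type v} [Field k] [CharZero k] [Field E] [Algebra k E]
  {T : Set (ValuationSubring E)} {L : Type w} [Field L] {k' : Type u'} [Field k'] [Algebra k' L]

lemma exists_local_ring (hp : p.Prime) (hE : IsFunctionField k E) (hT : T.Countable)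
    (K : IntermediateField E (AlgebraicClosure E)) [FiniteDimensional E K]
    (hK : K ≤ maxOrb p k T) (φ : L →+* AlgebraicClosure E)
    (hkK : ∀ c : k', φ (algebraMap k' L c) ∈ K)
    (hint : ∀ c : k', IsIntegral k (φ (algebraMap k' L c))) :
    ∃ (F : Subfield L) (R : Subring L), (∀ x, φ x ∈ K → x ∈ F) ∧ R ≤ F.toSubring ∧
      (∀ c : k', algebraMap k' L c ∈ R) ∧
      (∀ x ∈ F, x ∉ Set.range (algebraMap k' L) →
        {c : k' | (x - algebraMap k' L c)⁻¹ ∉ R}.Countable) ∧
      (∀ x ∈ R, x⁻¹ ∈ R → x ≠ 0 → ∃ w ∈ maxOrb p k T, w ^ p = φ x) := by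
  classical
  set Bd := P025H16.Bad k T K with hBd
  have hBc : Bd.Countable := P025H16.countable_Bad hE hT K
  set RK : Subring K := ⨅ V ∈ Bd, V.toSubring with hRK
  have hmemRK : ∀ x : K, x ∈ RK ↔ ∀ V ∈ Bd, x ∈ V := by
    intro x
    rw [hRK, Subring.mem_iInf]
    constructor
    · intro h V hV
      exact (Subring.mem_iInf.1 (h V)) hV
    · intro h V
      rw [Subring.mem_iInf]
      exact fun hV => h V hV
  let F : Subfield L := K.toSubfield.comap φ
  let R : Subring L := (RK.map (algebraMap K (AlgebraicClosure E))).comap φ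
  have hmemF : ∀ x, x ∈ F ↔ φ x ∈ K := fun _ => Iff.rfl
  have hmemR : ∀ x, x ∈ R ↔ ∃ h : φ x ∈ K, (⟨φ x, h⟩ : K) ∈ RK := by
    intro x
    constructor
    · rintro ⟨y, hy, hyx⟩
      have h1 : (y : AlgebraicClosure E) = φ x := hyx
      have h2 : φ x ∈ K := by rw [← h1]; exact y.2
      refine ⟨h2, ?_⟩
      have h3 : (⟨φ x, h2⟩ : K) = y := Subtype.ext h1.symm
      rw [h3]
      exact hy
    · rintro ⟨h, hx⟩
      exact ⟨_, hx, rfl⟩
  have htow : IsScalarTower k K (AlgebraicClosure E) := IsScalarTower.of_algebraMap_eq (fun _ => rfl)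
  have hintK : ∀ c : k', IsIntegral k (⟨φ (algebraMap k' L c), hkK c⟩ : K) := fun c =>
    (isIntegral_algHom_iff (K.val.restrictScalars k) Subtype.val_injective).1 (hint c)
  have hval1 : ∀ V ∈ Bd, ∀ c : k', c ≠ 0 →
      V.valuation (⟨φ (algebraMap k' L c), hkK c⟩ : K) = 1 := by
    intro V hV c hc
    refine val_alg_gen (k := k) (fun x => hV.1.const_mem x) (hintK c) ?_
    intro h
    have h1 : φ (algebraMap k' L c) = 0 := congrArg Subtype.val h
    rw [map_eq_zero, map_eq_zero] at h1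
    exact hc h1
  refine ⟨F, R, fun x hx => hx, ?_, ?_, ?_, ?_⟩
  · intro x hx
    obtain ⟨h, -⟩ := (hmemR x).1 hx
    exact h
  · intro c
    rw [hmemR]
    refine ⟨hkK c, ?_⟩
    rw [hmemRK]
    intro V hV
    by_cases hc : c = 0
    · have h1 : (⟨φ (algebraMap k' L c), hkK c⟩ : K) = 0 := by
        apply Subtype.ext
        show φ (algebraMap k' L c) = 0
        rw [hc, map_zero, map_zero]
      rw [h1]
      exact V.zero_mem
    · rw [← V.valuation_le_one_iff, hval1 V hV c hc]
  · intro x hx hxr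
    have hxK : ∀ c : k', φ (x - algebraMap k' L c) ∈ K := by
      intro c
      rw [map_sub]
      exact sub_mem hx (hkK c)
    have hsub : {c : k' | (x - algebraMap k' L c)⁻¹ ∉ R} ⊆
        ⋃ V ∈ Bd, {c : k' | V.valuation (⟨φ (x - algebraMap k' L c), hxK c⟩ : K) < 1} := by
      intro c hc
      have hinvK : φ (x - algebraMap k' L c)⁻¹ ∈ K := by
        rw [map_inv₀]
        exact inv_mem (hxK c)
      have h1 : ¬ (⟨φ (x - algebraMap k' L c)⁻¹, hinvK⟩ : K) ∈ RK :=
        fun h => hc ((hmemR _).2 ⟨hinvK, h⟩)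
      rw [hmemRK] at h1
      push Not at h1
      obtain ⟨V, hV, h2⟩ := h1
      refine Set.mem_biUnion hV ?_
      show V.valuation _ < 1
      have h3 : (⟨φ (x - algebraMap k' L c)⁻¹, hinvK⟩ : K) =
          (⟨φ (x - algebraMap k' L c), hxK c⟩ : K)⁻¹ := by
        apply Subtype.ext
        exact map_inv₀ φ _
      rw [h3, ← V.valuation_le_one_iff, map_inv₀, not_le] at h2
      have h4 : V.valuation (⟨φ (x - algebraMap k' L c), hxK c⟩ : K) ≠ 0 := by
        intro h5
        rw [h5, inv_zero] at h2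
        exact absurd h2 (not_lt.2 zero_le)
      exact (one_lt_inv₀ (zero_lt_iff.2 h4)).1 h2
    refine (hBc.biUnion (fun V hV => ?_)).mono hsub
    apply Set.Subsingleton.countable
    intro c hc c' hc'
    by_contra hne
    have h1 : (⟨φ (x - algebraMap k' L c'), hxK c'⟩ : K) - ⟨φ (x - algebraMap k' L c), hxK c⟩ =
        ⟨φ (algebraMap k' L (c - c')), hkK _⟩ := by
      apply Subtype.ext
      show φ (x - algebraMap k' L c') - φ (x - algebraMap k' L c) = φ (algebraMap k' L (c - c'))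
      rw [map_sub, map_sub, map_sub, map_sub]
      ring
    have h2 : V.valuation ((⟨φ (x - algebraMap k' L c'), hxK c'⟩ : K) -
        ⟨φ (x - algebraMap k' L c), hxK c⟩) < 1 :=
      (Valuation.map_sub _ _ _).trans_lt (max_lt hc' hc)
    rw [h1, hval1 V hV _ (sub_ne_zero.2 hne)] at h2
    exact lt_irrefl _ h2
  · intro x hx hxi hx0
    obtain ⟨hxK, h1⟩ := (hmemR x).1 hx
    obtain ⟨hxiK, h2⟩ := (hmemR _).1 hxi
    obtain ⟨w, hw⟩ := IsAlgClosed.exists_pow_nat_eq (φ x) hp.pos
    refine ⟨w, P025H16.root_mem_maxOrb hp K hK ⟨φ x, hxK⟩ ?_ w hw, hw⟩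
    intro V hV
    have h3 := (V.valuation_le_one_iff _).2 ((hmemRK _).1 h1 V hV)
    have h4 := (V.valuation_le_one_iff _).2 ((hmemRK _).1 h2 V hV)
    have h5 : (⟨φ x⁻¹, hxiK⟩ : K) = (⟨φ x, hxK⟩ : K)⁻¹ := Subtype.ext (map_inv₀ φ x)
    rw [h5, map_inv₀] at h4
    have h6 : V.valuation (⟨φ x, hxK⟩ : K) ≠ 0 := by
      rw [(V.valuation).ne_zero_iff]
      intro h
      have h7 : φ x = 0 := congrArg Subtype.val h
      exact hx0 ((map_eq_zero φ).1 h7)
    exact le_antisymm h3 ((inv_le_one₀ (zero_lt_iff.2 h6)).1 h4)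

end local_ring

end P025H641
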