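import Vale.Agent.P025.H641.OLocal
import Vale.Agent.P025.H641.EveryGen

/-! # Sections of the Galois group of `maxOrb` are geometric -/

open IntermediateField Polynomial

namespace P025H641

universe u v w u' v' w'

section base

variable {k : Type u} {E : Type v} [Field k] [CharZero k] [Field E] [Algebra k E]
  {M : IntermediateField E (AlgebraicClosure E)}
  {s : Gal(constClosure k E/k) →* Gal(M/E)}

/-- constants fixed by a section -/
lemma const_of_fixM (hs : IsSecOf k M s) (y : M) (halg : IsIntegral k y)
    (hy : ∀ σ, s σ y = y) : ∃ c : k, algebraMap k M c = y := by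
  have hmem : (y : AlgebraicClosure E) ∈ constClosure k E :=
    mem_algebraicClosure_iff.2 (isIntegral_coeM.2 halg).isAlgebraic
  set yC : constClosure k E := ⟨y, hmem⟩ with hyC
  have hfix : ∀ σ : Gal(constClosure k E/k), σ yC = yC := by
    intro σ
    have := hs.lifts σ yC y rfl
    rw [hy σ] at this
    exact Subtype.ext this
  obtain ⟨c, hc⟩ := (InfiniteGalois.mem_range_algebraMap_iff_fixed yC).2 hfix
  refine ⟨c, ?_⟩
  apply Subtype.ext
  have h1 : ((algebraMap k (constClosure k E) c : constClosure k E) : AlgebraicClosure E) =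
      (y : AlgebraicClosure E) := by rw [hc]
  rw [← h1]
  rfl

end base

section core

variable {p : ℕ} [Fact p.Prime] {k : Type u} [Field k] [Algebra ℚ_[p] k]
  [FiniteDimensional ℚ_[p] k]

/-- adjoining the roots of unity to the fixed field, abstract version -/
theorem loc_core {F M : Type v} [Field F] [Algebra k F] [Field M] [Algebra k M] [Algebra F M]
    [IsScalarTower k F M] {ζ : M} (hζ : IsPrimitiveRoot ζ p)
    (hclosed : ∀ e : F, IsIntegral k e → ∃ c, algebraMap k F c = e)
    (hlev : ∀ (k' L : Type v) [Field k'] [Algebra ℚ_[p] k'] [FiniteDimensional ℚ_[p] k']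
      [Field L] [Algebra k k'] [Algebra k' L] [Algebra F L] [Algebra k L] [IsScalarTower k k' L]
      [IsScalarTower k F L] (z : k') (_ : CycData p k F k' L z) (eL : L →ₐ[F] M)
      (S : Finset L), (∀ x ∈ S, x ≠ 0 → ∃ y : M, y ^ p = eL x) →
        ∃ χ : L → Cl p k', GLevel p F k' S χ)
    (hloc : ∀ (k' L : Type v) [Field k'] [Algebra ℚ_[p] k'] [FiniteDimensional ℚ_[p] k']
      [Field L] [Algebra k k'] [Algebra k' L] [Algebra F L] [Algebra k L] [IsScalarTower k k' L]
      [IsScalarTower k F L] (z : k') (_ : CycData p k F k' L z) (eL : L →ₐ[F] M)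
      (S : Finset L), ∃ (F₁ : Subfield L) (R : Subring L), (S : Set L) ⊆ F₁ ∧
      R ≤ F₁.toSubring ∧ (∀ c : k', algebraMap k' L c ∈ R) ∧
      (∀ x ∈ F₁, x ∉ Set.range (algebraMap k' L) →
        {c : k' | (x - algebraMap k' L c)⁻¹ ∉ R}.Countable) ∧
      (∀ x ∈ R, x⁻¹ ∈ R → x ≠ 0 → ∃ y : M, y ^ p = eL x)) :
    ∃ V : ValuationSubring F, (∀ c : k, algebraMap k F c ∈ V) ∧
      ∀ f ∈ V, ∃ c : k, V.valuation (f - algebraMap k F c) < 1 := by
  classical
  have hpp : p.Prime := Fact.out
  have hchar : CharZero k := charZero_of_injective_algebraMap (algebraMap ℚ_[p] k).injective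
  have hintk : IsIntegral k ζ :=
    isIntegral_of_pow' hpp.pos (by rw [hζ.pow_eq_one]; exact isIntegral_one)
  have hintE : IsIntegral F ζ :=
    isIntegral_of_pow' hpp.pos (by rw [hζ.pow_eq_one]; exact isIntegral_one)
  set k' : IntermediateField k M := k⟮ζ⟯ with hk'
  set E' : IntermediateField F M := F⟮ζ⟯ with hE'
  have hle : ∀ x : k', (x : M) ∈ E' := by
    have h1 : k' ≤ E'.restrictScalars k := by
      rw [hk', IntermediateField.adjoin_simple_le_iff]
      exact IntermediateField.mem_adjoin_simple_self F ζ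
    exact fun x => h1 x.2
  let e₁ : k' →+* E' := (algebraMap k' M).codRestrict E'.toSubfield.toSubring hle
  let _ : Algebra k' E' := e₁.toAlgebra
  have ht1 : IsScalarTower k k' E' := IsScalarTower.of_algebraMap_eq (fun c => rfl)
  let _ : Algebra ℚ_[p] k' := ((algebraMap k k').comp (algebraMap ℚ_[p] k)).toAlgebra
  have ht2 : IsScalarTower ℚ_[p] k k' := IsScalarTower.of_algebraMap_eq (fun c => rfl)
  have hfin1 : FiniteDimensional k k' := IntermediateField.adjoin.finiteDimensional hintk
  have hfin2 : FiniteDimensional ℚ_[p] k' := FiniteDimensional.trans ℚ_[p] k k'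
  let z : k' := ⟨ζ, IntermediateField.mem_adjoin_simple_self k ζ⟩
  have hz : IsPrimitiveRoot z p :=
    IsPrimitiveRoot.of_map_of_injective (f := k'.val) hζ Subtype.val_injective
  have C : CycData p k F k' E' z := by
    refine ⟨hz, ?_, ?_⟩
    · intro x
      have hx : (x : M) ∈ Algebra.adjoin k {ζ} := by
        rw [← IntermediateField.adjoin_simple_toSubalgebra_of_isAlgebraic hintk.isAlgebraic]
        exact x.2
      rw [Algebra.adjoin_singleton_eq_range_aeval] at hx
      obtain ⟨P, hP⟩ := hx
      refine ⟨P, Subtype.ext ?_⟩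
      have h1 : ((aeval z P : k') : M) = aeval ζ P :=
        (aeval_algHom_apply k'.val z P).symm
      rw [h1]
      exact hP.symm
    · intro x
      have hx : (x : M) ∈ Algebra.adjoin F {ζ} := by
        rw [← IntermediateField.adjoin_simple_toSubalgebra_of_isAlgebraic hintE.isAlgebraic]
        exact x.2
      rw [Algebra.adjoin_singleton_eq_range_aeval] at hx
      obtain ⟨P, hP⟩ := hx
      refine ⟨P, Subtype.ext ?_⟩
      have h1 : ((aeval (algebraMap k' E' z) P : E') : M) = aeval ζ P :=
        (aeval_algHom_apply E'.val (algebraMap k' E' z) P).symm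
      rw [h1]
      exact hP.symm
  refine place_of_loc C hclosed {x : E' | ∃ y : M, y ^ p = E'.val x} ?_ ?_ ?_
  · intro S hS
    exact hlev k' E' z C E'.val S hS
  · intro B hB A₀ hA₀
    exact P025H16.exists_fine_avoid A₀ hB hA₀
  · intro S
    exact hloc k' E' z C E'.val S

end core

section main

variable {p : ℕ} [Fact p.Prime] {k : Type u} [Field k] [Algebra ℚ_[p] k]
  [FiniteDimensional ℚ_[p] k] {E : Type v} [Field E] [Algebra k E]
  {T : Set (ValuationSubring E)}
  {s : Gal(constClosure k E/k) →* Gal((maxOrb p k T : IntermediateField E (AlgebraicClosure E))/E)}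

/-- the valuation ring of the fixed field -/
theorem exists_val_fixM [CharZero k] (hE : IsFunctionField k E) (hT : T.Countable)
    (hs : IsSecOf k (maxOrb p k T) s) :
    ∃ V : ValuationSubring (FixM s), (∀ c : k, algebraMap k (FixM s) c ∈ V) ∧
      ∀ f ∈ V, ∃ c : k, V.valuation (f - algebraMap k (FixM s) c) < 1 := by
  classical
  have hpp : p.Prime := Fact.out
  have hcharE : CharZero E := charZero_of_injective_algebraMap (algebraMap k E).injective
  have hM : ConstIn k (maxOrb p k T : IntermediateField E (AlgebraicClosure E)) := constIn_maxOrb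
  have htowF := tower_fixM (k := k) (K := E)
    (M := (maxOrb p k T : IntermediateField E (AlgebraicClosure E))) (s := s)
  obtain ⟨ζ₀, hζroot⟩ := IsAlgClosed.exists_root (cyclotomic p (AlgebraicClosure E))
    (degree_cyclotomic_pos p _ hpp.pos).ne'
  have hnz : NeZero ((p : ℕ) : AlgebraicClosure E) := ⟨by exact_mod_cast hpp.ne_zero⟩
  have hζ₀ : IsPrimitiveRoot ζ₀ p := isRoot_cyclotomic_iff.1 hζroot
  have hint₀ : IsIntegral k ζ₀ :=
    isIntegral_of_pow' hpp.pos (by rw [hζ₀.pow_eq_one]; exact isIntegral_one)
  have hζ : IsPrimitiveRoot (⟨ζ₀, hM _ hint₀⟩ :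
      (maxOrb p k T : IntermediateField E (AlgebraicClosure E))) p :=
    IsPrimitiveRoot.of_map_of_injective
      (f := (maxOrb p k T : IntermediateField E (AlgebraicClosure E)).val) hζ₀
      Subtype.val_injective
  refine loc_core hζ ?_ ?_ ?_
  · intro e he
    obtain ⟨c, hc⟩ := const_of_fixM hs (e : maxOrb p k T)
      (he.map (Algebra.ofId (FixM s) (maxOrb p k T) |>.restrictScalars k))
      (fun σ => (mem_fixM (s := s) _).1 e.2 σ)
    exact ⟨c, Subtype.ext hc⟩
  · intro k' L _ _ _ _ _ _ _ _ _ _ z C eL S hS
    refine exists_gLevelM hM hs ?_ C eL S (fun x hx hx0 => hS x hx hx0)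
    intro K hfin hKM ψ x
    exact unr_mem_maxOrb hpp hKM ψ x
  · intro k' L _ _ _ _ _ _ _ _ _ _ z C eL S
    let φ : L →+* AlgebraicClosure E :=
      ((maxOrb p k T : IntermediateField E (AlgebraicClosure E)).val :
        (maxOrb p k T : IntermediateField E (AlgebraicClosure E)) →+* AlgebraicClosure E).comp
          (eL : L →+* _)
    let φk : L →ₐ[k] AlgebraicClosure E :=
      ((maxOrb p k T : IntermediateField E (AlgebraicClosure E)).val.restrictScalars k).comp
        (eL.restrictScalars k)
    have hφ : ∀ x, φ x = φk x := fun _ => rfl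
    have hint : ∀ c : k', IsIntegral k (φ (algebraMap k' L c)) := by
      intro c
      rw [hφ]
      exact ((C.isIntegral hpp.pos c).map (Algebra.ofId k' L |>.restrictScalars k)).map φk
    set K : IntermediateField E (AlgebraicClosure E) :=
      IntermediateField.adjoin E ((insert (φ (algebraMap k' L z)) (S.image φ) : Finset _) : Set _)
      with hK
    have hKM : K ≤ maxOrb p k T := by
      rw [hK, IntermediateField.adjoin_le_iff]
      intro x hx
      rw [Finset.mem_coe, Finset.mem_insert, Finset.mem_image] at hx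
      rcases hx with rfl | ⟨y, -, rfl⟩
      · exact hM _ (hint _)
      · exact (eL y).2
    have hfinK : FiniteDimensional E K := by
      apply IntermediateField.finiteDimensional_adjoin
      intro x _
      exact (Algebra.IsAlgebraic.isAlgebraic x).isIntegral
    have hζK : φ (algebraMap k' L z) ∈ K := IntermediateField.subset_adjoin E _ (by simp)
    have hkK : ∀ c : k', φ (algebraMap k' L c) ∈ K := by
      intro c
      obtain ⟨P, rfl⟩ := C.genk c
      have h1 : φ (algebraMap k' L (aeval z P)) = aeval (φ (algebraMap k' L z)) P := by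
        rw [hφ, hφ, ← aeval_algebraMap_apply]
        exact (aeval_algHom_apply φk (algebraMap k' L z) P).symm
      rw [h1, aeval_eq_sum_range]
      refine sum_mem (fun i _ => ?_)
      rw [Algebra.smul_def, IsScalarTower.algebraMap_apply k E (AlgebraicClosure E)]
      exact mul_mem (K.algebraMap_mem _) (pow_mem hζK i)
    obtain ⟨F, R, h1, h2, h3, h4, h5⟩ := exists_local_ring hpp hE hT K hKM φ hkK hint
    refine ⟨F, R, ?_, h2, h3, h4, ?_⟩
    · intro x hx
      apply h1
      apply IntermediateField.subset_adjoin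
      rw [Finset.mem_coe, Finset.mem_insert]
      exact Or.inr (Finset.mem_image_of_mem _ hx)
    · intro x hx hxi hx0
      obtain ⟨w, hw, hwp⟩ := h5 x hx hxi hx0
      exact ⟨⟨w, hw⟩, Subtype.ext hwp⟩

end main

end P025H641
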