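import Vale.Agent.P025.H641.OLoc

/-! # Values in subfields of a field with a valuation ring -/

open IntermediateField Polynomial

namespace P025H641

universe u v w

section same

variable {E : Type v} {Ω : Type w} [Field E] [Field Ω] [Algebra E Ω]

/-- every value of `A` is a value of `B` -/
def SameVal (W : ValuationSubring Ω) (A B : IntermediateField E Ω) : Prop :=
  ∀ x ∈ A, ∃ y ∈ B, W.valuation y = W.valuation x

lemma SameVal.trans {W : ValuationSubring Ω} {A B C : IntermediateField E Ω}
    (h1 : SameVal W A B) (h2 : SameVal W B C) : SameVal W A C := by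
  intro x hx
  obtain ⟨y, hy, hxy⟩ := h1 x hx
  obtain ⟨z, hz, hyz⟩ := h2 y hy
  exact ⟨z, hz, hyz.trans hxy⟩

lemma SameVal.of_le {W : ValuationSubring Ω} {A B : IntermediateField E Ω} (h : A ≤ B) :
    SameVal W A B := fun x hx => ⟨x, h hx, rfl⟩

lemma SameVal.mono {W : ValuationSubring Ω} {A A' B : IntermediateField E Ω} (h : A ≤ A')
    (h2 : SameVal W A' B) : SameVal W A B := fun x hx => h2 x (h hx)

/-- generation of a compositum by one element -/
lemma gen_sup_simple {A : IntermediateField E Ω} {w : Ω} (hint : IsIntegral A w)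
    {x : Ω} (hx : x ∈ A ⊔ E⟮w⟯) : ∃ P : A[X], x = aeval w P := by
  have h1 := IntermediateField.restrictScalars_adjoin_eq_sup E A ({w} : Set Ω)
  rw [← h1] at hx
  have hx2 : x ∈ Algebra.adjoin A {w} := by
    rw [← IntermediateField.adjoin_simple_toSubalgebra_of_isAlgebraic hint.isAlgebraic]
    exact hx
  rw [Algebra.adjoin_singleton_eq_range_aeval] at hx2
  obtain ⟨P, hP⟩ := hx2
  exact ⟨P, hP.symm⟩

end same

section place

variable {k : Type u} {E : Type v} {Ω : Type w} [Field k] [CharZero k] [Field E] [Field Ω]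
  [Algebra k E] [Algebra E Ω] [Algebra k Ω] [IsScalarTower k E Ω]
  {W : ValuationSubring Ω}

/-- restriction to finite extensions -/
lemma place_of_fin (hV : IsPlace k E (W.comap (algebraMap E Ω))) (A : IntermediateField E Ω)
    [FiniteDimensional E A] : IsPlace k A (W.comap (algebraMap A Ω)) := by
  have hchar : CharZero E := charZero_of_injective_algebraMap (algebraMap k E).injective
  have hcomap : (W.comap (algebraMap A Ω)).comap (algebraMap E A) =
      W.comap (algebraMap E Ω) := by
    ext x
    rw [ValuationSubring.mem_comap, ValuationSubring.mem_comap, ValuationSubring.mem_comap,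
      ← IsScalarTower.algebraMap_apply]
  have htow : IsScalarTower k A Ω := IsScalarTower.of_algebraMap_eq (fun x => rfl)
  refine ⟨?_, ?_⟩
  · intro c
    have h1 := hV.const_mem c
    rw [ValuationSubring.mem_comap, ← IsScalarTower.algebraMap_apply] at h1
    rw [ValuationSubring.mem_comap, ← IsScalarTower.algebraMap_apply]
    exact h1
  · apply dvr_ext (K := E)
    · rw [hcomap]; exact hV.discrete
    · intro htop
      apply hV.ne_top
      rw [← hcomap, htop]
      ext x
      simp

omit [CharZero k] in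
lemma comap_sub_val_iff (A : IntermediateField E Ω) (x y : A) :
    (W.comap (algebraMap A Ω)).valuation x = (W.comap (algebraMap A Ω)).valuation y ↔
      W.valuation (x : Ω) = W.valuation (y : Ω) :=
  comap_val_eq_iff W x y

/-- adjoining a root of an element whose value is a power -/
lemma sameVal_root (hV : IsPlace k E (W.comap (algebraMap E Ω))) (A : IntermediateField E Ω)
    [FiniteDimensional E A] {n : ℕ} (hn : n ≠ 0) (w f : Ω) (hf : f ∈ A) (hw : w ^ n = f)
    (hdiv : ∃ y ∈ A, W.valuation f = W.valuation y ^ n) : SameVal W (A ⊔ E⟮w⟯) A := by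
  have hintA : IsIntegral A w := by
    apply isIntegral_of_pow' (Nat.pos_of_ne_zero hn)
    rw [hw]
    exact isIntegral_algebraMap (R := A) (x := (⟨f, hf⟩ : A))
  have hintE : IsIntegral E w := by
    have : Algebra.IsIntegral E A := inferInstance
    exact isIntegral_trans (R := E) (A := A) w hintA
  have hfin : FiniteDimensional E E⟮w⟯ := IntermediateField.adjoin.finiteDimensional hintE
  have hfin2 : FiniteDimensional E (A ⊔ E⟮w⟯ : IntermediateField E Ω) := finiteDimensional_sup A _
  set B := A ⊔ E⟮w⟯ with hB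
  have hwB : w ∈ B := (le_sup_right : E⟮w⟯ ≤ B) (IntermediateField.mem_adjoin_simple_self E w)
  have hAB : A ≤ B := le_sup_left
  let _ : Algebra A B := (IntermediateField.inclusion hAB).toRingHom.toAlgebra
  have t1 : IsScalarTower k A B := IsScalarTower.of_algebraMap_eq (fun x => rfl)
  have t2 : IsScalarTower E A B := IsScalarTower.of_algebraMap_eq (fun x => rfl)
  have t3 : IsScalarTower A B Ω := IsScalarTower.of_algebraMap_eq (fun x => rfl)
  have halg : Algebra.IsAlgebraic A B := Algebra.IsAlgebraic.tower_top (K := E) A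
  intro x hx
  have hgen : ∀ x : B, ∃ P : A[X], x = aeval (⟨w, hwB⟩ : B) P := by
    rintro ⟨x, hx⟩
    obtain ⟨P, hP⟩ := gen_sup_simple hintA hx
    refine ⟨P, Subtype.ext ?_⟩
    have h3 := aeval_algebraMap_apply Ω (⟨w, hwB⟩ : B) P
    refine Eq.trans ?_ h3
    exact hP
  have hnk : (n : k) ≠ 0 := Nat.cast_ne_zero.2 hn
  obtain ⟨y0, hy0, hy⟩ := hdiv
  obtain ⟨y, hy⟩ := unram_root_local hnk (⟨w, hwB⟩ : B) (⟨f, hf⟩ : A) (Subtype.ext hw) hgen
    (place_of_fin hV B) (by
      refine ⟨⟨y0, hy0⟩, ?_⟩
      rw [← map_pow, comap_sub_val_iff]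
      show W.valuation f = W.valuation (y0 ^ n)
      rw [map_pow, hy]) ⟨x, hx⟩
  rw [comap_sub_val_iff] at hy
  exact ⟨y, y.2, hy⟩

/-- adjoining constants -/
lemma sameVal_const (hV : IsPlace k E (W.comap (algebraMap E Ω))) (A : IntermediateField E Ω)
    [FiniteDimensional E A] (c : Ω) (hc : IsIntegral k c) : SameVal W (A ⊔ E⟮c⟯) A := by
  have htowA : IsScalarTower k A Ω := IsScalarTower.of_algebraMap_eq (fun x => rfl)
  have hintA : IsIntegral A c := hc.tower_top
  have hintE : IsIntegral E c := hc.tower_top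
  have hfin : FiniteDimensional E E⟮c⟯ := IntermediateField.adjoin.finiteDimensional hintE
  have hfin2 : FiniteDimensional E (A ⊔ E⟮c⟯ : IntermediateField E Ω) := finiteDimensional_sup A _
  set B := A ⊔ E⟮c⟯ with hB
  have hwB : c ∈ B := (le_sup_right : E⟮c⟯ ≤ B) (IntermediateField.mem_adjoin_simple_self E c)
  have hAB : A ≤ B := le_sup_left
  let _ : Algebra A B := (IntermediateField.inclusion hAB).toRingHom.toAlgebra
  have t1 : IsScalarTower k A B := IsScalarTower.of_algebraMap_eq (fun x => rfl)
  have t2 : IsScalarTower E A B := IsScalarTower.of_algebraMap_eq (fun x => rfl)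
  have t3 : IsScalarTower A B Ω := IsScalarTower.of_algebraMap_eq (fun x => rfl)
  have halg : Algebra.IsAlgebraic A B := Algebra.IsAlgebraic.tower_top (K := E) A
  intro x hx
  have hgen : ∀ x : B, ∃ P : A[X], x = aeval (⟨c, hwB⟩ : B) P := by
    rintro ⟨x, hx⟩
    obtain ⟨P, hP⟩ := gen_sup_simple hintA hx
    refine ⟨P, Subtype.ext ?_⟩
    have h3 := aeval_algebraMap_apply Ω (⟨c, hwB⟩ : B) P
    refine Eq.trans ?_ h3
    exact hP
  have htow : IsScalarTower k B Ω := IsScalarTower.of_algebraMap_eq (fun x => rfl)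
  have hcB : IsIntegral k (⟨c, hwB⟩ : B) :=
    (isIntegral_algHom_iff ((B.val).restrictScalars k) Subtype.val_injective).1 hc
  obtain ⟨y, hy⟩ := unram_const (⟨c, hwB⟩ : B) hcB hgen (place_of_fin hV B) ⟨x, hx⟩
  rw [comap_sub_val_iff] at hy
  exact ⟨y, y.2, hy⟩

/-- base change -/
lemma sameVal_bc (hV : IsPlace k E (W.comap (algebraMap E Ω))) (A A' B : IntermediateField E Ω)
    [FiniteDimensional E A'] [FiniteDimensional E B] (hAA' : A ≤ A') (hAB : A ≤ B)
    (h : SameVal W A' A) : SameVal W (A' ⊔ B) B := by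
  have hchar : CharZero E := charZero_of_injective_algebraMap (algebraMap k E).injective
  have hfin2 : FiniteDimensional E (A' ⊔ B : IntermediateField E Ω) := finiteDimensional_sup _ _
  set F := A' ⊔ B with hF
  have hA'F : A' ≤ F := le_sup_left
  have hBF : B ≤ F := le_sup_right
  have hAF : A ≤ F := hAA'.trans hA'F
  let _ : Algebra A A' := (IntermediateField.inclusion hAA').toRingHom.toAlgebra
  let _ : Algebra A B := (IntermediateField.inclusion hAB).toRingHom.toAlgebra
  let _ : Algebra A F := (IntermediateField.inclusion hAF).toRingHom.toAlgebra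
  let _ : Algebra A' F := (IntermediateField.inclusion hA'F).toRingHom.toAlgebra
  let _ : Algebra B F := (IntermediateField.inclusion hBF).toRingHom.toAlgebra
  have t1 : IsScalarTower k B F := IsScalarTower.of_algebraMap_eq (fun x => rfl)
  have t2 : IsScalarTower A A' F := IsScalarTower.of_algebraMap_eq (fun x => rfl)
  have t3 : IsScalarTower A B F := IsScalarTower.of_algebraMap_eq (fun x => rfl)
  have t4 : IsScalarTower E A A' := IsScalarTower.of_algebraMap_eq (fun x => rfl)
  have t5 : IsScalarTower B F Ω := IsScalarTower.of_algebraMap_eq (fun x => rfl)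
  have halg : Algebra.IsAlgebraic A A' := Algebra.IsAlgebraic.tower_top (K := E) A
  obtain ⟨θ, hθ⟩ := Field.exists_primitive_element E A'
  have hadj : A' = E⟮(θ : Ω)⟯ := by
    have h1 := congrArg (IntermediateField.map A'.val) hθ
    rw [IntermediateField.adjoin_map, Set.image_singleton, ← AlgHom.fieldRange_eq_map,
      IntermediateField.fieldRange_val] at h1
    exact h1.symm
  have hint : IsIntegral B (θ : Ω) := by
    have h1 : IsIntegral E (θ : Ω) := (Algebra.IsIntegral.isIntegral θ).map A'.val
    exact h1.tower_top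
  intro x hx
  obtain ⟨y, hy⟩ := local_base_change (k := k) (E := A) (E' := A') (K := B) (F := F) (by
    rintro ⟨x, hx⟩
    have hx2 : x ∈ B ⊔ E⟮(θ : Ω)⟯ := by rw [← hadj, sup_comm]; exact hx
    obtain ⟨P, hP⟩ := gen_sup_simple hint hx2
    refine ⟨P.natDegree + 1, fun i => P.coeff i, fun i => θ ^ (i : ℕ), Subtype.ext ?_⟩
    show x = _
    rw [hP, aeval_eq_sum_range, Finset.sum_range, AddSubmonoidClass.coe_finsetSum]
    refine Finset.sum_congr rfl (fun i _ => ?_)
    rw [Algebra.smul_def]
    rfl) (place_of_fin hV F) (by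
    intro b
    obtain ⟨y, hy, hyb⟩ := h b b.2
    refine ⟨⟨y, hy⟩, ?_⟩
    rw [comap_sub_val_iff]
    exact hyb.symm) ⟨x, hx⟩
  rw [comap_sub_val_iff] at hy
  exact ⟨y, y.2, hy⟩

end place

end P025H641
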