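import Vale.Agent.P025.H641.OOm

/-! # Extensions with ramification indices dividing `p` -/

open IntermediateField Polynomial

namespace P025H641

universe u v w

/-- The ramification indices of `F / E` over `k` divide `p`, and `F / E` is unramified over the
places in `T`. -/
structure IsOrbi (p : ℕ) (k : Type u) {E : Type v} [Field E] (T : Set (ValuationSubring E))
    (F : Type w) [Field k] [Field F] [Algebra k F] [Algebra E F] : Prop where
  ram : ∀ V : ValuationSubring F, IsPlace k F V →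
    ∀ x : F, ∃ y : E, V.valuation (algebraMap E F y) = V.valuation x ^ p
  unram : ∀ V : ValuationSubring F, IsPlace k F V → V.comap (algebraMap E F) ∈ T →
    ∀ x : F, ∃ y : E, V.valuation (algebraMap E F y) = V.valuation x

section pow

variable {Γ : Type*} [LinearOrderedCommGroupWithZero Γ]

lemma pow_inj_gz {p : ℕ} (hp : p ≠ 0) {x y : Γ} (h : x ^ p = y ^ p) : x = y :=
  (pow_left_strictMonoOn₀ hp).injOn (zero_le : 0 ≤ x) (zero_le : 0 ≤ y) h

end pow

section local_orbi

variable {k : Type u} {E : Type v} {Ω : Type w} [Field k] [CharZero k] [Field E] [Field Ω]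
  [Algebra k E] [Algebra E Ω] [Algebra k Ω] [IsScalarTower k E Ω]
  {W : ValuationSubring Ω} {p : ℕ}

/-- every value of `A` is a `p`-th root of a value of `E` -/
def PVal (p : ℕ) (W : ValuationSubring Ω) (A : IntermediateField E Ω) : Prop :=
  ∀ x ∈ A, ∃ y : E, W.valuation (algebraMap E Ω y) = W.valuation x ^ p

omit [CharZero k] [Field k] [Algebra k E] [Algebra k Ω] [IsScalarTower k E Ω] in
lemma PVal.mono {A B : IntermediateField E Ω} (h : A ≤ B) (h2 : PVal p W B) : PVal p W A :=
  fun x hx => h2 x (h hx)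

omit [CharZero k] [Field k] [Algebra k E] [Algebra k Ω] [IsScalarTower k E Ω] in
lemma SameVal.bot_iff {A : IntermediateField E Ω} :
    SameVal W A ⊥ ↔ ∀ x ∈ A, ∃ y : E, W.valuation (algebraMap E Ω y) = W.valuation x := by
  constructor
  · intro h x hx
    obtain ⟨y, hy, h1⟩ := h x hx
    obtain ⟨z, rfl⟩ := IntermediateField.mem_bot.1 hy
    exact ⟨z, h1⟩
  · intro h x hx
    obtain ⟨y, h1⟩ := h x hx
    exact ⟨_, IntermediateField.mem_bot.2 ⟨y, rfl⟩, h1⟩

omit [CharZero k] in
/-- uniformizers -/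
lemma exists_unif_E (hV : IsPlace k E (W.comap (algebraMap E Ω))) : ∃ t : E, t ≠ 0 ∧
    W.valuation (algebraMap E Ω t) < 1 ∧ ∀ x : E, x ≠ 0 → ∃ n : ℤ,
      W.valuation (algebraMap E Ω x) = W.valuation (algebraMap E Ω t) ^ n := by
  obtain ⟨t, ht0, ht1, ht⟩ := hV.exists_unif
  refine ⟨t, ht0, ?_, ?_⟩
  · rw [← map_one (W.comap (algebraMap E Ω)).valuation] at ht1
    have h1 := (comap_isEquiv (F := E) W).lt_iff_lt.1 ht1
    simp only [Valuation.comap_apply, map_one] at h1
    exact h1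
  · intro x hx
    obtain ⟨n, hn⟩ := ht x hx
    refine ⟨n, ?_⟩
    rw [← map_zpow₀, comap_val_eq_iff, map_zpow₀, map_zpow₀] at hn
    exact hn

/-- adjoining a `p`-th root of a uniformizer makes `A` unramified -/
lemma sameVal_unif (hp : p.Prime) (hV : IsPlace k E (W.comap (algebraMap E Ω)))
    (A : IntermediateField E Ω) [FiniteDimensional E A] (hA : PVal p W A) (t : E) (ht0 : t ≠ 0)
    (ht : ∀ x : E, x ≠ 0 → ∃ n : ℤ,
      W.valuation (algebraMap E Ω x) = W.valuation (algebraMap E Ω t) ^ n) (w : Ω)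
    (hw : w ^ p = algebraMap E Ω t) : SameVal W (A ⊔ E⟮w⟯) E⟮w⟯ := by
  have htE : algebraMap E Ω t ≠ 0 := (_root_.map_ne_zero _).2 ht0
  have hw0 : w ≠ 0 := by
    rintro rfl
    rw [zero_pow hp.ne_zero] at hw
    exact htE hw.symm
  have hintE : IsIntegral E w := isIntegral_of_pow' hp.pos (by rw [hw]; exact isIntegral_algebraMap)
  have hfin : FiniteDimensional E E⟮w⟯ := IntermediateField.adjoin.finiteDimensional hintE
  have hvt : W.valuation (algebraMap E Ω t) ≠ 0 := (_root_.map_ne_zero _).2 htE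
  have hvw : W.valuation w ^ p = W.valuation (algebraMap E Ω t) := by rw [← map_pow, hw]
  have hwmem : ∀ n : ℤ, w ^ n ∈ E⟮w⟯ := fun n =>
    zpow_mem (IntermediateField.mem_adjoin_simple_self E w) n
  by_cases hcase : ∃ π ∈ A, W.valuation (algebraMap E Ω t) = W.valuation π ^ p
  · -- ramified
    refine (sameVal_root hV A hp.ne_zero w _ (A.algebraMap_mem t) hw hcase).trans ?_
    intro x hx
    by_cases hx0 : x = 0
    · exact ⟨0, zero_mem _, by rw [hx0]⟩
    obtain ⟨y, hy⟩ := hA x hx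
    have hy0 : y ≠ 0 := by
      rintro rfl
      rw [map_zero, map_zero] at hy
      exact pow_ne_zero p ((_root_.map_ne_zero _).2 hx0) hy.symm
    obtain ⟨n, hn⟩ := ht y hy0
    refine ⟨w ^ n, hwmem n, ?_⟩
    apply pow_inj_gz hp.ne_zero
    rw [← hy, hn, ← hvw, map_zpow₀, ← zpow_natCast, ← zpow_natCast, ← zpow_mul, ← zpow_mul,
      mul_comm]
  · -- unramified
    have hAbot : SameVal W A ⊥ := by
      rw [SameVal.bot_iff]
      intro x hx
      by_cases hx0 : x = 0
      · exact ⟨0, by rw [hx0, map_zero]⟩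
      have hvx : W.valuation x ≠ 0 := (_root_.map_ne_zero _).2 hx0
      obtain ⟨y, hy⟩ := hA x hx
      have hy0 : y ≠ 0 := by
        rintro rfl
        rw [map_zero, map_zero] at hy
        exact pow_ne_zero p hvx hy.symm
      obtain ⟨n, hn⟩ := ht y hy0
      by_cases hpn : (p : ℤ) ∣ n
      · obtain ⟨m, rfl⟩ := hpn
        refine ⟨t ^ m, ?_⟩
        apply pow_inj_gz hp.ne_zero
        rw [← hy, hn, map_zpow₀, map_zpow₀, ← zpow_natCast, ← zpow_mul, mul_comm]
      · exfalso
        apply hcase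
        have hcop : IsCoprime n (p : ℤ) := by
          rw [isCoprime_comm]
          exact (Nat.prime_iff_prime_int.1 hp).coprime_iff_not_dvd.2 hpn
        obtain ⟨r, q, hrq⟩ := hcop
        refine ⟨x ^ r * (algebraMap E Ω t) ^ q,
          mul_mem (zpow_mem hx r) (zpow_mem (A.algebraMap_mem t) q), ?_⟩
        rw [map_mul, map_zpow₀, map_zpow₀, mul_pow, ← zpow_natCast (W.valuation x ^ r),
          ← zpow_mul, mul_comm r, zpow_mul, zpow_natCast (W.valuation x), ← hy, hn, ← zpow_natCast,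
          ← zpow_mul, ← zpow_mul, ← zpow_add₀ hvt]
        rw [mul_comm n r, hrq, zpow_one]
    exact sameVal_bc hV ⊥ A E⟮w⟯ bot_le bot_le hAbot

/-- values of `E⟮w⟯` -/
lemma pVal_root (hp : p.Prime) (hV : IsPlace k E (W.comap (algebraMap E Ω))) (f : E) (w : Ω)
    (hw : w ^ p = algebraMap E Ω f) : PVal p W E⟮w⟯ := by
  have hintE : IsIntegral E w := isIntegral_of_pow' hp.pos (by rw [hw]; exact isIntegral_algebraMap)
  have hfin : FiniteDimensional E E⟮w⟯ := IntermediateField.adjoin.finiteDimensional hintE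
  by_cases hcase : ∃ y : E, W.valuation (algebraMap E Ω f) = W.valuation (algebraMap E Ω y) ^ p
  · have h1 : SameVal W (⊥ ⊔ E⟮w⟯) ⊥ := by
      refine sameVal_root hV ⊥ hp.ne_zero w _ (IntermediateField.mem_bot.2 ⟨f, rfl⟩) hw ?_
      obtain ⟨y, hy⟩ := hcase
      exact ⟨_, IntermediateField.mem_bot.2 ⟨y, rfl⟩, hy⟩
    rw [bot_sup_eq, SameVal.bot_iff] at h1
    intro x hx
    obtain ⟨y, hy⟩ := h1 x hx
    exact ⟨y ^ p, by rw [map_pow, map_pow, hy]⟩
  · intro x hx
    by_cases hx0 : x = 0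
    · exact ⟨0, by rw [hx0, map_zero, map_zero, zero_pow hp.ne_zero]⟩
    have hwB : w ∈ E⟮w⟯ := IntermediateField.mem_adjoin_simple_self E w
    have hgen : ∀ x : E⟮w⟯, ∃ P : E[X], x = aeval (⟨w, hwB⟩ : E⟮w⟯) P := by
      rintro ⟨x, hx⟩
      have hx2 : x ∈ Algebra.adjoin E {w} := by
        rw [← IntermediateField.adjoin_simple_toSubalgebra_of_isAlgebraic hintE.isAlgebraic]
        exact hx
      rw [Algebra.adjoin_singleton_eq_range_aeval] at hx2
      obtain ⟨P, hP⟩ := hx2
      refine ⟨P, Subtype.ext ?_⟩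
      have h3 := aeval_algebraMap_apply Ω (⟨w, hwB⟩ : E⟮w⟯) P
      refine Eq.trans ?_ h3
      exact hP.symm
    obtain ⟨e, m, -, -, hval, -⟩ := ram_root_local hp (⟨w, hwB⟩ : E⟮w⟯) f (Subtype.ext hw) hgen
      (W.comap (algebraMap E⟮w⟯ Ω)) (by
        rintro ⟨y, hy⟩
        apply hcase
        refine ⟨y, ?_⟩
        rw [← map_pow, comap_sub_val_iff] at hy
        rw [← map_pow]
        exact hy) ⟨x, hx⟩ (fun h => hx0 (congrArg Subtype.val h))
    rw [comap_sub_val_iff] at hval
    refine ⟨e m ^ p * f ^ m, ?_⟩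
    have h1 : W.valuation x = W.valuation (algebraMap E Ω (e m) * w ^ m) := hval
    rw [h1, ← map_pow]
    congr 1
    rw [mul_pow, ← pow_mul, mul_comm m p, pow_mul, hw, map_mul, map_pow, map_pow]

/-- **Abhyankar's lemma.** -/
lemma PVal.sup [IsAlgClosed Ω] (hp : p.Prime) (hV : IsPlace k E (W.comap (algebraMap E Ω)))
    (A B : IntermediateField E Ω) [FiniteDimensional E A] [FiniteDimensional E B]
    (hA : PVal p W A) (hB : PVal p W B) : PVal p W (A ⊔ B) := by
  obtain ⟨t, ht0, ht1, ht⟩ := exists_unif_E hV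
  obtain ⟨w, hw⟩ := IsAlgClosed.exists_pow_nat_eq (algebraMap E Ω t) hp.pos
  have hintE : IsIntegral E w := isIntegral_of_pow' hp.pos (by rw [hw]; exact isIntegral_algebraMap)
  have hfin : FiniteDimensional E E⟮w⟯ := IntermediateField.adjoin.finiteDimensional hintE
  have hfA : FiniteDimensional E (A ⊔ E⟮w⟯ : IntermediateField E Ω) := finiteDimensional_sup _ _
  have hfB : FiniteDimensional E (B ⊔ E⟮w⟯ : IntermediateField E Ω) := finiteDimensional_sup _ _
  have h1 := sameVal_unif hp hV A hA t ht0 ht w hw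
  have h2 := sameVal_unif hp hV B hB t ht0 ht w hw
  have h3 := sameVal_bc hV E⟮w⟯ (A ⊔ E⟮w⟯) (B ⊔ E⟮w⟯) le_sup_right le_sup_right h1
  have h4 := h3.trans h2
  intro x hx
  obtain ⟨y, hy, hxy⟩ := h4 x ((sup_le_sup le_sup_left le_sup_left : A ⊔ B ≤ _) hx)
  obtain ⟨z, hz⟩ := pVal_root hp hV t w hw y hy
  exact ⟨z, by rw [hz, hxy]⟩

lemma SameVal.sup (hV : IsPlace k E (W.comap (algebraMap E Ω)))
    (A B : IntermediateField E Ω) [FiniteDimensional E A] [FiniteDimensional E B]
    (hA : SameVal W A ⊥) (hB : SameVal W B ⊥) : SameVal W (A ⊔ B) ⊥ :=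
  (sameVal_bc hV ⊥ A B bot_le bot_le hA).trans hB

/-- characterization in terms of valuation rings of the big field -/
lemma isOrbi_iff [Algebra.IsAlgebraic E Ω] {T : Set (ValuationSubring E)}
    (A : IntermediateField E Ω) [FiniteDimensional E A] :
    IsOrbi p k T A ↔ ∀ W : ValuationSubring Ω, IsPlace k E (W.comap (algebraMap E Ω)) →
      PVal p W A ∧ (W.comap (algebraMap E Ω) ∈ T → SameVal W A ⊥) := by
  have hcomap : ∀ W : ValuationSubring Ω, (W.comap (algebraMap A Ω)).comap (algebraMap E A) =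
      W.comap (algebraMap E Ω) := by
    intro W
    ext x
    rw [ValuationSubring.mem_comap, ValuationSubring.mem_comap, ValuationSubring.mem_comap,
      ← IsScalarTower.algebraMap_apply]
  constructor
  · intro h W hV
    have hVA := place_of_fin hV A
    refine ⟨?_, ?_⟩
    · intro x hx
      obtain ⟨y, hy⟩ := h.ram _ hVA ⟨x, hx⟩
      rw [← map_pow, comap_sub_val_iff] at hy
      refine ⟨y, ?_⟩
      rw [← map_pow]
      exact hy
    · intro hT
      rw [SameVal.bot_iff]
      intro x hx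
      obtain ⟨y, hy⟩ := h.unram _ hVA (by rw [hcomap]; exact hT) ⟨x, hx⟩
      rw [comap_sub_val_iff] at hy
      exact ⟨y, hy⟩
  · intro h
    have key : ∀ V : ValuationSubring A, IsPlace k A V → ∃ W : ValuationSubring Ω,
        W.comap (algebraMap A Ω) = V ∧ IsPlace k E (W.comap (algebraMap E Ω)) := by
      intro V hV
      obtain ⟨W, hW⟩ := exists_val_extension (L := Ω) V
      refine ⟨W, hW, ?_⟩
      rw [← hcomap, hW]
      exact hV.comap
    refine ⟨?_, ?_⟩
    · intro V hV x
      obtain ⟨W, rfl, hW⟩ := key V hV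
      obtain ⟨y, hy⟩ := (h W hW).1 x x.2
      refine ⟨y, ?_⟩
      rw [← map_pow, comap_sub_val_iff]
      rw [← map_pow] at hy
      exact hy
    · intro V hV hT x
      obtain ⟨W, rfl, hW⟩ := key V hV
      rw [hcomap] at hT
      obtain ⟨y, hy⟩ := SameVal.bot_iff.1 ((h W hW).2 hT) x x.2
      refine ⟨y, ?_⟩
      rw [comap_sub_val_iff]
      exact hy

end local_orbi

end P025H641
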