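import Vale.Agent.P025.H641.OLev3
import Vale.Agent.P025.H16.PData

/-! # Places from class maps, with countable exceptional sets -/

open IntermediateField Polynomial

namespace P025H641

universe u v w u' v' w'

section place

variable {p : ℕ} [Fact p.Prime] {k : Type u} [Field k] [Algebra ℚ_[p] k]
  [FiniteDimensional ℚ_[p] k]

/-- **Class maps come from places**, with countable exceptional sets. -/
theorem place_of_chi_ctb {ζ : k} (hζ : IsPrimitiveRoot ζ p) {L : Type v} [Field L] [Algebra k L]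
    (χ : L → Cl p k) (hconst : ∀ c : k, c ≠ 0 → χ (algebraMap k L c) = clsm p c)
    (loc : ∀ S : Finset L, ∃ (F : Subfield L) (R : Subring L), (S : Set L) ⊆ F ∧
      R ≤ F.toSubring ∧ (∀ c : k, algebraMap k L c ∈ R) ∧
      (∀ x ∈ F, x ∉ Set.range (algebraMap k L) →
        {c : k | (x - algebraMap k L c)⁻¹ ∉ R}.Countable) ∧
      (∀ f g, f ≠ 0 → g ≠ 0 → f ∈ R → f⁻¹ ∈ R → g ∈ R → g⁻¹ ∈ R → χ (f * g) = χ f + χ g) ∧
      (∀ f ∈ R, f ∉ Set.range (algebraMap k L) → ∀ A₀ : Finset k,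
        (∀ a ∈ A₀, (f - algebraMap k L a)⁻¹ ∈ R) →
          ∃ z, ∀ a ∈ A₀, z ≠ a ∧ χ (f - algebraMap k L a) = clsm p (z - a))) :
    ∃ V : ValuationSubring L, (∀ c : k, algebraMap k L c ∈ V) ∧
      (∀ f ∈ V, ∃ z : k, V.valuation (f - algebraMap k L z) < 1) ∧
      ∀ (f : L) (c : k), V.valuation (f - algebraMap k L c) < 1 ↔
        ∃ B : Set k, B.Countable ∧ ∀ a ∉ B, ∀ b ∉ B,
          χ ((f - algebraMap k L a) / (f - algebraMap k L b)) = clsm p ((c - a) / (c - b)) := by
  have hpp : p.Prime := Fact.out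
  let inst1 : NontriviallyNormedField k := spectralNorm.nontriviallyNormedField ℚ_[p] k
  have hu : IsUltrametricDist k :=
    IsUltrametricDist.isUltrametricDist_of_isNonarchimedean_norm isNonarchimedean_spectralNorm
  have hn : ∀ x : ℚ_[p], ‖algebraMap ℚ_[p] k x‖ = ‖x‖ := fun x => spectralNorm_extends x
  have hproper : ProperSpace k := by
    let _ : NormedAlgebra ℚ_[p] k := spectralNorm.normedAlgebra ℚ_[p] k
    exact FiniteDimensional.proper ℚ_[p] k
  have hpR : (1 : ℝ) < p := by exact_mod_cast hpp.one_lt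
  have hpR0 : (0 : ℝ) < p := by linarith
  have hpk := norm_natCast_p (k := k) hn
  have hpk1 : ‖(p : k)‖ < 1 := by
    rw [hpk]
    exact inv_lt_one_of_one_lt₀ hpR
  have hpk0 : (p : k) ≠ 0 := by
    rw [← norm_pos_iff, hpk, inv_pos]
    exact hpR0
  have : CharZero k := charZero_of_injective_algebraMap (algebraMap ℚ_[p] k).injective
  obtain ⟨R⟩ := exists_ram hpk1 hpk0 hζ
  obtain ⟨H, hH, h0, hnorm⟩ := R.exists_H hζ
  let D : P025H16.PData p k L :=
    { ε := ((p : ℝ) ^ 3)⁻¹
      ε_pos := inv_pos.2 (pow_pos hpR0 3)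
      ε_lt := inv_lt_one_of_one_lt₀ (one_lt_pow₀ hpR (by norm_num))
      near := fun x δ hx hδ => R.clsm_near hn x δ hx hδ
      H := H
      H_ne := ⟨_, _, h0⟩
      H_st := fun x hx0 hx1 => hnorm x (1 - x) (1 - Polynomial.X) hx0 (sub_ne_zero.2 hx1.symm)
        (nrm_one_sub hζ x).symm
      χ := χ
      const := hconst
      loc := loc }
  exact D.exists_place

end place

section limit

variable {p : ℕ} [Fact p.Prime] {k : Type u} [Field k] [CharZero k] {E : Type v} [Field E]
  [Algebra k E] {k' : Type u'} [Field k'] [Algebra ℚ_[p] k'] [FiniteDimensional ℚ_[p] k']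
  {E' : Type v'} [Field E'] [Algebra k k'] [Algebra k' E'] [Algebra E E'] [Algebra k E']
  [IsScalarTower k k' E'] [IsScalarTower k E E'] {ζ : k'}

/-- automorphisms preserve the constants -/
lemma exists_image (C : CycData p k E k' E' ζ) (τ : E' ≃ₐ[E] E') (x : k') :
    ∃ x' : k', algebraMap k' E' x' = τ (algebraMap k' E' x) := by
  have hpp : p.Prime := Fact.out
  have : NeZero p := ⟨hpp.ne_zero⟩
  obtain ⟨i, -, hi⟩ :=
    (C.prim.map_of_injective (algebraMap k' E').injective).eq_pow_of_pow_eq_one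
    (ξ := τ (algebraMap k' E' ζ)) (by
      rw [← map_pow, ← map_pow, C.prim.pow_eq_one, map_one, map_one])
  obtain ⟨P, rfl⟩ := C.genk x
  refine ⟨aeval (ζ ^ i) P, ?_⟩
  have h1 := aeval_algHom_apply ((τ : E' →ₐ[E] E').restrictScalars k) (algebraMap k' E' ζ) P
  have h2 : τ (aeval (algebraMap k' E' ζ) P) = aeval (τ (algebraMap k' E' ζ)) P := h1.symm
  rw [← aeval_algebraMap_apply, ← aeval_algebraMap_apply, h2, map_pow, hi]

/-- **Descent of the valuation.** -/
theorem descend_place (C : CycData p k E k' E' ζ)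
    (hclosed : ∀ e : E, IsIntegral k e → ∃ c, algebraMap k E c = e)
    (V' : ValuationSubring E') (hVk : ∀ c : k', algebraMap k' E' c ∈ V')
    (hVres : ∀ f ∈ V', ∃ z : k', V'.valuation (f - algebraMap k' E' z) < 1)
    (hval : ∀ (f : E') (z z' : k') (τ : E' ≃ₐ[E] E'),
      algebraMap k' E' z' = τ (algebraMap k' E' z) →
      V'.valuation (f - algebraMap k' E' z) < 1 → V'.valuation (τ f - algebraMap k' E' z') < 1) :
    ∃ V : ValuationSubring E, (∀ c : k, algebraMap k E c ∈ V) ∧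
      ∀ f ∈ V, ∃ c : k, V.valuation (f - algebraMap k E c) < 1 := by
  classical
  have hpp : p.Prime := Fact.out
  have hcharE : CharZero E := charZero_of_injective_algebraMap (algebraMap k E).injective
  have hcyc := C.isCyclotomicExtension
  have hgal : IsGalois E E' := IsCyclotomicExtension.isGalois {p} E E'
  have hfinE : FiniteDimensional E E' := IsCyclotomicExtension.finiteDimensional {p} E E'
  have hone : ∀ c : k', c ≠ 0 → ¬ V'.valuation (algebraMap k' E' c) < 1 := by
    intro c hc hlt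
    have h1 := (V'.valuation_le_one_iff _).2 (hVk c⁻¹)
    have h2 : V'.valuation (algebraMap k' E' c) * V'.valuation (algebraMap k' E' c⁻¹) = 1 := by
      rw [← map_mul, ← map_mul, mul_inv_cancel₀ hc, map_one, map_one]
    exact absurd h2 (mul_lt_one_of_lt_of_le hlt h1).ne
  have huniq : ∀ (f : E') (z z' : k'), V'.valuation (f - algebraMap k' E' z) < 1 →
      V'.valuation (f - algebraMap k' E' z') < 1 → z = z' := by
    intro f z z' h h'
    by_contra hne
    apply hone _ (sub_ne_zero.2 hne)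
    have h1 : algebraMap k' E' (z - z') = (f - algebraMap k' E' z') - (f - algebraMap k' E' z) := by
      rw [map_sub]; ring
    rw [h1]
    exact (Valuation.map_sub _ _ _).trans_lt (max_lt h' h)
  set V := V'.comap (algebraMap E E') with hV
  have hlt_iff : ∀ x : E, V.valuation x < 1 ↔ V'.valuation (algebraMap E E' x) < 1 := by
    intro x
    exact (comap_isEquiv (F := E) V').lt_one_iff_lt_one (x := x)
  have hkk : ∀ c : k, algebraMap E E' (algebraMap k E c) = algebraMap k' E' (algebraMap k k' c) := by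
    intro c
    rw [← IsScalarTower.algebraMap_apply k E E', IsScalarTower.algebraMap_apply k k' E']
  refine ⟨V, ?_, ?_⟩
  · intro c
    rw [hV, ValuationSubring.mem_comap, hkk]
    exact hVk _
  · intro f hf
    rw [hV, ValuationSubring.mem_comap] at hf
    obtain ⟨z, hz⟩ := hVres _ hf
    have hzfix : ∀ τ : E' ≃ₐ[E] E', τ (algebraMap k' E' z) = algebraMap k' E' z := by
      intro τ
      obtain ⟨z', hz'⟩ := exists_image C τ z
      have h1 := hval _ z z' τ hz' hz
      rw [AlgEquiv.commutes] at h1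
      rw [← hz', huniq _ _ _ h1 hz]
    obtain ⟨e, he⟩ := (IsGalois.mem_range_algebraMap_iff_fixed (F := E) (E := E')
      (algebraMap k' E' z)).2 hzfix
    have hint : IsIntegral k e := by
      have h1 : IsIntegral k (algebraMap E E' e) := by
        rw [he]
        exact (C.isIntegral hpp.pos z).map (Algebra.ofId k' E' |>.restrictScalars k)
      exact (isIntegral_algHom_iff (Algebra.ofId E E' |>.restrictScalars k)
        (algebraMap E E').injective).1 h1
    obtain ⟨c, hc⟩ := hclosed e hint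
    refine ⟨c, ?_⟩
    rw [hlt_iff, map_sub, hc, he]
    exact hz

/-- **Limits of class maps come from places**, with countable exceptional sets. -/
theorem place_of_loc (C : CycData p k E k' E' ζ)
    (hclosed : ∀ e : E, IsIntegral k e → ∃ c, algebraMap k E c = e) (U : Set E')
    (hlev : ∀ S : Finset E', (∀ x ∈ S, x ≠ 0 → x ∈ U) → ∃ χ : E' → Cl p k', GLevel p E k' S χ)
    (hfine : ∀ B : Set k', B.Countable → ∀ A₀ : Finset k', (∀ a ∈ A₀, a ∉ B) →
      ∃ (r : ℕ) (A : Finset k'), IsFine p r A₀ A ∧ ∀ a ∈ A, a ∉ B)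
    (hloc : ∀ S : Finset E', ∃ (F : Subfield E') (R : Subring E'), (S : Set E') ⊆ F ∧
      R ≤ F.toSubring ∧ (∀ c : k', algebraMap k' E' c ∈ R) ∧
      (∀ x ∈ F, x ∉ Set.range (algebraMap k' E') →
        {c : k' | (x - algebraMap k' E' c)⁻¹ ∉ R}.Countable) ∧
      (∀ x ∈ R, x⁻¹ ∈ R → x ≠ 0 → x ∈ U)) :
    ∃ V : ValuationSubring E, (∀ c : k, algebraMap k E c ∈ V) ∧
      ∀ f ∈ V, ∃ c : k, V.valuation (f - algebraMap k E c) < 1 := by
  classical
  have hpp : p.Prime := Fact.out
  have hfinC : Finite (Cl p k') := finite_Cl C.prim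
  obtain ⟨χ, hχ⟩ := exists_limit (α := E') (C := Cl p k')
    (fun S χ => GLevel p E k' (S.filter (fun x => x ≠ 0 → x ∈ U)) χ)
    (fun S => hlev _ (fun x hx => (Finset.mem_filter.1 hx).2))
  have hmem : ∀ {S S' : Finset E'} {x : E'}, S ⊆ S' → x ∈ S → (x ≠ 0 → x ∈ U) →
      x ∈ S'.filter (fun x => x ≠ 0 → x ∈ U) :=
    fun h1 h2 h3 => Finset.mem_filter.2 ⟨h1 h2, h3⟩
  -- the limit
  have hmul : ∀ f g, f ≠ 0 → g ≠ 0 → f ∈ U → g ∈ U → χ (f * g) = χ f + χ g := by
    intro f g hf hg hfU hgU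
    obtain ⟨S', χ', hS, h1, hagree⟩ := hχ {f, g, f * g} {f, g}
    rw [← hagree f (by simp), ← hagree g (by simp), ← hagree (f * g) (by simp)]
    exact h1.mul f (hmem hS (by simp) (fun _ => hfU)) g (hmem hS (by simp) (fun _ => hgU)) hf hg
  have hconst : ∀ c : k', c ≠ 0 → χ (algebraMap k' E' c) = clsm p c := by
    intro c hc
    obtain ⟨S', χ', hS, h1, hagree⟩ := hχ {algebraMap k' E' c} ∅
    rw [← hagree _ (by simp)]
    exact h1.const c hc
  have hpat : ∀ f, f ∉ Set.range (algebraMap k' E') → ∀ (r : ℕ) (A₀ A : Finset k'),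
      IsFine p r A₀ A → (∀ a ∈ A, f - algebraMap k' E' a ∈ U) → ∃ z, ∀ a ∈ A₀, z ≠ a ∧
      χ (f - algebraMap k' E' a) = clsm p (z - a) := by
    intro f hf r A₀ A hA hAU
    obtain ⟨S', χ', hS, h1, hagree⟩ :=
      hχ (A₀.image (fun a => f - algebraMap k' E' a)) (A.image (fun a => f - algebraMap k' E' a))
    obtain ⟨z, hz⟩ := h1.pat f hf r A₀ A hA (fun a ha =>
      hmem hS (Finset.mem_image_of_mem _ ha) (fun _ => hAU a ha))
    refine ⟨z, fun a ha => ⟨(hz a ha).1, ?_⟩⟩
    rw [← hagree _ (Finset.mem_image_of_mem _ ha)]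
    exact (hz a ha).2
  have hequi : ∀ f, f ≠ 0 → f ∈ U → ∀ (τ : E' ≃ₐ[E] E') (x x' : k'),
      algebraMap k' E' x' = τ (algebraMap k' E' x) → x ≠ 0 → χ f = clsm p x →
        χ (τ f) = clsm p x' := by
    intro f hf hfU τ x x' hxx' hx0 hfx
    obtain ⟨S', χ', hS, h1, hagree⟩ := hχ {f, τ f} {f}
    rw [← hagree _ (by simp)]
    rw [← hagree f (by simp)] at hfx
    exact h1.equi f (hmem hS (by simp) (fun _ => hfU)) hf τ x x' hxx' hx0 hfx
  obtain ⟨V', hVk, hVres, hVχ⟩ := place_of_chi_ctb C.prim χ hconst (by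
    intro S
    obtain ⟨F, R, hSF, hRF, hkR, hctb, hU⟩ := hloc S
    refine ⟨F, R, hSF, hRF, hkR, hctb, ?_, ?_⟩
    · intro f g hf hg h1 h2 h3 h4
      exact hmul f g hf hg (hU f h1 h2 hf) (hU g h3 h4 hg)
    · intro f hfR hf A₀ hA₀
      obtain ⟨r, A, hA, hAB⟩ := hfine _ (hctb f (hRF hfR) hf) A₀ (fun a ha h => h (hA₀ a ha))
      refine hpat f hf r A₀ A hA (fun a ha => ?_)
      have h1 : (f - algebraMap k' E' a)⁻¹ ∈ R := by
        by_contra h
        exact hAB a ha h
      exact hU _ (sub_mem hfR (hkR a)) h1 (sub_ne_const hf a))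
  refine descend_place C hclosed V' hVk hVres ?_
  -- equivariance of the values
  intro f z z' τ hzz' hlt
  by_cases hf : f ∈ Set.range (algebraMap k' E')
  · obtain ⟨c, rfl⟩ := hf
    have hcz : c = z := by
      by_contra hne
      have hd : c - z ≠ 0 := sub_ne_zero.2 hne
      rw [← map_sub] at hlt
      have h1 := (V'.valuation_le_one_iff _).2 (hVk (c - z)⁻¹)
      have h2 : V'.valuation (algebraMap k' E' (c - z)) * V'.valuation (algebraMap k' E' (c - z)⁻¹) =
          1 := by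
        rw [← map_mul, ← map_mul, mul_inv_cancel₀ hd, map_one, map_one]
      exact absurd h2 (mul_lt_one_of_lt_of_le hlt h1).ne
    rw [hcz, ← hzz', sub_self, map_zero]
    exact zero_lt_one
  obtain ⟨B, hB, hBχ⟩ := (hVχ f z).1 hlt
  obtain ⟨F, R, hSF, hRF, hkR, hctb, hU⟩ := hloc {f}
  have hfF : f ∈ F := hSF (by simp)
  set B₁ : Set k' := B ∪ {c : k' | (f - algebraMap k' E' c)⁻¹ ∉ R} ∪ {z} with hB₁
  have hB₁c : B₁.Countable := (hB.union (hctb f hfF hf)).union (Set.countable_singleton z)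
  choose t ht using exists_image C τ
  have htinv : ∀ a' : k', ∃ a : k', t a = a' := by
    intro a'
    obtain ⟨a, ha⟩ := exists_image C τ.symm a'
    refine ⟨a, (algebraMap k' E').injective ?_⟩
    rw [ht, ha]
    simp
  rw [hVχ]
  refine ⟨t '' B₁, hB₁c.image t, ?_⟩
  intro a' ha' b' hb'
  obtain ⟨a, rfl⟩ := htinv a'
  obtain ⟨b, rfl⟩ := htinv b'
  have haB : a ∉ B₁ := fun h => ha' ⟨a, h, rfl⟩
  have hbB : b ∉ B₁ := fun h => hb' ⟨b, h, rfl⟩
  have hsplit : ∀ c ∉ B₁, c ∉ B ∧ (f - algebraMap k' E' c)⁻¹ ∈ R ∧ c ≠ z := by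
    intro c hc
    refine ⟨fun h => hc (Or.inl (Or.inl h)), ?_, fun h => hc (Or.inr h)⟩
    by_contra h
    exact hc (Or.inl (Or.inr h))
  obtain ⟨ha1, ha2, ha3⟩ := hsplit a haB
  obtain ⟨hb1, hb2, hb3⟩ := hsplit b hbB
  have hfa := sub_ne_const hf a
  have hfb := sub_ne_const hf b
  have hratio : ∀ c d : k', (f - algebraMap k' E' d)⁻¹ ∈ R →
      (f - algebraMap k' E' c) / (f - algebraMap k' E' d) ∈ R := by
    intro c d hd
    have hfd := sub_ne_const hf d
    have h1 : (f - algebraMap k' E' c) / (f - algebraMap k' E' d) =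
        1 + algebraMap k' E' (d - c) * (f - algebraMap k' E' d)⁻¹ := by
      rw [map_sub]
      field_simp
      ring
    rw [h1]
    exact add_mem (one_mem R) (mul_mem (hkR _) hd)
  set u := (f - algebraMap k' E' a) / (f - algebraMap k' E' b) with hu
  have hu0 : u ≠ 0 := div_ne_zero hfa hfb
  have huU : u ∈ U := by
    refine hU u (hratio a b hb2) ?_ hu0
    rw [hu, inv_div]
    exact hratio b a ha2
  have h1 := hequi u hu0 huU τ ((z - a) / (z - b)) ((z' - t a) / (z' - t b)) (by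
    simp only [map_div₀, map_sub, hzz', ht]) (div_ne_zero (sub_ne_zero.2 (Ne.symm ha3)) (sub_ne_zero.2 (Ne.symm hb3)))
      (hBχ a ha1 b hb1)
  rw [← h1, hu, map_div₀, map_sub, map_sub, ht, ht]

end limit

end P025H641
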