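import Vale.Agent.P025.H641.OThm

/-! # Sections of the `p`-orbifold group give sections of ramified covers -/

open IntermediateField Polynomial

namespace P025H641

universe u v w

section ram

variable {p : ℕ} [Fact p.Prime] {k : Type u} [Field k] [CharZero k] {E : Type v} [Field E]
  [Algebra k E] {T : Set (ValuationSubring E)}
  {s : Gal(constClosure k E/k) →* Gal((maxOrb p k T : IntermediateField E (AlgebraicClosure E))/E)}

/-- finite subfields of the fixed field with enough ramification -/
theorem exists_ram_sub (hE : IsFunctionField k E) (hs : IsSecOf k (maxOrb p k T) s)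
    (S : Finset E) (hS : ∀ g ∈ S, g ≠ 0)
    (hT : ∀ V ∈ T, IsPlace k E V → ∀ g ∈ S, V.valuation g = 1)
    (hT2 : ∀ V₀ : ValuationSubring E, IsPlace k E V₀ → V₀ ∉ T → ∃ t : E, t ≠ 0 ∧
      V₀.valuation t < 1 ∧ (∀ x : E, x ≠ 0 → ∃ n : ℤ, V₀.valuation x = V₀.valuation t ^ n) ∧
      ∀ V ∈ T, IsPlace k E V → V.valuation t = 1) :
    ∃ K : IntermediateField E (AlgebraicClosure E), FiniteDimensional E K ∧
      K ≤ maxOrb p k T ∧
      (∀ x : (maxOrb p k T : IntermediateField E (AlgebraicClosure E)),
        (x : AlgebraicClosure E) ∈ K → ∀ σ, s σ x = x) ∧ IsRamifiedOver p k K S := by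
  classical
  have hpp : p.Prime := Fact.out
  have hcharE : CharZero E := charZero_of_injective_algebraMap (algebraMap k E).injective
  have hM : ConstIn k (maxOrb p k T : IntermediateField E (AlgebraicClosure E)) := constIn_maxOrb
  have htowF := tower_fixM (k := k) (K := E)
    (M := (maxOrb p k T : IntermediateField E (AlgebraicClosure E))) (s := s)
  -- a root of unity
  obtain ⟨ζ₀, hζroot⟩ := IsAlgClosed.exists_root (cyclotomic p (AlgebraicClosure E))
    (degree_cyclotomic_pos p _ hpp.pos).ne'
  have hnz : NeZero ((p : ℕ) : AlgebraicClosure E) := ⟨by exact_mod_cast hpp.ne_zero⟩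
  have hζ₀ : IsPrimitiveRoot ζ₀ p := isRoot_cyclotomic_iff.1 hζroot
  have hint₀ : IsIntegral k ζ₀ :=
    isIntegral_of_pow' hpp.pos (by rw [hζ₀.pow_eq_one]; exact isIntegral_one)
  set ζ : (maxOrb p k T : IntermediateField E (AlgebraicClosure E)) := ⟨ζ₀, hM _ hint₀⟩ with hζdef
  have hζ : IsPrimitiveRoot ζ p :=
    IsPrimitiveRoot.of_map_of_injective
      (f := (maxOrb p k T : IntermediateField E (AlgebraicClosure E)).val) hζ₀
      Subtype.val_injective
  have hintk : IsIntegral k ζ :=
    isIntegral_of_pow' hpp.pos (by rw [hζ.pow_eq_one]; exact isIntegral_one)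
  have hintF : IsIntegral (FixM s) ζ := hintk.tower_top
  have B := baseM_cyc hM hs hintk
  have hz : IsPrimitiveRoot (⟨ζ, IntermediateField.mem_adjoin_simple_self k ζ⟩ : k⟮ζ⟯) p :=
    IsPrimitiveRoot.of_map_of_injective (f := (k⟮ζ⟯).val) hζ Subtype.val_injective
  -- the places of the support
  have hfinP : {V₀ : ValuationSubring E | IsPlace k E V₀ ∧ ∃ g ∈ S, V₀.valuation g ≠ 1}.Finite := by
    have h1 : {V₀ : ValuationSubring E | IsPlace k E V₀ ∧ ∃ g ∈ S, V₀.valuation g ≠ 1} ⊆
        ⋃ g ∈ S, {V : ValuationSubring E | IsPlace k E V ∧ V.valuation g ≠ 1} := by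
      rintro V ⟨hV, g, hg, h⟩
      exact Set.mem_biUnion hg ⟨hV, h⟩
    exact (S.finite_toSet.biUnion (fun g hg => finite_support hE g (hS g hg))).subset h1
  -- uniformizers, roots
  have hex : ∀ V₀ : ValuationSubring E, ∃ (t : E) (c : k⟮ζ⟯)
      (P : (FixM s)[X]), V₀ ∈ hfinP.toFinset → t ≠ 0 ∧ c ≠ 0 ∧
      (∀ x : E, x ≠ 0 → ∃ n : ℤ, V₀.valuation x = V₀.valuation t ^ n) ∧
      algebraMap E (maxOrb p k T : IntermediateField E (AlgebraicClosure E)) t =
        algebraMap k⟮ζ⟯ _ c * (aeval ζ P) ^ p := by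
    intro V₀
    by_cases hV : V₀ ∈ hfinP.toFinset
    · rw [Set.Finite.mem_toFinset] at hV
      obtain ⟨hV1, g, hg, hgV⟩ := hV
      have hVT : V₀ ∉ T := fun h => hgV (hT V₀ h hV1 g hg)
      obtain ⟨t, ht0, ht1, ht, htT⟩ := hT2 V₀ hV1 hVT
      obtain ⟨w, hw⟩ := IsAlgClosed.exists_pow_nat_eq (algebraMap E (AlgebraicClosure E) t) hpp.pos
      have hwM : w ∈ maxOrb p k T := by
        refine (isFinOrbi_root hpp t w hw ?_).le_maxOrb (IntermediateField.mem_adjoin_simple_self E w)
        intro V hV hVp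
        exact ⟨1, by rw [htT V hV hVp, map_one, one_pow]⟩
      have ht0M : algebraMap E (maxOrb p k T : IntermediateField E (AlgebraicClosure E)) t ≠ 0 :=
        (_root_.map_ne_zero _).2 ht0
      obtain ⟨c, y, hc, hy, hcy⟩ := exists_classM hM hs B hz
        (algebraMap E (maxOrb p k T : IntermediateField E (AlgebraicClosure E)) t) ⟨w, hwM⟩ ht0M
        (Subtype.ext hw) (fun σ _ => AlgEquiv.commutes _ _)
      have hyL := mem_adjoin_of_fix hM hs y hy
      have h1 : y ∈ Algebra.adjoin (FixM s) {ζ} := by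
        rw [← IntermediateField.adjoin_simple_toSubalgebra_of_isAlgebraic hintF.isAlgebraic]
        exact hyL
      rw [Algebra.adjoin_singleton_eq_range_aeval] at h1
      obtain ⟨P, hP⟩ := h1
      have hP' : aeval ζ P = y := hP
      exact ⟨t, c, P, fun _ => ⟨ht0, hc, ht, by rw [hP', hcy]⟩⟩
    · exact ⟨0, 0, 0, fun h => absurd h hV⟩
  choose tt cc PP hPP using hex
  let φ : FixM s → AlgebraicClosure E := fun x =>
    ((x : (maxOrb p k T : IntermediateField E (AlgebraicClosure E))) : AlgebraicClosure E)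
  let Bf : Finset (AlgebraicClosure E) := hfinP.toFinset.biUnion (fun V => (PP V).coeffs.image φ)
  let K : IntermediateField E (AlgebraicClosure E) := IntermediateField.adjoin E (Bf : Set _)
  have hB : ∀ x ∈ Bf, ∃ y : FixM s, φ y = x := by
    intro x hx
    obtain ⟨u, -, hu⟩ := Finset.mem_biUnion.1 hx
    obtain ⟨v, -, rfl⟩ := Finset.mem_image.1 hu
    exact ⟨v, rfl⟩
  have hfinK : FiniteDimensional E K := by
    apply IntermediateField.finiteDimensional_adjoin
    intro x _
    exact (Algebra.IsAlgebraic.isAlgebraic x).isIntegral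
  have hKF : K ≤ (FixM s).map (maxOrb p k T : IntermediateField E (AlgebraicClosure E)).val := by
    rw [IntermediateField.adjoin_le_iff]
    intro x hx
    obtain ⟨y, rfl⟩ := hB x hx
    exact ⟨(y : (maxOrb p k T : IntermediateField E (AlgebraicClosure E))), y.2, rfl⟩
  refine ⟨K, hfinK, ?_, ?_, ?_⟩
  · intro x hx
    obtain ⟨y, -, rfl⟩ := hKF hx
    exact y.2
  · intro x hx
    obtain ⟨y, hy, hyx⟩ := hKF hx
    have h1 : y = x := Subtype.ext hyx
    rw [← h1]
    exact (mem_fixM y).1 hy
  · intro V hV hg f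
    obtain ⟨g, hg, hgV⟩ := hg
    obtain ⟨W, hW⟩ := exists_val_extension (L := AlgebraicClosure E) V
    have hcomap : (W.comap (algebraMap K (AlgebraicClosure E))).comap (algebraMap E K) =
        W.comap (algebraMap E (AlgebraicClosure E)) := by
      ext x
      rw [ValuationSubring.mem_comap, ValuationSubring.mem_comap, ValuationSubring.mem_comap,
        ← IsScalarTower.algebraMap_apply]
    have hWE : IsPlace k E (W.comap (algebraMap E (AlgebraicClosure E))) := by
      rw [← hcomap, hW]
      exact hV.comap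
    set V₀ := W.comap (algebraMap E (AlgebraicClosure E)) with hV₀
    have hgV₀ : V₀.valuation g ≠ 1 := by
      intro h
      apply hgV
      rw [← map_one V₀.valuation, hV₀, comap_val_eq_iff] at h
      rw [← map_one V.valuation, ← hW, comap_val_eq_iff, ← IsScalarTower.algebraMap_apply, map_one]
      rw [map_one] at h
      exact h
    have hmemP : V₀ ∈ hfinP.toFinset := by
      rw [Set.Finite.mem_toFinset]
      exact ⟨hWE, g, hg, hgV₀⟩
    obtain ⟨ht0, hc0, ht, hty⟩ := hPP V₀ hmemP
    by_cases hf0 : f = 0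
    · exact ⟨0, by rw [hf0, map_zero, map_zero, zero_pow hpp.ne_zero]⟩
    obtain ⟨n, hn⟩ := ht f hf0
    -- the values
    have hWf : W.valuation (algebraMap E (AlgebraicClosure E) f) =
        W.valuation (algebraMap E (AlgebraicClosure E) (tt V₀)) ^ n := by
      rw [← map_zpow₀, hV₀, comap_val_eq_iff, map_zpow₀, map_zpow₀] at hn
      exact hn
    set y : AlgebraicClosure E := ((aeval ζ (PP V₀) :
      (maxOrb p k T : IntermediateField E (AlgebraicClosure E))) : AlgebraicClosure E) with hy
    have hWt : W.valuation (algebraMap E (AlgebraicClosure E) (tt V₀)) = W.valuation y ^ p := by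
      have h1 := congrArg (fun z : (maxOrb p k T : IntermediateField E (AlgebraicClosure E)) =>
        (z : AlgebraicClosure E)) hty
      have h2 : algebraMap E (AlgebraicClosure E) (tt V₀) =
          ((cc V₀ : (maxOrb p k T : IntermediateField E (AlgebraicClosure E))) :
            AlgebraicClosure E) * y ^ p := h1
      have hWk : ∀ c : k, algebraMap k (AlgebraicClosure E) c ∈ W := by
        intro c
        have h3 := hWE.const_mem c
        rw [hV₀, ValuationSubring.mem_comap, ← IsScalarTower.algebraMap_apply] at h3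
        exact h3
      have hcint : IsIntegral k ((cc V₀ : (maxOrb p k T : IntermediateField E
          (AlgebraicClosure E))) : AlgebraicClosure E) := isIntegral_coeM.2 (B.alg (cc V₀))
      have h3 := val_alg_gen hWk hcint (by
        intro h
        apply hc0
        apply Subtype.ext
        apply Subtype.ext
        exact h)
      rw [h2, map_mul, h3, one_mul, map_pow]
    have hyK : y ∈ K ⊔ E⟮ζ₀⟯ := by
      have h1 : y = ∑ i ∈ Finset.range ((PP V₀).natDegree + 1),
          φ ((PP V₀).coeff i) * ζ₀ ^ i := by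
        rw [hy, aeval_eq_sum_range]
        have h2 := map_sum (maxOrb p k T : IntermediateField E (AlgebraicClosure E)).val
          (fun i => (PP V₀).coeff i • ζ ^ i) (Finset.range ((PP V₀).natDegree + 1))
        refine Eq.trans h2 (Finset.sum_congr rfl (fun i _ => ?_))
        rfl
      rw [h1]
      refine sum_mem (fun i _ => mul_mem ?_ (pow_mem ?_ i))
      · apply (le_sup_left : K ≤ K ⊔ E⟮ζ₀⟯)
        by_cases h0 : (PP V₀).coeff i = 0
        · rw [h0]
          exact zero_mem K
        · apply IntermediateField.subset_adjoin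
          exact Finset.mem_biUnion.2 ⟨V₀, hmemP, Finset.mem_image_of_mem _ (coeff_mem_coeffs h0)⟩
      · exact (le_sup_right : E⟮ζ₀⟯ ≤ K ⊔ E⟮ζ₀⟯) (IntermediateField.mem_adjoin_simple_self E ζ₀)
    obtain ⟨z, hz, hzy⟩ := sameVal_const hWE K ζ₀ hint₀ y hyK
    refine ⟨(⟨z, hz⟩ : K) ^ n, ?_⟩
    rw [← map_pow, ← hW, comap_val_eq_iff, ← IsScalarTower.algebraMap_apply, hWf, hWt]
    have h4 : algebraMap K (AlgebraicClosure E) (((⟨z, hz⟩ : K) ^ n) ^ p) = (z ^ n) ^ p := by
      rw [map_pow, map_zpow₀]
      rfl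
    rw [h4, map_pow, map_zpow₀, hzy, ← zpow_natCast, ← zpow_natCast, ← zpow_mul, ← zpow_mul,
      mul_comm]

end ram

end P025H641
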