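import Vale.Agent.P025.H641.OMain

/-! # Theorem S: sections of the `p`-orbifold group are geometric -/

open IntermediateField Polynomial

namespace P025H641

universe u v w

section main

variable {p : ℕ} [Fact p.Prime] {k : Type u} [Field k] [Algebra ℚ_[p] k]
  [FiniteDimensional ℚ_[p] k]

/-- **Theorem S.** All sections of `Gal(maxOrb p k T / E)`, `T` countable, are geometric. -/
theorem secOf_geometric {E : Type v} [Field E] [Algebra k E] (hE : IsFunctionField k E)
    {T : Set (ValuationSubring E)} (hT : T.Countable)
    (s : SecOf k (maxOrb p k T : IntermediateField E (AlgebraicClosure E))) :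
    ∃ W : ValuationSubring (maxOrb p k T : IntermediateField E (AlgebraicClosure E)),
      IsRatPlace k E (W.comap (algebraMap E (maxOrb p k T))) ∧
      ∀ (σ : GalOf (constClosure k E))
        (x y : (maxOrb p k T : IntermediateField E (AlgebraicClosure E))),
        (s.hom σ).Maps x y → x ∈ W → y ∈ W := by
  classical
  have hpp : p.Prime := Fact.out
  have hchar : CharZero k := charZero_of_injective_algebraMap (algebraMap ℚ_[p] k).injective
  have hcharE : CharZero E := charZero_of_injective_algebraMap (algebraMap k E).injective
  have hs := s.isSecOf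
  have hM : ConstIn k (maxOrb p k T : IntermediateField E (AlgebraicClosure E)) := constIn_maxOrb
  obtain ⟨V, hVk, hVres⟩ := exists_val_fixM hE hT hs
  obtain ⟨W, hWV, hWs⟩ := exists_stable_valM hM hs V hVk hVres
  refine ⟨W, ?_, ?_⟩
  · -- the rational place
    set V₀ := W.comap (algebraMap E (maxOrb p k T : IntermediateField E (AlgebraicClosure E)))
      with hV₀
    have hVk2 : ∀ c : k, algebraMap k E c ∈ V₀ := by
      intro c
      have h1 := hVk c
      rw [← hWV, ValuationSubring.mem_comap] at h1
      rw [hV₀, ValuationSubring.mem_comap]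
      exact h1
    have hres : ∀ f ∈ V₀, ∃ c : k, V₀.valuation (f - algebraMap k E c) < 1 := by
      intro f hf
      rw [hV₀, ValuationSubring.mem_comap] at hf
      have h1 : algebraMap E (FixM s.toHom) f ∈ V := by
        rw [← hWV, ValuationSubring.mem_comap]
        exact hf
      obtain ⟨c, hc⟩ := hVres _ h1
      refine ⟨c, ?_⟩
      rw [hV₀, (comap_isEquiv (F := E) W).lt_one_iff_lt_one, Valuation.comap_apply]
      rw [← hWV, (comap_isEquiv (F := FixM s.toHom) W).lt_one_iff_lt_one,
        Valuation.comap_apply] at hc
      have h3 : algebraMap (FixM s.toHom) (maxOrb p k T : IntermediateField E (AlgebraicClosure E))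
          (algebraMap E (FixM s.toHom) f - algebraMap k (FixM s.toHom) c) =
            algebraMap E (maxOrb p k T : IntermediateField E (AlgebraicClosure E))
              (f - algebraMap k E c) := by
        rw [map_sub, map_sub]
        rfl
      rw [← h3]
      exact hc
    have hVtop : V₀ ≠ ⊤ := by
      intro htop
      obtain ⟨t, ht, -⟩ := id hE
      obtain ⟨z, hz⟩ := hres t (by rw [htop]; exact ValuationSubring.mem_top _)
      have h0 : t - algebraMap k E z ≠ 0 := by
        intro h0
        rw [sub_eq_zero.1 h0] at ht
        exact ht (isAlgebraic_algebraMap z)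
      have h1 : V₀.valuation (t - algebraMap k E z)⁻¹ ≤ 1 :=
        (V₀.valuation_le_one_iff _).2 (by rw [htop]; exact ValuationSubring.mem_top _)
      have h2 : V₀.valuation (t - algebraMap k E z) * V₀.valuation (t - algebraMap k E z)⁻¹ = 1 := by
        rw [← map_mul, mul_inv_cancel₀ h0, map_one]
      exact absurd h2 (mul_lt_one_of_lt_of_le hz h1).ne
    exact ⟨⟨hVk2, hE.dvr V₀ hVk2 hVtop⟩, hres⟩
  · rintro σ x y ⟨x', hx', hy⟩ hx
    have h1 : x' = x := Subtype.ext hx'
    rw [h1] at hy
    have h2 : s.toHom σ x = y := Subtype.ext hy
    rw [← h2]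
    exact hWs σ x hx

end main

end P025H641
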