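import Vale.Agent.P025.H641.OFix

/-! # Transport of sections to finite subextensions of the fixed field -/

open IntermediateField Polynomial

namespace P025H641

universe u v w

section transport

open scoped Topology

variable {k : Type u} {E : Type v} [Field k] [CharZero k] [Field E] [Algebra k E]
  {M : IntermediateField E (AlgebraicClosure E)}

/-- conjugation by the isomorphism of the constants -/
noncomputable def conjC (K : IntermediateField E (AlgebraicClosure E))
    (ψ : AlgebraicClosure K ≃ₐ[K] AlgebraicClosure E) :
    Gal(constClosure k K/k) →* Gal(constClosure k E/k) :=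
  (AlgEquiv.autCongr (constEquiv k K ψ)).toMonoidHom

omit [CharZero k] in
lemma conjC_apply (K : IntermediateField E (AlgebraicClosure E))
    (ψ : AlgebraicClosure K ≃ₐ[K] AlgebraicClosure E) (σ' : Gal(constClosure k K/k))
    (y : constClosure k E) :
    conjC K ψ σ' y = constEquiv k K ψ (σ' ((constEquiv k K ψ).symm y)) := rfl

omit [CharZero k] in
lemma continuous_conjC (K : IntermediateField E (AlgebraicClosure E))
    (ψ : AlgebraicClosure K ≃ₐ[K] AlgebraicClosure E) : Continuous (conjC (k := k) K ψ) := by
  apply continuous_of_stab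
  intro y
  have h1 : {g : Gal(constClosure k K/k) | conjC K ψ g y = y} =
      {g | g ((constEquiv k K ψ).symm y) = (constEquiv k K ψ).symm y} := by
    ext g
    simp only [Set.mem_ofPred_eq]
    rw [conjC_apply]
    constructor
    · intro h
      apply (constEquiv k K ψ).injective
      rw [h, AlgEquiv.apply_symm_apply]
    · intro h
      rw [h, AlgEquiv.apply_symm_apply]
  rw [h1]
  exact stab_mem_nhds _ (Algebra.IsIntegral.isIntegral _)

variable {s : Gal(constClosure k E/k) →* Gal(M/E)}

/-- the data needed for transport -/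
structure TransData (k : Type u) {E : Type v} [Field k] [CharZero k] [Field E] [Algebra k E]
    (M : IntermediateField E (AlgebraicClosure E)) (s : Gal(constClosure k E/k) →* Gal(M/E))
    (K : IntermediateField E (AlgebraicClosure E))
    (ψ : AlgebraicClosure K ≃ₐ[K] AlgebraicClosure E) : Prop where
  le : K ≤ M
  fix : ∀ x : M, (x : AlgebraicClosure E) ∈ K → ∀ σ, s σ x = x
  mem : ∀ x : maxUnr k K, ψ x ∈ M

variable {K : IntermediateField E (AlgebraicClosure E)}
  {ψ : AlgebraicClosure K ≃ₐ[K] AlgebraicClosure E}

/-- the map to `M` -/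
noncomputable def TransData.toM (D : TransData k M s K ψ) : maxUnr k K →+* M :=
  ((ψ : AlgebraicClosure K →+* AlgebraicClosure E).comp
    (algebraMap (maxUnr k K) (AlgebraicClosure K))).codRestrict M.toSubfield.toSubring
      (fun x => D.mem x)

lemma TransData.toM_coe (D : TransData k M s K ψ) (x : maxUnr k K) :
    ((D.toM x : M) : AlgebraicClosure E) = ψ x := rfl

/-- the embeddings -/
noncomputable def TransData.emb (D : TransData k M s K ψ) (σ' : Gal(constClosure k K/k)) :
    maxUnr k K →ₐ[K] AlgebraicClosure K :=
  { (ψ.symm : AlgebraicClosure E →+* AlgebraicClosure K).comp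
      ((algebraMap M (AlgebraicClosure E)).comp
        (((s (conjC K ψ σ') : M ≃ₐ[E] M) : M →+* M).comp D.toM)) with
    commutes' := fun c => by
      have h1 : D.toM (algebraMap K (maxUnr k K) c) = ⟨(c : AlgebraicClosure E), D.le c.2⟩ :=
        Subtype.ext (ψ.commutes c)
      show ψ.symm (((s (conjC K ψ σ')) (D.toM (algebraMap K (maxUnr k K) c)) : M) :
        AlgebraicClosure E) = _
      rw [h1, D.fix _ c.2]
      exact ψ.symm.commutes c }

lemma TransData.emb_apply (D : TransData k M s K ψ) (σ' : Gal(constClosure k K/k))
    (x : maxUnr k K) :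
    D.emb σ' x = ψ.symm ((s (conjC K ψ σ') (D.toM x) : M) : AlgebraicClosure E) := rfl

lemma TransData.emb_mul (D : TransData k M s K ψ) (g h : Gal(constClosure k K/k))
    (x : maxUnr k K) : D.emb (g * h) x = D.emb g (equivOf (maxUnr k K) (D.emb h) x) := by
  have h1 : (s (conjC K ψ h) (D.toM x) : M) = D.toM (equivOf (maxUnr k K) (D.emb h) x) := by
    apply Subtype.ext
    rw [D.toM_coe, equivOf_coe, D.emb_apply, AlgEquiv.apply_symm_apply]
  rw [D.emb_apply, D.emb_apply, map_mul, map_mul, AlgEquiv.mul_apply, h1]

/-- the transported homomorphism -/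
noncomputable def TransData.trans (D : TransData k M s K ψ) :
    Gal(constClosure k K/k) →* Gal(maxUnr k K/K) :=
  homOf (maxUnr k K) D.emb D.emb_mul

lemma TransData.trans_coe (D : TransData k M s K ψ) (σ' : Gal(constClosure k K/k))
    (x : maxUnr k K) :
    ψ ((D.trans σ' x : maxUnr k K) : AlgebraicClosure K) =
      ((s (conjC K ψ σ') (D.toM x) : M) : AlgebraicClosure E) := by
  have h1 : ((D.trans σ' x : maxUnr k K) : AlgebraicClosure K) = D.emb σ' x :=
    homOf_coe (maxUnr k K) D.emb D.emb_mul σ' x
  rw [h1, D.emb_apply, AlgEquiv.apply_symm_apply]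

lemma TransData.toM_trans (D : TransData k M s K ψ) (σ' : Gal(constClosure k K/k))
    (x : maxUnr k K) : D.toM (D.trans σ' x) = s (conjC K ψ σ') (D.toM x) :=
  Subtype.ext (D.trans_coe σ' x)

lemma TransData.toM_injective (D : TransData k M s K ψ) : Function.Injective D.toM :=
  D.toM.injective

lemma TransData.continuous_trans (D : TransData k M s K ψ) (hs : IsSecOf k M s) :
    Continuous D.trans := by
  apply continuous_of_stab
  intro x
  have h1 : {g : Gal(constClosure k K/k) | D.trans g x = x} =
      conjC K ψ ⁻¹' {g | s g (D.toM x) = D.toM x} := by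
    ext g
    simp only [Set.mem_ofPred_eq, Set.mem_preimage]
    rw [← D.toM_trans, D.toM_injective.eq_iff]
  have h2 := (continuous_conjC (k := k) K ψ).tendsto 1
  have h4 : conjC (k := k) K ψ 1 = 1 := MonoidHom.map_one _
  rw [h4] at h2
  rw [h1]
  exact h2 (stab_preimage s hs.continuous _ (Algebra.IsIntegral.isIntegral (R := E) (D.toM x)))

/-- **Transport of sections.** -/
theorem TransData.isSection (D : TransData k M s K ψ) (hs : IsSecOf k M s) :
    IsSection k K D.trans where
  continuous := D.continuous_trans hs
  lifts := by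
    intro σ' x y hxy
    have h1 := hs.lifts (conjC K ψ σ') (constEquiv k K ψ x) (D.toM y) (by
      rw [constEquiv_coe, hxy, D.toM_coe])
    rw [← D.trans_coe, conjC_apply, AlgEquiv.symm_apply_apply, constEquiv_coe] at h1
    exact ψ.injective h1

end transport

end P025H641
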