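import Vale.Agent.P025.H641.OTrans
import Vale.Agent.P025.H641.OMax

/-! # Unramified extensions of subfields of `maxOrb` -/

open IntermediateField Polynomial

namespace P025H641

universe u v w

section

variable {p : ℕ} {k : Type u} {E : Type v} [Field k] [CharZero k] [Field E] [Algebra k E]
  {T : Set (ValuationSubring E)}

/-- values of elements which are unramified over `K` -/
lemma unr_val {K : IntermediateField E (AlgebraicClosure E)} [FiniteDimensional E K]
    (ψ : AlgebraicClosure K ≃ₐ[K] AlgebraicClosure E) {F : IntermediateField K (AlgebraicClosure K)}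
    (hF : IsFinUnr k F) (W : ValuationSubring (AlgebraicClosure E))
    (hW : IsPlace k E (W.comap (algebraMap E (AlgebraicClosure E)))) (x : AlgebraicClosure K)
    (hx : x ∈ F) : ∃ z ∈ K, W.valuation z = W.valuation (ψ x) := by
  have hcharK : CharZero K := charZero_of_injective_algebraMap (algebraMap k K).injective
  set W' : ValuationSubring (AlgebraicClosure K) :=
    W.comap (ψ : AlgebraicClosure K →+* AlgebraicClosure E) with hW'
  have hval : ∀ x y, W'.valuation x = W'.valuation y ↔ W.valuation (ψ x) = W.valuation (ψ y) := by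
    intro x y
    let _ : Algebra (AlgebraicClosure K) (AlgebraicClosure E) :=
      (ψ : AlgebraicClosure K →+* AlgebraicClosure E).toAlgebra
    exact comap_val_eq_iff (F := AlgebraicClosure K) W x y
  have h1 : IsPlace k K (W'.comap (algebraMap K (AlgebraicClosure K))) := by
    have h2 := place_of_fin hW K
    have h3 : W'.comap (algebraMap K (AlgebraicClosure K)) =
        W.comap (algebraMap K (AlgebraicClosure E)) := by
      ext z
      rw [ValuationSubring.mem_comap, hW', ValuationSubring.mem_comap, ValuationSubring.mem_comap]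
      show ψ (algebraMap K (AlgebraicClosure K) z) ∈ W ↔ _
      rw [AlgEquiv.commutes]
    rw [h3]
    exact h2
  have hfin := hF.1
  have h2 := place_of_fin h1 F
  obtain ⟨z, hz⟩ := hF.2 _ h2 ⟨x, hx⟩
  rw [comap_sub_val_iff] at hz
  have h3 := (hval _ _).1 hz
  refine ⟨(z : AlgebraicClosure E), z.2, ?_⟩
  have h4 : ψ ((algebraMap K F z : F) : AlgebraicClosure K) = (z : AlgebraicClosure E) :=
    ψ.commutes z
  rw [← h4]
  exact h3

/-- unramified extensions of `K` lie in `maxOrb` -/
lemma unr_mem_maxOrb (hp : p.Prime) {K : IntermediateField E (AlgebraicClosure E)}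
    [FiniteDimensional E K] (hK : K ≤ maxOrb p k T)
    (ψ : AlgebraicClosure K ≃ₐ[K] AlgebraicClosure E) (x : maxUnr k K) :
    ψ (x : AlgebraicClosure K) ∈ maxOrb p k T := by
  obtain ⟨F, hF, hxF⟩ := exists_finUnr_mem x.2
  have hKO := isFinOrbi_of_le_maxOrb hp hK
  set B : IntermediateField K (AlgebraicClosure E) :=
    F.map (ψ : AlgebraicClosure K →ₐ[K] AlgebraicClosure E) with hB
  have hfin := hF.1
  have hfinB : FiniteDimensional K B :=
    LinearEquiv.finiteDimensional (IntermediateField.equivMap F _).toLinearEquiv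
  set A : IntermediateField E (AlgebraicClosure E) := B.restrictScalars E with hA
  have hfinA : FiniteDimensional E A := FiniteDimensional.trans E K B
  have hmemA : ψ (x : AlgebraicClosure K) ∈ A := ⟨x, hxF, rfl⟩
  have hAO : IsFinOrbi p k T A := by
    refine ⟨hfinA, ?_⟩
    rw [isOrbi_iff]
    intro W hW
    have hKW := (isOrbi_iff K).1 hKO.2 W hW
    have hAK : SameVal W A K := by
      rintro _ ⟨y, hy, rfl⟩
      exact unr_val ψ hF W hW y hy
    refine ⟨?_, fun hT => hAK.trans (hKW.2 hT)⟩
    intro y hy
    obtain ⟨z, hz, hzy⟩ := hAK y hy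
    obtain ⟨e, he⟩ := hKW.1 z hz
    exact ⟨e, by rw [he, hzy]⟩
  exact hAO.le_maxOrb hmemA

lemma constIn_maxOrb : ConstIn k (maxOrb p k T : IntermediateField E (AlgebraicClosure E)) :=
  fun _ hx => maxUnr_le_maxOrb (mem_maxUnr_of_const _ hx)

end

end P025H641
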