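import Vale.Agent.P025.H641.Stmt

/-! # Places: values, restriction to subfields -/

open IntermediateField

namespace P025H641

universe u v w

section place

variable {k : Type u} [Field k] {E : Type w} [Field E] [Algebra k E] {V : ValuationSubring E}

lemma IsPlace.val_const (hV : IsPlace k E V) {c : k} (hc : c ≠ 0) :
    V.valuation (algebraMap k E c) = 1 := by
  apply le_antisymm
  · exact (V.valuation_le_one_iff _).2 (hV.const_mem c)
  · have h := (V.valuation_le_one_iff _).2 (hV.const_mem c⁻¹)
    rw [map_inv₀, map_inv₀] at h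
    have h0 : V.valuation (algebraMap k E c) ≠ 0 := by simpa using hc
    exact (inv_le_one₀ (zero_lt_iff.2 h0)).1 h

lemma IsPlace.val_const_le (hV : IsPlace k E V) (c : k) :
    V.valuation (algebraMap k E c) ≤ 1 :=
  (V.valuation_le_one_iff _).2 (hV.const_mem c)

/-- algebraic elements are in all places -/
lemma IsPlace.mem_of_isIntegral (hV : IsPlace k E V) {c : E} (hc : IsIntegral k c) : c ∈ V := by
  let φ : k →+* V := (algebraMap k E).codRestrict V.toSubring (fun x => hV.const_mem x)
  let _ : Algebra k V := φ.toAlgebra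
  have : IsScalarTower k V E := IsScalarTower.of_algebraMap_eq (fun x => rfl)
  have hx : IsIntegral V c := hc.tower_top
  obtain ⟨y, hy⟩ := IsIntegrallyClosed.isIntegral_iff.mp hx
  rw [← hy]
  exact y.2

lemma IsPlace.val_alg (hV : IsPlace k E V) {c : E} (hc : IsIntegral k c) (h0 : c ≠ 0) :
    V.valuation c = 1 := by
  apply le_antisymm
  · exact (V.valuation_le_one_iff _).2 (hV.mem_of_isIntegral hc)
  · have h := (V.valuation_le_one_iff _).2 (hV.mem_of_isIntegral hc.inv)
    rw [map_inv₀] at h
    have h0 : V.valuation c ≠ 0 := by simpa using h0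
    exact (inv_le_one₀ (zero_lt_iff.2 h0)).1 h

/-- a uniformizer -/
lemma IsPlace.exists_unif (hV : IsPlace k E V) : ∃ ϖ : E, ϖ ≠ 0 ∧ V.valuation ϖ < 1 ∧
    ∀ x : E, x ≠ 0 → ∃ n : ℤ, V.valuation x = V.valuation ϖ ^ n := by
  have := hV.discrete
  obtain ⟨ϖ, hϖ⟩ := IsDiscreteValuationRing.exists_irreducible V
  have hϖ0 : (ϖ : E) ≠ 0 := by
    intro h; exact hϖ.ne_zero (Subtype.ext h)
  refine ⟨ϖ, hϖ0, ?_, ?_⟩
  · rcases V.valuation_lt_one_or_eq_one ϖ with h | h
    · exact h
    · exact absurd ((V.valuation_eq_one_iff ϖ).2 h) hϖ.not_isUnit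
  · -- integral elements first
    have h1 : ∀ x : E, x ≠ 0 → x ∈ V → ∃ n : ℕ, V.valuation x = V.valuation (ϖ : E) ^ n := by
      intro x hx hxV
      obtain ⟨n, u, hu⟩ := IsDiscreteValuationRing.eq_unit_mul_pow_irreducible
        (x := (⟨x, hxV⟩ : V)) (fun h => hx (congrArg Subtype.val h)) hϖ
      refine ⟨n, ?_⟩
      have h2 : x = ((u : V) : E) * (ϖ : E) ^ n := congrArg Subtype.val hu
      rw [h2, map_mul, V.valuation_unit, one_mul, map_pow]
    intro x hx
    rcases V.mem_or_inv_mem x with h | h
    · obtain ⟨n, hn⟩ := h1 x hx h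
      exact ⟨n, by rw [hn, zpow_natCast]⟩
    · obtain ⟨n, hn⟩ := h1 x⁻¹ (inv_ne_zero hx) h
      refine ⟨-(n : ℤ), ?_⟩
      rw [zpow_neg, zpow_natCast, ← hn, map_inv₀, inv_inv]

/-- the value group is archimedean -/
lemma IsPlace.archimedean (hV : IsPlace k E V) (x y : E) (hx : x ≠ 0) (hy : V.valuation y < 1) :
    ∃ n : ℕ, V.valuation y ^ n < V.valuation x := by
  obtain ⟨ϖ, hϖ0, hϖ1, hϖ⟩ := hV.exists_unif
  have hpos : 0 < V.valuation ϖ := zero_lt_iff.2 ((map_ne_zero _).2 hϖ0)
  obtain ⟨m, hm⟩ := hϖ x hx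
  have hxpos : 0 < V.valuation x := zero_lt_iff.2 ((map_ne_zero _).2 hx)
  by_cases hy0 : y = 0
  · exact ⟨1, by rw [hy0, map_zero, pow_one]; exact hxpos⟩
  obtain ⟨n, hn⟩ := hϖ y hy0
  have hn1 : 0 < n := by
    by_contra h
    push Not at h
    have h1 : 1 ≤ V.valuation ϖ ^ n := one_le_zpow_of_nonpos₀ hpos hϖ1.le h
    rw [← hn] at h1
    exact absurd hy (not_lt.2 h1)
  refine ⟨(m + 1).toNat, ?_⟩
  rw [hn, hm, ← zpow_natCast, ← zpow_mul]
  apply zpow_lt_zpow_right_of_lt_one₀ hpos hϖ1
  have h2 : m + 1 ≤ ((m + 1).toNat : ℤ) := Int.self_le_toNat _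
  nlinarith [Int.natCast_nonneg (m + 1).toNat]

end place

section comap

variable {F : Type v} {E : Type w} [Field F] [Field E] [Algebra F E]

lemma comap_isEquiv (V : ValuationSubring E) :
    (V.comap (algebraMap F E)).valuation.IsEquiv (V.valuation.comap (algebraMap F E)) := by
  apply Valuation.isEquiv_of_val_le_one
  intro x
  rw [ValuationSubring.valuation_le_one_iff, ValuationSubring.mem_comap, Valuation.comap_apply,
    ValuationSubring.valuation_le_one_iff]

lemma comap_val_eq_iff (V : ValuationSubring E) (x y : F) :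
    (V.comap (algebraMap F E)).valuation x = (V.comap (algebraMap F E)).valuation y ↔
      V.valuation (algebraMap F E x) = V.valuation (algebraMap F E y) :=
  (comap_isEquiv V).eq_iff

lemma IsPlace.ne_top {k : Type u} [Field k] [Algebra k E] {V : ValuationSubring E}
    (hV : IsPlace k E V) : V ≠ ⊤ := by
  obtain ⟨ϖ, hϖ0, hϖ1, -⟩ := hV.exists_unif
  rintro rfl
  have h : (⊤ : ValuationSubring E).valuation ϖ⁻¹ ≤ 1 :=
    ((⊤ : ValuationSubring E).valuation_le_one_iff _).2 (ValuationSubring.mem_top _)
  rw [map_inv₀] at h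
  have hpos : 0 < (⊤ : ValuationSubring E).valuation ϖ := zero_lt_iff.2 ((map_ne_zero _).2 hϖ0)
  have h2 := (inv_le_one₀ hpos).1 h
  exact absurd hϖ1 (not_lt.2 h2)

/-- the restriction of a place is not trivial -/
lemma IsPlace.exists_lt {k : Type u} [Field k] [Algebra k E] [Algebra.IsAlgebraic F E]
    {V : ValuationSubring E} (hV : IsPlace k E V) :
    ∃ x : F, x ≠ 0 ∧ V.valuation (algebraMap F E x) < 1 := by
  by_contra hcon
  push Not at hcon
  apply hV.ne_top
  have hF : ∀ x : F, algebraMap F E x ∈ V := by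
    intro x
    by_cases hx : x = 0
    · rw [hx, map_zero]; exact V.zero_mem
    have h1 := hcon x⁻¹ (inv_ne_zero hx)
    rw [map_inv₀, map_inv₀] at h1
    rw [← V.valuation_le_one_iff]
    have hpos : 0 < V.valuation (algebraMap F E x) :=
      zero_lt_iff.2 ((map_ne_zero _).2 ((map_ne_zero _).2 hx))
    exact (one_le_inv₀ hpos).1 h1
  rw [eq_top_iff]
  intro x _
  let φ : F →+* V := (algebraMap F E).codRestrict V.toSubring (fun x => hF x)
  let _ : Algebra F V := φ.toAlgebra
  have : IsScalarTower F V E := IsScalarTower.of_algebraMap_eq (fun x => rfl)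
  have hx : IsIntegral V x := (Algebra.IsIntegral.isIntegral (R := F) x).tower_top
  obtain ⟨y, hy⟩ := IsIntegrallyClosed.isIntegral_iff.mp hx
  rw [← hy]
  exact y.2

/-- a uniformizer of the restriction -/
lemma IsPlace.exists_unif_comap {k : Type u} [Field k] [Algebra k E] [Algebra.IsAlgebraic F E]
    {V : ValuationSubring E} (hV : IsPlace k E V) :
    ∃ π : F, π ≠ 0 ∧ V.valuation (algebraMap F E π) < 1 ∧
      (∀ x : F, V.valuation (algebraMap F E x) < 1 →
        V.valuation (algebraMap F E x) ≤ V.valuation (algebraMap F E π)) := by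
  classical
  obtain ⟨ϖ, hϖ0, hϖ1, hϖ⟩ := hV.exists_unif
  have hpos : 0 < V.valuation ϖ := zero_lt_iff.2 ((map_ne_zero _).2 hϖ0)
  have hlt : ∀ m n : ℤ, V.valuation ϖ ^ m < V.valuation ϖ ^ n ↔ n < m := by
    intro m n
    constructor
    · intro h
      by_contra h1
      push Not at h1
      exact absurd h (not_lt.2 (zpow_le_zpow_right_of_le_one₀ hpos hϖ1.le h1))
    · intro h
      exact zpow_lt_zpow_right_of_lt_one₀ hpos hϖ1 h
  have hex : ∃ n : ℕ, ∃ x : F, x ≠ 0 ∧ V.valuation (algebraMap F E x) = V.valuation ϖ ^ (n : ℤ) ∧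
      0 < n := by
    obtain ⟨x, hx0, hx1⟩ := hV.exists_lt (F := F)
    obtain ⟨n, hn⟩ := hϖ _ ((map_ne_zero (algebraMap F E)).2 hx0)
    have hn0 : 0 < n := by
      rw [hn, ← zpow_zero (V.valuation ϖ), hlt] at hx1
      exact hx1
    refine ⟨n.toNat, x, hx0, ?_, by omega⟩
    rw [hn, Int.toNat_of_nonneg hn0.le]
  obtain ⟨π, hπ0, hπv, hπpos⟩ := Nat.find_spec hex
  have hmin := fun m => Nat.find_min' hex (m := m)
  refine ⟨π, hπ0, ?_, ?_⟩
  · rw [hπv, ← zpow_zero (V.valuation ϖ), hlt]
    exact_mod_cast hπpos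
  · intro x hx
    by_cases hx0 : x = 0
    · rw [hx0, map_zero, map_zero]; exact zero_le
    obtain ⟨n, hn⟩ := hϖ _ ((map_ne_zero (algebraMap F E)).2 hx0)
    have hn0 : 0 < n := by
      rw [hn, ← zpow_zero (V.valuation ϖ), hlt] at hx
      exact hx
    have h1 := hmin n.toNat ⟨x, hx0, by rw [hn, Int.toNat_of_nonneg hn0.le], by omega⟩
    rw [hn, hπv]
    apply zpow_le_zpow_right_of_le_one₀ hpos hϖ1.le
    omega

lemma IsPlace.comap {k : Type u} [Field k] [Algebra k F] [Algebra k E] [IsScalarTower k F E]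
    [Algebra.IsAlgebraic F E] {V : ValuationSubring E} (hV : IsPlace k E V) :
    IsPlace k F (V.comap (algebraMap F E)) where
  const_mem c := by
    rw [ValuationSubring.mem_comap, ← IsScalarTower.algebraMap_apply]
    exact hV.const_mem c
  discrete := by
    apply IsDiscreteValuationRing.ofHasUnitMulPowIrreducibleFactorization
    obtain ⟨π, hπ0, hπ1, hπmax⟩ := hV.exists_unif_comap (F := F)
    set W := V.comap (algebraMap F E) with hW
    have hmem : ∀ x : F, x ∈ W ↔ V.valuation (algebraMap F E x) ≤ 1 := by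
      intro x
      rw [hW, ValuationSubring.mem_comap, V.valuation_le_one_iff]
    have hunit : ∀ x : W, IsUnit x ↔ V.valuation (algebraMap F E x) = 1 := by
      intro x
      constructor
      · rintro ⟨u, hu⟩
        have h1 : ((u : W) : F) * ((u⁻¹ : Wˣ) : W) = 1 := by
          exact congrArg (fun z : W => (z : F)) (Units.mul_inv u)
        have h2 := congrArg (fun z => V.valuation (algebraMap F E z)) h1
        simp only [map_mul, map_one] at h2
        have h3 := (hmem _).1 (u : W).2
        have h4 := (hmem _).1 ((u⁻¹ : Wˣ) : W).2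
        rw [← hu]
        apply le_antisymm h3
        by_contra h5
        push Not at h5
        exact (mul_lt_one_of_lt_of_le h5 h4).ne h2
      · intro h
        have hx0 : (x : F) ≠ 0 := by
          intro h0
          rw [h0, map_zero, map_zero] at h
          exact zero_ne_one h
        have h1 : (x : F)⁻¹ ∈ W := by rw [hmem, map_inv₀, map_inv₀, h, inv_one]
        exact ⟨⟨x, ⟨_, h1⟩, Subtype.ext (mul_inv_cancel₀ hx0), Subtype.ext (inv_mul_cancel₀ hx0)⟩,
          rfl⟩
    have hπpos : 0 < V.valuation (algebraMap F E π) :=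
      zero_lt_iff.2 ((map_ne_zero _).2 ((map_ne_zero _).2 hπ0))
    have hπW : π ∈ W := (hmem π).2 hπ1.le
    have hnu : ∀ x : W, ¬ IsUnit x → V.valuation (algebraMap F E x) ≤
        V.valuation (algebraMap F E π) := by
      intro x hx
      apply hπmax
      exact lt_of_le_of_ne ((hmem x).1 x.2) (fun h => hx ((hunit x).2 h))
    refine ⟨⟨π, hπW⟩, ⟨?_, ?_⟩, ?_⟩
    · rw [hunit]; exact hπ1.ne
    · intro a b hab
      by_contra hcon
      push Not at hcon
      have h1 := hnu a hcon.1
      have h2 := hnu b hcon.2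
      have h3 : π = (a : F) * b := congrArg Subtype.val hab
      have h4 := congrArg (fun z => V.valuation (algebraMap F E z)) h3
      simp only [map_mul] at h4
      have h5 : V.valuation (algebraMap F E π) ≤
          V.valuation (algebraMap F E π) * V.valuation (algebraMap F E π) := by
        conv_lhs => rw [h4]
        exact mul_le_mul' h1 h2
      have h6 : V.valuation (algebraMap F E π) * V.valuation (algebraMap F E π) <
          V.valuation (algebraMap F E π) := by
        calc _ < V.valuation (algebraMap F E π) * 1 := by gcongr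
          _ = _ := mul_one _
      exact absurd h5 (not_le.2 h6)
    · intro x hx
      have hx0 : (x : F) ≠ 0 := fun h => hx (Subtype.ext h)
      have hxpos : 0 < V.valuation (algebraMap F E x) :=
        zero_lt_iff.2 ((map_ne_zero _).2 ((map_ne_zero _).2 hx0))
      -- the largest power dividing
      obtain ⟨N, hN⟩ := hV.archimedean (algebraMap F E x) (algebraMap F E π)
        ((map_ne_zero _).2 hx0) hπ1
      classical
      have hex : ∃ n : ℕ, V.valuation (algebraMap F E π) ^ (n + 1) <
          V.valuation (algebraMap F E x) := by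
        refine ⟨N, lt_of_le_of_lt ?_ hN⟩
        rw [pow_succ]
        exact mul_le_of_le_one_right' hπ1.le
      set n := Nat.find hex with hn
      have h1 : V.valuation (algebraMap F E π) ^ (n + 1) < V.valuation (algebraMap F E x) :=
        Nat.find_spec hex
      have h2 : V.valuation (algebraMap F E x) ≤ V.valuation (algebraMap F E π) ^ n := by
        rcases Nat.eq_zero_or_pos n with h0 | h0
        · rw [h0, pow_zero]; exact (hmem x).1 x.2
        · have h3 := Nat.find_min hex (m := n - 1) (by omega)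
          rw [Nat.sub_add_cancel h0] at h3
          exact not_lt.1 h3
      refine ⟨n, ?_⟩
      have hπn : (π : F) ^ n ≠ 0 := pow_ne_zero n hπ0
      have hval : V.valuation (algebraMap F E ((x : F) / π ^ n)) = 1 := by
        apply le_antisymm
        · rw [map_div₀, map_div₀, map_pow, map_pow]
          exact (div_le_one₀ (pow_pos hπpos n)).2 h2
        · by_contra h3
          push Not at h3
          have h4 := hπmax _ h3
          rw [map_div₀, map_div₀, map_pow, map_pow, div_le_iff₀ (pow_pos hπpos n),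
            ← pow_succ'] at h4
          exact absurd h1 (not_lt.2 h4)
      have hq : (x : F) / π ^ n ∈ W := (hmem _).2 hval.le
      obtain ⟨u, hu⟩ := (hunit ⟨_, hq⟩).2 hval
      refine ⟨u, ?_⟩
      apply Subtype.ext
      have h5 : ((u : W) : F) = (x : F) / π ^ n := by rw [hu]
      show (((⟨π, hπW⟩ : W) ^ n * (u : W) : W) : F) = x
      rw [MulMemClass.coe_mul, SubmonoidClass.coe_pow, h5]
      field_simp

end comap

end P025H641
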