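import Vale.Agent.P025.H641.Res

/-! # Principal units and `p`-th powers -/

namespace P025H641

universe u

variable {k : Type u} [NontriviallyNormedField k] [IsUltrametricDist k] [ProperSpace k]

lemma unif_pow_norm (n : ℕ) (a : k) (ha : ‖a‖ ≤ 1) : ‖unif k ^ n * a‖ ≤ ‖unif k‖ ^ n := by
  rw [norm_mul, norm_pow]
  calc ‖unif k‖ ^ n * ‖a‖ ≤ ‖unif k‖ ^ n * 1 := by gcongr
    _ = _ := mul_one _

lemma unif_pow_le_one (n : ℕ) : ‖unif k‖ ^ n ≤ 1 := pow_le_one₀ (norm_nonneg _) unif_lt.le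

lemma unif_mul_norm (n : ℕ) (hn : 0 < n) (a : k) (ha : ‖a‖ ≤ 1) : ‖unif k ^ n * a‖ < 1 := by
  refine lt_of_le_of_lt (unif_pow_norm n a ha) ?_
  exact pow_lt_one₀ (norm_nonneg _) unif_lt hn.ne'

lemma one_add_norm (n : ℕ) (hn : 0 < n) (a : k) (ha : ‖a‖ ≤ 1) : ‖1 + unif k ^ n * a‖ = 1 :=
  norm_one_add (unif_mul_norm n hn a ha)

lemma norm_mul_le_one {a b : k} (ha : ‖a‖ ≤ 1) (hb : ‖b‖ ≤ 1) : ‖a * b‖ ≤ 1 := by
  rw [norm_mul]; exact mul_le_one₀ ha (norm_nonneg _) hb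

lemma norm_add_le_one {a b : k} (ha : ‖a‖ ≤ 1) (hb : ‖b‖ ≤ 1) : ‖a + b‖ ≤ 1 :=
  (norm_add_le_max' a b).trans (max_le ha hb)

lemma norm_sub_le_one {a b : k} (ha : ‖a‖ ≤ 1) (hb : ‖b‖ ≤ 1) : ‖a - b‖ ≤ 1 :=
  (norm_sub_le_max a b).trans (max_le ha hb)

lemma norm_pow_le_one {a : k} (ha : ‖a‖ ≤ 1) (n : ℕ) : ‖a ^ n‖ ≤ 1 := by
  rw [norm_pow]; exact pow_le_one₀ (norm_nonneg _) ha

/-- if `x` is close to the unit `y` then `x = y (1 + π ^ n c)` -/
lemma exists_quot (x y : k) (hy : ‖y‖ = 1) (n : ℕ) (d : k) (hd : ‖d‖ ≤ 1)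
    (h : x - y = unif k ^ n * d) : ∃ c : k, ‖c‖ ≤ 1 ∧ x = y * (1 + unif k ^ n * c) := by
  have hy0 : y ≠ 0 := by rintro rfl; rw [norm_zero] at hy; exact zero_ne_one hy
  refine ⟨d / y, by rw [norm_div, hy, div_one]; exact hd, ?_⟩
  field_simp
  linear_combination h

/-- the ramification data -/
structure Ram (k : Type u) [NontriviallyNormedField k] [IsUltrametricDist k] [ProperSpace k]
    (p : ℕ) where
  e : ℕ
  pos : 0 < e
  ε : k
  norm_ε : ‖ε‖ = 1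
  p_eq : (p : k) = ε * unif k ^ ((p - 1) * e)
  y : k
  norm_y : ‖y‖ = 1
  pow_eq : (1 + unif k ^ e * y) ^ p = 1

lemma exists_ram {p : ℕ} [Fact p.Prime] (hp : ‖(p : k)‖ < 1) (hp0 : (p : k) ≠ 0) {ζ : k}
    (hζ : IsPrimitiveRoot ζ p) : Nonempty (Ram k p) := by
  have hpp : p.Prime := Fact.out
  have h1 := norm_zeta hζ
  have hζ1 : ζ - 1 ≠ 0 := sub_ne_zero.2 (hζ.ne_one hpp.one_lt)
  have h2 := norm_eq_nval _ hζ1
  have h3 : ‖ζ - 1‖ < 1 := by
    by_contra h4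
    push Not at h4
    rw [← h1] at hp
    exact absurd hp (not_lt.2 (one_le_pow₀ h4))
  have h4 : 0 < nval (ζ - 1) := by
    have h5 := (norm_le_one_iff _ hζ1).1 h3.le
    rcases h5.eq_or_lt with h6 | h6
    · exfalso
      rw [← h6, zpow_zero] at h2
      exact h3.ne h2
    · exact h6
  obtain ⟨e, he⟩ : ∃ e : ℕ, nval (ζ - 1) = e := ⟨(nval (ζ - 1)).toNat, by omega⟩
  have hπ : unif k ≠ 0 := unif_ne
  have h5 : ‖ζ - 1‖ = ‖unif k‖ ^ e := by rw [h2, he, zpow_natCast]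
  have h6 : ‖(p : k)‖ = ‖unif k‖ ^ ((p - 1) * e) := by
    rw [← h1, h5, ← pow_mul, mul_comm]
  refine ⟨⟨e, by omega, (p : k) / unif k ^ ((p - 1) * e), ?_, by field_simp,
    (ζ - 1) / unif k ^ e, ?_, ?_⟩⟩
  · rw [norm_div, h6, norm_pow]
    exact div_self (pow_ne_zero _ unif_pos.ne')
  · rw [norm_div, h5, norm_pow]
    exact div_self (pow_ne_zero _ unif_pos.ne')
  · rw [mul_div_cancel₀ _ (pow_ne_zero _ hπ), add_sub_cancel, hζ.pow_eq_one]

namespace Ram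

variable {p : ℕ} [Fact p.Prime] (R : Ram k p)

include R

lemma norm_p : ‖(p : k)‖ < 1 := by
  rw [R.p_eq, norm_mul, R.norm_ε, one_mul, norm_pow]
  have hpp : p.Prime := Fact.out
  have h1 := R.pos
  have h2 := hpp.two_le
  exact pow_lt_one₀ (norm_nonneg _) unif_lt (Nat.mul_pos (by omega) h1).ne'

/-- the expansion of `(1 + π ^ i b) ^ p` -/
lemma pow_expand (i : ℕ) (b : k) (hb : ‖b‖ ≤ 1) : ∃ r : k, ‖r‖ ≤ 1 ∧
    (1 + unif k ^ i * b) ^ p = 1 + unif k ^ (p * i) * b ^ p +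
      unif k ^ ((p - 1) * R.e + i) * (R.ε * b) +
      unif k ^ ((p - 1) * R.e + 2 * i) * r := by
  obtain ⟨r, hr, h⟩ := one_add_pow_prime (Fact.out : p.Prime) (unif k ^ i * b)
    ((unif_pow_norm i b hb).trans (unif_pow_le_one i))
  refine ⟨R.ε * b ^ 2 * r, norm_mul_le_one (norm_mul_le_one R.norm_ε.le (norm_pow_le_one hb 2)) hr,
    ?_⟩
  rw [h, R.p_eq, mul_pow, ← pow_mul, mul_comm i p, pow_add, pow_add, pow_mul (unif k) 2 i]
  ring

lemma e_rel : p * R.e = (p - 1) * R.e + R.e := by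
  have hpp : p.Prime := Fact.out
  have h2 := hpp.pos
  obtain ⟨n, rfl⟩ : ∃ n, p = n + 1 := ⟨p - 1, by omega⟩
  simp only [Nat.add_sub_cancel]
  ring

/-- classes at levels divisible by `p` -/
lemma level_dvd (i : ℕ) (hi : 0 < i) (hie : i < R.e) (a : k) (ha : ‖a‖ ≤ 1) :
    ∃ b c : k, ‖b‖ ≤ 1 ∧ ‖c‖ ≤ 1 ∧
      1 + unif k ^ (p * i) * a = (1 + unif k ^ i * b) ^ p * (1 + unif k ^ (p * i + 1) * c) := by
  have hpp : p.Prime := Fact.out
  obtain ⟨b, hb, h1⟩ := exists_root_mod R.norm_p a ha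
  obtain ⟨d, hd, h2⟩ := exists_of_norm_lt _ h1
  obtain ⟨r, hr, h3⟩ := R.pow_expand i b hb
  have hy : ‖(1 + unif k ^ i * b) ^ p‖ = 1 := by rw [norm_pow, one_add_norm i hi b hb, one_pow]
  obtain ⟨j, hj⟩ : ∃ j, (p - 1) * R.e + i = p * i + 1 + j := by
    refine ⟨(p - 1) * R.e + i - (p * i + 1), ?_⟩
    have h4 : (p - 1) * (i + 1) ≤ (p - 1) * R.e := Nat.mul_le_mul_left _ hie
    have h5 : p * i = (p - 1) * i + i := by
      obtain ⟨n, rfl⟩ : ∃ n, p = n + 1 := ⟨p - 1, by have := hpp.pos; omega⟩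
      simp only [Nat.add_sub_cancel]; ring
    have h6 := hpp.two_le
    have h7 : (p - 1) * (i + 1) = (p - 1) * i + (p - 1) := by ring
    omega
  have hj2 : (p - 1) * R.e + 2 * i = p * i + 1 + (j + i) := by omega
  obtain ⟨c, hc, h6⟩ := exists_quot (1 + unif k ^ (p * i) * a) _ hy (p * i + 1)
    (-d - unif k ^ j * (R.ε * b) - unif k ^ (j + i) * r)
    (norm_sub_le_one (norm_sub_le_one (by rw [norm_neg]; exact hd)
      ((unif_pow_norm j _ (norm_mul_le_one R.norm_ε.le hb)).trans (unif_pow_le_one j)))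
      ((unif_pow_norm _ _ hr).trans (unif_pow_le_one _))) (by
      rw [h3, hj, hj2, pow_add _ _ j, pow_add _ _ (j + i), pow_succ]
      linear_combination -(unif k ^ (p * i)) * h2)
  exact ⟨b, c, hb, hc, h6⟩

/-- the approximation step -/
lemma hensel_step (n : ℕ) (hn : p * R.e < n) (a : k) (ha : ‖a‖ ≤ 1) :
    ∃ z c : k, ‖z‖ = 1 ∧ ‖c‖ ≤ 1 ∧ 1 + unif k ^ n * a = z ^ p * (1 + unif k ^ (n + 1) * c) := by
  have hpp : p.Prime := Fact.out
  have hrel := R.e_rel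
  have hpos := R.pos
  set i := n - (p - 1) * R.e with hi
  have hni : n = (p - 1) * R.e + i := by omega
  have hie : R.e < i := by omega
  have hε : R.ε ≠ 0 := by
    intro h; have := R.norm_ε; rw [h, norm_zero] at this; exact zero_ne_one this
  have hb : ‖a / R.ε‖ ≤ 1 := by rw [norm_div, R.norm_ε, div_one]; exact ha
  obtain ⟨r, hr, h3⟩ := R.pow_expand i (a / R.ε) hb
  have hy1 := one_add_norm i (by omega) (a / R.ε) hb
  have hy : ‖(1 + unif k ^ i * (a / R.ε)) ^ p‖ = 1 := by rw [norm_pow, hy1, one_pow]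
  obtain ⟨j, hj⟩ : ∃ j, p * i = n + 1 + j := by
    refine ⟨p * i - (n + 1), ?_⟩
    have h4 : (p - 1) * (R.e + 1) ≤ (p - 1) * i := Nat.mul_le_mul_left _ hie
    have h5 : p * i = (p - 1) * i + i := by
      obtain ⟨n, rfl⟩ : ∃ n, p = n + 1 := ⟨p - 1, by have := hpp.pos; omega⟩
      simp only [Nat.add_sub_cancel]; ring
    have h6 := hpp.two_le
    have h7 : (p - 1) * (R.e + 1) = (p - 1) * R.e + (p - 1) := by ring
    omega
  have hj2 : (p - 1) * R.e + 2 * i = n + 1 + (i - 1) := by omega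
  obtain ⟨c, hc, h6⟩ := exists_quot (1 + unif k ^ n * a) _ hy (n + 1)
    (-(unif k ^ j * (a / R.ε) ^ p) - unif k ^ (i - 1) * r)
    (norm_sub_le_one (by
      rw [norm_neg]
      exact (unif_pow_norm j _ (norm_pow_le_one hb p)).trans (unif_pow_le_one j))
      ((unif_pow_norm _ _ hr).trans (unif_pow_le_one _))) (by
      rw [h3, hj, hj2, ← hni, mul_div_cancel₀ _ hε, pow_add _ (n + 1) j, pow_add _ (n + 1) (i - 1)]
      ring)
  exact ⟨_, c, hy1, hc, h6⟩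

/-- principal units of large level are `p`-th powers -/
lemma high_level (a : k) (ha : ‖a‖ ≤ 1) : ∃ z : k, 1 + unif k ^ (p * R.e + 1) * a = z ^ p := by
  -- approximations of all orders
  have key : ∀ m : ℕ, ∃ z c : k, ‖z‖ = 1 ∧ ‖c‖ ≤ 1 ∧
      1 + unif k ^ (p * R.e + 1) * a = z ^ p * (1 + unif k ^ (p * R.e + 1 + m) * c) := by
    intro m
    induction m with
    | zero => exact ⟨1, a, norm_one, ha, by rw [one_pow, one_mul, add_zero]⟩
    | succ m ih =>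
      obtain ⟨z, c, hz, hc, h1⟩ := ih
      obtain ⟨z', c', hz', hc', h2⟩ := R.hensel_step (p * R.e + 1 + m) (by omega) c hc
      exact ⟨z * z', c', by rw [norm_mul, hz, hz', one_mul], hc', by
        rw [h1, h2, mul_pow]; ring_nf⟩
  have hcl : IsClosed ((fun z : k => z ^ p) '' Metric.sphere (0 : k) 1) := by
    apply IsCompact.isClosed
    apply IsCompact.image (isCompact_sphere 0 1)
    exact continuous_pow p
  have hmem : 1 + unif k ^ (p * R.e + 1) * a ∈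
      (fun z : k => z ^ p) '' Metric.sphere (0 : k) 1 := by
    rw [← hcl.closure_eq, Metric.mem_closure_iff]
    intro δ hδ
    obtain ⟨m, hm⟩ := exists_pow_lt_of_lt_one hδ (unif_lt (k := k))
    obtain ⟨z, c, hz, hc, h1⟩ := key m
    refine ⟨z ^ p, ⟨z, by simpa using hz, rfl⟩, ?_⟩
    rw [dist_eq_norm, h1]
    have h2 : z ^ p * (1 + unif k ^ (p * R.e + 1 + m) * c) - z ^ p =
        unif k ^ (p * R.e + 1 + m) * (z ^ p * c) := by ring
    rw [h2]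
    have h3 : ‖z ^ p * c‖ ≤ 1 := norm_mul_le_one (by rw [norm_pow, hz, one_pow]) hc
    refine lt_of_le_of_lt (unif_pow_norm _ _ h3) (lt_of_le_of_lt ?_ hm)
    exact pow_le_pow_of_le_one (norm_nonneg _) unif_lt.le (by omega)
  obtain ⟨z, -, hz⟩ := hmem
  exact ⟨z, hz.symm⟩

/-- the Artin-Schreier level -/
lemma as_level (y : k) (hy : ‖y‖ ≤ 1) : ∃ r : k, ‖r‖ ≤ 1 ∧
    (1 + unif k ^ R.e * y) ^ p =
      1 + unif k ^ (p * R.e) * (y ^ p + R.ε * y + unif k ^ R.e * r) := by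
  obtain ⟨r, hr, h3⟩ := R.pow_expand R.e y hy
  refine ⟨r, hr, ?_⟩
  have hrel := R.e_rel
  have h4 : (p - 1) * R.e + 2 * R.e = p * R.e + R.e := by omega
  rw [h3, ← hrel, h4, pow_add]
  ring

end Ram

end P025H641
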