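import Vale.Agent.P025.H641.Sec

/-! # A divisible function on a Fermat type cover -/

open IntermediateField

namespace P025H641

universe u v w

variable {k : Type u} {K : Type v} [Field k] [Field K] [Algebra k K]

lemma IsDivisible.of_le {n : ℕ} {F F' : IntermediateField K (AlgebraicClosure K)} (h : F ≤ F')
    (f : F) (hf : IsDivisible n k f) : IsDivisible n k (⟨f, h f.2⟩ : F') := by
  let _ : Algebra F F' := (IntermediateField.inclusion h).toRingHom.toAlgebra
  have ht1 : IsScalarTower K F F' := IsScalarTower.of_algebraMap_eq (fun x => rfl)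
  have ht2 : IsScalarTower k F F' := IsScalarTower.of_algebraMap_eq (fun x => rfl)
  have halg : Algebra.IsAlgebraic F F' := Algebra.IsAlgebraic.tower_top (K := K) F
  exact hf.map_algebraMap (E := F')

/-- values of linear factors -/
lemma IsPlace.factor {E : Type w} [Field E] [Algebra k E] {V : ValuationSubring E}
    (hV : IsPlace k E V) {p : ℕ} (hp : 0 < p) {ζ : E} (hζ : IsPrimitiveRoot ζ p) (η y : E)
    (hη : IsIntegral k η) (hη0 : η ≠ 0) (hy : V.valuation y ≤ 1) :
    V.valuation (y - η) = 1 ∨ V.valuation (y - η) = V.valuation (y ^ p - η ^ p) := by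
  classical
  have hηv := hV.val_alg hη hη0
  have hle : V.valuation (y - η) ≤ 1 := (V.valuation.map_sub _ _).trans (max_le hy hηv.le)
  by_cases h1 : V.valuation (y - η) = 1
  · exact Or.inl h1
  right
  have hlt : V.valuation (y - η) < 1 := lt_of_le_of_ne hle h1
  have h2 := X_pow_sub_C_eq_prod hζ hp (rfl : η ^ p = η ^ p)
  have h3 := congrArg (Polynomial.eval y) h2
  rw [Polynomial.eval_prod] at h3
  simp only [Polynomial.eval_sub, Polynomial.eval_pow, Polynomial.eval_X, Polynomial.eval_C] at h3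
  rw [h3, map_prod, ← Finset.mul_prod_erase _ _ (Finset.mem_range.2 hp), pow_zero, one_mul,
    Finset.prod_eq_one, mul_one]
  intro i hi
  rw [Finset.mem_erase, Finset.mem_range] at hi
  have hζi : ζ ^ i ≠ 1 := hζ.pow_ne_one_of_pos_of_lt hi.1 hi.2
  have hζint : IsIntegral k (ζ ^ i) :=
    IsIntegral.pow (isIntegral_of_pow' hp (by rw [hζ.pow_eq_one]; exact isIntegral_one)) i
  have h4 : y - ζ ^ i * η = (y - η) + (1 - ζ ^ i) * η := by ring
  have h5 : V.valuation ((1 - ζ ^ i) * η) = 1 :=
    hV.val_alg ((isIntegral_one.sub hζint).mul hη)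
      (mul_ne_zero (sub_ne_zero.2 (Ne.symm hζi)) hη0)
  rw [h4, Valuation.map_add_eq_of_lt_right, h5]
  rw [h5]; exact hlt

variable [CharZero k]

/-- the quotient `(y - θ) / (y - 1)` has a `p`-th root in the maximal unramified extension -/
lemma exists_root_quot {p : ℕ} (hp : 0 < p) {F : IntermediateField K (AlgebraicClosure K)}
    (hF : IsFinUnr k F) (t a b c ζ : F) (hζ : IsPrimitiveRoot ζ p) (ha : IsIntegral k a)
    (hb : IsIntegral k b) (hc : IsIntegral k c) (hab : b - a ≠ 0) (hca : c - a ≠ 0)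
    (hda : IsDivisible p k (t - a)) (hdb : IsDivisible p k (t - b))
    (hdc : IsDivisible p k (t - c)) (y θ : AlgebraicClosure K)
    (hy : ((t - a : F) : AlgebraicClosure K) = ((b - a : F) : AlgebraicClosure K) * y ^ p)
    (hθ : ((c - a : F) : AlgebraicClosure K) = ((b - a : F) : AlgebraicClosure K) * θ ^ p) :
    ∃ γ ∈ maxUnr k K, γ ^ p = (y - θ) / (y - 1) := by
  have hpk : (p : k) ≠ 0 := by exact_mod_cast hp.ne'
  have hab' : ((b - a : F) : AlgebraicClosure K) ≠ 0 := fun h => hab (Subtype.ext h)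
  have hca' : ((c - a : F) : AlgebraicClosure K) ≠ 0 := fun h => hca (Subtype.ext h)
  -- adjoin `y`
  have hyp : y ^ p = (((t - a) / (b - a) : F) : AlgebraicClosure K) := by
    have : (((t - a) / (b - a) : F) : AlgebraicClosure K) =
        ((t - a : F) : AlgebraicClosure K) / ((b - a : F) : AlgebraicClosure K) := rfl
    rw [this, hy, mul_div_cancel_left₀ _ hab']
  obtain ⟨F1, hF1, hFF1, hyF1⟩ := hF.exists_root hpk y ((t - a) / (b - a)) hyp
    (hda.div (isDivisible_const (hb.sub ha) hab))
  -- adjoin `θ`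
  have hθint : IsIntegral k θ := by
    apply isIntegral_of_pow' hp
    have h1 : θ ^ p = (((c - a) / (b - a) : F) : AlgebraicClosure K) := by
      have : (((c - a) / (b - a) : F) : AlgebraicClosure K) =
          ((c - a : F) : AlgebraicClosure K) / ((b - a : F) : AlgebraicClosure K) := rfl
      rw [this, hθ, mul_div_cancel_left₀ _ hab']
    rw [h1, div_eq_mul_inv]
    exact (isIntegral_algHom_iff ((F.val).restrictScalars k) (Subtype.val_injective)).2
      ((hc.sub ha).mul (hb.sub ha).inv)
  obtain ⟨F2, hF2, hF12, hθF2⟩ := hF1.exists_const θ hθint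
  have hFF2 : F ≤ F2 := hFF1.trans hF12
  have hint : ∀ x : F, IsIntegral k x → IsIntegral k (⟨x, hFF2 x.2⟩ : F2) := by
    intro x hx
    exact (isIntegral_algHom_iff ((F2.val).restrictScalars k) (Subtype.val_injective)).1
      ((isIntegral_algHom_iff ((F.val).restrictScalars k) (Subtype.val_injective)).2 hx)
  have hθ0 : θ ≠ 0 := by
    rintro rfl
    rw [zero_pow hp.ne', mul_zero] at hθ
    exact hca' hθ
  set yF : F2 := ⟨y, hF12 hyF1⟩ with hyF
  set θF : F2 := ⟨θ, hθF2⟩ with hθF
  have hθFint : IsIntegral k θF :=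
    (isIntegral_algHom_iff ((F2.val).restrictScalars k) (Subtype.val_injective)).1 hθint
  have hθF0 : θF ≠ 0 := fun h => hθ0 (congrArg (fun z : F2 => (z : AlgebraicClosure K)) h)
  set ζF : F2 := ⟨ζ, hFF2 ζ.2⟩ with hζF
  have hζFp : IsPrimitiveRoot ζF p := by
    have h1 : IsPrimitiveRoot (ζ : AlgebraicClosure K) p :=
      hζ.map_of_injective (f := F.val) Subtype.val_injective
    exact IsPrimitiveRoot.of_map_of_injective (f := F2.val) h1 Subtype.val_injective
  set dF : F2 := ⟨((b - a : F) : AlgebraicClosure K), hFF2 (b - a : F).2⟩ with hdF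
  have hdF0 : dF ≠ 0 := fun h => hab' (congrArg (fun z : F2 => (z : AlgebraicClosure K)) h)
  have hdFint : IsIntegral k dF := hint _ (hb.sub ha)
  have hdb' := hdb.of_le hFF2
  have hdc' := hdc.of_le hFF2
  have e1 : (⟨((t - b : F) : AlgebraicClosure K), hFF2 (t - b : F).2⟩ : F2) =
      dF * (yF ^ p - 1 ^ p) := by
    apply Subtype.ext
    show ((t - b : F) : AlgebraicClosure K) = ((b - a : F) : AlgebraicClosure K) *
      (y ^ p - 1 ^ p)
    rw [mul_sub, ← hy, one_pow, mul_one]
    push_cast
    ring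
  have e2 : (⟨((t - c : F) : AlgebraicClosure K), hFF2 (t - c : F).2⟩ : F2) =
      dF * (yF ^ p - θF ^ p) := by
    apply Subtype.ext
    show ((t - c : F) : AlgebraicClosure K) = ((b - a : F) : AlgebraicClosure K) *
      (y ^ p - θ ^ p)
    rw [mul_sub, ← hy, ← hθ]
    push_cast
    ring
  have hdiv : IsDivisible p k ((yF - θF) / (yF - 1)) := by
    intro V hV
    rcases le_or_gt (V.valuation yF) 1 with hfin | hpole
    · have key : ∀ η : F2, IsIntegral k η → η ≠ 0 → IsDivisible p k (dF * (yF ^ p - η ^ p)) →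
          ∃ z : F2, V.valuation (yF - η) = V.valuation z ^ p := by
        intro η hη hη0 hdiv
        rcases hV.factor hp hζFp η yF hη hη0 hfin with h | h
        · exact ⟨1, by rw [h, map_one, one_pow]⟩
        · obtain ⟨z, hz⟩ := hdiv V hV
          refine ⟨z, ?_⟩
          rw [← hz, map_mul, hV.val_alg hdFint hdF0, one_mul, h]
      obtain ⟨z1, hz1⟩ := key θF hθFint hθF0 (by rw [← e2]; exact hdc')
      obtain ⟨z2, hz2⟩ := key 1 isIntegral_one one_ne_zero (by rw [← e1]; exact hdb')
      exact ⟨z1 / z2, by rw [map_div₀, map_div₀, hz1, hz2, div_pow]⟩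
    · refine ⟨1, ?_⟩
      have h0 : V.valuation yF ≠ 0 := by
        intro h0
        rw [h0] at hpole
        exact absurd hpole (not_lt.2 zero_le)
      have h1 : V.valuation (yF - θF) = V.valuation yF := by
        apply Valuation.map_sub_eq_of_lt_left
        rw [hV.val_alg hθFint hθF0]
        exact hpole
      have h2 : V.valuation (yF - 1) = V.valuation yF := by
        apply Valuation.map_sub_eq_of_lt_left
        rw [map_one]
        exact hpole
      rw [map_div₀, h1, h2, div_self h0, map_one, one_pow]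
  obtain ⟨γ, hγ⟩ := IsAlgClosed.exists_pow_nat_eq (((yF - θF) / (yF - 1) : F2) :
    AlgebraicClosure K) hp
  obtain ⟨F3, hF3, -, hγF3⟩ := hF2.exists_root hpk γ _ hγ hdiv
  exact ⟨γ, hF3.le_maxUnr hγF3, hγ⟩

end P025H641
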