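import Vale.Agent.P025.H641.Norm

/-! # Residues and `p`-th powers in a locally compact ultrametric field -/

namespace P025H641

universe u

open Polynomial

/-- expansion of `(1 + z) ^ p` -/
lemma exists_poly_one_add (p : ℕ) (hp : p.Prime) : ∃ f : ℤ[X], ∀ (A : Type u) [CommRing A] (z : A),
    (1 + z) ^ p = 1 + z ^ p + p * z + p * z ^ 2 * aeval z f := by
  obtain ⟨r, hr⟩ := exists_add_pow_prime_eq hp (1 : ℤ[X]) X
  have h1 : X ∣ r - 1 := by
    rw [X_dvd_iff]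
    have h2 := congrArg (fun g => coeff g 1) hr
    simp only [one_pow, mul_one, coeff_add, coeff_one, one_ne_zero, if_false, zero_add,
      coeff_X_pow] at h2
    have hp1 : ¬ (1 = p) := fun h => hp.one_lt.ne h
    rw [if_neg hp1, zero_add, coeff_one_add_X_pow] at h2
    have h3 : (p : ℤ[X]) * X * r = X * (C (p : ℤ) * r) := by
      rw [show (C (p : ℤ) : ℤ[X]) = (p : ℤ[X]) from by simp]; ring
    rw [h3, coeff_X_mul, coeff_C_mul, Nat.choose_one_right] at h2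
    have h4 : (p : ℤ) ≠ 0 := by exact_mod_cast hp.ne_zero
    rw [coeff_sub, coeff_one_zero]
    have h5 : (p : ℤ) * (coeff r 0 - 1) = 0 := by
      linear_combination -h2
    exact (mul_eq_zero.1 h5).resolve_left h4
  obtain ⟨f, hf⟩ := h1
  refine ⟨f, ?_⟩
  intro A _ z
  have h2 := congrArg (aeval z) hr
  have h3 : r = 1 + X * f := by linear_combination hf
  rw [h3] at h2
  simp only [map_pow, map_add, map_one, aeval_X, map_mul, map_natCast, one_pow, mul_one] at h2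
  rw [h2]
  ring

section

variable {k : Type u} [NontriviallyNormedField k] [IsUltrametricDist k]

lemma one_add_pow_prime {p : ℕ} (hp : p.Prime) (z : k) (hz : ‖z‖ ≤ 1) :
    ∃ r : k, ‖r‖ ≤ 1 ∧ (1 + z) ^ p = 1 + z ^ p + p * z + p * z ^ 2 * r := by
  obtain ⟨f, hf⟩ := exists_poly_one_add.{u} p hp
  have h1 := hf (vring k) ⟨z, (mem_vring z).2 hz⟩
  refine ⟨(aeval (⟨z, (mem_vring z).2 hz⟩ : vring k) f : vring k), (mem_vring _).1 (SetLike.coe_mem _), ?_⟩
  have h2 := congrArg (fun x : vring k => (x : k)) h1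
  simpa using h2

lemma norm_pow_sub_pow_le {x y : k} (hx : ‖x‖ ≤ 1) (hy : ‖y‖ ≤ 1) (n : ℕ) :
    ‖x ^ n - y ^ n‖ ≤ ‖x - y‖ := by
  obtain ⟨c, hc⟩ := sub_dvd_pow_sub_pow (⟨x, (mem_vring x).2 hx⟩ : vring k)
    ⟨y, (mem_vring y).2 hy⟩ n
  have h1 := congrArg (fun x : vring k => (x : k)) hc
  simp only [AddSubgroupClass.coe_sub, SubmonoidClass.coe_pow, MulMemClass.coe_mul] at h1
  rw [h1, norm_mul]
  have h2 := (mem_vring _).1 c.2
  calc ‖x - y‖ * ‖(c : k)‖ ≤ ‖x - y‖ * 1 := by gcongr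
    _ = ‖x - y‖ := mul_one _

variable [ProperSpace k] {p : ℕ} [Fact p.Prime]

/-- Frobenius is injective on residues -/
lemma frob_inj (hp : ‖(p : k)‖ < 1) {x y : k} (hx : ‖x‖ ≤ 1) (hy : ‖y‖ ≤ 1)
    (h : ‖x ^ p - y ^ p‖ < 1) : ‖x - y‖ < 1 := by
  obtain ⟨r, hr⟩ := exists_add_pow_prime_eq (Fact.out : p.Prime)
    (⟨x - y, (mem_vring _).2 ((norm_sub_le_max x y).trans (max_le hx hy))⟩ :
      vring k) ⟨y, (mem_vring y).2 hy⟩
  have h1 := congrArg (fun x : vring k => (x : k)) hr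
  simp only [SubmonoidClass.coe_pow, MulMemClass.coe_mul, AddMemClass.coe_add,
    sub_add_cancel] at h1
  have h1 : x ^ p = (x - y) ^ p + y ^ p + p * (x - y) * y * (r : k) := by simpa using h1
  have hxy : ‖x - y‖ ≤ 1 := (norm_sub_le_max x y).trans (max_le hx hy)
  have h2 : ‖(p : k) * (x - y) * y * (r : k)‖ < 1 := by
    have hr1 := (mem_vring _).1 r.2
    rw [norm_mul, norm_mul, norm_mul]
    calc ‖(p : k)‖ * ‖x - y‖ * ‖y‖ * ‖(r : k)‖ ≤ ‖(p : k)‖ * 1 * 1 * 1 := by gcongr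
      _ < 1 := by simpa using hp
  have h3 : ‖(x - y) ^ p‖ < 1 := by
    have h4 : (x - y) ^ p = (x ^ p - y ^ p) - p * (x - y) * y * (r : k) := by
      linear_combination -h1
    rw [h4]
    exact lt_of_le_of_lt (norm_sub_le_max _ _) (max_lt h h2)
  rw [norm_pow] at h3
  by_contra h4
  push Not at h4
  exact absurd h3 (not_lt.2 (one_le_pow₀ h4))

/-- residues are `p`-th powers -/
lemma exists_root_mod (hp : ‖(p : k)‖ < 1) (a : k) (ha : ‖a‖ ≤ 1) :
    ∃ y : k, ‖y‖ ≤ 1 ∧ ‖y ^ p - a‖ < 1 := by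
  classical
  have hppos : 0 < p := (Fact.out : p.Prime).pos
  obtain ⟨T, hT⟩ := finite_residues (k := k) 1
  have hpow : ∀ i : ℕ, ‖a ^ i‖ ≤ 1 := fun i => by
    rw [norm_pow]; exact pow_le_one₀ (norm_nonneg a) ha
  choose t ht ht1 c hc hac using fun i : ℕ => hT (a ^ (p ^ i)) (hpow _)
  obtain ⟨i, j, hij, htij⟩ := Finite.exists_ne_map_eq_of_infinite
    (fun i : ℕ => (⟨t i, ht i⟩ : T))
  have htij' : t i = t j := congrArg Subtype.val htij
  -- descend
  have key : ∀ i j : ℕ, ‖a ^ (p ^ i) - a ^ (p ^ (i + j))‖ < 1 → ‖a - a ^ (p ^ j)‖ < 1 := by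
    intro i
    induction i with
    | zero => intro j h; simpa using h
    | succ i ih =>
      intro j h
      apply ih
      apply frob_inj hp (hpow _) (hpow _)
      rw [← pow_mul, ← pow_mul, ← pow_succ, ← pow_succ]
      have : i + j + 1 = i + 1 + j := by ring
      rw [this]; exact h
  have hmain : ∀ i j : ℕ, i < j → t i = t j → ∃ y : k, ‖y‖ ≤ 1 ∧ ‖y ^ p - a‖ < 1 := by
    intro i j hij htij'
    obtain ⟨l, rfl⟩ : ∃ l, j = i + (l + 1) := ⟨j - i - 1, by omega⟩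
    have h1 : ‖a ^ (p ^ i) - a ^ (p ^ (i + (l + 1)))‖ < 1 := by
      have h2 : a ^ (p ^ i) - a ^ (p ^ (i + (l + 1))) = unif k * (c i - c (i + (l + 1))) := by
        rw [hac i, hac (i + (l + 1)), htij']; ring
      rw [h2, norm_mul]
      have h3 : ‖c i - c (i + (l + 1))‖ ≤ 1 :=
        (norm_sub_le_max _ _).trans (max_le (hc _) (hc _))
      calc ‖unif k‖ * ‖c i - c (i + (l + 1))‖ ≤ ‖unif k‖ * 1 := by gcongr
        _ < 1 := by rw [mul_one]; exact unif_lt
    have h2 := key i (l + 1) h1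
    refine ⟨a ^ (p ^ l), hpow _, ?_⟩
    rw [← pow_mul, ← pow_succ, ← norm_neg, neg_sub]
    exact h2
  rcases lt_or_gt_of_ne hij with h | h
  · exact hmain i j h htij'
  · exact hmain j i h htij'.symm

/-- the value of `ζ - 1` -/
lemma norm_zeta {ζ : k} (hζ : IsPrimitiveRoot ζ p) :
    ‖ζ - 1‖ ^ (p - 1) = ‖(p : k)‖ := by
  have hpp : p.Prime := Fact.out
  have hnorm : ‖ζ‖ = 1 := by
    have h1 : ‖ζ‖ ^ p = 1 := by rw [← norm_pow, hζ.pow_eq_one, norm_one]
    exact (pow_eq_one_iff_of_nonneg (norm_nonneg _) hpp.ne_zero).1 h1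
  have hnormi : ∀ i : ℕ, ‖ζ ^ i‖ = 1 := fun i => by rw [norm_pow, hnorm, one_pow]
  have hle : ∀ i j : ℕ, ‖1 - ζ ^ (i * j)‖ ≤ ‖1 - ζ ^ i‖ := by
    intro i j
    have h1 := norm_pow_sub_pow_le (x := (1 : k)) (y := ζ ^ i) (by simp) (hnormi i).le j
    rw [one_pow, ← pow_mul] at h1
    exact h1
  have heq : ∀ i : ℕ, 0 < i → i < p → ‖1 - ζ ^ i‖ = ‖ζ - 1‖ := by
    intro i hi hip
    rw [← norm_neg (ζ - 1), neg_sub]
    apply le_antisymm
    · have := hle 1 i
      rwa [one_mul, pow_one] at this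
    · obtain ⟨j, -, hj⟩ := Nat.exists_mul_mod_eq_one_of_coprime
        ((Nat.coprime_of_lt_prime hi.ne' hip hpp).symm) hpp.one_lt
      have h1 := hle i j
      have h2 : ζ ^ (i * j) = ζ := by
        rw [← Nat.div_add_mod (i * j) p, hj, pow_add, pow_mul, hζ.pow_eq_one, one_pow, one_mul,
          pow_one]
      rwa [h2] at h1
  obtain ⟨n, hn⟩ : ∃ n, p = n + 1 := ⟨p - 1, by have := hpp.pos; omega⟩
  have h1 : IsPrimitiveRoot ζ (n + 1) := by rw [← hn]; exact hζ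
  have h2 := h1.prod_one_sub_pow_eq_order
  have h3 := congrArg norm h2
  rw [norm_prod] at h3
  rw [Finset.prod_congr rfl (fun i hi => heq (i + 1) (by omega) (by
    rw [Finset.mem_range] at hi; omega)), Finset.prod_const, Finset.card_range] at h3
  rw [hn]
  push_cast
  simpa using h3

end

end P025H641
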