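import Vale.Agent.P025.H641.Loc

/-! # Steinberg symbols: duality and uniqueness -/

namespace P025H641

universe u v

variable {p : ℕ} {k : Type u} {V : Type v} [Field k] [AddCommGroup V] [Module (ZMod p) V]

/-- A bilinear form on `V` with the Steinberg relation. -/
def Steinberg (L : Loc p k V) (H : V →ₗ[ZMod p] V →ₗ[ZMod p] ZMod p) : Prop :=
  ∀ u, u ≠ 0 → u ≠ 1 → H (L.cls u) (L.cls (1 - u)) = 0

namespace Steinberg

variable {L : Loc p k V} {H : V →ₗ[ZMod p] V →ₗ[ZMod p] ZMod p} (hH : Steinberg L H)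

include hH

/-- a sum of two nonzero elements equal to one -/
lemma sum_one (u w : k) (hu : u ≠ 0) (hw : w ≠ 0) (h : u + w = 1) :
    H (L.cls u) (L.cls w) = 0 := by
  have h1 : w = 1 - u := by linear_combination h
  rw [h1]
  apply hH u hu
  rintro rfl
  apply hw
  linear_combination h

lemma self_neg (x : k) (hx : x ≠ 0) : H (L.cls x) (L.cls (-x)) = 0 := by
  by_cases h1 : x = 1
  · rw [h1, L.cls_one, map_zero]; rfl
  have h2 : 1 - x ≠ 0 := sub_ne_zero.2 (Ne.symm h1)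
  have h3 : 1 - x⁻¹ ≠ 0 := by
    rw [sub_ne_zero]
    intro h
    apply h1
    rw [eq_comm, inv_eq_one] at h
    exact h
  have h4 : -x = (1 - x) / (1 - x⁻¹) := by
    rw [eq_div_iff h3]
    field_simp
    ring
  have h5 : H (L.cls x) (L.cls (1 - x⁻¹)) = 0 := by
    have h6 := hH.sum_one x⁻¹ (1 - x⁻¹) (inv_ne_zero hx) h3 (by ring)
    rw [L.cls_inv x hx, map_neg, LinearMap.neg_apply, neg_eq_zero] at h6
    exact h6
  rw [h4, L.cls_div _ _ h2 h3, map_sub, h5, hH.sum_one x (1 - x) hx h2 (by ring), sub_zero]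

lemma self (x : k) (hx : x ≠ 0) : H (L.cls x) (L.cls x) = - H (L.cls x) (L.cls (-1)) := by
  have h := hH.self_neg x hx
  rw [L.cls_neg x hx, map_add] at h
  exact eq_neg_of_add_eq_zero_right h

lemma antisymm_cls (x y : k) (hx : x ≠ 0) (hy : y ≠ 0) :
    H (L.cls x) (L.cls y) = - H (L.cls y) (L.cls x) := by
  have h := hH.self_neg (x * y) (mul_ne_zero hx hy)
  have h1 : -(x * y) = (-x) * y := by ring
  have h2 : -(x * y) = (-y) * x := by ring
  rw [L.cls_mul x y hx hy, map_add, LinearMap.add_apply] at h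
  nth_rewrite 1 [h1] at h
  rw [h2, L.cls_mul _ _ (neg_ne_zero.2 hx) hy, L.cls_mul _ _ (neg_ne_zero.2 hy) hx, map_add,
    map_add, hH.self_neg x hx, hH.self_neg y hy, zero_add, zero_add] at h
  exact eq_neg_of_add_eq_zero_left h

lemma antisymm (v w : V) : H v w = - H w v := by
  obtain ⟨x, hx, rfl⟩ := L.cls_surj v
  obtain ⟨y, hy, rfl⟩ := L.cls_surj w
  exact hH.antisymm_cls x y hx hy

/-- the basic identity -/
lemma ident (A B : k) (hA : A ≠ 0) (h1A : 1 + A ≠ 0) (h1B : 1 + B ≠ 0) (hAB : 1 - A * B ≠ 0) :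
    H (L.cls (1 + A)) (L.cls (1 + B)) =
      H (L.cls (1 - A * B)) (L.cls (A * (1 + B) / (1 + A))) := by
  have hAB' : A * (1 + B) ≠ 0 := mul_ne_zero hA h1B
  have hnA : -A ≠ 0 := neg_ne_zero.2 hA
  have h1 := hH.sum_one ((1 + A) / (1 - A * B)) (-(A * (1 + B)) / (1 - A * B))
    (div_ne_zero h1A hAB) (div_ne_zero (neg_ne_zero.2 hAB') hAB) (by field_simp; ring)
  have h2 := hH.self_neg (-A) hnA
  have h3 := hH.sum_one (1 + A) (-A) h1A hnA (by ring)
  have h4 : -(A * (1 + B)) = (-A) * (1 + B) := by ring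
  have h5 := hH.self (1 - A * B) hAB
  have h6 := hH.antisymm_cls (1 + A) (1 - A * B) h1A hAB
  rw [L.cls_div _ _ h1A hAB, h4, L.cls_div _ _ (mul_ne_zero hnA h1B) hAB,
    L.cls_mul _ _ hnA h1B] at h1
  simp only [map_sub, LinearMap.sub_apply, map_add] at h1
  rw [h3, h6, h5] at h1
  rw [L.cls_div _ _ hAB' h1A, L.cls_mul _ _ hA h1B, map_sub, map_add]
  rw [L.cls_neg A hA, map_add] at h1
  have h7 : H (L.cls (1 - A * B)) (L.cls (-1)) + H (L.cls (1 - A * B)) (L.cls (-1)) = 0 := by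
    rw [← map_add, L.two_cls_neg_one, map_zero]
  linear_combination h1 + h7

lemma zero_of_level (i j : ℕ) (hi : 0 < i) (hj : 0 < j) (hij : L.E < i + j) (a b : k)
    (ha : a ∈ L.O) (hb : b ∈ L.O) :
    H (L.cls (1 + L.π ^ i * a)) (L.cls (1 + L.π ^ j * b)) = 0 := by
  by_cases ha0 : a = 0
  · rw [ha0, mul_zero, add_zero, L.cls_one, map_zero]; rfl
  have hA : L.π ^ i * a ≠ 0 := mul_ne_zero (pow_ne_zero _ L.π_ne) ha0
  have h1 : 1 - (L.π ^ i * a) * (L.π ^ j * b) =
      1 + L.π ^ (L.E + 1) * (-(L.π ^ (i + j - (L.E + 1)) * (a * b))) := by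
    have : L.π ^ i * L.π ^ j = L.π ^ (L.E + 1) * L.π ^ (i + j - (L.E + 1)) := by
      rw [← pow_add, ← pow_add]; congr 1; omega
    linear_combination -(a * b) * this
  have hc : -(L.π ^ (i + j - (L.E + 1)) * (a * b)) ∈ L.O :=
    L.O.neg_mem (L.O.mul_mem (L.π_pow_mem _) (L.O.mul_mem ha hb))
  rw [hH.ident _ _ hA (L.one_add_ne i hi a ha) (L.one_add_ne j hj b hb)
    (by rw [h1]; exact L.one_add_ne _ (by omega) _ hc), h1, L.cls_E_succ _ hc, map_zero]
  rfl

/-- units are orthogonal to `ω` -/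
lemma unit_ω (u : k) (hu : u ≠ 0) (hv : L.val u = 0) : H (L.cls u) L.ω = 0 := by
  obtain ⟨a, ha, h⟩ := L.cls_unit u hu hv
  obtain ⟨b, hb, h1⟩ := L.exists_ω
  rw [h, ← h1]
  have := hH.zero_of_level 1 L.E one_pos (by have := L.two_le; omega) (by omega) a b ha hb
  rwa [pow_one] at this

lemma cls_ω (x : k) (hx : x ≠ 0) :
    H L.ω (L.cls x) = (L.val x : ZMod p) * H L.ω (L.cls L.π) := by
  obtain ⟨u, hu, hv, h⟩ := L.exists_unit_mul x hx
  nth_rewrite 1 [h]
  rw [L.cls_mul _ _ (zpow_ne_zero _ L.π_ne) hu, L.cls_zpow _ L.π_ne, map_add,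
    hH.antisymm L.ω (L.cls u), hH.unit_ω u hu hv, neg_zero, add_zero, map_zsmul, zsmul_eq_mul]

/-- the critical level -/
lemma crit (i : ℕ) (hi : 0 < i) (hiE : i < L.E) (a b : k) (ha : a ∈ L.O) (hb : b ∈ L.O) :
    H (L.cls (1 + L.π ^ i * a)) (L.cls (1 + L.π ^ (L.E - i) * b)) =
      - L.θ (a * b) * i * H L.ω (L.cls L.π) := by
  by_cases ha0 : a = 0
  · rw [ha0, mul_zero, add_zero, L.cls_one, map_zero, zero_mul, L.θ_zero]
    simp
  have hA : L.π ^ i * a ≠ 0 := mul_ne_zero (pow_ne_zero _ L.π_ne) ha0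
  have h1 : 1 - (L.π ^ i * a) * (L.π ^ (L.E - i) * b) = 1 + L.π ^ L.E * (-(a * b)) := by
    have : L.π ^ i * L.π ^ (L.E - i) = L.π ^ L.E := by
      rw [← pow_add]; congr 1; omega
    linear_combination -(a * b) * this
  have hab := L.O.mul_mem ha hb
  have hc : -(a * b) ∈ L.O := L.O.neg_mem hab
  have h1a := L.one_add_ne i hi a ha
  have h1b := L.one_add_ne (L.E - i) (by omega) b hb
  rw [hH.ident _ _ hA h1a h1b (by rw [h1]; exact L.one_add_ne _ (by omega) _ hc), h1,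
    L.cls_E _ hc, map_smul, LinearMap.smul_apply, smul_eq_mul,
    hH.cls_ω _ (div_ne_zero (mul_ne_zero hA h1b) h1a),
    L.val_div _ _ (mul_ne_zero hA h1b) h1a, L.val_mul _ _ hA h1b,
    L.val_one_add _ (by omega) b hb, L.val_one_add i hi a ha,
    L.val_mul _ _ (pow_ne_zero _ L.π_ne) ha0, L.val_π_pow, L.θ_neg _ hab]
  rcases L.dvd_or_unit a ha with ⟨c, hc, h⟩ | ⟨-, h⟩
  · rw [h, mul_assoc, L.θ_π _ (L.O.mul_mem hc hb)]
    simp
  · rw [h]
    push_cast
    ring

/-- if the form vanishes on `(ω, π)` then `ω` is orthogonal to everything -/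
lemma ω_zero (h0 : H L.ω (L.cls L.π) = 0) (w : V) : H L.ω w = 0 := by
  obtain ⟨x, hx, rfl⟩ := L.cls_surj w
  rw [hH.cls_ω x hx, h0, mul_zero]

variable [Fact p.Prime]

/-- duality of levels -/
lemma dual (h0 : H L.ω (L.cls L.π) ≠ 0) (m : ℕ) (hm : 0 < m) (hmE : m ≤ L.E) (D : V)
    (hD : ∀ a ∈ L.O, H D (L.cls (1 + L.π ^ m * a)) = 0) :
    ∃ b ∈ L.O, D = L.cls (1 + L.π ^ (L.E + 1 - m) * b) := by
  have hp : Fact (1 < p) := ⟨(Fact.out : p.Prime).one_lt⟩
  obtain ⟨y, hy, rfl⟩ := L.cls_surj D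
  -- `D` is orthogonal to `ω`
  have h1 : H (L.cls y) L.ω = 0 := by
    obtain ⟨a, ha, h⟩ := L.exists_ω
    obtain ⟨b, hb, h2⟩ := L.cls_level m L.E hmE a ha
    rw [← h, h2]
    exact hD b hb
  have h2 : ((L.val y : ℤ) : ZMod p) = 0 := by
    rw [hH.antisymm, hH.cls_ω y hy, neg_eq_zero] at h1
    exact (mul_eq_zero.1 h1).resolve_right h0
  -- `D` is the class of a unit
  obtain ⟨u, hu, hv, h3⟩ := L.exists_unit_mul y hy
  have h4 : L.cls y = L.cls u := by
    rw [h3, L.cls_mul _ _ (zpow_ne_zero _ L.π_ne) hu, L.cls_zpow _ L.π_ne,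
      ← Int.cast_smul_eq_zsmul (ZMod p), h2, zero_smul, zero_add]
  obtain ⟨b, hb, h5⟩ := L.cls_unit u hu hv
  rw [h4, h5] at hD ⊢
  have key : ∀ j, 0 < j → j ≤ L.E + 1 - m → ∃ c ∈ L.O,
      L.cls (1 + L.π * b) = L.cls (1 + L.π ^ j * c) := by
    intro j hj
    induction j, hj using Nat.le_induction with
    | base => intro _; exact ⟨b, hb, by norm_num⟩
    | succ j hj ih =>
      intro hjm
      obtain ⟨c, hc, h6⟩ := ih (by omega)
      by_cases hpj : p ∣ j
      · obtain ⟨d, hd, h7⟩ := L.cls_dvd j hj (by omega) hpj c hc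
        exact ⟨d, hd, h6.trans h7⟩
      · obtain ⟨d, hd, h7⟩ : ∃ d ∈ L.O, c = L.π * d := by
          apply L.dvd_of_θ c hc
          intro a ha
          obtain ⟨a', ha', h8⟩ := L.cls_level m (L.E - j) (by omega) a ha
          have h9 := hD a' ha'
          rw [← h8, h6, hH.crit j hj (by omega) c a hc ha] at h9
          rw [mul_eq_zero, or_iff_left h0, mul_eq_zero, neg_eq_zero] at h9
          refine h9.resolve_right ?_
          intro h10
          exact hpj ((ZMod.natCast_eq_zero_iff _ _).1 h10)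
        exact ⟨d, hd, by rw [h6, h7, pow_succ, mul_assoc]⟩
  exact key _ (by omega) le_rfl

/-- nondegeneracy -/
lemma nondeg (h0 : H L.ω (L.cls L.π) ≠ 0) (D : V) (hD : ∀ w, H D w = 0) : D = 0 := by
  obtain ⟨b, hb, h⟩ := hH.dual h0 1 one_pos (by have := L.two_le; omega) D (fun a _ => hD _)
  rw [Nat.add_sub_cancel, L.cls_E b hb] at h
  have h1 := hD (L.cls L.π)
  rw [h, map_smul, LinearMap.smul_apply, smul_eq_mul, mul_eq_zero, or_iff_left h0] at h1
  rw [h, h1, zero_smul]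

/-- **Uniqueness** (Moore): a Steinberg form that vanishes on `(ω, π)` is zero. -/
lemma eq_zero (h0 : H L.ω (L.cls L.π) = 0) (v w : V) : H v w = 0 := by
  have hp : Fact (1 < p) := ⟨(Fact.out : p.Prime).one_lt⟩
  have key : ∀ i j, 0 < j → i + j = L.E + 1 → ∀ a ∈ L.O, ∀ w,
      H (L.cls (1 + L.π ^ j * a)) w = 0 := by
    intro i
    induction i with
    | zero =>
      intro j _ hij a ha w
      rw [zero_add] at hij
      rw [hij, L.cls_E_succ a ha, map_zero]; rfl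
    | succ i ih =>
      intro j hj hij a ha w
      have ih' := ih (j + 1) (by omega) (by omega)
      by_cases hjE : j = L.E
      · rw [hjE, L.cls_E a ha, map_smul, LinearMap.smul_apply, hH.ω_zero h0, smul_zero]
      by_cases hpj : p ∣ j
      · obtain ⟨b, hb, h1⟩ := L.cls_dvd j hj (by omega) hpj a ha
        rw [h1]
        exact ih' b hb w
      rcases L.dvd_or_unit a ha with ⟨b, hb, h⟩ | ⟨ha0, hav⟩
      · rw [h, ← mul_assoc, ← pow_succ]
        exact ih' b hb w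
      -- orthogonal to units
      have h1a := L.one_add_ne j hj a ha
      have hA : L.π ^ j * a ≠ 0 := mul_ne_zero (pow_ne_zero _ L.π_ne) ha0
      have hunit : ∀ u, u ≠ 0 → L.val u = 0 → H (L.cls (1 + L.π ^ j * a)) (L.cls u) = 0 := by
        intro u hu hv
        obtain ⟨b, hb, h1⟩ := L.cls_unit u hu hv
        have h2 : 1 - (L.π ^ j * a) * (L.π * b) = 1 + L.π ^ (j + 1) * (-(a * b)) := by ring
        have hc : -(a * b) ∈ L.O := L.O.neg_mem (L.O.mul_mem ha hb)
        have h1b : 1 + L.π * b ≠ 0 := by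
          have := L.one_add_ne 1 one_pos b hb
          rwa [pow_one] at this
        rw [h1, hH.ident _ _ hA h1a h1b
          (by rw [h2]; exact L.one_add_ne _ (by omega) _ hc), h2]
        exact ih' _ hc _
      have hπ : H (L.cls (1 + L.π ^ j * a)) (L.cls L.π) = 0 := by
        have h1 := hH.sum_one (1 + L.π ^ j * a) (-(L.π ^ j * a)) h1a (neg_ne_zero.2 hA) (by ring)
        have h2 : -(L.π ^ j * a) = L.π ^ j * (-a) := by ring
        rw [h2, L.cls_mul _ _ (pow_ne_zero _ L.π_ne) (neg_ne_zero.2 ha0), L.cls_pow _ L.π_ne,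
          map_add, hunit _ (neg_ne_zero.2 ha0) (by rw [L.val_neg a ha0, hav]), add_zero,
          map_nsmul, nsmul_eq_mul, mul_eq_zero] at h1
        refine h1.resolve_left ?_
        intro h10
        exact hpj ((ZMod.natCast_eq_zero_iff _ _).1 h10)
      obtain ⟨y, hy, rfl⟩ := L.cls_surj w
      obtain ⟨u, hu, hv, h3⟩ := L.exists_unit_mul y hy
      rw [h3, L.cls_mul _ _ (zpow_ne_zero _ L.π_ne) hu, L.cls_zpow _ L.π_ne, map_add,
        map_zsmul, hπ, hunit u hu hv, smul_zero, add_zero]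
  have hunit : ∀ u, u ≠ 0 → L.val u = 0 → ∀ w, H (L.cls u) w = 0 := by
    intro u hu hv w
    obtain ⟨a, ha, h⟩ := L.cls_unit u hu hv
    have := key L.E 1 one_pos rfl a ha w
    rw [pow_one] at this
    rw [h, this]
  have hππ : H (L.cls L.π) (L.cls L.π) = 0 := by
    rw [hH.self _ L.π_ne, hH.antisymm, hunit _ (neg_ne_zero.2 one_ne_zero)
      (by rw [L.val_neg 1 one_ne_zero, L.val_one])]
    simp
  obtain ⟨x, hx, rfl⟩ := L.cls_surj v
  obtain ⟨y, hy, rfl⟩ := L.cls_surj w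
  obtain ⟨u, hu, hv, h3⟩ := L.exists_unit_mul x hx
  obtain ⟨u', hu', hv', h3'⟩ := L.exists_unit_mul y hy
  rw [h3, h3', L.cls_mul _ _ (zpow_ne_zero _ L.π_ne) hu, L.cls_zpow _ L.π_ne,
    L.cls_mul _ _ (zpow_ne_zero _ L.π_ne) hu', L.cls_zpow _ L.π_ne]
  simp only [map_add, LinearMap.add_apply, map_zsmul, LinearMap.smul_apply]
  rw [hunit u hu hv, hunit u hu hv, hππ, hH.antisymm (L.cls L.π) (L.cls u'),
    hunit u' hu' hv']
  simp

end Steinberg

/-- every Steinberg form is a multiple of a given nonzero one -/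
lemma Steinberg.unique [Fact p.Prime] {L : Loc p k V} {H B : V →ₗ[ZMod p] V →ₗ[ZMod p] ZMod p}
    (hH : Steinberg L H) (h0 : H L.ω (L.cls L.π) ≠ 0) (hB : Steinberg L B) :
    ∃ c : ZMod p, ∀ v w, B v w = c * H v w := by
  set c := B L.ω (L.cls L.π) / H L.ω (L.cls L.π) with hc
  have h1 : Steinberg L (B - c • H) := by
    intro u hu hu1
    rw [LinearMap.sub_apply, LinearMap.sub_apply, hB u hu hu1, LinearMap.smul_apply,
      LinearMap.smul_apply, hH u hu hu1, smul_zero, sub_zero]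
  refine ⟨c, fun v w => ?_⟩
  have h2 := h1.eq_zero (by
    rw [LinearMap.sub_apply, LinearMap.sub_apply, LinearMap.smul_apply,
      LinearMap.smul_apply, hc, smul_eq_mul, div_mul_cancel₀ _ h0, sub_self]) v w
  rw [LinearMap.sub_apply, LinearMap.sub_apply, LinearMap.smul_apply,
      LinearMap.smul_apply, smul_eq_mul, sub_eq_zero] at h2
  exact h2

end P025H641
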