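import Vale.Agent.P025.H641.NonNorm
import Vale.Agent.P025.H641.Brauer2
import Vale.Agent.P025.H641.FinR

/-! # The symbol of a locally compact ultrametric field -/

namespace P025H641

universe u v

open Polynomial

section general

variable {k : Type u} [Field k] [CharZero k] {p : ℕ} [Fact p.Prime]

/-- a finite Galois extension with all `p`-th roots -/
lemma exists_all_roots [Finite (Cl p k)] : ∃ (M : Type u) (_ : Field M) (_ : Algebra k M),
    FiniteDimensional k M ∧ IsGalois k M ∧ ∀ γ : k, ∃ θ : M, θ ^ p = algebraMap k M γ := by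
  classical
  have hpp : p.Prime := Fact.out
  let _ : Fintype (Cl p k) := Fintype.ofFinite _
  choose r hr0 hr using clsm_surj (p := p) (k := k)
  set P : k[X] := ∏ v : Cl p k, (X ^ p - C (r v)) with hP
  have hP0 : P ≠ 0 := Finset.prod_ne_zero_iff.2 fun v _ => (monic_X_pow_sub_C (r v) hpp.ne_zero).ne_zero
  refine ⟨P.SplittingField, inferInstance, inferInstance, inferInstance, ?_, ?_⟩
  · have := Normal.of_isSplittingField (F := k) (E := P.SplittingField) P
    exact ⟨⟩
  · intro γ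
    by_cases hγ : γ = 0
    · exact ⟨0, by rw [hγ, map_zero, zero_pow hpp.ne_zero]⟩
    have h1 : clsm p (γ / r (clsm p γ)) = 0 := by
      have h2 : γ = γ / r (clsm p γ) * r (clsm p γ) := by
        rw [div_mul_cancel₀ _ (hr0 _)]
      have h3 := clsm_mul (p := p) (γ / r (clsm p γ)) (r (clsm p γ)) (div_ne_zero hγ (hr0 _)) (hr0 _)
      rw [← h2, hr] at h3
      exact right_eq_add.1 h3
    rw [clsm_eq_zero hpp.ne_zero _ (div_ne_zero hγ (hr0 _))] at h1
    obtain ⟨y, hy⟩ := h1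
    have hs : ((X ^ p - C (r (clsm p γ))).map (algebraMap k P.SplittingField)).Splits := by
      apply Splits.of_dvd (SplittingField.splits P)
      · exact (Polynomial.map_ne_zero_iff (algebraMap k P.SplittingField).injective).2 hP0
      · exact Polynomial.map_dvd _ (Finset.dvd_prod_of_mem (fun v => X ^ p - C (r v)) (Finset.mem_univ _))
    obtain ⟨θ, hθ⟩ := Splits.exists_eval_eq_zero hs (by
      rw [degree_map, degree_X_pow_sub_C hpp.pos]
      exact_mod_cast hpp.ne_zero)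
    rw [Polynomial.map_sub, Polynomial.map_pow, map_X, map_C, eval_sub, eval_pow, eval_X, eval_C,
      sub_eq_zero] at hθ
    refine ⟨θ * algebraMap k _ y, ?_⟩
    rw [mul_pow, hθ, ← map_pow, ← map_mul, ← hy, mul_div_cancel₀ _ (hr0 _)]

/-- descent of a pairing to classes -/
lemma exists_bilin (h : kˣ → kˣ → ZMod p) (h1 : ∀ x y z, h (x * y) z = h x z + h y z)
    (h2 : ∀ x y z, h x (y * z) = h x y + h x z) :
    ∃ H : Cl p k →ₗ[ZMod p] Cl p k →ₗ[ZMod p] ZMod p, ∀ (x y : k) (hx : x ≠ 0) (hy : y ≠ 0),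
      H (clsm p x) (clsm p y) = h (Units.mk0 x hx) (Units.mk0 y hy) := by
  classical
  have h1p : ∀ x z n, h (x ^ n) z = n • h x z := by
    intro x z n
    induction n with
    | zero =>
      have := h1 1 1 z
      rw [mul_one] at this
      rw [pow_zero, zero_smul]
      exact left_eq_add.1 this
    | succ n ih => rw [pow_succ, h1, ih, succ_nsmul]
  have h2p : ∀ x z n, h x (z ^ n) = n • h x z := by
    intro x z n
    induction n with
    | zero =>
      have := h2 x 1 1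
      rw [mul_one] at this
      rw [pow_zero, zero_smul]
      exact left_eq_add.1 this
    | succ n ih => rw [pow_succ, h2, ih, succ_nsmul]
  choose r hr using Cl.mk_surj (p := p) (k := k)
  have hdiv : ∀ u u' : kˣ, Cl.mk p k (Additive.ofMul u) = Cl.mk p k (Additive.ofMul u') →
      ∃ w : kˣ, u = w ^ p * u' := by
    intro u u' huu
    have h3 : Cl.mk p k (Additive.ofMul (u / u')) = 0 := by
      rw [ofMul_div, map_sub, huu, sub_self]
    rw [Cl.mk_eq_zero] at h3
    obtain ⟨w, hw⟩ := h3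
    exact ⟨w, by rw [hw]; simp⟩
  have hcong : ∀ u u' w w' : kˣ, Cl.mk p k (Additive.ofMul u) = Cl.mk p k (Additive.ofMul u') →
      Cl.mk p k (Additive.ofMul w) = Cl.mk p k (Additive.ofMul w') → h u w = h u' w' := by
    intro u u' w w' hu hw
    obtain ⟨a, rfl⟩ := hdiv u u' hu
    obtain ⟨b, rfl⟩ := hdiv w w' hw
    have hz : ∀ c : ZMod p, p • c = 0 := fun c => by rw [nsmul_eq_mul, ZMod.natCast_self, zero_mul]
    rw [h1, h2, h2, h1p, h1p, h2p u' b p, hz, hz, hz, zero_add, zero_add, zero_add]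
  set H0 : Cl p k → Cl p k → ZMod p := fun v w => h (r v) (r w) with hH0
  have hmk : ∀ u w : kˣ, H0 (Cl.mk p k (Additive.ofMul u)) (Cl.mk p k (Additive.ofMul w)) = h u w :=
    fun u w => hcong _ _ _ _ (hr _) (hr _)
  have add_right : ∀ v w w', H0 v (w + w') = H0 v w + H0 v w' := by
    intro v w w'
    obtain ⟨u, rfl⟩ := Cl.mk_surj v
    obtain ⟨a, rfl⟩ := Cl.mk_surj w
    obtain ⟨b, rfl⟩ := Cl.mk_surj w'
    rw [← map_add, ← ofMul_mul, hmk, hmk, hmk, h2]
  have add_left : ∀ v v' w, H0 (v + v') w = H0 v w + H0 v' w := by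
    intro v v' w
    obtain ⟨u, rfl⟩ := Cl.mk_surj w
    obtain ⟨a, rfl⟩ := Cl.mk_surj v
    obtain ⟨b, rfl⟩ := Cl.mk_surj v'
    rw [← map_add, ← ofMul_mul, hmk, hmk, hmk, h1]
  let H1 : Cl p k → (Cl p k →ₗ[ZMod p] ZMod p) := fun v =>
    (AddMonoidHom.mk' (H0 v) (add_right v)).toZModLinearMap p
  let H2 : Cl p k →ₗ[ZMod p] (Cl p k →ₗ[ZMod p] ZMod p) :=
    (AddMonoidHom.mk' H1 (fun v v' => by
      ext w
      exact add_left v v' w)).toZModLinearMap p
  refine ⟨H2, fun x y hx hy => ?_⟩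
  rw [clsm_eq x hx, clsm_eq y hy]
  exact hmk _ _

lemma nrm_one_sub {ζ : k} (hζ : IsPrimitiveRoot ζ p) (u : k) : nrm p ζ (1 - X) u = 1 - u := by
  have hpp : p.Prime := Fact.out
  obtain ⟨θ, hθ⟩ := IsAlgClosed.exists_pow_nat_eq (algebraMap k (AlgebraicClosure k) u) hpp.pos
  apply (algebraMap k (AlgebraicClosure k)).injective
  rw [nrm_spec hpp.pos hζ _ u θ hθ]
  have h1 := X_pow_sub_C_eq_prod (hζ.map_of_injective (algebraMap k (AlgebraicClosure k)).injective)
    hpp.pos hθ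
  have h2 := congrArg (eval 1) h1
  rw [eval_prod] at h2
  simp only [eval_sub, eval_pow, eval_X, one_pow, eval_C] at h2
  rw [map_sub, map_one, h2]
  refine Finset.prod_congr rfl (fun i _ => ?_)
  simp

end general

section

variable {k : Type u} [NontriviallyNormedField k] [IsUltrametricDist k] [ProperSpace k] [CharZero k]
  {p : ℕ} [Fact p.Prime] (R : Ram k p)

/-- **Existence of the symbol.** -/
theorem Ram.exists_H {ζ : k} (hζ : IsPrimitiveRoot ζ p) :
    ∃ H : Cl p k →ₗ[ZMod p] Cl p k →ₗ[ZMod p] ZMod p, Steinberg R.loc H ∧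
      H R.ω (clsm p (unif k)) ≠ 0 ∧
      ∀ (γ β : k) (f : k[X]), γ ≠ 0 → β ≠ 0 → β = nrm p ζ f γ → H (clsm p γ) (clsm p β) = 0 := by
  classical
  have hpp : p.Prime := Fact.out
  have hE : 0 < p * R.e := Nat.mul_pos hpp.pos R.pos
  have hfin := R.finite_Cl
  obtain ⟨M, hM1, hM2, hM3, hM4, hM5⟩ := exists_all_roots (k := k) (p := p)
  have hα : 1 + unif k ^ (p * R.e) * R.a1 ≠ 0 := ne_zero_of_norm (one_add_norm _ hE _ R.a1_norm)
  obtain ⟨h, h1, h2, h3, h4⟩ := exists_symbol hζ (Units.mk0 _ hα) (Units.mk0 (unif k) unif_ne)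
    (by
      rintro ⟨y, hy⟩
      exact R.not_pow y hy.symm)
    (by
      rintro ⟨f, hf⟩
      exact R.not_nrm hζ f hf) M hM5
  obtain ⟨H, hH⟩ := exists_bilin h h1 h2
  have hn : ∀ (γ β : k) (f : k[X]), γ ≠ 0 → β ≠ 0 → β = nrm p ζ f γ →
      H (clsm p γ) (clsm p β) = 0 := by
    intro γ β f hγ hβ hf
    rw [hH γ β hγ hβ]
    exact h3 (Units.mk0 γ hγ) (Units.mk0 β hβ) f hf
  refine ⟨H, ?_, ?_, hn⟩
  · intro u hu0 hu1
    exact hn u (1 - u) (1 - X) hu0 (sub_ne_zero.2 (Ne.symm hu1)) (nrm_one_sub hζ u).symm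
  · rw [Ram.ω, hH _ _ hα unif_ne]
    exact h4

end

end P025H641
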