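import Vale.Agent.P025.H641.Etale

/-! # Finite unramified extensions: adjoining constants and roots of divisible elements -/

open IntermediateField

namespace P025H641

universe u v w

open Polynomial

section general

variable {k : Type u} [Field k]

/-- residues of nonzero constants -/
lemma unram_root {F : Type v} {E : Type w} [Field F] [Field E] [Algebra F E] [Algebra k F]
    [Algebra k E] [IsScalarTower k F E] [Algebra.IsAlgebraic F E] {n : ℕ} (hn : (n : k) ≠ 0)
    (w : E) (f : F) (hw : w ^ n = algebraMap F E f)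
    (hgen : ∀ x : E, ∃ P : F[X], x = aeval w P) (hdiv : IsDivisible n k f)
    {V : ValuationSubring E} (hV : IsPlace k E V) (x : E) :
    ∃ y : F, V.valuation (algebraMap F E y) = V.valuation x := by
  have hn0 : n ≠ 0 := by rintro rfl; exact hn Nat.cast_zero
  by_cases hf : f = 0
  · have hw0 : w = 0 := by
      rw [hf, map_zero] at hw
      exact (pow_eq_zero_iff hn0).1 hw
    obtain ⟨P, hP⟩ := hgen x
    refine ⟨P.eval 0, ?_⟩
    rw [hP, hw0, ← map_zero (algebraMap F E), aeval_algebraMap_apply_eq_algebraMap_eval]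
  set W := V.comap (algebraMap F E) with hW
  have hWp : IsPlace k F W := hV.comap
  obtain ⟨y, hy⟩ := hdiv W hWp
  have hy0 : y ≠ 0 := by
    rintro rfl
    rw [map_zero, zero_pow hn0, map_eq_zero] at hy
    exact hf hy
  have hyE : algebraMap F E y ≠ 0 := (_root_.map_ne_zero _).2 hy0
  have hg1 : W.valuation (f / y ^ n) = 1 := by
    rw [map_div₀, hy, map_pow]
    exact div_self (pow_ne_zero n ((_root_.map_ne_zero _).2 hy0))
  have hgW : f / y ^ n ∈ W := (W.valuation_le_one_iff _).1 hg1.le
  set g : W := ⟨f / y ^ n, hgW⟩ with hg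
  have hgu : IsLocalRing.residue W g ≠ 0 := by
    rw [Ne, IsLocalRing.residue_eq_zero_iff, W.valuation_lt_one_iff]
    exact hg1.not_lt
  have hnu : ((n : ℕ) : IsLocalRing.ResidueField W) ≠ 0 := by
    have h1 : ((n : ℕ) : IsLocalRing.ResidueField W) = IsLocalRing.residue W (n : W) := by
      rw [map_natCast]
    rw [h1, Ne, IsLocalRing.residue_eq_zero_iff, W.valuation_lt_one_iff]
    have h2 : (((n : ℕ) : W) : F) = algebraMap k F n := by
      rw [map_natCast]
      exact map_natCast W.subtype n
    rw [h2, hWp.val_const hn]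
    exact lt_irrefl _
  refine etale_value hV (w / algebraMap F E y) ?_ W hW (X ^ n - C g) (monic_X_pow_sub_C g hn0)
    ?_ ?_ x
  · intro z
    obtain ⟨P, hP⟩ := hgen z
    refine ⟨P.comp (C y * X), ?_⟩
    rw [aeval_comp, map_mul, aeval_C, aeval_X, mul_div_cancel₀ _ hyE, hP]
  · rw [Polynomial.map_sub, Polynomial.map_pow, map_X, map_C, map_sub, map_pow, aeval_X, aeval_C,
      div_pow, hw]
    have h1 : W.subtype g = f / y ^ n := rfl
    rw [h1, map_div₀, map_pow, sub_self]
  · rw [Polynomial.map_sub, Polynomial.map_pow, map_X, map_C]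
    exact separable_X_pow_sub_C _ hnu hgu

lemma unram_const {F : Type v} {E : Type w} [Field F] [Field E] [Algebra F E] [Algebra k F]
    [Algebra k E] [IsScalarTower k F E] [Algebra.IsAlgebraic F E] [CharZero k]
    (α : E) (hα : IsIntegral k α) (hgen : ∀ x : E, ∃ P : F[X], x = aeval α P)
    {V : ValuationSubring E} (hV : IsPlace k E V) (x : E) :
    ∃ y : F, V.valuation (algebraMap F E y) = V.valuation x := by
  set W := V.comap (algebraMap F E) with hW
  have hWp : IsPlace k F W := hV.comap
  let φ : k →+* W := (algebraMap k F).codRestrict W.toSubring (fun x => hWp.const_mem x)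
  have hφ : W.subtype.comp φ = algebraMap k F := rfl
  refine etale_value hV α hgen W hW ((minpoly k α).map φ) ((minpoly.monic hα).map φ) ?_ ?_ x
  · rw [Polynomial.map_map, hφ, aeval_map_algebraMap, minpoly.aeval]
  · rw [Polynomial.map_map]
    exact (minpoly.irreducible hα).separable.map

end general

variable {k : Type u} {K : Type v} [Field k] [Field K] [Algebra k K]

/-- finite and unramified subextensions of the algebraic closure -/
def IsFinUnr (k : Type u) {K : Type v} [Field k] [Field K] [Algebra k K]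
    (F : IntermediateField K (AlgebraicClosure K)) : Prop :=
  FiniteDimensional K F ∧ IsUnramified k K F

lemma IsDivisible.map_algebraMap {n : ℕ} {F E : Type*} [Field F] [Field E] [Algebra F E]
    [Algebra k F] [Algebra k E] [IsScalarTower k F E] [Algebra.IsAlgebraic F E] {f : F}
    (hf : IsDivisible n k f) : IsDivisible n k (algebraMap F E f) := by
  intro V hV
  obtain ⟨y, hy⟩ := hf _ (hV.comap (F := F))
  refine ⟨algebraMap F E y, ?_⟩
  rw [← map_pow, comap_val_eq_iff] at hy
  rw [hy, map_pow, map_pow]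

lemma isDivisible_const {n : ℕ} {F : Type*} [Field F] [Algebra k F] {c : F} (hc : IsIntegral k c)
    (hc0 : c ≠ 0) : IsDivisible n k c := by
  intro V hV
  exact ⟨1, by rw [hV.val_alg hc hc0]; simp⟩

lemma IsDivisible.div {n : ℕ} {F : Type*} [Field F] [Algebra k F] {f g : F}
    (hf : IsDivisible n k f) (hg : IsDivisible n k g) : IsDivisible n k (f / g) := by
  intro V hV
  obtain ⟨x, hx⟩ := hf V hV
  obtain ⟨y, hy⟩ := hg V hV
  exact ⟨x / y, by rw [map_div₀, hx, hy, map_div₀, div_pow]⟩

lemma IsDivisible.mul {n : ℕ} {F : Type*} [Field F] [Algebra k F] {f g : F}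
    (hf : IsDivisible n k f) (hg : IsDivisible n k g) : IsDivisible n k (f * g) := by
  intro V hV
  obtain ⟨x, hx⟩ := hf V hV
  obtain ⟨y, hy⟩ := hg V hV
  exact ⟨x * y, by rw [map_mul, hx, hy, map_mul, mul_pow]⟩

lemma isFinUnr_bot : IsFinUnr k (⊥ : IntermediateField K (AlgebraicClosure K)) := by
  refine ⟨inferInstance, ?_⟩
  intro V _ x
  obtain ⟨y, hy⟩ := IntermediateField.mem_bot.1 x.2
  refine ⟨y, ?_⟩
  congr 1
  apply Subtype.ext
  exact hy

lemma IsFinUnr.le_maxUnr {F : IntermediateField K (AlgebraicClosure K)} (hF : IsFinUnr k F) :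
    F ≤ maxUnr k K :=
  le_sSup hF

/-- one step of the tower -/
lemma IsFinUnr.step {F : IntermediateField K (AlgebraicClosure K)} (hF : IsFinUnr k F)
    (w : AlgebraicClosure K)
    (H : ∀ (E : IntermediateField K (AlgebraicClosure K)) (hFE : F ≤ E) (hw : w ∈ E),
      let _ : Algebra F E := (IntermediateField.inclusion hFE).toRingHom.toAlgebra
      IsScalarTower k F E → Algebra.IsAlgebraic F E →
      (∀ x : E, ∃ P : F[X], x = aeval (⟨w, hw⟩ : E) P) →
      ∀ (V : ValuationSubring E), IsPlace k E V → ∀ x : E, ∃ y : F,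
        V.valuation (algebraMap F E y) = V.valuation x) :
    ∃ F' : IntermediateField K (AlgebraicClosure K), IsFinUnr k F' ∧ F ≤ F' ∧ w ∈ F' := by
  obtain ⟨hfin, hunr⟩ := hF
  have hint : IsIntegral F w := (Algebra.IsIntegral.isIntegral (R := K) w).tower_top
  have : FiniteDimensional F F⟮w⟯ := IntermediateField.adjoin.finiteDimensional hint
  have hfin2 : FiniteDimensional K F⟮w⟯ := FiniteDimensional.trans K F F⟮w⟯
  set E : IntermediateField K (AlgebraicClosure K) := (F⟮w⟯).restrictScalars K with hE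
  have hfinE : FiniteDimensional K E := hfin2
  have hFE : F ≤ E := fun x hx => (F⟮w⟯).algebraMap_mem ⟨x, hx⟩
  have hwE : w ∈ E := IntermediateField.mem_adjoin_simple_self F w
  let _ : Algebra F E := (IntermediateField.inclusion hFE).toRingHom.toAlgebra
  have ht1 : IsScalarTower K F E := IsScalarTower.of_algebraMap_eq (fun x => rfl)
  have ht2 : IsScalarTower k F E := IsScalarTower.of_algebraMap_eq (fun x => rfl)
  have halg : Algebra.IsAlgebraic F E := Algebra.IsAlgebraic.tower_top (K := K) F
  have hgen : ∀ x : E, ∃ P : F[X], x = aeval (⟨w, hwE⟩ : E) P := by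
    intro x
    have hx : (x : AlgebraicClosure K) ∈ Algebra.adjoin F {w} := by
      have h1 := IntermediateField.adjoin_simple_toSubalgebra_of_isAlgebraic hint.isAlgebraic
      rw [← h1]
      exact x.2
    rw [Algebra.adjoin_singleton_eq_range_aeval] at hx
    obtain ⟨P, hP⟩ := hx
    refine ⟨P, ?_⟩
    apply Subtype.ext
    have h2 : ((aeval (⟨w, hwE⟩ : E) P : E) : AlgebraicClosure K) = aeval w P := by
      rw [aeval_def, aeval_def]
      have h3 := hom_eval₂ P (algebraMap F E) (algebraMap E (AlgebraicClosure K)) (⟨w, hwE⟩ : E)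
      exact h3
    rw [h2]
    exact hP.symm
  refine ⟨E, ⟨hfinE, ?_⟩, hFE, hwE⟩
  intro V hV x
  obtain ⟨y, hy⟩ := H E hFE hwE ht2 halg hgen V hV x
  obtain ⟨z, hz⟩ := hunr _ (hV.comap (F := F)) y
  refine ⟨z, ?_⟩
  rw [comap_val_eq_iff] at hz
  rw [IsScalarTower.algebraMap_apply K F E, hz, hy]

lemma IsFinUnr.exists_root {n : ℕ} (hn : (n : k) ≠ 0)
    {F : IntermediateField K (AlgebraicClosure K)} (hF : IsFinUnr k F) (w : AlgebraicClosure K)
    (f : F) (hw : w ^ n = (f : AlgebraicClosure K)) (hdiv : IsDivisible n k f) :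
    ∃ F' : IntermediateField K (AlgebraicClosure K), IsFinUnr k F' ∧ F ≤ F' ∧ w ∈ F' := by
  apply hF.step w
  intro E hFE hwE _ ht halg hgen V hV x
  exact unram_root hn (⟨w, hwE⟩ : E) f (Subtype.ext hw) hgen hdiv hV x

lemma IsFinUnr.exists_const [CharZero k]
    {F : IntermediateField K (AlgebraicClosure K)} (hF : IsFinUnr k F) (w : AlgebraicClosure K)
    (hw : IsIntegral k w) :
    ∃ F' : IntermediateField K (AlgebraicClosure K), IsFinUnr k F' ∧ F ≤ F' ∧ w ∈ F' := by
  apply hF.step w
  intro E hFE hwE _ ht halg hgen V hV x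
  refine unram_const (⟨w, hwE⟩ : E) ?_ hgen hV x
  exact (isIntegral_algHom_iff ((E.val).restrictScalars k) (Subtype.val_injective)).1 hw

lemma mem_maxUnr_of_const [CharZero k] (w : AlgebraicClosure K) (hw : IsIntegral k w) :
    w ∈ maxUnr k K := by
  obtain ⟨F, hF, -, h⟩ := isFinUnr_bot.exists_const w hw
  exact hF.le_maxUnr h

end P025H641
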