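import Vale.Agent.P025.H641.Good

/-! # From classes to places -/

namespace P025H641

universe u v w

open Filter Topology

section

variable {p : ℕ} [Fact p.Prime] {k : Type u} [NontriviallyNormedField k]
  {E : Type v} [Field E] [Algebra k E]

/-- every class has small representatives -/
lemma clsm_small (v : Cl p k) (ρ : ℝ) (hρ : 0 < ρ) : ∃ x : k, x ≠ 0 ∧ ‖x‖ < ρ ∧ clsm p x = v := by
  have hpp : p.Prime := Fact.out
  obtain ⟨x0, hx0, hx⟩ := clsm_surj v
  obtain ⟨c, hc0, hc1⟩ := NormedField.exists_norm_lt_one k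
  have hc : c ≠ 0 := norm_pos_iff.1 hc0
  have hx0n : 0 < ‖x0‖ := norm_pos_iff.2 hx0
  obtain ⟨m, hm⟩ := exists_pow_lt_of_lt_one (div_pos hρ hx0n) hc1
  refine ⟨x0 * (c ^ m) ^ p, mul_ne_zero hx0 (pow_ne_zero p (pow_ne_zero m hc)), ?_, ?_⟩
  · rw [norm_mul, mul_comm, ← lt_div_iff₀ hx0n, norm_pow, norm_pow]
    refine lt_of_le_of_lt ?_ hm
    exact pow_le_of_le_one (by positivity) (pow_le_one₀ hc0.le hc1.le) hpp.ne_zero
  · rw [clsm_mul _ _ hx0 (pow_ne_zero p (pow_ne_zero m hc)), clsm_pow hpp.ne_zero _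
      (pow_ne_zero m hc), add_zero, hx]

omit [Fact p.Prime] [NontriviallyNormedField k] in
lemma clsm_div {k : Type u} [Field k] (x y : k) (hx : x ≠ 0) (hy : y ≠ 0) :
    clsm p (x / y) = clsm p x - clsm p y := by
  have h3 := clsm_mul (p := p) (x / y) y (div_ne_zero hx hy) hy
  rw [div_mul_cancel₀ _ hy] at h3
  rw [h3, add_sub_cancel_right]

/-- the data of a class map satisfying all finite pattern conditions -/
structure ChiData (p : ℕ) [Fact p.Prime] (k : Type u) [NontriviallyNormedField k]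
    (E : Type v) [Field E] [Algebra k E] where
  /-- the constant of local constancy -/
  ε : ℝ
  ε_pos : 0 < ε
  ε_lt : ε < 1
  near : ∀ x δ : k, x ≠ 0 → ‖δ‖ ≤ ‖x‖ * ε → x + δ ≠ 0 ∧ clsm p (x + δ) = clsm p x
  /-- the symbol -/
  H : Cl p k →ₗ[ZMod p] Cl p k →ₗ[ZMod p] ZMod p
  H_ne : ∃ u v, H u v ≠ 0
  H_st : ∀ x : k, x ≠ 0 → x ≠ 1 → H (clsm p x) (clsm p (1 - x)) = 0
  /-- the classes -/
  χ : E → Cl p k
  mul : ∀ f g, f ≠ 0 → g ≠ 0 → χ (f * g) = χ f + χ g
  const : ∀ c : k, c ≠ 0 → χ (algebraMap k E c) = clsm p c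
  pat : ∀ f, f ∉ Set.range (algebraMap k E) → ∀ A₀ : Finset k, ∃ z, ∀ a ∈ A₀, z ≠ a ∧
    χ (f - algebraMap k E a) = clsm p (z - a)

namespace ChiData

variable (D : ChiData p k E)

/-- `f` takes the value `z` -/
def At (f : E) (z : k) : Prop := ∀ a : k, a ≠ z → D.χ (f - algebraMap k E a) = clsm p (z - a)

/-- `f` takes the value `∞` -/
def Inf (f : E) : Prop := ∀ a b : k, D.χ (f - algebraMap k E a) = D.χ (f - algebraMap k E b)

lemma at_const (c : k) : D.At (algebraMap k E c) c := by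
  intro a ha
  rw [← map_sub, D.const _ (sub_ne_zero.2 (Ne.symm ha))]

include D in
lemma exists_ne : ∃ v : Cl p k, v ≠ 0 := by
  obtain ⟨u, v, h⟩ := D.H_ne
  exact ⟨v, by rintro rfl; exact h (map_zero _)⟩

lemma at_unique {f : E} {z z' : k} (h : D.At f z) (h' : D.At f z') : z = z' := by
  by_contra hne
  have hd : z' - z ≠ 0 := sub_ne_zero.2 (Ne.symm hne)
  have hdn : 0 < ‖z' - z‖ := norm_pos_iff.2 hd
  have key : ∀ v : Cl p k, v = clsm p (z' - z) := by
    intro v
    obtain ⟨x, hx0, hx, hv⟩ := clsm_small v (‖z' - z‖ * D.ε) (mul_pos hdn D.ε_pos)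
    have h1 := h (z - x) (by
      intro h0
      apply hx0
      rw [sub_eq_self] at h0
      exact h0)
    have hn := D.near (z' - z) x hd hx.le
    have h2 := h' (z - x) (by
      intro h0
      apply hn.1
      rw [← h0]; ring)
    have e1 : z - (z - x) = x := by ring
    have e2 : z' - (z - x) = z' - z + x := by ring
    rw [e1] at h1
    rw [e2] at h2
    rw [← hv, ← h1, h2, hn.2]
  obtain ⟨v, hv⟩ := D.exists_ne
  exact hv ((key v).trans (key 0).symm)

lemma not_inf_of_at {f : E} {z : k} (h : D.At f z) : ¬ D.Inf f := by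
  intro hinf
  have key : ∀ v : Cl p k, v = D.χ (f - algebraMap k E (z + 1)) := by
    intro v
    obtain ⟨x, hx0, -, hv⟩ := clsm_small v 1 one_pos
    have h1 := h (z - x) (by
      intro h0
      apply hx0
      rw [sub_eq_self] at h0
      exact h0)
    have e1 : z - (z - x) = x := by ring
    rw [e1] at h1
    rw [← hv, ← h1]
    exact hinf _ _
  obtain ⟨v, hv⟩ := D.exists_ne
  exact hv ((key v).trans (key 0).symm)

lemma at_or_inf [ProperSpace k] (f : E) : (∃ z, D.At f z) ∨ D.Inf f := by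
  classical
  by_cases hf : f ∈ Set.range (algebraMap k E)
  · obtain ⟨c, rfl⟩ := hf
    exact Or.inl ⟨c, D.at_const c⟩
  have h := D.pat f hf
  choose z hz using h
  set U : Ultrafilter (Finset k) := Ultrafilter.of Filter.atTop with hU
  have hUle : (U : Filter (Finset k)) ≤ Filter.atTop := Ultrafilter.of_le _
  have hmem : ∀ a : k, ∀ᶠ S in (U : Filter (Finset k)), a ∈ S := by
    intro a
    have h1 : ∀ᶠ S : Finset k in Filter.atTop, {a} ≤ S := Filter.eventually_ge_atTop _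
    exact (h1.filter_mono hUle).mono (fun S hS => hS (Finset.mem_singleton_self a))
  by_cases hbd : ∃ R : ℝ, ∀ᶠ S in (U : Filter (Finset k)), ‖z S‖ ≤ R
  · left
    obtain ⟨R, hR⟩ := hbd
    have hcomp := isCompact_closedBall (0 : k) R
    obtain ⟨z0, -, hz0⟩ := hcomp.ultrafilter_le_nhds (U.map z) (by
      rw [Filter.le_principal_iff]
      exact hR.mono (fun S hS => by simpa using hS))
    refine ⟨z0, ?_⟩
    intro a ha
    have hd : z0 - a ≠ 0 := sub_ne_zero.2 (Ne.symm ha)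
    have hdn : 0 < ‖z0 - a‖ := norm_pos_iff.2 hd
    have h1 : ∀ᶠ y in 𝓝 z0, ‖y - z0‖ < ‖z0 - a‖ * D.ε := by
      have := Metric.ball_mem_nhds z0 (mul_pos hdn D.ε_pos)
      filter_upwards [this] with y hy
      rwa [Metric.mem_ball, dist_eq_norm] at hy
    have h2 : ∀ᶠ S in (U : Filter (Finset k)), ‖z S - z0‖ < ‖z0 - a‖ * D.ε := hz0 h1
    obtain ⟨S, hS1, hS2⟩ := (h2.and (hmem a)).exists
    have h3 := (hz S a hS2).2
    have h4 := (D.near (z0 - a) (z S - z0) hd hS1.le).2
    have e1 : z0 - a + (z S - z0) = z S - a := by ring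
    rw [h3, ← h4, e1]
  · right
    push Not at hbd
    intro a b
    have h1 := hbd (max ‖a‖ ‖b‖ / D.ε)
    obtain ⟨S, hS1, hS2, hS3⟩ := (h1.and ((hmem a).and (hmem b))).exists
    have key : ∀ c : k, c ∈ S → ‖c‖ ≤ max ‖a‖ ‖b‖ → D.χ (f - algebraMap k E c) = clsm p (z S) := by
      intro c hc hcn
      rw [(hz S c hc).2]
      have h2 : ‖-c‖ ≤ ‖z S‖ * D.ε := by
        rw [norm_neg]
        rw [div_lt_iff₀ D.ε_pos] at hS1
        exact hcn.trans hS1.le
      have h3 : z S ≠ 0 := by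
        intro h0
        rw [h0, norm_zero] at hS1
        exact absurd hS1 (not_lt.2 (div_nonneg (le_max_of_le_left (norm_nonneg _)) D.ε_pos.le))
      have h4 := (D.near (z S) (-c) h3 h2).2
      rw [← h4, sub_eq_add_neg]
    rw [key a hS2 (le_max_left _ _), key b hS3 (le_max_right _ _)]

end ChiData

end

end P025H641
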