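import Vale.Agent.P025.H641.ZMap

/-! # The place attached to a class map -/

namespace P025H641

universe u v w

open Filter Topology

variable {p : ℕ} [Fact p.Prime] {k : Type u} [NontriviallyNormedField k]
  {E : Type v} [Field E] [Algebra k E]

lemma sub_ne_const {k : Type u} {E : Type v} [Field k] [Field E] [Algebra k E] {f : E}
    (hf : f ∉ Set.range (algebraMap k E)) (a : k) : f - algebraMap k E a ≠ 0 :=
  fun h => hf ⟨a, (sub_eq_zero.1 h).symm⟩

omit [Fact p.Prime] in
lemma clsm_one {k : Type u} [Field k] : clsm p (1 : k) = 0 := by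
  have h := clsm_mul (p := p) (1 : k) 1 one_ne_zero one_ne_zero
  rw [mul_one] at h
  exact left_eq_add.1 h

omit [Fact p.Prime] in
lemma clsm_neg {k : Type u} [Field k] (x : k) (hx : x ≠ 0) :
    clsm p (-x) = clsm p (-1) + clsm p x := by
  rw [← clsm_mul _ _ (neg_ne_zero.2 one_ne_zero) hx, neg_one_mul]

omit [Fact p.Prime] in
lemma clsm_neg_one_add {k : Type u} [Field k] : clsm p (-1 : k) + clsm p (-1) = 0 := by
  rw [← clsm_mul _ _ (neg_ne_zero.2 one_ne_zero) (neg_ne_zero.2 one_ne_zero), neg_mul_neg,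
    mul_one, clsm_one]

namespace ChiData

variable (D : ChiData p k E)

lemma at_add_const {f : E} {z : k} (h : D.At f z) (c : k) :
    D.At (f + algebraMap k E c) (z + c) := by
  intro a ha
  have h1 := h (a - c) (fun h0 => ha (by rw [← h0]; ring))
  have e1 : f + algebraMap k E c - algebraMap k E a = f - algebraMap k E (a - c) := by
    rw [map_sub]; ring
  rw [e1, h1]
  congr 1
  ring

lemma at_sub_const {f : E} {z : k} (h : D.At f z) (c : k) :
    D.At (f - algebraMap k E c) (z - c) := by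
  have h1 := D.at_add_const h (-c)
  rwa [map_neg, ← sub_eq_add_neg, ← sub_eq_add_neg] at h1

lemma chi_neg_one : D.χ (-1) = clsm p (-1) := by
  have h := D.const (-1) (neg_ne_zero.2 one_ne_zero)
  rwa [map_neg, map_one] at h

lemma chi_neg (f : E) (hf : f ≠ 0) : D.χ (-f) = clsm p (-1) + D.χ f := by
  rw [← D.chi_neg_one, ← D.mul _ _ (neg_ne_zero.2 one_ne_zero) hf, neg_one_mul]

lemma chi_one : D.χ 1 = 0 := by
  have h := D.const 1 one_ne_zero
  rwa [map_one, clsm_one] at h

lemma chi_div (f g : E) (hf : f ≠ 0) (hg : g ≠ 0) : D.χ (f / g) = D.χ f - D.χ g := by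
  have h := D.mul (f / g) g (div_ne_zero hf hg) hg
  rw [div_mul_cancel₀ _ hg] at h
  rw [h, add_sub_cancel_right]

/-- the Steinberg relation -/
lemma steinberg (q : E) (h0 : q ≠ 0) (h1 : q ≠ 1) : D.H (D.χ q) (D.χ (1 - q)) = 0 := by
  classical
  by_cases hq : q ∈ Set.range (algebraMap k E)
  · obtain ⟨c, rfl⟩ := hq
    have hc0 : c ≠ 0 := by rintro rfl; exact h0 (map_zero _)
    have hc1 : c ≠ 1 := by rintro rfl; exact h1 (map_one _)
    have e1 : 1 - algebraMap k E c = algebraMap k E (1 - c) := by rw [map_sub, map_one]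
    rw [e1, D.const c hc0, D.const _ (sub_ne_zero.2 hc1.symm)]
    exact D.H_st c hc0 hc1
  · obtain ⟨z, hz⟩ := D.pat q hq {0, 1}
    obtain ⟨hz0, h2⟩ := hz 0 (by simp)
    obtain ⟨hz1, h3⟩ := hz 1 (by simp)
    rw [map_zero, sub_zero, sub_zero] at h2
    rw [map_one] at h3
    have e1 : 1 - q = -(q - 1) := by ring
    rw [e1, D.chi_neg _ (sub_ne_zero.2 h1), h2, h3, ← clsm_neg _ (sub_ne_zero.2 hz1), neg_sub]
    exact D.H_st z hz0 hz1

lemma small_or {h : E} (_ : h ∉ Set.range (algebraMap k E)) (hor : (∃ z, D.At h z) ∨ D.Inf h) :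
    D.At h 0 ∨ ∃ (γ : Cl p k) (ρ : ℝ), 0 < ρ ∧ ∀ c : k, ‖c‖ < ρ →
      D.χ (h - algebraMap k E c) = γ := by
  rcases hor with ⟨w, hw⟩ | hinf
  · by_cases hw0 : w = 0
    · left; rwa [hw0] at hw
    right
    have hwn : 0 < ‖w‖ := norm_pos_iff.2 hw0
    refine ⟨clsm p w, ‖w‖ * D.ε, mul_pos hwn D.ε_pos, fun c hc => ?_⟩
    have h1 : ‖-c‖ ≤ ‖w‖ * D.ε := by rw [norm_neg]; exact hc.le
    obtain ⟨h2, h3⟩ := D.near w (-c) hw0 h1
    rw [hw c (fun h0 => h2 (by rw [h0]; ring)), ← h3, sub_eq_add_neg]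
  · right
    exact ⟨D.χ (h - algebraMap k E 0), 1, one_pos, fun c _ => hinf c 0⟩


/-- additivity, the main case -/
lemma add_main {f g : E} (hf : f ∉ Set.range (algebraMap k E))
    (hg : g ∉ Set.range (algebraMap k E)) (hh : f + g ∉ Set.range (algebraMap k E))
    (hor : (∃ z, D.At (f + g) z) ∨ D.Inf (f + g)) (h1 : D.At f 0) (h2 : D.At g 0) :
    D.At (f + g) 0 := by
  rcases D.small_or hh hor with h | ⟨γ, ρ, hρ, hγ⟩
  · exact h
  exfalso
  obtain ⟨u, v, huv⟩ := D.H_ne
  apply huv
  obtain ⟨a, ha0, ha, hau⟩ := clsm_small (u + γ - clsm p (-1)) (ρ / 2) (half_pos hρ)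
  obtain ⟨b, hb0, hb, hbv⟩ := clsm_small (v + γ - clsm p (-1)) (ρ / 2) (half_pos hρ)
  have hfa := sub_ne_const hf a
  have hgb := sub_ne_const hg b
  have hhab := sub_ne_const hh (a + b)
  have e0 : f - algebraMap k E a + (g - algebraMap k E b) = f + g - algebraMap k E (a + b) := by
    rw [map_add]; ring
  have hq := D.steinberg ((f - algebraMap k E a) / (f + g - algebraMap k E (a + b)))
    (div_ne_zero hfa hhab) (by
      rw [Ne, div_eq_one_iff_eq hhab, ← e0, left_eq_add]
      exact hgb)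
  have e1 : 1 - (f - algebraMap k E a) / (f + g - algebraMap k E (a + b)) =
      (g - algebraMap k E b) / (f + g - algebraMap k E (a + b)) := by
    rw [eq_div_iff hhab, sub_mul, div_mul_cancel₀ _ hhab, ← e0]; ring
  have hab : ‖a + b‖ < ρ := lt_of_le_of_lt (norm_add_le _ _) (by linarith)
  rw [e1, D.chi_div _ _ hfa hhab, D.chi_div _ _ hgb hhab, hγ _ hab, h1 a ha0, h2 b hb0,
    zero_sub, zero_sub, clsm_neg _ ha0, clsm_neg _ hb0, hau, hbv] at hq
  have e2 : clsm p (-1) + (u + γ - clsm p (-1)) - γ = u := by abel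
  have e3 : clsm p (-1) + (v + γ - clsm p (-1)) - γ = v := by abel
  rwa [e2, e3] at hq

/-- multiplicativity, the main case -/
lemma mul_main {f g : E} (hf : f ∉ Set.range (algebraMap k E))
    (hg : g ∉ Set.range (algebraMap k E)) (hh : f * g ∉ Set.range (algebraMap k E))
    (hor : (∃ z, D.At (f * g) z) ∨ D.Inf (f * g)) (h1 : D.At f 0) (h2 : D.At g 0) :
    D.At (f * g) 0 := by
  rcases D.small_or hh hor with h | ⟨γ, ρ, hρ, hγ⟩
  · exact h
  exfalso
  obtain ⟨u, v, huv⟩ := D.H_ne
  apply huv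
  obtain ⟨b, hb0, hb, hbu⟩ := clsm_small (D.χ g - u - clsm p (-1)) (min 1 ρ) (lt_min one_pos hρ)
  obtain ⟨a, ha0, ha, hav⟩ := clsm_small (γ - clsm p (-b) - v) (min 1 ρ) (lt_min one_pos hρ)
  have hfa := sub_ne_const hf a
  have hgb := sub_ne_const hg b
  have hhab := sub_ne_const hh (a * b)
  have hg0 : g ≠ 0 := by
    rintro rfl
    exact hg ⟨0, map_zero _⟩
  have haE : algebraMap k E a ≠ 0 := (map_ne_zero _).2 ha0
  have hden : algebraMap k E a * (g - algebraMap k E b) ≠ 0 := mul_ne_zero haE hgb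
  have hnum : -(f - algebraMap k E a) * g ≠ 0 := mul_ne_zero (neg_ne_zero.2 hfa) hg0
  have e0 : algebraMap k E a * (g - algebraMap k E b) - -(f - algebraMap k E a) * g =
      f * g - algebraMap k E (a * b) := by
    rw [map_mul]; ring
  have hq := D.steinberg (-(f - algebraMap k E a) * g / (algebraMap k E a * (g - algebraMap k E b)))
    (div_ne_zero hnum hden) (by
      rw [Ne, div_eq_one_iff_eq hden]
      intro h
      rw [h, sub_self] at e0
      exact hhab e0.symm)
  have e1 : 1 - -(f - algebraMap k E a) * g / (algebraMap k E a * (g - algebraMap k E b)) =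
      (f * g - algebraMap k E (a * b)) / (algebraMap k E a * (g - algebraMap k E b)) := by
    rw [eq_div_iff hden, sub_mul, div_mul_cancel₀ _ hden, one_mul, e0]
  have hab : ‖a * b‖ < ρ := by
    rw [norm_mul]
    have h3 : ‖a‖ < 1 := ha.trans_le (min_le_left _ _)
    have h4 : ‖b‖ < ρ := hb.trans_le (min_le_right _ _)
    nlinarith [norm_nonneg a, norm_nonneg b]
  rw [e1, D.chi_div _ _ hnum hden, D.chi_div _ _ hhab hden, hγ _ hab,
    D.mul _ _ (neg_ne_zero.2 hfa) hg0, D.chi_neg _ hfa, D.mul _ _ haE hgb, D.const a ha0,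
    h1 a ha0, h2 b hb0, zero_sub, zero_sub, clsm_neg a ha0, hav, clsm_neg b hb0, hbu] at hq
  have hn := clsm_neg_one_add (p := p) (k := k)
  have e2 : clsm p (-1) + (clsm p (-1) + (γ - (clsm p (-1) + (D.χ g - u - clsm p (-1))) - v)) +
      D.χ g - (γ - (clsm p (-1) + (D.χ g - u - clsm p (-1))) - v +
        (clsm p (-1) + (D.χ g - u - clsm p (-1)))) = u := by
    rw [← add_assoc (clsm p (-1)) (clsm p (-1)), hn]
    abel
  have e3 : γ - (γ - (clsm p (-1) + (D.χ g - u - clsm p (-1))) - v +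
        (clsm p (-1) + (D.χ g - u - clsm p (-1)))) = v := by
    abel
  rwa [e2, e3] at hq

lemma eq_zero_of_const {f : E} (hf : f ∈ Set.range (algebraMap k E)) (h : D.At f 0) : f = 0 := by
  obtain ⟨c, rfl⟩ := hf
  rw [D.at_unique (D.at_const c) h, map_zero]

lemma at_zero : D.At 0 0 := by
  have h := D.at_const 0
  rwa [map_zero] at h

variable [ProperSpace k]

omit [ProperSpace k] in
lemma at_mul_const {f : E} {z : k} (h : D.At f z) (c : k) :
    D.At (algebraMap k E c * f) (c * z) := by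
  by_cases hc : c = 0
  · rw [hc, map_zero, zero_mul, zero_mul]
    exact D.at_zero
  intro a ha
  have hac : a / c ≠ z := by
    rintro rfl
    exact ha (by rw [mul_div_cancel₀ _ hc])
  have h1 := h _ hac
  have hne : f - algebraMap k E (a / c) ≠ 0 := by
    intro h0
    rw [sub_eq_zero] at h0
    rw [h0] at h
    exact hac (D.at_unique (D.at_const _) h)
  have hcE : algebraMap k E c ≠ 0 := (map_ne_zero _).2 hc
  have e1 : algebraMap k E c * f - algebraMap k E a =
      algebraMap k E c * (f - algebraMap k E (a / c)) := by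
    rw [map_div₀]
    field_simp
  rw [e1, D.mul _ _ hcE hne, D.const c hc, h1, ← clsm_mul _ _ hc (sub_ne_zero.2 (Ne.symm hac))]
  congr 1
  field_simp

omit [ProperSpace k] in
lemma at_neg {f : E} {z : k} (h : D.At f z) : D.At (-f) (-z) := by
  have h1 := D.at_mul_const h (-1)
  rwa [map_neg, map_one, neg_one_mul, neg_one_mul] at h1

lemma at_add_zero {f g : E} (h1 : D.At f 0) (h2 : D.At g 0) : D.At (f + g) 0 := by
  by_cases hf : f ∈ Set.range (algebraMap k E)
  · rwa [D.eq_zero_of_const hf h1, zero_add]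
  by_cases hg : g ∈ Set.range (algebraMap k E)
  · rwa [D.eq_zero_of_const hg h2, add_zero]
  by_cases hh : f + g ∈ Set.range (algebraMap k E)
  · obtain ⟨c, hc⟩ := hh
    have h3 := D.at_add_const (D.at_neg h1) c
    have e1 : -f + algebraMap k E c = g := by rw [hc]; ring
    rw [e1] at h3
    have h4 := D.at_unique h3 h2
    rw [neg_zero, zero_add] at h4
    rw [← hc, h4, map_zero]
    exact D.at_zero
  exact D.add_main hf hg hh (D.at_or_inf _) h1 h2

lemma at_add {f g : E} {z w : k} (h1 : D.At f z) (h2 : D.At g w) : D.At (f + g) (z + w) := by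
  have h3 := D.at_sub_const h1 z
  have h4 := D.at_sub_const h2 w
  rw [sub_self] at h3 h4
  have h5 := D.at_add_const (D.at_add_zero h3 h4) (z + w)
  rw [zero_add] at h5
  have e1 : f - algebraMap k E z + (g - algebraMap k E w) + algebraMap k E (z + w) = f + g := by
    rw [map_add]; ring
  rwa [e1] at h5

lemma at_mul_zero {f g : E} (h1 : D.At f 0) (h2 : D.At g 0) : D.At (f * g) 0 := by
  by_cases hf : f ∈ Set.range (algebraMap k E)
  · rw [D.eq_zero_of_const hf h1, zero_mul]
    exact D.at_zero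
  by_cases hg : g ∈ Set.range (algebraMap k E)
  · rw [D.eq_zero_of_const hg h2, mul_zero]
    exact D.at_zero
  by_cases hh : f * g ∈ Set.range (algebraMap k E)
  · obtain ⟨c, hc⟩ := hh
    exfalso
    have hf0 : f ≠ 0 := by rintro rfl; exact hf ⟨0, map_zero _⟩
    have hg0 : g ≠ 0 := by rintro rfl; exact hg ⟨0, map_zero _⟩
    have hc0 : c ≠ 0 := by
      rintro rfl
      rw [map_zero] at hc
      exact mul_ne_zero hf0 hg0 hc.symm
    -- all classes are equal
    have key : ∀ v : Cl p k, v = clsm p (-1) + (clsm p c - D.χ f) := by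
      intro v
      obtain ⟨a, ha0, -, hav⟩ := clsm_small v 1 one_pos
      have h3 := h2 a ha0
      have hcE : algebraMap k E c ≠ 0 := (map_ne_zero _).2 hc0
      have haE : algebraMap k E a ≠ 0 := (map_ne_zero _).2 ha0
      have hne := sub_ne_const hf (c / a)
      have e1 : g - algebraMap k E a =
          -(algebraMap k E a) * (f - algebraMap k E (c / a)) / f := by
        rw [eq_div_iff hf0, map_div₀, hc]
        field_simp
        ring
      rw [e1, D.chi_div _ _ (mul_ne_zero (neg_ne_zero.2 haE) hne) hf0,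
        D.mul _ _ (neg_ne_zero.2 haE) hne, h1 _ (div_ne_zero hc0 ha0), zero_sub,
        zero_sub, D.chi_neg _ haE, D.const a ha0, clsm_neg _ (div_ne_zero hc0 ha0),
        clsm_div _ _ hc0 ha0, clsm_neg _ ha0, hav] at h3
      have h4 : clsm p (-1 : k) + v + (clsm p (-1) + (clsm p c - v)) - D.χ f =
          clsm p (-1) + clsm p (-1) + (clsm p c - D.χ f) := by abel
      rw [h4, clsm_neg_one_add, zero_add] at h3
      rw [h3, ← add_assoc, clsm_neg_one_add, zero_add]
    obtain ⟨v, hv⟩ := D.exists_ne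
    exact hv ((key v).trans (key 0).symm)
  exact D.mul_main hf hg hh (D.at_or_inf _) h1 h2

lemma at_mul {f g : E} {z w : k} (h1 : D.At f z) (h2 : D.At g w) : D.At (f * g) (z * w) := by
  have h3 := D.at_sub_const h1 z
  have h4 := D.at_sub_const h2 w
  rw [sub_self] at h3 h4
  have h5 := D.at_mul_zero h3 h4
  have h6 := D.at_mul_const h2 z
  have h7 := D.at_mul_const h3 w
  have h8 := D.at_add (D.at_add h5 h6) h7
  have e1 : (f - algebraMap k E z) * (g - algebraMap k E w) + algebraMap k E z * g +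
      algebraMap k E w * (f - algebraMap k E z) = f * g := by ring
  rw [e1, mul_zero, zero_add, add_zero] at h8
  exact h8

omit [ProperSpace k] in
lemma at_inv_of_inf {f : E} (h : D.Inf f) : D.At f⁻¹ 0 := by
  have hf : f ∉ Set.range (algebraMap k E) := by
    rintro ⟨c, rfl⟩
    exact D.not_inf_of_at (D.at_const c) h
  have hf0 : f ≠ 0 := by rintro rfl; exact hf ⟨0, map_zero _⟩
  intro a ha
  have haE : algebraMap k E a ≠ 0 := (map_ne_zero _).2 ha
  have hne := sub_ne_const hf a⁻¹
  have e1 : f⁻¹ - algebraMap k E a = -(algebraMap k E a) * (f - algebraMap k E a⁻¹) / f := by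
    rw [eq_div_iff hf0, map_inv₀]
    field_simp
    ring
  have h1 := h a⁻¹ 0
  rw [map_zero, sub_zero] at h1
  rw [e1, D.chi_div _ _ (mul_ne_zero (neg_ne_zero.2 haE) hne) hf0,
    D.mul _ _ (neg_ne_zero.2 haE) hne, h1, D.chi_neg _ haE, D.const a ha, zero_sub,
    clsm_neg _ ha, add_sub_cancel_right]

/-- the valuation ring -/
def vring : ValuationSubring E where
  carrier := {f | ∃ z, D.At f z}
  mul_mem' := fun ⟨z, hz⟩ ⟨w, hw⟩ => ⟨z * w, D.at_mul hz hw⟩
  one_mem' := ⟨1, by have h := D.at_const 1; rwa [map_one] at h⟩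
  add_mem' := fun ⟨z, hz⟩ ⟨w, hw⟩ => ⟨z + w, D.at_add hz hw⟩
  zero_mem' := ⟨0, D.at_zero⟩
  neg_mem' := fun ⟨z, hz⟩ => ⟨-z, D.at_neg hz⟩
  mem_or_inv_mem' := fun f => by
    rcases D.at_or_inf f with h | h
    · exact Or.inl h
    · exact Or.inr ⟨0, D.at_inv_of_inf h⟩

lemma mem_vring (f : E) : f ∈ D.vring ↔ ∃ z, D.At f z := Iff.rfl

lemma val_lt_of_at {f : E} {z : k} (h : D.At f z) :
    D.vring.valuation (f - algebraMap k E z) < 1 := by
  have h1 := D.at_sub_const h z
  rw [sub_self] at h1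
  by_cases h0 : f - algebraMap k E z = 0
  · rw [h0, map_zero]
    exact zero_lt_one
  by_contra hcon
  push Not at hcon
  have h2 : (f - algebraMap k E z)⁻¹ ∈ D.vring := by
    rw [← ValuationSubring.valuation_le_one_iff, map_inv₀]
    exact inv_le_one_of_one_le₀ hcon
  obtain ⟨w, hw⟩ := (D.mem_vring _).1 h2
  have h3 := D.at_mul h1 hw
  rw [mul_inv_cancel₀ h0, zero_mul] at h3
  have h4 := D.at_const 1
  rw [map_one] at h4
  exact zero_ne_one (D.at_unique h3 h4)

lemma at_iff (f : E) (z : k) :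
    D.At f z ↔ D.vring.valuation (f - algebraMap k E z) < 1 := by
  refine ⟨D.val_lt_of_at, fun h => ?_⟩
  obtain ⟨w, hw⟩ := (D.mem_vring _).1 ((D.vring.valuation_le_one_iff _).1 h.le)
  have h1 := D.val_lt_of_at hw
  have h2 : D.vring.valuation (algebraMap k E w) < 1 := by
    have e1 : algebraMap k E w = (f - algebraMap k E z) -
        (f - algebraMap k E z - algebraMap k E w) := by ring
    rw [e1]
    exact (Valuation.map_sub _ _ _).trans_lt (max_lt h h1)
  by_cases hw0 : w = 0
  · rw [hw0] at hw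
    have h3 := D.at_add_const hw z
    rwa [sub_add_cancel, zero_add] at h3
  exfalso
  have h3 : algebraMap k E w⁻¹ ∈ D.vring := ⟨_, D.at_const _⟩
  rw [← ValuationSubring.valuation_le_one_iff] at h3
  have h4 : D.vring.valuation (algebraMap k E w) * D.vring.valuation (algebraMap k E w⁻¹) = 1 := by
    rw [← map_mul, ← map_mul, mul_inv_cancel₀ hw0, map_one, map_one]
  exact absurd h4 (mul_lt_one_of_lt_of_le h2 h3).ne

end ChiData

end P025H641
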